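import Vale.Agent.P164.Stm

/-! The law of a Brownian motion on path space. -/

open Set MeasureTheory ProbabilityTheory Metric
open scoped ENNReal NNReal

namespace Vale.Agent.P164

universe u

/-- A measurable reconstruction of a path from its values at rational times. -/
theorem wien_rec : ∃ r : (ℚ → ℝ) → Pth, Measurable r ∧ ∀ W : Pth, r (fun q => W q) = W := by
  let e : Pth → ℚ → ℝ := fun W q => W q
  have hc : Continuous e := continuous_pi fun q => ContinuousEvalConst.continuous_eval_const _
  have hi : Function.Injective e := by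
    intro V W hVW
    ext t
    have : (V : ℝ → ℝ) = W :=
      Rat.denseRange_cast.equalizer V.continuous W.continuous (funext fun q => congrFun hVW q)
    exact congrFun this t
  have hm : MeasurableEmbedding e := hc.measurableEmbedding hi
  exact ⟨hm.invFun, hm.measurable_invFun, hm.leftInverse_invFun⟩

section
variable {Ω : Type*} [MeasurableSpace Ω] {P : Measure Ω} {B B' : ℝ≥0 → Ω → ℝ}

theorem wien_aem (hB : ∀ t, AEMeasurable (B t) P) :
    AEMeasurable (fun ω (q : ℚ) => B (q : ℝ).toNNReal ω) P :=
  aemeasurable_pi_lambda _ fun _ => hB _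

/-- The law of the values at rational times. -/
theorem wien_law (hB : IsPreBrownianReal B P) (hB' : IsPreBrownianReal B' P) :
    P.map (fun ω (q : ℚ) => B (q : ℝ).toNNReal ω) =
      P.map (fun ω (q : ℚ) => B' (q : ℝ).toNNReal ω) := by
  classical
  have := hB.isGaussianProcess.isProbabilityMeasure
  refine (map_eq_iff_forall_finset_map_restrict_eq (X := fun (q : ℚ) => B (q : ℝ).toNNReal)
    (Y := fun (q : ℚ) => B' (q : ℝ).toNNReal) (wien_aem hB.aemeasurable)
    (wien_aem hB'.aemeasurable)).2 fun J => ?_
  let I : Finset ℝ≥0 := J.image fun q : ℚ => (q : ℝ).toNNReal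
  let φ : (I → ℝ) → J → ℝ := fun x j => x ⟨(j.1 : ℝ).toNNReal, Finset.mem_image_of_mem _ j.2⟩
  have hφ : Measurable φ := measurable_pi_lambda _ fun _ => measurable_pi_apply _
  have h1 := AEMeasurable.map_map_of_aemeasurable hφ.aemeasurable (hB.hasLaw I).aemeasurable
  have h2 := AEMeasurable.map_map_of_aemeasurable hφ.aemeasurable (hB'.hasLaw I).aemeasurable
  rw [(hB.hasLaw I).map_eq] at h1
  rw [(hB'.hasLaw I).map_eq] at h2
  exact h1.symm.trans h2

end

theorem wien : WienStmt.{u} := by
  intro κ hκ Ω _ P B hB
  have := hB.isGaussianProcess.isProbabilityMeasure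
  obtain ⟨r, hr, hrW⟩ := wien_rec
  let g : (ℚ → ℝ) → Pth := fun x => r fun q => √κ * x q
  have hg : Measurable g :=
    hr.comp (measurable_pi_lambda _ fun q => (measurable_pi_apply q).const_mul _)
  let F : (ℝ≥0 → ℝ) → Pth := fun f => g fun q => f (q : ℝ).toNNReal
  have hF : Measurable F := hg.comp (measurable_pi_lambda _ fun q => measurable_pi_apply _)
  have hFc : ∀ f : ℝ≥0 → ℝ, Continuous f → ∀ t, F f t = √κ * f t.toNNReal := by
    intro f hf t
    have h1 := hrW ⟨fun t => √κ * f t.toNNReal,
      continuous_const.mul (hf.comp continuous_real_toNNReal)⟩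
    exact DFunLike.congr_fun h1 t
  have hm : ∀ C : ℝ≥0 → Ω → ℝ, (∀ t, AEMeasurable (C t) P) →
      AEMeasurable (fun ω => F (C · ω)) P := fun C hC => hg.comp_aemeasurable (wien_aem hC)
  have hX := hm B hB.aemeasurable
  refine ⟨P.map fun ω => F (B · ω), ⟨Measure.isProbabilityMeasure_map hX, fun t ht => ?_,
    fun s hs => ?_⟩, fun p hp => ?_⟩
  · have h1 : Measurable fun W : Pth => W t - W 0 := (measurable_ev t).sub (measurable_ev 0)
    have h2 : Measurable fun x : ℝ => √κ * x := measurable_id.const_mul _
    have h3 : ((fun W : Pth => W t - W 0) ∘ fun ω => F (B · ω)) =ᵐ[P]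
        (fun x : ℝ => √κ * x) ∘ B t.toNNReal := by
      filter_upwards [hB.cont, hB.eval_zero_ae_eq_zero] with ω h4 h5
      simp only [Function.comp_apply, hFc _ h4, Real.toNNReal_zero, h5, mul_zero, sub_zero]
    rw [AEMeasurable.map_map_of_aemeasurable h1.aemeasurable hX, Measure.map_congr h3,
      ← AEMeasurable.map_map_of_aemeasurable h2.aemeasurable (hB.aemeasurable _),
      (hB.hasLaw_eval _).map_eq, gaussianReal_map_const_mul, mul_zero]
    congr 1
    ext
    simp [Real.sq_sqrt hκ.le, max_eq_left ht, max_eq_left (mul_nonneg hκ.le ht)]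
  · have hB' := hB.shift s.toNNReal
    have hX' := hm _ hB'.aemeasurable
    have hlaw : (P.map fun ω => F fun t => B (s.toNNReal + t) ω - B s.toNNReal ω) =
        P.map fun ω => F (B · ω) := by
      have h1 := AEMeasurable.map_map_of_aemeasurable hg.aemeasurable (wien_aem hB'.aemeasurable)
      have h2 := AEMeasurable.map_map_of_aemeasurable hg.aemeasurable (wien_aem hB.aemeasurable)
      rw [wien_law hB'.toIsPreBrownianReal hB.toIsPreBrownianReal] at h1
      exact h1.symm.trans h2
    let G : (Iic s.toNNReal → ℝ) → Pth := fun x =>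
      F fun t => x ⟨min t s.toNNReal, mem_Iic.2 (min_le_right _ _)⟩
    have hG0 : Measurable fun (x : Iic s.toNNReal → ℝ) (t : ℝ≥0) =>
        x ⟨min t s.toNNReal, mem_Iic.2 (min_le_right _ _)⟩ :=
      measurable_pi_lambda _ fun _ => measurable_pi_apply _
    have hG : Measurable G := hF.comp hG0
    have hst : Measurable fun V : Pth => cat s V 0 :=
      (measurable_cat s).comp (measurable_id.prodMk measurable_const)
    have hU : (G ∘ fun ω (t : Iic s.toNNReal) => B t ω) =ᵐ[P]
        (fun V : Pth => cat s V 0) ∘ fun ω => F (B · ω) := by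
      filter_upwards [hB.cont] with ω h4
      ext t
      have h5 : Continuous fun u : ℝ≥0 => B (min u s.toNNReal) ω :=
        h4.comp (continuous_id.min continuous_const)
      refine (hFc _ h5 t).trans ?_
      simp only [Function.comp_apply, cat_apply, hFc _ h4, Real.toNNReal_monotone.map_min,
        ContinuousMap.zero_apply, sub_self, add_zero]
    have hind := ((hB.indepFun_shift s.toNNReal).comp hF hG).symm.congr hU
      (Filter.EventuallyEq.refl _ _)
    have hA := hst.comp_aemeasurable hX
    have h6 := hind.map_prod_eq_prod_map_map hA hX'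
    have h7 : (fun p : Pth × Pth => cat s p.1 p.2) =
        (fun p : Pth × Pth => cat s p.1 p.2) ∘ Prod.map (fun V : Pth => cat s V 0) id := by
      funext p
      ext t
      simp only [Function.comp_apply, Prod.map_fst, Prod.map_snd, id, cat_apply s (cat s p.1 0),
        cat_of_le p.1 0 (min_le_right t s), cat_apply s p.1]
    have h8 : (P.map ((fun V : Pth => cat s V 0) ∘ fun ω => F (B · ω))) =
        (P.map fun ω => F (B · ω)).map fun V : Pth => cat s V 0 :=
      (AEMeasurable.map_map_of_aemeasurable hst.aemeasurable hX).symm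
    have h9 : (P.map fun ω => F fun t => B (s.toNNReal + t) ω - B s.toNNReal ω) =
        (P.map fun ω => F (B · ω)).map id := by
      rw [Measure.map_id]
      exact hlaw
    rw [h8, h9, Measure.map_prod_map _ _ hst measurable_id] at h6
    rw [h7, ← Measure.map_map (measurable_cat s) (hst.prodMap measurable_id), ← h6,
      AEMeasurable.map_map_of_aemeasurable (measurable_cat s).aemeasurable (hA.prodMk hX')]
    refine Measure.map_congr ?_
    filter_upwards [hB.cont, hB'.cont] with ω h4 h5
    ext t
    simp only [Function.comp_apply]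
    rcases le_total t s with h | h
    · rw [cat_of_le _ _ h, cat_of_le _ _ h]
    · obtain ⟨v, hv, rfl⟩ : ∃ v, 0 ≤ v ∧ t = s + v := ⟨t - s, by linarith, by ring⟩
      rw [cat_add _ _ hv, cat_of_le _ _ le_rfl, hFc _ h4, hFc _ h4, hFc _ h5, hFc _ h5,
        Real.toNNReal_add hs hv, Real.toNNReal_zero, add_zero]
      ring
  · filter_upwards [ae_of_ae_map hX hp, hB.cont] with ω h1 h2
    exact ⟨_, hFc _ h2, h1⟩

end Vale.Agent.P164
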