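import Vale.Agent.P164.Stm

/-! Tower property and iterated conditioning. -/

open Set MeasureTheory ProbabilityTheory Metric
open scoped ENNReal NNReal

namespace Vale.Agent.P164

theorem cat_meas {κ : ℝ} {μ : Measure Pth} (h : Wie κ μ) (s : ℝ) {F : Pth → ℝ≥0∞}
    (hF : Measurable F) : Measurable fun V => CE μ s V F := by
  have := h.prob
  exact (hF.comp (measurable_cat s)).lintegral_prod_right'

theorem cat_total {κ : ℝ} {μ : Measure Pth} (h : Wie κ μ) {s : ℝ} {F : Pth → ℝ≥0∞} (hs : 0 ≤ s)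
    (hF : Measurable F) : ∫⁻ W, F W ∂μ = ∫⁻ V, CE μ s V F ∂μ := by
  have := h.prob
  conv_lhs => rw [← h.cat s hs]
  rw [lintegral_map hF (measurable_cat s)]
  exact lintegral_prod _ (hF.comp (measurable_cat s)).aemeasurable

theorem cat_tower {κ : ℝ} {μ : Measure Pth} (h : Wie κ μ) {s t : ℝ} (V : Pth) {F : Pth → ℝ≥0∞}
    (hst : s ≤ t) (hF : Measurable F) : CE μ s V F = CE μ s V fun W => CE μ t W F := by
  have h1 := cat_total h (sub_nonneg.2 hst) (hF.comp (measurable_cat_right s V))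
  refine h1.trans (lintegral_congr fun V' => lintegral_congr fun W => ?_)
  simp only [Function.comp]
  rw [cat_cat (sub_nonneg.2 hst), add_sub_cancel]

theorem cat_cp (μ : Measure Pth) (s : ℝ) (V : Pth) {E : Set Pth} (hE : MeasurableSet E) :
    CP μ s V E = CE μ s V (E.indicator 1) :=
  (lintegral_indicator_one (measurable_cat_right s V hE)).symm

theorem cat_total' {κ : ℝ} {μ : Measure Pth} (h : Wie κ μ) {s : ℝ} {E : Set Pth} (hs : 0 ≤ s)
    (hE : MeasurableSet E) : μ E = ∫⁻ V, CP μ s V E ∂μ := by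
  simp only [cat_cp μ s _ hE]
  rw [← cat_total h hs (measurable_one.indicator hE), lintegral_indicator_one hE]

theorem cat_lower {κ : ℝ} {μ : Measure Pth} (h : Wie κ μ) {E : Set Pth} (hE : MeasurableSet E)
    (p : ℝ≥0∞) (N : ℕ) : ∀ (tt : ℕ → ℝ) (A : ℕ → Set Pth), (∀ j, j < N → tt j ≤ tt (j + 1)) →
    (∀ V ∈ A N, ∀ W, cat (tt N) V W ∈ E) →
    (∀ j, j < N → ∀ V ∈ A j, p ≤ CP μ (tt j) V (A (j + 1))) →
    ∀ V ∈ A 0, p ^ N ≤ CP μ (tt 0) V E := by
  have := h.prob
  induction N with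
  | zero =>
    intro tt A _ h2 _ V hV
    rw [pow_zero, CP, eq_univ_of_forall (s := {W | cat (tt 0) V W ∈ E}) (h2 V hV), measure_univ]
  | succ N ih =>
    intro tt A h1 h2 h3 V hV
    have h4 := ih (fun j => tt (j + 1)) (fun j => A (j + 1)) (fun j hj => h1 _ (by omega)) h2
      fun j hj => h3 _ (by omega)
    have hm := measurable_one.indicator (f := (1 : Pth → ℝ≥0∞)) hE
    rw [cat_cp μ _ _ hE, cat_tower h V (h1 0 (by omega)) hm, pow_succ]
    refine le_trans ?_ (mul_meas_ge_le_lintegral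
      ((cat_meas h (tt (0 + 1)) hm).comp (measurable_cat_right (tt 0) V)) (p ^ N))
    refine mul_le_mul_right ((h3 0 (by omega) V hV).trans (measure_mono fun W hW => ?_)) _
    have h5 := h4 _ hW
    rw [cat_cp μ _ _ hE] at h5
    exact h5

theorem cat_chain {tt : ℕ → ℝ} {N : ℕ} (h : ∀ j, j < N → tt j ≤ tt (j + 1)) {i : ℕ}
    (hi : i ≤ N) : tt i ≤ tt N := by
  induction N, hi using Nat.le_induction with
  | base => exact le_rfl
  | succ n hn ih => exact (ih fun j hj => h j (by omega)).trans (h n (by omega))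

theorem cat_upper {κ : ℝ} {μ : Measure Pth} (h : Wie κ μ) (tt : ℕ → ℝ) (G : ℕ → Set Pth)
    (p : ℝ≥0∞) (N : ℕ) (h0 : 0 ≤ tt 0) (h1 : ∀ j, j < N → tt j ≤ tt (j + 1))
    (h2 : ∀ j, j < N → MeasurableSet (G j))
    (h3 : ∀ j, j < N → ∀ V W : Pth, EqOn V W (Icc 0 (tt (j + 1))) → V ∈ G j → W ∈ G j)
    (h4 : ∀ j, j < N → ∀ V, p ≤ CP μ (tt j) V (G j)) :
    μ {W | ∀ j, j < N → W ∉ G j} ≤ (1 - p) ^ N := by
  have := h.prob
  have hm : ∀ n ≤ N, MeasurableSet {W | ∀ j, j < n → W ∉ G j} := fun n hn => by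
    have e : {W | ∀ j, j < n → W ∉ G j} = ⋂ j ∈ {j | j < n}, (G j)ᶜ := by ext W; simp
    rw [e]
    exact MeasurableSet.biInter (to_countable _) fun j hj => (h2 j (lt_of_lt_of_le hj hn)).compl
  induction N with
  | zero => simp
  | succ N ih =>
    have h1' : ∀ j, j < N → tt j ≤ tt (j + 1) := fun j hj => h1 j (by omega)
    have h5 := ih h1' (fun j hj => h2 j (by omega)) (fun j hj => h3 j (by omega))
      (fun j hj => h4 j (by omega)) fun n hn => hm n (by omega)
    rw [cat_total' h (h0.trans (cat_chain h1' (Nat.zero_le N))) (hm _ le_rfl), pow_succ']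
    refine le_trans (lintegral_mono fun V => ?_) ((lintegral_indicator_const (hm N (by omega))
      (1 - p)).le.trans (mul_le_mul_right h5 _))
    by_cases hV : V ∈ {W | ∀ j, j < N → W ∉ G j}
    · rw [indicator_of_mem hV]
      refine le_trans (measure_mono (t := (cat (tt N) V ⁻¹' G N)ᶜ) fun W hW => hW N (by omega)) ?_
      rw [prob_compl_eq_one_sub (measurable_cat_right _ V (h2 N (by omega)))]
      exact tsub_le_tsub_left (h4 N (by omega) V) 1
    · rw [indicator_of_notMem hV, CP, eq_empty_of_forall_notMem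
        (s := {W | cat (tt N) V W ∈ {W | ∀ j, j < N + 1 → W ∉ G j}}), measure_empty]
      intro W hW
      refine hV fun j hj hG => hW j (by omega) (h3 j (by omega) _ _ ?_ hG)
      exact (cat_eqOn _ V W).symm.mono (Icc_subset_Icc_right (cat_chain h1' hj))

theorem catS : CatStmt where
  meas _ _ h s _ hF := cat_meas h s hF
  tower _ _ h _ _ V _ hst hF := cat_tower h V hst hF
  total _ _ h _ _ hs hF := cat_total h hs hF
  cp μ s V _ hE := cat_cp μ s V hE
  total' _ _ h _ _ hs hE := cat_total' h hs hE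
  lower _ _ h _ tt A p N hE := cat_lower h hE p N tt A
  upper _ _ h tt G p N := cat_upper h tt G p N
  supAdd μ N N' h h' := ⟨fun t ht => (h.1 t ht).add (h'.1 t ht), fun s t V hs ht =>
    (lintegral_add_left ((h.1 _ (add_nonneg hs ht)).comp (measurable_cat_right s V)) _).le.trans
      (add_le_add (h.2 s t V hs ht) (h'.2 s t V hs ht))⟩
  supMul μ N c h := ⟨fun t ht => (h.1 t ht).const_mul c, fun s t V hs ht =>
    (lintegral_const_mul c ((h.1 _ (add_nonneg hs ht)).comp (measurable_cat_right s V))).le.trans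
      (mul_le_mul_right (h.2 s t V hs ht) c)⟩
  stay s t x := by
    have e : Stay s t x = ⋂ u ∈ Icc s t, {W : Pth | |W u - W s| ≤ x} := by ext W; simp [Stay]
    rw [e]
    exact (isClosed_biInter fun u _ => isClosed_le (by fun_prop) continuous_const).measurableSet

end Vale.Agent.P164
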