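import Vale.Agent.P164.Stm

/-! The Loewner map is injective and holomorphic. -/

open Set MeasureTheory ProbabilityTheory Metric Filter Topology
open scoped ENNReal NNReal

namespace Vale.Agent.P164

namespace ConfA

/-- The linear equation `f' = - h f`. -/
theorem ode {f h : ℝ → ℂ} {t : ℝ} (ht : 0 ≤ t) (hf : ContinuousOn f (Icc 0 t))
    (hh : ContinuousOn h (Icc 0 t)) (hd : ∀ u ∈ Ioo 0 t, HasDerivAt f (-h u * f u) u) :
    f t = f 0 * Complex.exp (-∫ u in (0 : ℝ)..t, h u) := by
  set k : ℝ → ℂ := fun u => h (projIcc 0 t ht u) with hk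
  have ck : Continuous k := hh.comp_continuous
    (continuous_subtype_val.comp continuous_projIcc) fun u => (projIcc 0 t ht u).2
  have ek : ∀ u ∈ Icc 0 t, k u = h u := fun u hu => by simp only [hk, projIcc_of_mem ht hu]
  have dk : ∀ u, HasDerivAt (fun u => Complex.exp (∫ s in (0 : ℝ)..u, k s))
      (Complex.exp (∫ s in (0 : ℝ)..u, k s) * k u) u := fun u =>
    (ck.integral_hasStrictDerivAt 0 u).hasDerivAt.cexp
  have h1 := intervalIntegral.integral_eq_sub_of_hasDerivAt_of_le
    (f := fun u => f u * Complex.exp (∫ s in (0 : ℝ)..u, k s)) (f' := fun _ => 0) ht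
    (hf.mul fun u _ => (dk u).continuousAt.continuousWithinAt) (fun u hu => by
      refine ((hd u hu).fun_mul (dk u)).congr_deriv ?_
      rw [ek u (Ioo_subset_Icc_self hu)]
      ring) intervalIntegrable_const
  rw [intervalIntegral.integral_congr (f := k) (g := h) fun u hu => ek u (uIcc_of_le ht ▸ hu)] at h1
  simp only [intervalIntegral.integral_zero, intervalIntegral.integral_same, Complex.exp_zero,
    mul_one] at h1
  rw [Complex.exp_neg, eq_mul_inv_iff_mul_eq₀ (Complex.exp_ne_zero _)]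
  exact (sub_eq_zero.1 h1.symm)

variable {W : Pth} {t : ℝ} {w w' : ℂ}

theorem mem (hA : FlowAStmt) (hw : w ∈ dom W t) {u : ℝ} (hu : u ∈ Icc 0 t) : w ∈ dom W u :=
  hA.dom_anti W u t hu.1 hu.2 hw

theorem Y_pos (hA : FlowAStmt) (hw : w ∈ dom W t) {u : ℝ} (hu : u ∈ Icc 0 t) : 0 < Yf W u w :=
  (hA.alive W u w hu.1).1 (mem hA hw hu)

theorem Y_le (hA : FlowAStmt) (w : ℂ) {u : ℝ} (hu : u ≤ t) : Yf W t w ≤ ‖Zf W u w‖ :=
  (hA.Y_anti W w hu).trans ((le_abs_self _).trans (Yf_le_Rf W u w))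

theorem Z_ne (hA : FlowAStmt) (hw : w ∈ dom W t) {u : ℝ} (hu : u ∈ Icc 0 t) : Zf W u w ≠ 0 :=
  norm_pos_iff.1 ((Y_pos hA hw hu).trans_le (Y_le hA w le_rfl))

theorem cZ (hA : FlowAStmt) (hw : w ∈ dom W t) : ContinuousOn (fun u => Zf W u w) (Icc 0 t) :=
  fun u hu => (hA.cont W u w hu.1 (mem hA hw hu)).1.continuousWithinAt

theorem cQ (hA : FlowAStmt) (hw : w ∈ dom W t) (hw' : w' ∈ dom W t) :
    ContinuousOn (fun u => 2 / (Zf W u w' * Zf W u w)) (Icc 0 t) :=
  continuousOn_const.div ((cZ hA hw').mul (cZ hA hw)) fun _ hu =>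
    mul_ne_zero (Z_ne hA hw' hu) (Z_ne hA hw hu)

theorem diff (hA : FlowAStmt) (ht : 0 ≤ t) (hw : w ∈ dom W t) (hw' : w' ∈ dom W t) :
    Zf W t w' - Zf W t w =
      (w' - w) * Complex.exp (-∫ u in (0 : ℝ)..t, 2 / (Zf W u w' * Zf W u w)) := by
  have h := ode (f := fun u => Zf W u w' - Zf W u w) ht ((cZ hA hw').sub (cZ hA hw))
    (cQ hA hw hw') fun u hu => by
      have hu' := Ioo_subset_Icc_self hu
      have h1 := (hA.der W u w' hu.1 (mem hA hw' hu')).1.fun_sub
        (hA.der W u w hu.1 (mem hA hw hu')).1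
      simp only [add_sub_add_right_eq_sub] at h1
      refine h1.congr_deriv ?_
      have a := Z_ne hA hw hu'
      have b := Z_ne hA hw' hu'
      field_simp
      ring
  rw [h, (hA.init W w hw.1).2.1, (hA.init W w' hw'.1).2.1, sub_sub_sub_cancel_right]

theorem cE (hA : FlowAStmt) (hM : FlowMStmt) (ht : 0 ≤ t) (hw : w ∈ dom W t) :
    ContinuousAt (fun w' => ∫ u in (0 : ℝ)..t, 2 / (Zf W u w' * Zf W u w)) w := by
  have hs : ∀ u ∈ uIoc 0 t, u ∈ Icc 0 t := fun u hu => Ioc_subset_Icc_self (uIoc_of_le ht ▸ hu)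
  have hc : ∀ u ∈ Icc 0 t, ContinuousAt (Zf W u) w := fun u hu =>
    (hM.Z_cont W u hu.1).continuousAt ((hM.dom_open W u hu.1).mem_nhds (mem hA hw hu))
  have hY := Y_pos hA hw ⟨ht, le_rfl⟩
  have h1 : ∀ᶠ w' in 𝓝 w, Yf W t w / 2 < Yf W t w' :=
    (Complex.continuous_im.continuousAt.comp (hc t ⟨ht, le_rfl⟩)).eventually
      (lt_mem_nhds (half_lt_self hY))
  refine intervalIntegral.continuousAt_of_dominated_interval
    (bound := fun _ => 2 / (Yf W t w / 2 * Yf W t w)) ?_ ?_ intervalIntegrable_const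
    (Eventually.of_forall fun u hu => continuousAt_const.div ((hc u (hs u hu)).mul
      continuousAt_const) (mul_ne_zero (Z_ne hA hw (hs u hu)) (Z_ne hA hw (hs u hu))))
  · filter_upwards [(hM.dom_open W t ht).mem_nhds hw] with w' hw'
    exact ((cQ hA hw hw').mono hs).aestronglyMeasurable measurableSet_uIoc
  · filter_upwards [h1] with w' hw'
    refine Eventually.of_forall fun u hu => ?_
    rw [norm_div, norm_mul, Complex.norm_two]
    exact div_le_div_of_nonneg_left zero_le_two (by positivity) (mul_le_mul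
      (hw'.le.trans (Y_le hA w' (hs u hu).2)) (Y_le hA w (hs u hu).2) hY.le (norm_nonneg _))

theorem re_eq (W : Pth) (u : ℝ) (w : ℂ) (h : Zf W u w ≠ 0) :
    (2 / Zf W u w ^ 2).re = (2 - 4 * Sf W u w ^ 2) / Rf W u w ^ 2 := by
  have hR : Rf W u w ≠ 0 := norm_ne_zero_iff.2 h
  have h1 : Complex.normSq (Zf W u w ^ 2) = Rf W u w ^ 4 := by
    rw [Complex.normSq_eq_norm_sq, norm_pow, Rf]
    ring
  have h2 : (Zf W u w ^ 2).re = Rf W u w ^ 2 - 2 * Yf W u w ^ 2 := by
    rw [Rf_sq, sq, Complex.mul_re, Xf, Yf]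
    ring
  rw [Complex.div_re, h1, h2, Sf]
  simp only [Complex.re_ofNat, Complex.im_ofNat, zero_mul, zero_div, add_zero]
  field_simp
  ring

end ConfA

open ConfA in
theorem confA (hA : FlowAStmt) (hM : FlowMStmt) : ConfAStmt where
  inj W t ht w' hw' w hw e := by
    have h := diff hA ht hw hw'
    rw [e, sub_self] at h
    exact sub_eq_zero.1 ((mul_eq_zero.1 h.symm).resolve_right (Complex.exp_ne_zero _))
  der W t w ht hw := by
    rw [hasDerivAt_iff_tendsto_slope]
    have h1 := ((cE hA hM ht hw).neg.cexp).tendsto.mono_left (nhdsWithin_le_nhds (s := {w}ᶜ))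
    simp only [Pi.neg_apply, ← sq] at h1
    rw [gd, max_eq_left ht]
    refine h1.congr' ?_
    filter_upwards [self_mem_nhdsWithin,
      mem_nhdsWithin_of_mem_nhds ((hM.dom_open W t ht).mem_nhds hw)] with w' h2 h3
    rw [slope_def_field, diff hA ht hw h3, mul_div_cancel_left₀ _ (sub_ne_zero.2 h2)]
  norm W t w ht hw := by
    have c1 : ContinuousOn (fun u => 2 / Zf W u w ^ 2) (Icc 0 t) := by
      simpa only [sq] using cQ hA hw hw
    have hU : ∀ u ∈ Icc 0 t, 0 < Up W u w := fun u hu => Up_pos hu.1 (mem hA hw hu)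
    have h := ode (f := fun u => ((Yf W u w / Up W u w : ℝ) : ℂ))
      (h := fun u => (((2 / Zf W u w ^ 2 : ℂ).re : ℝ) : ℂ)) ht
      (Complex.continuous_ofReal.comp_continuousOn ((hA.Y_cont W w).continuousOn.div
        (fun u hu => (hA.cont W u w hu.1 (mem hA hw hu)).2.1.continuousWithinAt)
        fun u hu => (hU u hu).ne'))
      ((Complex.continuous_ofReal.comp Complex.continuous_re).comp_continuousOn c1)
      fun u hu => by
        have hu' := Ioo_subset_Icc_self hu
        obtain ⟨-, -, d1, d2, -⟩ := hA.der W u w hu.1 (mem hA hw hu')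
        refine (d1.fun_div d2 (hU u hu').ne').ofReal_comp.congr_deriv ?_
        rw [re_eq W u w (Z_ne hA hw hu'), ← Complex.ofReal_neg, ← Complex.ofReal_mul]
        congr 1
        have := (hU u hu').ne'
        field_simp
        ring
    have h0 : Yf W 0 w / Up W 0 w = 1 := by
      rw [Yf, (hA.init W w hw.1).2.1, (hA.init W w hw.1).2.2.1, Complex.sub_im, Complex.ofReal_im,
        sub_zero, div_self hw.1.ne']
    have h1 := congrArg norm h
    have h2 := Complex.reCLM.intervalIntegral_comp_comm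
      (c1.intervalIntegrable_of_Icc (μ := volume) ht)
    simp only [Complex.reCLM_apply] at h2
    rw [h0, Complex.ofReal_one, one_mul, Complex.norm_exp, intervalIntegral.integral_ofReal,
      Complex.neg_re, Complex.ofReal_re, h2, Complex.norm_real,
      Real.norm_of_nonneg (div_nonneg (hA.Y_nonneg W t w) (Up_nonneg W t w))] at h1
    rw [h1, gd, max_eq_left ht, Complex.norm_exp, Complex.neg_re]

end Vale.Agent.P164
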