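import Vale.Agent.P164.Stm

/-! The inverse of the centred Loewner map. -/

open Set MeasureTheory ProbabilityTheory Metric Filter Topology
open scoped ENNReal NNReal

namespace Vale.Agent.P164

namespace ConfB

theorem det_eq (c : ℂ) : |(c • (1 : ℂ →L[ℝ] ℂ)).det| = ‖c‖ ^ 2 := by
  have h : (c • (1 : ℂ →L[ℝ] ℂ)).det = Algebra.norm ℝ c := by
    rw [Algebra.norm_apply, ContinuousLinearMap.det]
    congr 1
  rw [h, Algebra.norm_complex_apply, Complex.normSq_eq_norm_sq, abs_of_nonneg (sq_nonneg _)]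

theorem cov {f f' : ℂ → ℂ} {s : Set ℂ} (hs : MeasurableSet s)
    (hd : ∀ z ∈ s, HasDerivAt f (f' z) z) (hi : InjOn f s) (g : ℂ → ℝ≥0∞) :
    ∫⁻ z in f '' s, g z = ∫⁻ z in s, ENNReal.ofReal (‖f' z‖ ^ 2) * g (f z) := by
  rw [lintegral_image_eq_lintegral_abs_det_fderiv_mul volume hs
    (fun z hz => (hd z hz).complexToReal_fderiv.hasFDerivWithinAt) hi]
  simp only [det_eq]

end ConfB

theorem confB (hA : FlowAStmt) (hM : FlowMStmt) (hC : ConfAStmt) (hS : SurjStmt) :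
    ConfBStmt := by
  have hr : ∀ (W : Pth) t (ζ : ℂ), 0 ≤ t → 0 < ζ.im →
      fi W t ζ ∈ dom W t ∧ Zf W t (fi W t ζ) = ζ := fun W t ζ ht hζ =>
    fi_spec ht (hS W t ζ ht hζ)
  have hl : ∀ (W : Pth) t w, 0 ≤ t → w ∈ dom W t → fi W t (Zf W t w) = w := fun W t w ht hw =>
    hC.inj W t ht (fi_spec ht ⟨w, hw, rfl⟩).1 hw (fi_spec ht ⟨w, hw, rfl⟩).2
  have hd : ∀ (W : Pth) t (ζ : ℂ), 0 ≤ t → 0 < ζ.im → HasDerivAt (fi W t) (fd W t ζ) ζ := by
    intro W t ζ ht hζ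
    obtain ⟨h1, h2⟩ := hr W t ζ ht hζ
    have hn := (hM.dom_open W t ht).mem_nhds h1
    have h3 : DifferentiableOn ℂ (Zf W t) (dom W t) := fun w hw =>
      (hC.der W t w ht hw).differentiableAt.differentiableWithinAt
    have h4 := (h3.analyticAt hn).hasStrictDerivAt
    rw [(hC.der W t _ ht h1).deriv] at h4
    have h5 := h4.to_local_left_inverse (g := fi W t) (Complex.exp_ne_zero _)
      (Eventually.mono hn fun w hw => hl W t w ht hw)
    rw [h2] at h5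
    exact h5.hasDerivAt
  have hn : ∀ (W : Pth) t (ζ : ℂ), 0 ≤ t → 0 < ζ.im →
      ‖fd W t ζ‖ = Up W t (fi W t ζ) / ζ.im := by
    intro W t ζ ht hζ
    obtain ⟨h1, h2⟩ := hr W t ζ ht hζ
    rw [fd, norm_inv, hC.norm W t _ ht h1, inv_div, Yf, h2]
  have hP : MeasurableSet HP := (isOpen_lt continuous_const Complex.continuous_im).measurableSet
  refine ⟨hr, hl, hd, hn, fun W t ψ ht => ?_, fun W t φ ht => ?_⟩
  · have e : dom W t = fi W t '' HP := by
      refine Subset.antisymm (fun w hw => ⟨_, (hA.alive W t w ht).1 hw, hl W t w ht hw⟩) ?_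
      rintro _ ⟨ζ, hζ, rfl⟩
      exact (hr W t ζ ht hζ).1
    rw [e, ConfB.cov hP (fun ζ hζ => hd W t ζ ht hζ) fun ζ hζ ζ' hζ' h => by
      rw [← (hr W t ζ ht hζ).2, h, (hr W t ζ' ht hζ').2]]
    exact setLIntegral_congr_fun hP fun ζ hζ => by rw [hn W t ζ ht hζ]
  · have e : HP = Zf W t '' dom W t := by
      refine Subset.antisymm (fun ζ hζ => ⟨_, hr W t ζ ht hζ⟩) ?_
      rintro _ ⟨w, hw, rfl⟩
      exact (hA.alive W t w ht).1 hw
    have hm := (hM.dom_open W t ht).measurableSet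
    rw [e, ConfB.cov hm (fun w hw => hC.der W t w ht hw) (hC.inj W t ht)]
    exact setLIntegral_congr_fun hm fun w hw => by rw [hC.norm W t w ht hw]

end Vale.Agent.P164
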