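import Vale.Agent.P164.Stm

/-! P164: elementary covering facts for the Hausdorff content. -/

open Set MeasureTheory ProbabilityTheory Metric
open scoped ENNReal NNReal

namespace Vale.Agent.P164

theorem cover_hc_set (h : ℝ → ℝ) (δ : ℝ) {E E' : Set ℂ} (hE : E ⊆ E') : hc h δ E ≤ hc h δ E' :=
  le_iInf fun U => le_iInf fun h1 => le_iInf fun h2 =>
    iInf_le_of_le U (iInf_le_of_le (hE.trans h1) (iInf_le_of_le h2 le_rfl))

theorem cover_hc_scale (h : ℝ → ℝ) {δ δ' : ℝ} (E : Set ℂ) (hδ : δ' ≤ δ) : hc h δ E ≤ hc h δ' E :=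
  le_iInf fun U => le_iInf fun h1 => le_iInf fun h2 =>
    iInf_le_of_le U (iInf_le_of_le h1 (iInf_le_of_le
      (fun j => (h2 j).trans (ENNReal.ofReal_le_ofReal hδ)) le_rfl))

theorem cover_countable {h : ℝ → ℝ} (h0 : h 0 = 0) {δ : ℝ} {E : Set ℂ} {ι : Type} [Countable ι]
    (s : ι → Set ℂ) (h1 : E ⊆ ⋃ b, s b) (h2 : ∀ b, ediam (s b) ≤ ENNReal.ofReal δ) :
    hc h δ E ≤ ∑' b, ENNReal.ofReal (h (diam (s b))) := by
  cases nonempty_encodable ι
  refine iInf_le_of_le (fun j => ⋃ b ∈ Encodable.decode₂ ι j, s b)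
    (iInf_le_of_le (by rwa [Encodable.iUnion_decode₂]) (iInf_le_of_le (fun j => ?_) (le_of_eq ?_)))
  · exact Encodable.iUnion_decode₂_cases (C := fun A => ediam A ≤ ENNReal.ofReal δ) (by simp) h2
  · exact tsum_iUnion_decode₂ (fun A => ENNReal.ofReal (h (diam A))) (by simp [h0]) s

theorem cover (hG : GaugeStmt) : CoverStmt where
  mono h E E' hE := iSup₂_mono fun δ _ => cover_hc_set h δ hE
  of_hc h E x hx := iSup₂_le fun δ hδ => by
    obtain ⟨δ', h1, h2⟩ := hx δ hδ
    exact (cover_hc_scale h E h1).trans h2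
  vitali κ h0 h8 := by
    refine ⟨10 ^ dd κ, by positivity, fun ν E R δ hE hr => ?_⟩
    choose! r hr0 hrδ hr using hr
    obtain ⟨u, hu, hd, hcov⟩ := Vitali.exists_disjoint_subfamily_covering_enlargement_ball E
      (fun z => z) r δ hrδ 5 (by norm_num)
    have hcount : u.Countable := hd.countable_of_isOpen (fun _ _ => isOpen_ball)
      fun z hz => ⟨z, mem_ball_self (hr0 z (hu hz))⟩
    have := hcount.to_subtype
    have hg := hG.isGauge κ h0 h8
    have hdiam : ∀ b : u, diam (ball (b : ℂ) (5 * r b)) ≤ 10 * r b := fun b =>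
      (diam_ball (by linarith [hr0 b (hu b.2)])).trans_eq (by ring)
    refine (cover_countable hg.2.2.1 (fun b : u => ball (b : ℂ) (5 * r b)) (fun z hz => ?_)
      fun b => ?_).trans ?_
    · obtain ⟨b, hb, hb'⟩ := hcov z hz
      exact mem_iUnion.2 ⟨⟨b, hb⟩, hb' (mem_ball_self (hr0 z hz))⟩
    · rw [← ENNReal.ofReal_toReal (isBounded_ball (x := (b : ℂ)) (r := 5 * r b)).ediam_ne_top]
      exact ENNReal.ofReal_le_ofReal ((hdiam b).trans (by linarith [hrδ b (hu b.2)]))
    · calc ∑' b : u, ENNReal.ofReal (gauge κ (diam (ball (b : ℂ) (5 * r b))))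
          ≤ ∑' b : u, ENNReal.ofReal (10 ^ dd κ) * ν (ball (b : ℂ) (r b)) := by
            refine ENNReal.tsum_le_tsum fun b => ?_
            have hb := hr0 b (hu b.2)
            refine le_trans ?_ (mul_le_mul_right (hr b (hu b.2)) _)
            rw [← ENNReal.ofReal_mul (by positivity)]
            refine ENNReal.ofReal_le_ofReal (le_trans ?_ (hG.scale κ 10 _ h0 h8 (by norm_num) hb.le))
            exact hg.2.1 diam_nonneg (show (0 : ℝ) ≤ 10 * r b by linarith) (hdiam b)
        _ = ENNReal.ofReal (10 ^ dd κ) * ν (⋃ b ∈ u, ball b (r b)) := by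
            rw [ENNReal.tsum_mul_left, measure_biUnion hcount hd fun _ _ => measurableSet_ball]
        _ ≤ _ := by
            refine mul_le_mul_right (measure_mono (iUnion₂_subset fun b hb => ?_)) _
            refine ball_subset_ball' ?_
            have := mem_ball.1 (hE (hu hb))
            linarith [hrδ b (hu hb)]

end Vale.Agent.P164
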