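import Vale.Agent.P164.Stm

/-! The distortion estimate for the inverse Loewner map. -/

open Set MeasureTheory ProbabilityTheory Metric Filter Topology
open scoped ENNReal NNReal

namespace Vale.Agent.P164

namespace DistA

variable {W : Pth} {t : ℝ} {w : ℂ}

theorem mem (hA : FlowAStmt) (hw : w ∈ dom W t) {u : ℝ} (hu : u ∈ Icc 0 t) : w ∈ dom W u :=
  hA.dom_anti W u t hu.1 hu.2 hw

theorem Y_pos (hA : FlowAStmt) (hw : w ∈ dom W t) {u : ℝ} (hu : u ∈ Icc 0 t) : 0 < Yf W u w :=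
  (hA.alive W u w hu.1).1 (mem hA hw hu)

theorem Z_ne (hA : FlowAStmt) (hw : w ∈ dom W t) {u : ℝ} (hu : u ∈ Icc 0 t) : Zf W u w ≠ 0 := by
  intro h
  have := Y_pos hA hw hu
  rw [Yf, h] at this
  simp at this

theorem cZ (hA : FlowAStmt) (hw : w ∈ dom W t) : ContinuousOn (fun u => Zf W u w) (Icc 0 t) :=
  fun u hu => (hA.cont W u w hu.1 (mem hA hw hu)).1.continuousWithinAt

theorem cU (hA : FlowAStmt) (hw : w ∈ dom W t) : ContinuousOn (fun u => Up W u w) (Icc 0 t) :=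
  fun u hu => (hA.cont W u w hu.1 (mem hA hw hu)).2.1.continuousWithinAt

theorem cG (hA : FlowAStmt) (hw : w ∈ dom W t) : ContinuousOn (fun u => gd W u w) (Icc 0 t) :=
  fun u hu => (hA.cont W u w hu.1 (mem hA hw hu)).2.2.continuousWithinAt

theorem c2 (hA : FlowAStmt) (hw : w ∈ dom W t) :
    ContinuousOn (fun u => 2 / Zf W u w ^ 2) (Icc 0 t) :=
  continuousOn_const.div ((cZ hA hw).pow 2) fun _ hu => pow_ne_zero _ (Z_ne hA hw hu)

theorem c3 (hA : FlowAStmt) (hw : w ∈ dom W t) :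
    ContinuousOn (fun u => -(4 * gd W u w / Zf W u w ^ 3)) (Icc 0 t) :=
  ((continuousOn_const.mul (cG hA hw)).div ((cZ hA hw).pow 3)
    fun _ hu => pow_ne_zero _ (Z_ne hA hw hu)).neg

theorem Y0 (hA : FlowAStmt) (hw : w ∈ dom W t) : Yf W 0 w = w.im := by
  rw [Yf, (hA.init W w hw.1).2.1]; simp

theorem gd_le (hA : FlowAStmt) (hC : ConfAStmt) (hw : w ∈ dom W t) {u c : ℝ} (hu : u ∈ Icc 0 t)
    (hc : 0 < c) (hY : c ≤ Yf W t w) : ‖gd W u w‖ ≤ Real.exp (4 * t / c ^ 2) := by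
  have ht : 0 ≤ t := hu.1.trans hu.2
  have h1 := hA.Up_ge W w 0 t le_rfl ht hw
  rw [(hA.init W w hw.1).2.2.1, sub_zero] at h1
  have h2 : Up W t w ≤ Up W u w := hA.Up_anti W w hu.2
  have h3 : Yf W u w ≤ w.im := Y0 hA hw ▸ hA.Y_anti W w hu.1
  have h4 : Real.exp (-(4 * t / c ^ 2)) ≤ Real.exp (-(4 * t / Yf W t w ^ 2)) := by
    gcongr
  have h5 := mul_le_mul_of_nonneg_left h4 hw.1.le
  rw [hC.norm W u w hu.1 (mem hA hw hu), div_le_iff₀ (Up_pos hu.1 (mem hA hw hu))]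
  have h6 : Real.exp (4 * t / c ^ 2) * (w.im * Real.exp (-(4 * t / c ^ 2))) = w.im := by
    rw [Real.exp_neg]; field_simp
  have h7 := mul_le_mul_of_nonneg_left (h5.trans (h1.trans h2)) (Real.exp_pos (4 * t / c ^ 2)).le
  linarith

theorem der_gd (hA : FlowAStmt) (hM : FlowMStmt) (hC : ConfAStmt) (ht : 0 ≤ t)
    (hw : w ∈ dom W t) : HasDerivAt (gd W t)
      (gd W t w * -∫ u in (0 : ℝ)..t, -(4 * gd W u w / Zf W u w ^ 3)) w := by
  have hY := Y_pos hA hw ⟨ht, le_rfl⟩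
  have hn : dom W t ∈ 𝓝 w := (hM.dom_open W t ht).mem_nhds hw
  have hc : ContinuousAt (fun x => Yf W t x) w :=
    Complex.continuous_im.continuousAt.comp ((hM.Z_cont W t ht).continuousAt hn)
  have hs : {x | x ∈ dom W t ∧ Yf W t w / 2 < Yf W t x} ∈ 𝓝 w :=
    inter_mem hn (hc.eventually (lt_mem_nhds (half_lt_self hY)))
  have hI : uIoc 0 t ⊆ Icc 0 t := by rw [uIoc_of_le ht]; exact Ioc_subset_Icc_self
  have h := (intervalIntegral.hasDerivAt_integral_of_dominated_loc_of_deriv_le (μ := volume)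
    (a := 0) (b := t) (F := fun x u => 2 / Zf W u x ^ 2)
    (F' := fun x u => -(4 * gd W u x / Zf W u x ^ 3))
    (bound := fun _ => 4 * Real.exp (4 * t / (Yf W t w / 2) ^ 2) / (Yf W t w / 2) ^ 3) hs
    (by
      filter_upwards [hn] with x hx
      exact ((c2 hA hx).mono hI).aestronglyMeasurable measurableSet_uIoc)
    ((c2 hA hw).intervalIntegrable_of_Icc ht)
    (((c3 hA hw).mono hI).aestronglyMeasurable measurableSet_uIoc)
    (Eventually.of_forall fun u hu x hx => ?_) intervalIntegrable_const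
    (Eventually.of_forall fun u hu x hx => ?_)).2
  · have e : gd W t = fun x => Complex.exp (-∫ u in (0 : ℝ)..t, 2 / Zf W u x ^ 2) := by
      funext x; rw [gd, max_eq_left ht]
    have h2 := h.neg.cexp
    rw [e]
    exact h2
  · have h1 := gd_le hA hC hx.1 (hI hu) (half_pos hY) hx.2.le
    have h2 : Yf W t w / 2 ≤ ‖Zf W u x‖ :=
      hx.2.le.trans ((hA.Y_anti W x (hI hu).2).trans ((le_abs_self _).trans (Yf_le_Rf W u x)))
    rw [norm_neg, norm_div, norm_mul, norm_pow, Complex.norm_ofNat]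
    gcongr
  · have h1 := hC.der W u x (hI hu).1 (mem hA hx.1 (hI hu))
    have h0 := Z_ne hA hx.1 (hI hu)
    have h2 := ((h1.fun_pow 2).fun_inv (pow_ne_zero 2 h0)).const_mul 2
    simp only [div_eq_mul_inv (2 : ℂ)]
    refine h2.congr_deriv ?_
    push_cast
    field_simp
    ring

theorem J_le (hA : FlowAStmt) (hC : ConfAStmt) (ht : 0 ≤ t) (hw : w ∈ dom W t) :
    ‖∫ u in (0 : ℝ)..t, -(4 * gd W u w / Zf W u w ^ 3)‖ ≤ 3 / Up W t w := by
  have cY : ContinuousOn (fun u => (Yf W u w : ℂ)) (Icc 0 t) :=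
    (Complex.continuous_ofReal.comp (hA.Y_cont W w)).continuousOn
  have hY : ∀ u ∈ Icc 0 t, (Yf W u w : ℂ) ≠ 0 := fun u hu =>
    Complex.ofReal_ne_zero.2 (Y_pos hA hw hu).ne'
  have hU : ∀ u ∈ Icc 0 t, 0 < Up W u w := fun u hu => Up_pos hu.1 (mem hA hw hu)
  have hR : ∀ u ∈ Icc 0 t, 0 < ‖Zf W u w‖ := fun u hu => norm_pos_iff.2 (Z_ne hA hw hu)
  have cR : ContinuousOn (fun u => ((‖Zf W u w‖ ^ 2 : ℝ) : ℂ)) (Icc 0 t) :=
    Complex.continuous_ofReal.comp_continuousOn ((cZ hA hw).norm.pow 2)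
  have hR' : ∀ u ∈ Icc 0 t, ((‖Zf W u w‖ ^ 2 : ℝ) : ℂ) ≠ 0 := fun u hu =>
    Complex.ofReal_ne_zero.2 (pow_pos (hR u hu) 2).ne'
  -- the quotient of the derivative by the height
  have c4 : ContinuousOn
      (fun u => 4 * Complex.I * gd W u w / (Zf W u w * ((‖Zf W u w‖ ^ 2 : ℝ) : ℂ))) (Icc 0 t) :=
    (continuousOn_const.mul (cG hA hw)).div ((cZ hA hw).mul cR)
      fun u hu => mul_ne_zero (Z_ne hA hw hu) (hR' u hu)
  have hZ : ∀ u, Zf W u w = Xf W u w + Yf W u w * Complex.I := fun u =>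
    (Complex.re_add_im _).symm
  have hN : ∀ u, ((‖Zf W u w‖ ^ 2 : ℝ) : ℂ) =
      Zf W u w * (Zf W u w - 2 * Yf W u w * Complex.I) := fun u => by
    have := Rf_sq W u w
    rw [Rf] at this
    rw [this, hZ u]
    push_cast
    linear_combination (Yf W u w : ℂ) ^ 2 * Complex.I_mul_I
  have f1 : ∫ u in (0 : ℝ)..t,
      4 * Complex.I * gd W u w / (Zf W u w * ((‖Zf W u w‖ ^ 2 : ℝ) : ℂ)) =
      gd W t w / Yf W t w - gd W 0 w / Yf W 0 w := by
    refine intervalIntegral.integral_eq_sub_of_hasDerivAt_of_le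
      (f := fun u => gd W u w / Yf W u w) ht ((cG hA hw).div cY hY) (fun u hu => ?_)
      (c4.intervalIntegrable_of_Icc ht)
    have hu' := Ioo_subset_Icc_self hu
    obtain ⟨-, -, d1, -, d2⟩ := hA.der W u w hu.1 (mem hA hw hu')
    have e0 := Z_ne hA hw hu'
    have e1 := hY u hu'
    have e2 := hR' u hu'
    refine (d2.fun_div d1.ofReal_comp e1).congr_deriv ?_
    have e3 := hN u
    rw [Rf, Complex.ofReal_neg, Complex.ofReal_div]
    generalize ((‖Zf W u w‖ ^ 2 : ℝ) : ℂ) = N at e2 e3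
    push_cast
    field_simp
    rw [e3]
    ring
  have c5 : ContinuousOn (fun u => 4 * Yf W u w ^ 2 / (‖Zf W u w‖ ^ 4 * Up W u w)) (Icc 0 t) :=
    (continuousOn_const.mul ((hA.Y_cont W w).continuousOn.pow 2)).div
      (((cZ hA hw).norm.pow 4).mul (cU hA hw))
      fun u hu => mul_ne_zero (pow_pos (hR u hu) 4).ne' (hU u hu).ne'
  have f2 : ∫ u in (0 : ℝ)..t, 4 * Yf W u w ^ 2 / (‖Zf W u w‖ ^ 4 * Up W u w) =
      (Up W t w)⁻¹ - (Up W 0 w)⁻¹ := by
    refine intervalIntegral.integral_eq_sub_of_hasDerivAt_of_le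
      (f := fun u => (Up W u w)⁻¹) ht ((cU hA hw).inv₀ fun u hu => (hU u hu).ne')
      (fun u hu => ?_) (c5.intervalIntegrable_of_Icc ht)
    have hu' := Ioo_subset_Icc_self hu
    obtain ⟨-, -, -, d1, -⟩ := hA.der W u w hu.1 (mem hA hw hu')
    have e0 := (hR u hu').ne'
    have e1 := (hU u hu').ne'
    refine (d1.fun_inv e1).congr_deriv ?_
    rw [Sf, Rf]
    field_simp
  have f3 : ‖∫ u in (0 : ℝ)..t, (-(4 * gd W u w / Zf W u w ^ 3) - Complex.I *
      (4 * Complex.I * gd W u w / (Zf W u w * ((‖Zf W u w‖ ^ 2 : ℝ) : ℂ))))‖ ≤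
      ∫ u in (0 : ℝ)..t, 2 * (4 * Yf W u w ^ 2 / (‖Zf W u w‖ ^ 4 * Up W u w)) := by
    refine intervalIntegral.norm_integral_le_of_norm_le ht (Eventually.of_forall fun u hu => ?_)
      ((c5.intervalIntegrable_of_Icc ht).const_mul 2)
    have hu' := Ioc_subset_Icc_self hu
    have e0 := Z_ne hA hw hu'
    have e2 := hR' u hu'
    have e : -(4 * gd W u w / Zf W u w ^ 3) - Complex.I *
        (4 * Complex.I * gd W u w / (Zf W u w * ((‖Zf W u w‖ ^ 2 : ℝ) : ℂ))) =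
        8 * Complex.I * Yf W u w * gd W u w / (Zf W u w ^ 2 * ((‖Zf W u w‖ ^ 2 : ℝ) : ℂ)) := by
      have e3 := hN u
      generalize ((‖Zf W u w‖ ^ 2 : ℝ) : ℂ) = N at e2 e3
      field_simp
      rw [e3]
      linear_combination (-4 * gd W u w * Zf W u w ^ 2) * Complex.I_mul_I
    have e4 := (hR u hu').ne'
    have e5 := (hU u hu').ne'
    rw [e, norm_div, norm_mul, norm_mul, norm_mul, norm_mul, norm_pow, Complex.norm_I,
      Complex.norm_ofNat, Complex.norm_real, Complex.norm_real, Real.norm_eq_abs,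
      Real.norm_eq_abs, abs_of_pos (Y_pos hA hw hu'), abs_of_pos (pow_pos (hR u hu') 2),
      hC.norm W u w hu'.1 (mem hA hw hu')]
    refine le_of_eq ?_
    field_simp
    ring
  rw [intervalIntegral.integral_sub ((c3 hA hw).intervalIntegrable_of_Icc ht)
    ((c4.intervalIntegrable_of_Icc ht).const_mul _), intervalIntegral.integral_const_mul,
    intervalIntegral.integral_const_mul, f1, f2] at f3
  have hq : ∀ u ∈ Icc 0 t, ‖gd W u w / Yf W u w‖ = (Up W u w)⁻¹ := fun u hu => by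
    have e1 := (Y_pos hA hw hu).ne'
    rw [norm_div, Complex.norm_real, Real.norm_eq_abs, abs_of_pos (Y_pos hA hw hu),
      hC.norm W u w hu.1 (mem hA hw hu)]
    field_simp
  have g1 := norm_sub_le (gd W t w / Yf W t w) (gd W 0 w / Yf W 0 w)
  rw [hq t ⟨ht, le_rfl⟩, hq 0 ⟨le_rfl, ht⟩] at g1
  have g2 := norm_le_norm_sub_add (∫ u in (0 : ℝ)..t, -(4 * gd W u w / Zf W u w ^ 3))
    (Complex.I * (gd W t w / Yf W t w - gd W 0 w / Yf W 0 w))
  rw [norm_mul, Complex.norm_I, one_mul] at g2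
  have g3 : 0 ≤ (Up W 0 w)⁻¹ := inv_nonneg.2 (Up_nonneg _ _ _)
  rw [div_eq_mul_inv]
  linarith

end DistA

open DistA in
theorem dist3 (hA : FlowAStmt) (hM : FlowMStmt) (hC : ConfAStmt) (hB : ConfBStmt) :
    DistStmt := by
  intro W t ζ ht hζ
  have hw := (hB.right W t ζ ht hζ).1
  have h0 : gd W t (fi W t ζ) ≠ 0 := Complex.exp_ne_zero _
  have h1 := ((der_gd hA hM hC ht hw).comp ζ (hB.der W t ζ ht hζ)).fun_inv h0
  refine ⟨_, h1, ?_⟩
  have h2 := J_le hA hC ht hw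
  have h3 := hB.norm W t ζ ht hζ
  have h4 := Up_pos ht hw
  generalize ∫ u in (0 : ℝ)..t, -(4 * gd W u (fi W t ζ) / Zf W u (fi W t ζ) ^ 3) = J at h2
  have e : -(gd W t (fi W t ζ) * -J * fd W t ζ) / (gd W t ∘ fi W t) ζ ^ 2 =
      J * (fd W t ζ * fd W t ζ) := by
    rw [Function.comp_apply, fd]
    field_simp
  rw [e, norm_mul, norm_mul]
  refine (mul_le_mul_of_nonneg_right h2 (by positivity)).trans (le_of_eq ?_)
  rw [h3]
  field_simp

end Vale.Agent.P164
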