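import Vale.Agent.P164.FlowC

/-! Time regularity of the Loewner state. -/

open Set Metric Filter
open scoped NNReal Topology

namespace Vale.Agent.P164

variable {W : Pth} {w : ℂ} {t : ℝ}

/-- a description of the state slightly beyond an alive time -/
structure FlowARep (W : Pth) (w : ℂ) (T : ℝ) (g Z : ℝ → ℂ) (A : ℝ → ℝ) (B : ℝ → ℂ) : Prop where
  cont : Continuous Z
  pos : ∀ u, 0 < (Z u).im
  dA : ∀ u, HasDerivAt A (4 * (Z u).im ^ 2 / ‖Z u‖ ^ 4) u
  dB : ∀ u, HasDerivAt B (2 / Z u ^ 2) u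
  eZ : ∀ u, u ≤ T → Zf W u w = Z u
  mem : ∀ u ∈ Icc 0 T, w ∈ dom W u
  eU : ∀ u, u ≤ T → Up W u w = w.im * Real.exp (-A (max u 0))
  eg : ∀ u, u ≤ T → gd W u w = Complex.exp (-B (max u 0))
  dg : ∀ u ∈ Icc 0 T, HasDerivAt g (2 / Z u) u
  eq : ∀ u ∈ Icc 0 T, Zf W u w + (W u : ℂ) = g u

theorem flowA_fcont {δ : ℝ} {φ : ℂ → Pth → ℝ → ℂ} (hφ : IsFlow δ 1 φ) (w : ℂ) (W : Pth) :
    Continuous (φ w W) := continuous_iff_continuousAt.2 fun t => (hφ.der w W t).continuousAt

theorem flowA_rep (h0 : Flow0Stmt) (hC : FlowCStmt) (ht : 0 ≤ t) (h : w ∈ dom W t) :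
    ∃ T g Z A B, t < T ∧ FlowARep W w T g Z A B := by
  have hY := (hC.alive W t w ht).1 h
  have hδ : 0 < Yf W t w / 2 := by positivity
  obtain ⟨φ, hφ⟩ := h0 _ 1 hδ (by simp)
  set δ := Yf W t w / 2 with hδ'
  have h1 := hC.to_flow δ φ hδ hφ w W t ht (by linarith)
  have hc := flowA_fcont hφ w W
  obtain ⟨T, hT, h2⟩ := (((Complex.continuous_im.comp hc).continuousAt (x := t)).eventually
    (lt_mem_nhds h1)).exists_gt
  have hT0 : 0 ≤ T := ht.trans hT.le
  have h3 : ∀ u ∈ Icc 0 T, δ < (φ w W u).im := fun u hu =>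
    lt_of_lt_of_le h2 (hC.anti δ φ hδ hφ w W hu.2)
  have h4 := fun u (hu : u ∈ Icc 0 T) => hC.of_flow δ φ hδ hφ w W u hu.1 (h3 u hu)
  have hp : ∀ u, max (min u T) 0 ∈ Icc 0 T := fun u =>
    ⟨le_max_right _ _, max_le (min_le_right _ _) hT0⟩
  set Z : ℝ → ℂ := fun u => φ w W (max (min u T) 0) - (W (max (min u T) 0) : ℂ) with hZ
  have cZ : Continuous Z := by simp only [hZ]; fun_prop
  have pZ : ∀ u, 0 < (Z u).im := fun u => by simpa [hZ] using hδ.trans (h3 _ (hp u))
  have nZ : ∀ u, Z u ≠ 0 := fun u h => by simpa [h] using pZ u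
  have eZ : ∀ u, u ≤ T → Zf W u w = Z u := fun u hu => by
    have := (h4 _ (hp u)).2
    rw [min_eq_left hu, Zf_max] at this
    simp only [hZ, min_eq_left hu, this]
  have cA : Continuous fun u => 4 * (Z u).im ^ 2 / ‖Z u‖ ^ 4 :=
    Continuous.div (by fun_prop) (by fun_prop) fun u => pow_ne_zero _ (norm_ne_zero_iff.2 (nZ u))
  have cB : Continuous fun u => 2 / Z u ^ 2 :=
    Continuous.div (by fun_prop) (by fun_prop) fun u => pow_ne_zero _ (nZ u)
  have hs : ∀ u, u ≤ T → ∀ r ∈ uIcc 0 (max u 0), r ≤ T := fun u hu r hr => by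
    rw [uIcc_of_le (le_max_right _ _)] at hr
    exact hr.2.trans (max_le hu hT0)
  have e5 : ∀ u ∈ Icc 0 T, Z u = φ w W u - (W u : ℂ) := fun u hu => by
    simp only [hZ, min_eq_left hu.2, max_eq_left hu.1]
  refine ⟨T, φ w W, Z, fun x => ∫ u in (0 : ℝ)..x, 4 * (Z u).im ^ 2 / ‖Z u‖ ^ 4,
    fun x => ∫ u in (0 : ℝ)..x, 2 / Z u ^ 2, hT, cZ, pZ,
    fun u => (cA.integral_hasStrictDerivAt 0 u).hasDerivAt,
    fun u => (cB.integral_hasStrictDerivAt 0 u).hasDerivAt, eZ, fun u hu => (h4 u hu).1,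
    fun u hu => ?_, fun u hu => ?_, fun u hu => ?_, fun u hu => ?_⟩
  · rw [Up, if_pos (h4 _ ⟨le_max_right _ _, max_le hu hT0⟩).1,
      intervalIntegral.integral_congr (g := fun u => 4 * (Z u).im ^ 2 / ‖Z u‖ ^ 4)
        fun r hr => by simp only [Yf, Rf, eZ r (hs u hu r hr)]]
  · rw [gd, intervalIntegral.integral_congr (g := fun u => 2 / Z u ^ 2)
        fun r hr => by simp only [eZ r (hs u hu r hr)]]
  · have := hφ.der w W u
    rw [flow0_of_le (by simpa using (h3 u hu).le), ← e5 u hu] at this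
    simpa using this
  · rw [(h4 u hu).2, sub_add_cancel]

namespace FlowARep

variable {T : ℝ} {g Z : ℝ → ℂ} {A : ℝ → ℝ} {B : ℝ → ℂ} (r : FlowARep W w T g Z A B)
include r

theorem mono : StrictMono A := strictMono_of_hasDerivAt_pos r.dA fun u => by
  have h1 := r.pos u
  have h2 : 0 < ‖Z u‖ := norm_pos_iff.2 fun h => by simp [h] at h1
  positivity

theorem eY {u : ℝ} (hu : u ∈ Icc 0 T) : Yf W u w = (g u).im := by
  rw [← r.eq u hu]; simp [Yf]

theorem dY {u : ℝ} (hu : u ∈ Icc 0 T) :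
    HasDerivAt (fun u => (g u).im) (-(2 * Yf W u w / Rf W u w ^ 2)) u := by
  have := Complex.imCLM.hasFDerivAt.comp_hasDerivAt u (r.dg u hu)
  refine HasDerivAt.congr_deriv this ?_
  rw [Complex.imCLM_apply, flowC_im, Yf, Rf, r.eZ u hu.2]

end FlowARep

theorem flowA_Ymax (W : Pth) (t : ℝ) (w : ℂ) : Yf W (max t 0) w = Yf W t w := by
  rw [Yf, Yf, Zf_max]

theorem flowA_dead (ht : 0 ≤ t) (h : w ∉ dom W t) : Yf W t w = 0 := by simp [Yf, Zf_dead ht h]

theorem flowA_nonneg (hC : FlowCStmt) (W : Pth) (t : ℝ) (w : ℂ) : 0 ≤ Yf W t w := by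
  rw [← flowA_Ymax]
  by_cases h : w ∈ dom W (max t 0)
  · exact ((hC.alive _ _ _ (le_max_right _ _)).1 h).le
  · exact (flowA_dead (le_max_right _ _) h).ge

theorem flowA_dom (h0 : Flow0Stmt) (hC : FlowCStmt) (W : Pth) (s t : ℝ) (hs : 0 ≤ s)
    (hst : s ≤ t) : dom W t ⊆ dom W s := fun _ h => by
  obtain ⟨T, g, Z, A, B, hT, r⟩ := flowA_rep h0 hC (hs.trans hst) h
  exact r.mem s ⟨hs, hst.trans hT.le⟩

theorem flowA_Yanti (h0 : Flow0Stmt) (hC : FlowCStmt) (W : Pth) (w : ℂ) :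
    Antitone fun t => Yf W t w := by
  intro s t hst
  simp only
  rw [← flowA_Ymax W s, ← flowA_Ymax W t]
  have h1 : max s 0 ≤ max t 0 := max_le_max_right _ hst
  have hs := le_max_right s 0
  have ht := le_max_right t 0
  generalize max s 0 = s at *
  generalize max t 0 = t at *
  by_cases h : w ∈ dom W t
  · have hY := (hC.alive W t w ht).1 h
    have hδ : 0 < Yf W t w / 2 := by positivity
    obtain ⟨φ, hφ⟩ := h0 _ 1 hδ (by simp)
    have h2 := hC.to_flow _ φ hδ hφ w W t ht (by linarith)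
    have h3 := hC.anti _ φ hδ hφ w W h1
    simpa [Yf, (hC.of_flow _ φ hδ hφ w W t ht h2).2,
      (hC.of_flow _ φ hδ hφ w W s hs (h2.trans_le h3)).2] using h3
  · rw [flowA_dead ht h]
    exact flowA_nonneg hC _ _ _

theorem flowA_Ycont (h0 : Flow0Stmt) (hC : FlowCStmt) (W : Pth) (w : ℂ) :
    Continuous fun t => Yf W t w := by
  refine continuous_iff_continuousAt.2 fun t => ?_
  have ht := le_max_right t 0
  by_cases h : w ∈ dom W (max t 0)
  · obtain ⟨T, g, Z, A, B, hT, r⟩ := flowA_rep h0 hC ht h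
    refine (Complex.continuous_im.comp r.cont).continuousAt.congr ?_
    filter_upwards [gt_mem_nhds ((le_max_left t 0).trans_lt hT)] with u hu
    simp [Yf, r.eZ u hu.le]
  · have h1 : Yf W t w = 0 := by rw [← flowA_Ymax, flowA_dead ht h]
    rw [ContinuousAt, h1]
    refine tendsto_order.2 ⟨fun a ha => Eventually.of_forall fun u =>
      ha.trans_le (flowA_nonneg hC _ _ _), fun ε hε => ?_⟩
    have hδ : 0 < ε / 2 := by positivity
    obtain ⟨φ, hφ⟩ := h0 _ 1 hδ (by simp)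
    have h2 : (φ w W (max t 0)).im < ε := by
      by_contra h2
      exact h (hC.of_flow _ φ hδ hφ w W _ ht (by linarith)).1
    have hc := flowA_fcont hφ w W
    have h3 : Continuous fun u => (φ w W (max u 0)).im := by fun_prop
    filter_upwards [h3.continuousAt.eventually (gt_mem_nhds h2)] with u hu
    rw [← flowA_Ymax]
    rcases le_or_gt (Yf W (max u 0) w) (ε / 2) with h4 | h4
    · linarith
    · have h5 := hC.to_flow _ φ hδ hφ w W _ (le_max_right _ _) h4
      simpa [Yf, (hC.of_flow _ φ hδ hφ w W _ (le_max_right _ _) h5).2] using hu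

theorem flowA_Ysq (h0 : Flow0Stmt) (hC : FlowCStmt) (W : Pth) (w : ℂ) (s t : ℝ) (hs : 0 ≤ s)
    (hst : s ≤ t) : Yf W s w ^ 2 ≤ Yf W t w ^ 2 + 4 * (t - s) := by
  have hc := flowA_Ycont h0 hC W w
  have := image_le_of_deriv_right_le_deriv_boundary (f := fun _ => Yf W s w ^ 2 + 4 * s)
    (f' := fun _ => 0) (a := s) (b := t) continuousOn_const
    (fun x _ => hasDerivWithinAt_const _ _ _) (B := fun u => Yf W u w ^ 2 + 4 * u)
    (B' := fun u => 2 * Yf W u w * -(2 * Yf W u w / Rf W u w ^ 2) + 4) le_rfl (by fun_prop)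
    (fun u hu => ?_) (fun u _ => ?_) ⟨hst, le_rfl⟩
  · linarith
  · have hu0 := hs.trans hu.1
    have h4 : HasDerivWithinAt (fun u : ℝ => 4 * u) 4 (Ici u) u := by
      simpa using ((hasDerivAt_id u).const_mul 4).hasDerivWithinAt
    refine HasDerivWithinAt.add ?_ h4
    by_cases h : w ∈ dom W u
    · obtain ⟨T, g, Z, A, B, hT, r⟩ := flowA_rep h0 hC hu0 h
      have h5 : HasDerivWithinAt (fun u => Yf W u w) _ (Ici u) u :=
        (r.dY ⟨hu0, hT.le⟩).hasDerivWithinAt.congr_of_eventuallyEq (by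
          filter_upwards [Icc_mem_nhdsGE hT] with v hv using r.eY ⟨hu0.trans hv.1, hv.2⟩)
          (r.eY ⟨hu0, hT.le⟩)
      simpa using h5.fun_pow 2
    · rw [flowA_dead hu0 h, mul_zero, zero_mul]
      refine (hasDerivWithinAt_const u _ (0 : ℝ)).congr (fun v hv => ?_)
        (by simp [flowA_dead hu0 h])
      simp [flowA_dead (hu0.trans hv) fun h' => h (flowA_dom h0 hC W u v hu0 hv h')]
  · have h1 : Yf W u w ^ 2 / Rf W u w ^ 2 ≤ 1 :=
      div_le_one_of_le₀ (by rw [Rf_sq]; nlinarith [sq_nonneg (Xf W u w)]) (sq_nonneg _)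
    have e : 2 * Yf W u w * -(2 * Yf W u w / Rf W u w ^ 2) + 4 =
        4 * (1 - Yf W u w ^ 2 / Rf W u w ^ 2) := by ring
    simp only [e]
    linarith

theorem flowA_low (h0 : Flow0Stmt) (hC : FlowCStmt) {T u : ℝ} {g Z : ℝ → ℂ} {A : ℝ → ℝ}
    {B : ℝ → ℂ} (r : FlowARep W w T g Z A B) (hu : u ≤ t) (hT : t < T) : Yf W t w ≤ ‖Z u‖ := by
  rw [← r.eZ u (hu.trans hT.le)]
  exact (flowA_Yanti h0 hC W w hu).trans ((le_abs_self _).trans (Yf_le_Rf W u w))

theorem flowA (h0 : Flow0Stmt) (hC : FlowCStmt) : FlowAStmt where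
  alive := hC.alive
  Y_nonneg := flowA_nonneg hC
  init W w hw := by
    have hδ : 0 < w.im / 2 := by positivity
    obtain ⟨φ, hφ⟩ := h0 _ 1 hδ (by simp)
    obtain ⟨h1, h2⟩ := hC.of_flow _ φ hδ hφ w W 0 le_rfl (by rw [hφ.init]; linarith)
    exact ⟨h1, by rw [h2, hφ.init], by simp [Up, h1], by simp [gd]⟩
  dom_anti := flowA_dom h0 hC
  Y_anti := flowA_Yanti h0 hC
  Up_anti W w s t hst := by
    simp only
    by_cases h : w ∈ dom W (max t 0)
    · obtain ⟨T, g, Z, A, B, hT, r⟩ := flowA_rep h0 hC (le_max_right _ _) h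
      have h1 : t ≤ T := (le_max_left _ _).trans hT.le
      rw [r.eU t h1, r.eU s (hst.trans h1)]
      exact mul_le_mul_of_nonneg_left (Real.exp_le_exp.2
        (neg_le_neg (r.mono.monotone (max_le_max_right _ hst)))) h.1.le
    · rw [← Up_max W t, Up_dead (le_max_right _ _) h]
      exact Up_nonneg _ _ _
  Up_strict W w s t hs hst h := by
    obtain ⟨T, g, Z, A, B, hT, r⟩ := flowA_rep h0 hC (hs.trans hst.le) h
    rw [r.eU t hT.le, r.eU s (hst.trans hT).le, max_eq_left hs, max_eq_left (hs.trans hst.le)]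
    exact mul_lt_mul_of_pos_left (Real.exp_lt_exp.2 (neg_lt_neg (r.mono hst))) h.1
  Y_cont := flowA_Ycont h0 hC
  cont W t w ht h := by
    obtain ⟨T, g, Z, A, B, hT, r⟩ := flowA_rep h0 hC ht h
    have cA : Continuous A := continuous_iff_continuousAt.2 fun u => (r.dA u).continuousAt
    have cB : Continuous B := continuous_iff_continuousAt.2 fun u => (r.dB u).continuousAt
    refine ⟨r.cont.continuousAt.congr ?_,
      (by fun_prop : Continuous fun u => w.im * Real.exp (-A (max u 0))).continuousAt.congr ?_,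
      (by fun_prop : Continuous fun u => Complex.exp (-B (max u 0))).continuousAt.congr ?_⟩
    · filter_upwards [gt_mem_nhds hT] with u hu using (r.eZ u hu.le).symm
    · filter_upwards [gt_mem_nhds hT] with u hu using (r.eU u hu.le).symm
    · filter_upwards [gt_mem_nhds hT] with u hu using (r.eg u hu.le).symm
  der W t w ht h := by
    obtain ⟨T, g, Z, A, B, hT, r⟩ := flowA_rep h0 hC ht.le h
    have hn := Icc_mem_nhds ht hT
    have hm : t ∈ Icc 0 T := ⟨ht.le, hT.le⟩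
    have h1 : HasDerivAt (fun u => Zf W u w + (W u : ℂ)) (2 / Zf W t w) t := by
      rw [r.eZ t hT.le]
      exact (r.dg t hm).congr_of_eventuallyEq (mem_of_superset hn r.eq)
    refine ⟨h1, ?_, (r.dY hm).congr_of_eventuallyEq (mem_of_superset hn fun u hu => r.eY hu),
      ?_, ?_⟩
    · have := Complex.reCLM.hasFDerivAt.comp_hasDerivAt t h1
      rw [Complex.reCLM_apply, flowC_re] at this
      exact this.congr_of_eventuallyEq (Eventually.of_forall fun u => by simp [Xf])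
    · refine (((r.dA t).neg.exp.const_mul w.im).congr_of_eventuallyEq
        (mem_of_superset hn fun u hu => ?_)).congr_deriv ?_
      · simp [r.eU u hu.2, max_eq_left hu.1]
      · rw [r.eU t hT.le, max_eq_left ht.le, Sf, Yf, Rf, r.eZ t hT.le, Pi.neg_apply]
        ring
    · refine (((r.dB t).neg.cexp).congr_of_eventuallyEq
        (mem_of_superset hn fun u hu => ?_)).congr_deriv ?_
      · simp [r.eg u hu.2, max_eq_left hu.1]
      · rw [r.eg t hT.le, max_eq_left ht.le, r.eZ t hT.le, Pi.neg_apply]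
        ring
  loc V W t h u hu := by
    have h1 := fun r (hr : r ∈ Icc 0 u) =>
      hC.loc V W r hr.1 (h.mono (Icc_subset_Icc_right (hr.2.trans hu.2)))
    have h2 := h1 u ⟨hu.1, le_rfl⟩
    have e : Zf V u = Zf W u := funext h2.2
    refine ⟨h2.1, fun w => ⟨h2.2 w, ?_, ?_, ?_⟩⟩
    · unfold Up
      rw [max_eq_left hu.1, h2.1, intervalIntegral.integral_congr
        (g := fun u => 4 * Yf W u w ^ 2 / Rf W u w ^ 4) fun r hr => by
          simp only [Yf, Rf, (h1 r (by rwa [uIcc_of_le hu.1] at hr)).2]]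
    · unfold gd
      rw [max_eq_left hu.1, intervalIntegral.integral_congr
        (g := fun u => 2 / Zf W u w ^ 2) fun r hr => by
          simp only [(h1 r (by rwa [uIcc_of_le hu.1] at hr)).2]]
    · unfold fi
      rw [max_eq_left hu.1, h2.1, e]
  Y_sq := flowA_Ysq h0 hC
  Up_ge W w s t hs hst h := by
    obtain ⟨T, g, Z, A, B, hT, r⟩ := flowA_rep h0 hC (hs.trans hst) h
    have hY := (hC.alive W t w (hs.trans hst)).1 h
    have h1 := norm_image_sub_le_of_norm_deriv_le_segment' (C := 4 / Yf W t w ^ 2)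
      (fun u (_ : u ∈ Icc s t) => (r.dA u).hasDerivWithinAt) (fun u hu => by
        have h2 := flowA_low h0 hC r hu.2.le hT
        have h3 : (Z u).im ^ 2 ≤ ‖Z u‖ ^ 2 := sq_le_sq' (abs_le.1 (Complex.abs_im_le_norm _)).1
          (abs_le.1 (Complex.abs_im_le_norm _)).2
        have h4 := hY.trans_le h2
        rw [Real.norm_of_nonneg (by positivity)]
        calc 4 * (Z u).im ^ 2 / ‖Z u‖ ^ 4 ≤ 4 * ‖Z u‖ ^ 2 / ‖Z u‖ ^ 4 := by gcongr
          _ = 4 / ‖Z u‖ ^ 2 := by field_simp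
          _ ≤ 4 / Yf W t w ^ 2 := by gcongr) t ⟨hst, le_rfl⟩
    rw [r.eU t hT.le, r.eU s (hst.trans hT.le), max_eq_left hs, max_eq_left (hs.trans hst),
      mul_assoc, ← Real.exp_add]
    refine mul_le_mul_of_nonneg_left (Real.exp_le_exp.2 ?_) h.1.le
    have h5 := (le_abs_self _).trans h1
    rw [div_mul_eq_mul_div] at h5
    linarith
  move W w s t hs hst h := by
    obtain ⟨T, g, Z, A, B, hT, r⟩ := flowA_rep h0 hC (hs.trans hst) h
    have hY := (hC.alive W t w (hs.trans hst)).1 h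
    rw [r.eq t ⟨hs.trans hst, hT.le⟩, r.eq s ⟨hs, hst.trans hT.le⟩, ← div_mul_eq_mul_div]
    refine norm_image_sub_le_of_norm_deriv_le_segment'
      (fun u (hu : u ∈ Icc s t) => (r.dg u ⟨hs.trans hu.1, hu.2.trans hT.le⟩).hasDerivWithinAt)
      (fun u hu => ?_) t ⟨hst, le_rfl⟩
    rw [norm_div, Complex.norm_two]
    exact div_le_div_of_nonneg_left zero_le_two hY (flowA_low h0 hC r hu.2.le hT)

end Vale.Agent.P164
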