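import Vale.Agent.P164.Stm

open Set MeasureTheory ProbabilityTheory Metric Filter Topology
open scoped ENNReal NNReal

namespace Vale.Agent.P164

theorem flowM_Yf_max (W : Pth) (t : ℝ) (w : ℂ) : Yf W (max t 0) w = Yf W t w := by
  unfold Yf
  rw [Zf_max]

/-- Near an alive state the flow is given by a jointly continuous function. -/
theorem flowM_loc (h0 : Flow0Stmt) (hC : FlowCStmt) (p : ℂ × Pth × ℝ)
    (hp : 0 < Yf p.2.1 p.2.2 p.1) :
    ∃ F : ℂ × Pth × ℝ → ℂ, Continuous F ∧ ∀ᶠ q in 𝓝 p,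
      0 < Yf q.2.1 q.2.2 q.1 ∧ Zf q.2.1 q.2.2 q.1 = F q := by
  have hδ : 0 < Yf p.2.1 p.2.2 p.1 / 2 := by linarith
  obtain ⟨φ, hφ⟩ := h0 _ 1 hδ (by simp)
  have c1 : Continuous fun q : ℂ × Pth × ℝ => φ q.1 q.2.1 (max q.2.2 0) :=
    hφ.cont.comp (f := fun q : ℂ × Pth × ℝ => (q.1, q.2.1, max q.2.2 0)) (by fun_prop)
  have c2 : Continuous fun q : ℂ × Pth × ℝ => ((q.2.1 (max q.2.2 0) : ℝ) : ℂ) := by fun_prop
  refine ⟨fun q => φ q.1 q.2.1 (max q.2.2 0) - ((q.2.1 (max q.2.2 0) : ℝ) : ℂ), c1.sub c2, ?_⟩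
  have h1 : Yf p.2.1 p.2.2 p.1 / 2 < (φ p.1 p.2.1 (max p.2.2 0)).im :=
    hC.to_flow _ φ hδ hφ _ _ _ (le_max_right _ _) (by rw [flowM_Yf_max]; linarith)
  have h2 : IsOpen {q : ℂ × Pth × ℝ | Yf p.2.1 p.2.2 p.1 / 2 < (φ q.1 q.2.1 (max q.2.2 0)).im} :=
    isOpen_lt continuous_const (Complex.continuous_im.comp c1)
  filter_upwards [h2.mem_nhds h1] with q hq
  obtain ⟨h3, h4⟩ := hC.of_flow _ φ hδ hφ _ _ _ (le_max_right _ _) hq
  rw [Zf_max] at h4
  refine ⟨?_, h4⟩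
  rw [← flowM_Yf_max]
  exact (hC.alive _ _ _ (le_max_right _ _)).1 h3

theorem flowM_open (h0 : Flow0Stmt) (hC : FlowCStmt) :
    IsOpen {p : ℂ × Pth × ℝ | 0 < Yf p.2.1 p.2.2 p.1} := by
  refine isOpen_iff_mem_nhds.2 fun p hp => ?_
  obtain ⟨F, -, hF⟩ := flowM_loc h0 hC p hp
  exact hF.mono fun q hq => hq.1

theorem flowM_cont (h0 : Flow0Stmt) (hC : FlowCStmt) (p : ℂ × Pth × ℝ)
    (hp : 0 < Yf p.2.1 p.2.2 p.1) :
    ContinuousAt (fun q : ℂ × Pth × ℝ => Zf q.2.1 q.2.2 q.1) p := by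
  obtain ⟨F, cF, hF⟩ := flowM_loc h0 hC p hp
  exact cF.continuousAt.congr (hF.mono fun q hq => hq.2.symm)

theorem flowM_Z (h0 : Flow0Stmt) (hC : FlowCStmt) :
    Measurable fun p : ℂ × Pth × ℝ => Zf p.2.1 p.2.2 p.1 := by
  classical
  have h1 : ContinuousOn (fun q : ℂ × Pth × ℝ => Zf q.2.1 q.2.2 q.1)
      {p : ℂ × Pth × ℝ | 0 < Yf p.2.1 p.2.2 p.1} := fun p hp =>
    (flowM_cont h0 hC p hp).continuousWithinAt
  have h2 := h1.measurable_piecewise (g := fun _ => 0) continuousOn_const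
    (flowM_open h0 hC).measurableSet
  convert h2 using 1
  funext p
  by_cases hp : p ∈ {p : ℂ × Pth × ℝ | 0 < Yf p.2.1 p.2.2 p.1}
  · rw [piecewise_eq_of_mem _ _ _ hp]
  · rw [piecewise_eq_of_notMem _ _ _ hp, ← Zf_max]
    refine Zf_dead (le_max_right _ _) fun h => hp ?_
    rw [mem_ofPred_eq, ← flowM_Yf_max]
    exact (hC.alive _ _ _ (le_max_right _ _)).1 h

theorem flowM_int {f : ℂ × Pth × ℝ → ℝ} (hf : Measurable f) :
    Measurable fun p : ℂ × Pth × ℝ => ∫ u in (0 : ℝ)..(max p.2.2 0), f (p.1, p.2.1, u) := by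
  have hS : MeasurableSet {q : (ℂ × Pth × ℝ) × ℝ | 0 < q.2 ∧ q.2 ≤ max q.1.2.2 0} :=
    (measurableSet_lt measurable_const measurable_snd).inter
      (measurableSet_le measurable_snd (by fun_prop))
  have h1 : Measurable fun q : (ℂ × Pth × ℝ) × ℝ => f (q.1.1, q.1.2.1, q.2) :=
    hf.comp (by fun_prop)
  have h2 := ((h1.indicator hS).stronglyMeasurable.integral_prod_right'
    (ν := (volume : Measure ℝ))).measurable
  convert h2 using 1
  funext p
  rw [intervalIntegral.integral_of_le (le_max_right _ _), ← integral_indicator measurableSet_Ioc]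
  rfl

theorem flowM (h0 : Flow0Stmt) (hC : FlowCStmt) (_hA : FlowAStmt) : FlowMStmt := by
  have hZ := flowM_Z h0 hC
  have hX : Measurable fun p : ℂ × Pth × ℝ => Xf p.2.1 p.2.2 p.1 := Complex.measurable_re.comp hZ
  have hY : Measurable fun p : ℂ × Pth × ℝ => Yf p.2.1 p.2.2 p.1 := Complex.measurable_im.comp hZ
  have hR : Measurable fun p : ℂ × Pth × ℝ => Rf p.2.1 p.2.2 p.1 := hZ.norm
  refine ⟨hZ, ?_, hX, hY, hR, hY.div hR, fun W t ht => ?_, fun W t ht w hw => ?_⟩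
  · have h1 := flowM_int (((hY.pow_const 2).const_mul 4).div (hR.pow_const 4))
    have h2 : MeasurableSet {p : ℂ × Pth × ℝ | p.1 ∈ dom p.2.1 (max p.2.2 0)} := by
      convert (flowM_open h0 hC).measurableSet using 1
      ext p
      rw [mem_ofPred_eq, mem_ofPred_eq, hC.alive _ _ _ (le_max_right _ _), flowM_Yf_max]
    unfold Up
    exact Measurable.ite h2 ((Complex.measurable_im.comp measurable_fst).mul h1.neg.exp)
      measurable_const
  · have h1 := (flowM_open h0 hC).preimage (f := fun w : ℂ => (w, W, t)) (by fun_prop)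
    convert h1 using 1
    ext w
    exact hC.alive W t w ht
  · have h1 := flowM_cont h0 hC (w, W, t) ((hC.alive W t w ht).1 hw)
    exact (ContinuousAt.comp (f := fun w : ℂ => (w, W, t)) h1 (by fun_prop)).continuousWithinAt

end Vale.Agent.P164
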