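import Vale.Agent.P164.Stm

/-! Elementary properties of the gauge function. -/

open Set Filter Topology

namespace Vale.Agent.P164

theorem gauge_min_pos {r : ℝ} (hr : 0 < r) : 0 < min r (1 / 16) := lt_min hr (by norm_num)

theorem gauge_log_ge {r : ℝ} (hr : 0 < r) : Real.exp 1 ≤ Real.log (1 / min r (1 / 16)) := by
  have h1 : (2 : ℝ) ^ 4 ≤ 1 / min r (1 / 16) := by
    rw [le_div_iff₀ (gauge_min_pos hr)]
    linarith [min_le_right r (1 / 16)]
  have h2 := Real.log_le_log (by norm_num) h1
  rw [Real.log_pow] at h2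
  have h3 := Real.log_two_gt_d9
  have h4 := Real.exp_one_lt_d9
  push_cast at h2
  linarith

theorem gauge_log_one {r : ℝ} (hr : 0 < r) : 1 ≤ Real.log (1 / min r (1 / 16)) :=
  (Real.one_le_exp zero_le_one).trans (gauge_log_ge hr)

theorem gauge_one_le {r : ℝ} (hr : 0 < r) : 1 ≤ LL r := by
  have := Real.log_le_log (Real.exp_pos 1) (gauge_log_ge hr)
  rwa [Real.log_exp] at this

theorem gauge_anti : AntitoneOn LL (Ioi 0) := by
  intro r hr s hs h
  refine Real.log_le_log (by linarith [gauge_log_one hs]) (Real.log_le_log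
    (one_div_pos.2 (gauge_min_pos hs)) ?_)
  exact one_div_le_one_div_of_le (gauge_min_pos hr) (min_le_min_right _ h)

theorem gauge_mul_mono {r s : ℝ} (hr : 0 < r) (h : r ≤ s) : r * LL r ≤ s * LL s := by
  have hs : 0 < s := hr.trans_le h
  obtain ⟨A, hA⟩ : ∃ A, A = s / r := ⟨_, rfl⟩
  have hA1 : 1 ≤ A := hA ▸ (one_le_div hr).2 h
  have hAs : s = A * r := by rw [hA]; field_simp
  have a0 := gauge_min_pos hr
  have b0 := gauge_min_pos hs
  have h1 : 1 / min r (1 / 16) ≤ A * (1 / min s (1 / 16)) := by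
    rw [mul_one_div, div_le_div_iff₀ a0 b0, one_mul, mul_min_of_nonneg _ _ (by linarith), ← hAs]
    exact min_le_min_left _ (by linarith)
  have h2 := Real.log_le_log (one_div_pos.2 a0) h1
  rw [Real.log_mul (by linarith) (one_div_pos.2 b0).ne'] at h2
  have h3 := Real.log_le_sub_one_of_pos (show 0 < A by linarith)
  have h4 := gauge_log_one hs
  have h5 : Real.log (1 / min r (1 / 16)) ≤ A * Real.log (1 / min s (1 / 16)) := by nlinarith
  have h6 := Real.log_le_log (by linarith [gauge_log_one hr]) h5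
  rw [Real.log_mul (by linarith) (by linarith)] at h6
  have h7 := gauge_one_le hs
  have h8 : LL r ≤ A * LL s := by
    unfold LL at h7 ⊢
    nlinarith
  calc r * LL r ≤ r * (A * LL s) := by gcongr
    _ = s * LL s := by rw [← mul_assoc, mul_comm r A, ← hAs]

theorem gauge_alt (κ : ℝ) {r : ℝ} (hr : 0 < r) :
    gauge κ r = r ^ (dd κ - (2 - dd κ) / 2) * (r * LL r) ^ ((2 - dd κ) / 2) := by
  rw [gauge_eq, Real.mul_rpow hr.le (by linarith [gauge_one_le hr]), ← mul_assoc,
    ← Real.rpow_add hr, sub_add_cancel]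

theorem gauge_zero {κ : ℝ} (h : 0 < κ) : gauge κ 0 = 0 := by
  rw [gauge_eq, Real.zero_rpow (by linarith [one_lt_dd h]), zero_mul]

theorem gauge_pos (κ : ℝ) {r : ℝ} (hr : 0 < r) : 0 < gauge κ r := by
  have := gauge_one_le hr
  rw [gauge_eq]; positivity

theorem gauge_isGauge {κ : ℝ} (h : 0 < κ) (h8 : κ < 8) : IsGauge (gauge κ) := by
  have d1 := one_lt_dd h
  have d2 := dd_lt_two h8
  have e0 : 0 ≤ (2 - dd κ) / 2 := by linarith
  have e1 : 0 < dd κ - (2 - dd κ) / 2 := by linarith
  refine ⟨fun r hr => ?_, fun r hr s _ hrs => ?_, gauge_zero h, fun r => gauge_pos κ⟩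
  · rcases (mem_Ici.1 hr).eq_or_lt with rfl | hr
    · rw [← continuousWithinAt_Ioi_iff_Ici, ContinuousWithinAt, gauge_zero h]
      have h1 : Tendsto (fun r : ℝ => r ^ (dd κ - (2 - dd κ) / 2) * (1 * LL 1) ^ ((2 - dd κ) / 2))
          (𝓝[>] 0) (𝓝 0) := by
        have := ((Real.continuousAt_rpow_const 0 _ (Or.inr e1.le)).tendsto.mul_const
          ((1 * LL 1) ^ ((2 - dd κ) / 2))).mono_left (nhdsWithin_le_nhds (s := Ioi 0))
        rwa [Real.zero_rpow e1.ne', zero_mul] at this
      refine squeeze_zero' ?_ ?_ h1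
      · filter_upwards [self_mem_nhdsWithin] with r hr using (gauge_pos κ hr).le
      · filter_upwards [Ioo_mem_nhdsGT zero_lt_one] with r hr
        have h2 := gauge_mul_mono hr.1 hr.2.le
        have h3 := gauge_one_le hr.1
        have h4 := hr.1
        rw [gauge_alt κ hr.1]
        gcongr
    · refine ContinuousAt.continuousWithinAt ?_
      have h1 : ContinuousAt (fun r : ℝ => 1 / min r (1 / 16)) r :=
        continuousAt_const.div (by fun_prop) (gauge_min_pos hr).ne'
      have h2 : ContinuousAt LL r := (h1.log (one_div_pos.2 (gauge_min_pos hr)).ne').log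
        (by linarith [gauge_log_one hr])
      exact (continuousAt_id.rpow_const (Or.inl hr.ne')).mul (h2.rpow_const (Or.inr e0))
  · rcases (mem_Ici.1 hr).eq_or_lt with rfl | hr
    · rcases hrs.eq_or_lt with rfl | hs
      · exact le_rfl
      · rw [gauge_zero h]; exact (gauge_pos κ hs).le
    · have h2 := gauge_mul_mono hr hrs
      have h3 := gauge_one_le hr
      have h4 := hr.trans_le hrs
      rw [gauge_alt κ hr, gauge_alt κ h4]
      gcongr

theorem gaugeS : GaugeStmt where
  isGauge _ := gauge_isGauge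
  LL_eq r hr := by rw [LL, min_eq_left hr]
  one_le _ := gauge_one_le
  anti := gauge_anti
  scale κ A r h h8 hA hr := by
    rcases hr.eq_or_lt with rfl | hr
    · rw [mul_zero, gauge_zero h, mul_zero]
    have h1 : r ≤ A * r := le_mul_of_one_le_left hr.le hA
    have h2 := gauge_anti hr (hr.trans_le h1) h1
    have h3 := gauge_one_le (hr.trans_le h1)
    have d2 := dd_lt_two h8
    rw [gauge_eq, gauge_eq, Real.mul_rpow (by linarith) hr.le, mul_assoc]
    gcongr

end Vale.Agent.P164
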