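import Vale.Agent.P164.Stm

open Set MeasureTheory ProbabilityTheory Metric
open scoped ENNReal NNReal

namespace Vale.Agent.P164

theorem hitDP_step (hA : FlowAStmt) {V : Pth} {z : ℂ} {ρ δ t t' : ℝ} (hρ : 0 < ρ) (hδ : 0 < δ)
    (ht : 0 ≤ t) (h1 : t ≤ t') (h2 : t' ≤ t + δ ^ 2 / 16) (hU : ρ < Up V t z)
    (hY : δ < Yf V t z) : ρ / 2 ≤ Up V t' z := by
  have h3 := hA.Y_sq V z t t' ht h1
  have h4 : δ ^ 2 < Yf V t z ^ 2 := pow_lt_pow_left₀ hY hδ.le two_ne_zero
  have h5 : 0 < δ ^ 2 := by positivity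
  have h6 : 0 < Yf V t' z ^ 2 := by linarith
  have h7 : 0 < Yf V t' z :=
    lt_of_le_of_ne (hA.Y_nonneg V t' z) fun h => by simp [← h] at h6
  have h8 := hA.Up_ge V z t t' ht h1 ((hA.alive V t' z (ht.trans h1)).2 h7)
  have h9 : 4 * (t' - t) / Yf V t' z ^ 2 ≤ 1 / 2 := by
    rw [div_le_iff₀ h6]
    linarith
  have h10 := Real.add_one_le_exp (-(4 * (t' - t) / Yf V t' z ^ 2))
  calc ρ / 2 = ρ * (1 / 2) := by ring
    _ ≤ _ := mul_le_mul hU.le (by linarith) (by norm_num) (by linarith)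
    _ ≤ _ := h8

theorem hitDP (hC : CatStmt) (hA : FlowAStmt) : HitDPStmt := by
  intro κ μ hμ N F z ρ δ a b V0 hN hF hρ hδ ha hab h h0
  have hτ : 0 < δ ^ 2 / 16 := by positivity
  have key : ∀ k : ℕ, ∀ t ∈ Icc a b, b - t ≤ k * (δ ^ 2 / 16) → ∀ V : Pth,
      EqOn V V0 (Icc 0 a) → ρ / 2 ≤ Up V t z → CE μ t V F ≤ N t V := by
    intro k
    induction k with
    | zero =>
      intro t ht hk V hV hU
      exact h t ht V hV hU (Or.inr (Or.inr (le_antisymm ht.2 (by simpa using hk))))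
    | succ k ih =>
      intro t ht hk V hV hU
      by_cases hc : Up V t z ≤ ρ ∨ Yf V t z ≤ δ
      · exact h t ht V hV hU (by tauto)
      push Not at hc
      have ht0 : 0 ≤ t := ha.trans ht.1
      set t' := min (t + δ ^ 2 / 16) b with ht'
      have h1 : t ≤ t' := le_min (by linarith) ht.2
      have h2 : b - t' ≤ k * (δ ^ 2 / 16) := by
        push_cast at hk
        rcases min_choice (t + δ ^ 2 / 16) b with e | e <;> rw [ht', e]
        · linarith
        · rw [sub_self]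
          positivity
      have h3 := hN.2 t (t' - t) V ht0 (by linarith)
      rw [add_sub_cancel] at h3
      rw [hC.tower κ μ hμ t t' V F h1 hF]
      refine le_trans (lintegral_mono fun W => ?_) h3
      have h4 := (hA.loc _ _ t (cat_eqOn t V W) t ⟨ht0, le_rfl⟩).2 z
      refine ih t' ⟨ht.1.trans h1, min_le_right _ _⟩ h2 _
        (((cat_eqOn t V W).mono (Icc_subset_Icc_right ht.1)).trans hV)
        (hitDP_step hA hρ hδ ht0 h1 (min_le_left _ _) (h4.2.1 ▸ hc.1) ?_)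
      rw [Yf, h4.1]
      exact hc.2
  obtain ⟨k, hk⟩ := exists_nat_ge ((b - a) / (δ ^ 2 / 16))
  exact key k a ⟨le_rfl, hab⟩ ((div_le_iff₀ hτ).1 hk) V0 (fun _ _ => rfl) h0

end Vale.Agent.P164
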