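import Vale.Agent.P164.Stm

/-! Moments of an increment against the past. -/

open Set MeasureTheory ProbabilityTheory Metric Filter
open scoped ENNReal NNReal

namespace Vale.Agent.P164

theorem inc_int (v : ℝ≥0) (k : ℕ) : Integrable (fun x : ℝ => x ^ k) (gaussianReal 0 v) :=
  integrable_pow_of_mem_interior_integrableExpSet (X := fun x : ℝ => x) (by simp) k

theorem inc_two (v : ℝ≥0) : ∫ z, z ^ 2 ∂gaussianReal 0 v = v := by
  rw [← variance_id_gaussianReal (μ := 0) (v := v),
    variance_of_integral_eq_zero aemeasurable_id integral_id_gaussianReal]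
  rfl

theorem inc_four_one : ∫ z, z ^ 4 ∂gaussianReal 0 1 ≤ 100 := by
  have e : ∀ t : ℝ, ∫ z, Real.exp (t * z) ∂gaussianReal 0 1 = Real.exp (t ^ 2 / 2) := by
    intro t
    have h := congrFun (mgf_fun_id_gaussianReal (μ := 0) (v := 1)) t
    simpa [mgf] using h
  have i1 := integrable_exp_mul_gaussianReal (μ := 0) (v := 1) 1
  have i2 := integrable_exp_mul_gaussianReal (μ := 0) (v := 1) (-1)
  have h1 : ∫ z, z ^ 4 ∂gaussianReal 0 1 ≤
      ∫ z, 24 * (Real.exp (1 * z) + Real.exp (-1 * z)) ∂gaussianReal 0 1 := by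
    refine integral_mono (inc_int 1 4) ((i1.add i2).const_mul 24) fun z => ?_
    have h2 := Real.pow_div_factorial_le_exp |z| (abs_nonneg z) 4
    have h3 : |z| ^ 4 = z ^ 4 := Even.pow_abs (by decide) z
    have h4 : Real.exp |z| ≤ Real.exp (1 * z) + Real.exp (-1 * z) := by
      rw [one_mul, neg_one_mul]
      rcases abs_cases z with h | h <;> rw [h.1] <;>
        linarith [Real.exp_pos z, Real.exp_pos (-z)]
    rw [h3] at h2
    norm_num [Nat.factorial] at h2
    simp only
    linarith
  rw [integral_const_mul, integral_add i1 i2, e, e] at h1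
  have h5 := Real.exp_bound_div_one_sub_of_interval (x := 1 / 2) (by norm_num) (by norm_num)
  norm_num at h1 h5
  linarith

theorem inc_four (v : ℝ≥0) : ∫ z, z ^ 4 ∂gaussianReal 0 v ≤ 100 * (v : ℝ) ^ 2 := by
  have h1 : gaussianReal 0 v = (gaussianReal 0 1).map (√v * ·) := by
    rw [gaussianReal_map_const_mul, mul_zero]
    congr 1
    ext
    simp
  rw [h1, integral_map (by fun_prop) (by fun_prop)]
  have h2 : (√v) ^ 4 = (v : ℝ) ^ 2 := by
    rw [show 4 = 2 * 2 from rfl, pow_mul, Real.sq_sqrt v.coe_nonneg]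
  simp only [mul_pow, h2]
  rw [integral_const_mul, mul_comm]
  exact mul_le_mul_of_nonneg_right inc_four_one (sq_nonneg _)

variable {κ : ℝ} {μ : Measure Pth} {s u h : ℝ} {V : Pth}

theorem inc_meas (s u h : ℝ) (V : Pth) :
    Measurable fun W => cat s V W (u + h) - cat s V W u :=
  ((measurable_ev _).comp (measurable_cat_right s V)).sub
    ((measurable_ev _).comp (measurable_cat_right s V))

theorem inc_cat (hsu : s ≤ u) (V W W' : Pth) :
    cat s V (cat (u - s) W W') = cat u (cat s V W) W' := by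
  rw [cat_cat (sub_nonneg.2 hsu), add_sub_cancel]

theorem inc_val (hsu : s ≤ u) (hh : 0 ≤ h) (V W W' : Pth) :
    cat s V (cat (u - s) W W') (u + h) - cat s V (cat (u - s) W W') u = W' h - W' 0 := by
  rw [inc_cat hsu, cat_add _ _ hh, cat_of_le _ W' le_rfl, add_sub_cancel_left]

theorem inc_law (hμ : Wie κ μ) (hsu : s ≤ u) (hh : 0 ≤ h) (V : Pth) :
    μ.map (fun W => cat s V W (u + h) - cat s V W u) = gaussianReal 0 (κ * h).toNNReal := by
  have := hμ.prob
  have h3 : Measurable fun W : Pth => W h - W 0 := (measurable_ev h).sub (measurable_ev 0)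
  have h1 : (fun W => cat s V W (u + h) - cat s V W u) ∘
      (fun p : Pth × Pth => cat (u - s) p.1 p.2) = (fun W : Pth => W h - W 0) ∘ Prod.snd :=
    funext fun p => inc_val hsu hh V p.1 p.2
  rw [← hμ.law h hh]
  conv_lhs => rw [← hμ.cat (u - s) (sub_nonneg.2 hsu)]
  rw [Measure.map_map (inc_meas s u h V) (measurable_cat _), h1,
    ← Measure.map_map h3 measurable_snd, Measure.map_snd_prod, measure_univ, one_smul]

theorem inc_prod (hμ : Wie κ μ) (hsu : s ≤ u) (hh : 0 ≤ h) (V : Pth) {G : Pth → ℝ}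
    (hG : Measurable G) (hl : ∀ W W' : Pth, EqOn W W' (Icc 0 u) → G W = G W') {φ : ℝ → ℝ}
    (hφ : Measurable φ) :
    ∫ W, G (cat s V W) * φ (cat s V W (u + h) - cat s V W u) ∂μ =
      (∫ W, G (cat s V W) ∂μ) * ∫ z, φ z ∂gaussianReal 0 (κ * h).toNNReal := by
  have := hμ.prob
  have h3 : Measurable fun W : Pth => W h - W 0 := (measurable_ev h).sub (measurable_ev 0)
  have h4 : Measurable fun W => G (cat s V W) * φ (cat s V W (u + h) - cat s V W u) :=
    (hG.comp (measurable_cat_right s V)).mul (hφ.comp (inc_meas s u h V))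
  rw [← hμ.law h hh, integral_map h3.aemeasurable hφ.aestronglyMeasurable, ← integral_prod_mul]
  conv_lhs => rw [← hμ.cat (u - s) (sub_nonneg.2 hsu)]
  rw [integral_map (measurable_cat _).aemeasurable h4.aestronglyMeasurable]
  refine integral_congr_ae (Eventually.of_forall fun p => ?_)
  simp only
  rw [inc_val hsu hh, inc_cat hsu, hl _ _ (cat_eqOn u _ _)]

theorem inc : IncStmt := by
  intro κ μ hκ hμ s u h V _ hsu hh
  have hD := inc_meas s u h V
  have hv : (((κ * h).toNNReal : ℝ≥0) : ℝ) = κ * h := Real.coe_toNNReal _ (by positivity)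
  have hI : ∀ k : ℕ, ∫ W, (cat s V W (u + h) - cat s V W u) ^ k ∂μ =
      ∫ z, z ^ k ∂gaussianReal 0 (κ * h).toNNReal := by
    intro k
    rw [← inc_law hμ hsu hh V, integral_map hD.aemeasurable (by fun_prop)]
  refine ⟨fun k => ?_, ?_, ?_, fun G hG _ hl => ⟨?_, ?_⟩⟩
  · have h1 := inc_int (κ * h).toNNReal k
    rw [← inc_law hμ hsu hh V] at h1
    exact h1.comp_measurable hD
  · rw [hI, inc_two, hv]
  · rw [hI]
    exact (inc_four _).trans_eq (by rw [hv])
  · rw [inc_prod hμ hsu hh V hG hl (φ := fun z => z) measurable_id, integral_id_gaussianReal,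
      mul_zero]
  · rw [inc_prod hμ hsu hh V hG hl (φ := fun z => z ^ 2 - κ * h) (by fun_prop),
      integral_sub (inc_int _ 2) (integrable_const _), inc_two, hv]
    simp

end Vale.Agent.P164
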