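import Vale.Agent.P164.Stm

/-! Elementary integrals in the plane. -/

open Set MeasureTheory ProbabilityTheory Metric
open scoped ENNReal NNReal

namespace Vale.Agent.P164

theorem int_rad {F : ℝ → ℝ≥0∞} (hF : Measurable F) :
    ∫⁻ ζ : ℂ, F ‖ζ‖ = ENNReal.ofReal (2 * Real.pi) * ∫⁻ r in Ioi (0 : ℝ), ENNReal.ofReal r * F r := by
  rw [← Complex.lintegral_comp_polarCoord_symm, polarCoord_target,
    setLIntegral_congr_fun (g := fun p : ℝ × ℝ => ENNReal.ofReal p.1 * F p.1 * 1)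
      (measurableSet_Ioi.prod measurableSet_Ioo) (fun p hp => by
        simp only [smul_eq_mul, Complex.norm_polarCoord_symm, mul_one, abs_of_pos (mem_Ioi.1 hp.1)]),
    Measure.volume_eq_prod, ← Measure.prod_restrict,
    lintegral_prod_mul (f := fun r : ℝ => ENNReal.ofReal r * F r) (g := fun _ => 1)
      (measurable_id.ennreal_ofReal.mul hF).aemeasurable aemeasurable_const, mul_comm]
  congr 1
  simp only [lintegral_const, one_mul, MeasurableSet.univ, Measure.restrict_apply, univ_inter,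
    Real.volume_Ioo]
  congr 1; ring

theorem int_rad_set {F : ℝ → ℝ≥0∞} (hF : Measurable F) {S : Set ℝ} (hS : MeasurableSet S) :
    ∫⁻ ζ in {ζ : ℂ | ‖ζ‖ ∈ S}, F ‖ζ‖ =
      ENNReal.ofReal (2 * Real.pi) * ∫⁻ r in S ∩ Ioi (0 : ℝ), ENNReal.ofReal r * F r := by
  have hS' : MeasurableSet {ζ : ℂ | ‖ζ‖ ∈ S} := measurable_norm hS
  rw [← lintegral_indicator hS', ← Measure.restrict_restrict hS,
    ← lintegral_indicator hS]
  have := int_rad (hF.indicator hS)
  have e : ∀ r, ENNReal.ofReal r * S.indicator F r =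
      S.indicator (fun r => ENNReal.ofReal r * F r) r := fun r => by
    by_cases h : r ∈ S <;> simp [h]
  simp only [e] at this
  exact this

theorem int_cart {G : ℝ → ℝ≥0∞} (hG : Measurable G) {S : Set ℝ} (hS : MeasurableSet S)
    {w : ℝ → ℝ} (hw : Measurable w) (x : ℝ) :
    ∫⁻ ζ in {ζ : ℂ | ζ.im ∈ S ∧ |ζ.re - x| ≤ w ζ.im}, G ζ.im =
      ∫⁻ y in S, ENNReal.ofReal (2 * w y) * G y := by
  have hT : MeasurableSet {p : ℝ × ℝ | p.2 ∈ S ∧ |p.1 - x| ≤ w p.2} :=
    (measurable_snd hS).inter (measurableSet_le (by fun_prop) (hw.comp measurable_snd))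
  have hΦ : Measurable ({p : ℝ × ℝ | p.2 ∈ S ∧ |p.1 - x| ≤ w p.2}.indicator fun p => G p.2) :=
    (hG.comp measurable_snd).indicator hT
  have h1 := Complex.volume_preserving_equiv_real_prod.lintegral_comp hΦ
  have hT' : MeasurableSet {ζ : ℂ | ζ.im ∈ S ∧ |ζ.re - x| ≤ w ζ.im} :=
    Complex.measurableEquivRealProd.measurable hT
  rw [← lintegral_indicator hT', ← lintegral_indicator hS]
  refine Eq.trans h1 ?_
  rw [Measure.volume_eq_prod, lintegral_prod_symm _ hΦ.aemeasurable]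
  refine lintegral_congr fun y => ?_
  by_cases hy : y ∈ S
  · have : (fun r : ℝ => {p : ℝ × ℝ | p.2 ∈ S ∧ |p.1 - x| ≤ w p.2}.indicator (fun p => G p.2) (r, y))
        = (closedBall x (w y)).indicator fun _ => G y := by
      funext r
      by_cases h : |r - x| ≤ w y
      · rw [indicator_of_mem (show (r, y) ∈ {p : ℝ × ℝ | p.2 ∈ S ∧ |p.1 - x| ≤ w p.2} from ⟨hy, h⟩),
          indicator_of_mem (show r ∈ closedBall x (w y) from h)]
      · rw [indicator_of_notMem (show (r, y) ∉ {p : ℝ × ℝ | p.2 ∈ S ∧ |p.1 - x| ≤ w p.2} from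
          fun h' => h h'.2), indicator_of_notMem (show r ∉ closedBall x (w y) from h)]
    rw [this, lintegral_indicator measurableSet_closedBall, setLIntegral_const,
      Real.volume_closedBall, indicator_of_mem hy, mul_comm]
  · simp [hy]

theorem int_rpow {s R : ℝ} (hs : -1 < s) (hR : 0 < R) :
    ∫⁻ r in Ioc 0 R, ENNReal.ofReal (r ^ s) = ENNReal.ofReal (R ^ (s + 1) / (s + 1)) := by
  rw [← ofReal_integral_eq_lintegral_ofReal
    (intervalIntegral.intervalIntegrable_rpow' hs (a := 0) (b := R)).1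
    ((ae_restrict_iff' measurableSet_Ioc).2 (Filter.Eventually.of_forall fun r hr =>
      Real.rpow_nonneg hr.1.le _)), ← intervalIntegral.integral_of_le hR.le,
    integral_rpow (Or.inl hs), Real.zero_rpow (by linarith), sub_zero]

theorem int_small (γ : ℝ) (hγ : 0 < γ) : ∃ C : ℝ, 0 < C ∧ ∀ R : ℝ, 0 < R →
    ∫⁻ ζ in ball (0 : ℂ) R, ENNReal.ofReal (‖ζ‖ ^ (γ - 2)) ≤ ENNReal.ofReal (C * R ^ γ) := by
  have := Real.pi_pos
  refine ⟨2 * Real.pi / γ, by positivity, fun R hR => ?_⟩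
  have e : ball (0 : ℂ) R = {ζ : ℂ | ‖ζ‖ ∈ Iio R} := by ext; simp
  rw [e, int_rad_set (F := fun r => ENNReal.ofReal (r ^ (γ - 2)))
    (measurable_id.pow_const _).ennreal_ofReal measurableSet_Iio]
  calc _ ≤ ENNReal.ofReal (2 * Real.pi) * ∫⁻ r in Ioc 0 R, ENNReal.ofReal (r ^ (γ - 1)) := by
        apply mul_le_mul_right
        refine le_trans (lintegral_mono_set fun r hr => (⟨hr.2, le_of_lt hr.1⟩ : r ∈ Ioc 0 R))
          (setLIntegral_mono' measurableSet_Ioc fun r hr => le_of_eq ?_)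
        rw [← ENNReal.ofReal_mul hr.1.le, mul_comm, ← Real.rpow_add_one hr.1.ne']
        congr 2; ring
    _ = _ := by
        rw [int_rpow (by linarith) hR, ← ENNReal.ofReal_mul (by positivity), sub_add_cancel]
        congr 1; ring

theorem int_large : ∃ C : ℝ, 0 < C ∧ ∀ R : ℝ, 0 < R →
    ∫⁻ ζ in {ζ : ℂ | R ≤ ‖ζ‖}, ENNReal.ofReal (1 / ‖ζ‖ ^ 3) ≤ ENNReal.ofReal (C / R) := by
  have := Real.pi_pos
  refine ⟨2 * Real.pi, by positivity, fun R hR => ?_⟩
  have e := int_rad_set (F := fun r => ENNReal.ofReal (1 / r ^ 3))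
    (by fun_prop) (measurableSet_Ici (a := R))
  refine (le_of_eq e).trans ?_
  have h1 : ∫⁻ r in Ioi R, ENNReal.ofReal (r ^ (-2 : ℝ)) = ENNReal.ofReal (1 / R) := by
    rw [← ofReal_integral_eq_lintegral_ofReal (integrableOn_Ioi_rpow_of_lt (by norm_num) hR)
      ((ae_restrict_iff' measurableSet_Ioi).2 (Filter.Eventually.of_forall fun r hr =>
        Real.rpow_nonneg (hR.trans hr).le _)), integral_Ioi_rpow_of_lt (by norm_num) hR]
    congr 1
    rw [show (-2 : ℝ) + 1 = -1 by norm_num, Real.rpow_neg_one]; ring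
  calc _ ≤ ENNReal.ofReal (2 * Real.pi) * ∫⁻ r in Ioi R, ENNReal.ofReal (r ^ (-2 : ℝ)) := by
        apply mul_le_mul_right
        rw [← setLIntegral_congr (Ioi_ae_eq_Ici (a := R)).symm]
        refine le_trans (lintegral_mono_set inter_subset_left)
          (setLIntegral_mono' measurableSet_Ici fun r hr => le_of_eq ?_)
        have r0 : 0 < r := hR.trans_le hr
        rw [← ENNReal.ofReal_mul r0.le, Real.rpow_neg r0.le, Real.rpow_two]
        congr 1; field_simp
    _ = _ := by rw [h1, ← ENNReal.ofReal_mul (by positivity)]; congr 1; ring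

theorem int_tent (α x H : ℝ) (hα : 0 < α) (hH : 0 < H) :
    ∫⁻ ζ in {ζ : ℂ | 0 < ζ.im ∧ ζ.im ≤ H ∧ |ζ.re - x| ≤ 2 * ζ.im},
      ENNReal.ofReal ((ζ.im / H) ^ α / ζ.im ^ 2) ≤ ENNReal.ofReal (4 / α) := by
  have e : {ζ : ℂ | 0 < ζ.im ∧ ζ.im ≤ H ∧ |ζ.re - x| ≤ 2 * ζ.im} =
      {ζ : ℂ | ζ.im ∈ Ioc 0 H ∧ |ζ.re - x| ≤ 2 * ζ.im} := by
    ext; simp only [mem_ofPred_eq, mem_Ioc, and_assoc]
  rw [e, int_cart (G := fun y => ENNReal.ofReal ((y / H) ^ α / y ^ 2)) (w := fun y => 2 * y)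
    (by fun_prop) measurableSet_Ioc (by fun_prop)]
  have h0 : 0 < H ^ α := by positivity
  calc _ = ∫⁻ y in Ioc 0 H, ENNReal.ofReal (4 / H ^ α) * ENNReal.ofReal (y ^ (α - 1)) := by
        refine setLIntegral_congr_fun measurableSet_Ioc fun y hy => ?_
        have y0 := hy.1
        rw [← ENNReal.ofReal_mul (by positivity), ← ENNReal.ofReal_mul (by positivity),
          Real.div_rpow y0.le hH.le, Real.rpow_sub_one y0.ne']
        congr 1; field_simp; ring
    _ ≤ _ := by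
        rw [lintegral_const_mul' _ _ ENNReal.ofReal_ne_top, int_rpow (by linarith) hH,
          ← ENNReal.ofReal_mul (by positivity), sub_add_cancel]
        apply le_of_eq; congr 1; field_simp

theorem int_expo (c : ℝ) (hc : 0 < c) : ∃ C : ℝ, 0 < C ∧ ∀ (ℓ : ℝ) (w0 : ℂ), 0 < ℓ →
    ∫⁻ w : ℂ, ENNReal.ofReal (Real.exp (-(c * ‖w - w0‖ / ℓ))) ≤ ENNReal.ofReal (C * ℓ ^ 2) := by
  have := Real.pi_pos
  refine ⟨2 * Real.pi * (4 / c ^ 2), by positivity, fun ℓ w0 hℓ => ?_⟩
  rw [lintegral_sub_right_eq_self (fun w : ℂ => ENNReal.ofReal (Real.exp (-(c * ‖w‖ / ℓ)))) w0,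
    int_rad (F := fun r => ENNReal.ofReal (Real.exp (-(c * r / ℓ)))) (by fun_prop)]
  set b := c / (2 * ℓ) with hb
  have b0 : 0 < b := by positivity
  have h1 : ∫⁻ r in Ioi (0 : ℝ), ENNReal.ofReal (Real.exp (-b * r)) = ENNReal.ofReal (1 / b) := by
    rw [← ofReal_integral_eq_lintegral_ofReal (integrableOn_exp_mul_Ioi (by linarith) 0)
      (Filter.Eventually.of_forall fun r => (Real.exp_pos _).le),
      integral_exp_mul_Ioi (by linarith)]
    congr 1; simp
  calc _ ≤ ENNReal.ofReal (2 * Real.pi) * ∫⁻ r in Ioi (0 : ℝ),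
        ENNReal.ofReal (1 / b) * ENNReal.ofReal (Real.exp (-b * r)) := by
        apply mul_le_mul_right
        refine setLIntegral_mono' measurableSet_Ioi fun r hr => ?_
        rw [← ENNReal.ofReal_mul (le_of_lt hr), ← ENNReal.ofReal_mul (by positivity)]
        apply ENNReal.ofReal_le_ofReal
        have h2 : b * r ≤ Real.exp (b * r) := by linarith [Real.add_one_le_exp (b * r)]
        have h3 : Real.exp (-b * r) = Real.exp (b * r) * Real.exp (-(c * r / ℓ)) := by
          rw [← Real.exp_add]; congr 1; rw [hb]; field_simp; ring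
        rw [h3, ← mul_assoc]
        apply mul_le_mul_of_nonneg_right _ (Real.exp_pos _).le
        rw [one_div, ← div_eq_inv_mul, le_div_iff₀ b0]; linarith
    _ = _ := by
        rw [lintegral_const_mul' _ _ ENNReal.ofReal_ne_top, h1,
          ← ENNReal.ofReal_mul (by positivity), ← ENNReal.ofReal_mul (by positivity)]
        congr 1; rw [hb]; field_simp; ring

theorem int_strip (a R ρ : ℝ) (ha1 : a < 1) (hR : 0 < R) (hρ : 0 < ρ) :
    ∫⁻ w in {w : ℂ | ‖w‖ < R ∧ 0 < w.im ∧ w.im < ρ}, ENNReal.ofReal (w.im ^ (-a)) ≤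
      ENNReal.ofReal (2 * R * ρ ^ (1 - a) / (1 - a)) := by
  refine (lintegral_mono_set (t := {ζ : ℂ | ζ.im ∈ Ioc 0 ρ ∧ |ζ.re - 0| ≤ R}) fun w hw =>
    ⟨⟨hw.2.1, hw.2.2.le⟩, by rw [sub_zero]; exact (Complex.abs_re_le_norm w).trans hw.1.le⟩).trans ?_
  rw [int_cart (G := fun y => ENNReal.ofReal (y ^ (-a))) (w := fun _ => R)
    (measurable_id.pow_const _).ennreal_ofReal measurableSet_Ioc measurable_const,
    lintegral_const_mul' _ _ ENNReal.ofReal_ne_top, int_rpow (by linarith) hρ,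
    ← ENNReal.ofReal_mul (by positivity), neg_add_eq_sub, mul_div_assoc]

theorem int_strip0 (R ρ : ℝ) (hR : 0 < R) :
    volume {w : ℂ | ‖w‖ < R ∧ |w.im| ≤ ρ} ≤ ENNReal.ofReal (4 * R * ρ) := by
  refine (measure_mono (t := {ζ : ℂ | ζ.im ∈ closedBall 0 ρ ∧ |ζ.re - 0| ≤ R}) fun w hw =>
    ⟨by simpa using hw.2,
      by rw [sub_zero]; exact (Complex.abs_re_le_norm w).trans hw.1.le⟩).trans ?_
  rw [← setLIntegral_one, int_cart (G := fun _ => 1) (w := fun _ => R) measurable_const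
    measurableSet_closedBall measurable_const, setLIntegral_const, Real.volume_closedBall, mul_one,
    ← ENNReal.ofReal_mul (by positivity)]
  apply le_of_eq; congr 1; ring

theorem intS : IntStmt :=
  ⟨int_small, int_large, int_tent, int_expo, fun a R ρ _ h => int_strip a R ρ h,
    fun R ρ h _ => int_strip0 R ρ h⟩

end Vale.Agent.P164
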