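import Vale.Agent.P164.Stm

/-! Nonnegative smooth functionals with nonpositive drift are supermartingales. -/

open Set MeasureTheory ProbabilityTheory Metric Filter Topology
open scoped ENNReal NNReal

namespace Vale.Agent.P164

namespace Ito

theorem y1 (D : ℝ) {η : ℝ} (hη : 0 < η) : |D| ≤ η + D ^ 4 / η ^ 3 := by
  have h0 : 0 ≤ D ^ 4 / η ^ 3 := by positivity
  rcases le_total |D| η with h | h
  · linarith
  · have h1 : η ^ 3 ≤ |D| ^ 3 := by gcongr
    have h2 : |D| ≤ D ^ 4 / η ^ 3 := by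
      rw [le_div_iff₀ (by positivity), ← Even.pow_abs (by decide : Even 4) D]
      calc |D| * η ^ 3 ≤ |D| * |D| ^ 3 := by gcongr
        _ = |D| ^ 4 := by ring
    linarith

theorem y2 (D : ℝ) {c : ℝ} (hc : 0 < c) : D ^ 2 ≤ c + D ^ 4 / c := by
  have h : c + D ^ 4 / c - D ^ 2 = ((D ^ 2 - c) ^ 2 + c * D ^ 2) / c := by
    field_simp; ring
  have h2 : 0 ≤ ((D ^ 2 - c) ^ 2 + c * D ^ 2) / c := by positivity
  linarith

theorem step {Ω : Type} [MeasurableSpace Ω] (μ : Measure Ω) [IsProbabilityMeasure μ]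
    {A0 A1 B : Set Ω} (hA0 : MeasurableSet A0) (hA1 : MeasurableSet A1) (hB : MeasurableSet B)
    (hsub : A1 ⊆ A0) {v0 v1 x y D : Ω → ℝ} {κ h η C : ℝ} (hκ : 0 < κ) (hh : 0 < h) (hη : 0 < η)
    (hC : 0 ≤ C) (i0 : Integrable (A0.indicator v0) μ) (i1 : Integrable (A1.indicator v1) μ)
    (ix : Integrable (fun w => A0.indicator x w * D w) μ)
    (ex : ∫ w, A0.indicator x w * D w ∂μ = 0)
    (iy : Integrable (fun w => A0.indicator y w * (D w ^ 2 - κ * h)) μ)
    (ey : ∫ w, A0.indicator y w * (D w ^ 2 - κ * h) ∂μ = 0)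
    (i2 : Integrable (fun w => D w ^ 2) μ) (e2 : ∫ w, D w ^ 2 ∂μ = κ * h)
    (i4 : Integrable (fun w => D w ^ 4) μ) (e4 : ∫ w, D w ^ 4 ∂μ ≤ 100 * (κ * h) ^ 2)
    (hv0 : ∀ w, 0 ≤ v0 w) (hx : ∀ w ∈ A0, |x w| ≤ C ∧ |y w| ≤ C)
    (he : ∀ w ∈ A1, v1 w - v0 w - x w * D w - y w * (D w ^ 2 - κ * h) ≤ C * (h + D w ^ 2))
    (hb : ∀ w, w ∉ B → v1 w - v0 w - x w * D w - y w * (D w ^ 2 - κ * h) ≤ η * (h + D w ^ 2)) :
    ∫ w, A1.indicator v1 w ∂μ ≤ ∫ w, A0.indicator v0 w ∂μ +
      (μ.real A0 - μ.real A1) * (C * (2 * η + κ * h)) +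
      h * (C * (1 / η ^ 3 + 1 / η) * (100 * κ ^ 2) * h + η * (1 + κ + 100 * C * κ ^ 2) +
        C * (1 + 1 / η) * μ.real B) := by
  set c1 := C * (2 * η + κ * h) with hc1
  set c2 := C * (1 / η ^ 3 + 1 / η) + C * η / h with hc2
  set c3 := C * h * (1 + 1 / η) with hc3
  have j0 : Integrable (A0.indicator fun _ => c1) μ := (integrable_const c1).indicator hA0
  have j1 : Integrable (A1.indicator fun _ => c1) μ := (integrable_const c1).indicator hA1
  have j3 : Integrable (B.indicator fun _ => c3) μ := (integrable_const c3).indicator hB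
  have j4 : Integrable (fun w => c2 * D w ^ 4) μ := i4.const_mul c2
  have j2 : Integrable (fun w => η * D w ^ 2) μ := i2.const_mul η
  have jc : Integrable (fun _ : Ω => η * h) μ := integrable_const _
  have k1 : Integrable (fun w => A0.indicator v0 w + A0.indicator x w * D w) μ := i0.add ix
  have k2 : Integrable (fun w => A0.indicator v0 w + A0.indicator x w * D w +
      A0.indicator y w * (D w ^ 2 - κ * h)) μ := k1.add iy
  have k3 : Integrable (fun w => A0.indicator (fun _ => c1) w - A1.indicator (fun _ => c1) w) μ :=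
    j0.sub j1
  have k4 : Integrable (fun w => c2 * D w ^ 4 + η * D w ^ 2) μ := j4.add j2
  have k5 : Integrable (fun w => η * h + B.indicator (fun _ => c3) w) μ := jc.add j3
  have k6 : Integrable (fun w => c2 * D w ^ 4 + η * D w ^ 2 +
      (η * h + B.indicator (fun _ => c3) w)) μ := k4.add k5
  have k7 : Integrable (fun w => A0.indicator (fun _ => c1) w - A1.indicator (fun _ => c1) w +
      (c2 * D w ^ 4 + η * D w ^ 2 + (η * h + B.indicator (fun _ => c3) w))) μ := k3.add k6
  have key : ∫ w, A1.indicator v1 w ∂μ ≤ ∫ w, (A0.indicator v0 w + A0.indicator x w * D w +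
      A0.indicator y w * (D w ^ 2 - κ * h) +
      (A0.indicator (fun _ => c1) w - A1.indicator (fun _ => c1) w +
      (c2 * D w ^ 4 + η * D w ^ 2 + (η * h + B.indicator (fun _ => c3) w)))) ∂μ := by
    refine integral_mono i1 (k2.add k7) fun w => ?_
    have p1 : 0 ≤ C * (1 / η ^ 3 + 1 / η) * D w ^ 4 := by positivity
    have p2 : 0 ≤ C * η / h * D w ^ 4 := by positivity
    have p3 : 0 ≤ η * D w ^ 2 := by positivity
    have p4 : 0 ≤ η * h := by positivity
    have p5 : 0 ≤ B.indicator (fun _ => c3) w :=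
      indicator_nonneg (fun _ _ => by rw [hc3]; positivity) w
    have p6 : c2 * D w ^ 4 = C * (1 / η ^ 3 + 1 / η) * D w ^ 4 + C * η / h * D w ^ 4 := by
      rw [hc2]; ring
    dsimp only
    by_cases h1 : w ∈ A1
    · have h0 := hsub h1
      simp only [indicator_of_mem h1, indicator_of_mem h0]
      by_cases h2 : w ∈ B
      · rw [indicator_of_mem h2]
        have q1 := he w h1
        have q2 := mul_le_mul_of_nonneg_left (y2 (D w) (div_pos hh hη)) hC
        have q3 : C * (h / η + D w ^ 4 / (h / η)) = C * h * (1 / η) + C * η / h * D w ^ 4 := by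
          field_simp
        have q4 : c3 = C * h + C * h * (1 / η) := by rw [hc3]; ring
        linarith
      · have q1 := hb w h2
        linarith
    · by_cases h0 : w ∈ A0
      · simp only [indicator_of_notMem h1, indicator_of_mem h0]
        obtain ⟨q1, q2⟩ := hx w h0
        have q3 : |x w * D w| ≤ C * (η + D w ^ 4 / η ^ 3) := by
          rw [abs_mul]
          exact mul_le_mul q1 (y1 _ hη) (abs_nonneg _) hC
        have q4 : |y w * (D w ^ 2 - κ * h)| ≤ C * (η + D w ^ 4 / η + κ * h) := by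
          rw [abs_mul]
          refine mul_le_mul q2 ?_ (abs_nonneg _) hC
          have := y2 (D w) hη
          have := mul_pos hκ hh
          have := sq_nonneg (D w)
          exact abs_le.2 ⟨by linarith, by linarith⟩
        have q5 := neg_abs_le (x w * D w)
        have q6 := neg_abs_le (y w * (D w ^ 2 - κ * h))
        have q7 : C * (η + D w ^ 4 / η ^ 3) + C * (η + D w ^ 4 / η + κ * h) =
            c1 + C * (1 / η ^ 3 + 1 / η) * D w ^ 4 := by rw [hc1]; ring
        have := hv0 w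
        linarith
      · simp only [indicator_of_notMem h1, indicator_of_notMem h0]
        linarith
  rw [integral_add k2 k7, integral_add k1 iy, integral_add i0 ix, integral_add k3 k6,
    integral_add k4 k5, integral_add j4 j2, integral_add jc j3, integral_sub j0 j1, ex, ey,
    integral_const_mul, integral_const_mul, e2, integral_indicator_const _ hA0,
    integral_indicator_const _ hA1, integral_indicator_const _ hB, integral_const] at key
  simp only [smul_eq_mul, probReal_univ, one_mul] at key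
  have r1 : c2 * ∫ w, D w ^ 4 ∂μ ≤ c2 * (100 * (κ * h) ^ 2) :=
    mul_le_mul_of_nonneg_left e4 (by rw [hc2]; positivity)
  have r2 : c2 * (100 * (κ * h) ^ 2) =
      h * (C * (1 / η ^ 3 + 1 / η) * (100 * κ ^ 2) * h + η * (100 * C * κ ^ 2)) := by
    rw [hc2]; field_simp
  have r3 : μ.real B * c3 = h * (C * (1 + 1 / η) * μ.real B) := by rw [hc3]; ring
  linarith

/-- paths bounded by `L` up to time `u` -/
def bs (L u : ℝ) : Set Pth := {P | ∀ r ∈ Icc 0 u, |P r| ≤ L}

theorem meas_bs (L u : ℝ) : MeasurableSet (bs L u) := by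
  have : bs L u = ⋂ r ∈ Icc 0 u, {P : Pth | |P r| ≤ L} := by
    ext P; simp [bs]
  rw [this]
  exact (isClosed_biInter fun r _ => isClosed_le (by fun_prop) continuous_const).measurableSet

theorem bs_anti (L : ℝ) {u u' : ℝ} (h : u ≤ u') : bs L u' ⊆ bs L u :=
  fun _ hP r hr => hP r ⟨hr.1, hr.2.trans h⟩

theorem bs_loc {L u : ℝ} {P P' : Pth} (h : EqOn P P' (Icc 0 u)) : P ∈ bs L u ↔ P' ∈ bs L u :=
  forall₂_congr fun r hr => by rw [h hr]

variable {α : Type} [MeasurableSpace α] [Norm α]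

theorem meas_at {φ : α → Pth → ℝ → ℝ → ℝ} (h : Nice φ) (a : α) (u : ℝ) :
    Measurable fun P : Pth => φ a P u (P u) :=
  h.meas.comp (measurable_const.prodMk (measurable_id.prodMk
    (measurable_const.prodMk (measurable_ev u))))

theorem loc_x {f : Fld α} (hf : Reg f) (a : α) {P P' : Pth} {u : ℝ} (hu : 0 ≤ u)
    (h : EqOn P P' (Icc 0 u)) : f.x a P u = f.x a P' u ∧ f.xx a P u = f.xx a P' u := by
  have e0 : f.v a P u = f.v a P' u := funext fun ξ => hf.loc a P P' u ξ hu h
  have e1 : f.x a P u = f.x a P' u := funext fun ξ =>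
    (hf.dx a P u ξ hu).unique (e0 ▸ hf.dx a P' u ξ hu)
  exact ⟨e1, funext fun ξ => (hf.dxx a P u ξ hu).unique (e1 ▸ hf.dxx a P' u ξ hu)⟩

theorem ind_bd {φ : Pth → ℝ} {A : Set Pth} {C : ℝ} (hC : 0 ≤ C) (h : ∀ P ∈ A, |φ P| ≤ C)
    (P : Pth) : |A.indicator φ P| ≤ C := by
  by_cases hP : P ∈ A
  · rw [indicator_of_mem hP]; exact h P hP
  · rw [indicator_of_notMem hP, abs_zero]; exact hC

theorem ind_loc {φ : Pth → ℝ} {L u : ℝ}
    (h : ∀ P P' : Pth, EqOn P P' (Icc 0 u) → φ P = φ P') (P P' : Pth)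
    (e : EqOn P P' (Icc 0 u)) : (bs L u).indicator φ P = (bs L u).indicator φ P' := by
  by_cases hP : P ∈ bs L u
  · rw [indicator_of_mem hP, indicator_of_mem ((bs_loc e).1 hP), h P P' e]
  · rw [indicator_of_notMem hP, indicator_of_notMem fun h' => hP ((bs_loc e).2 h')]

/-- the remainder without the drift term -/
noncomputable def err (κ : ℝ) (f : Fld α) (a : α) (P : Pth) (u h : ℝ) : ℝ :=
  f.v a P (u + h) (P (u + h)) - f.v a P u (P u) - f.x a P u (P u) * (P (u + h) - P u)
    - f.xx a P u (P u) / 2 * ((P (u + h) - P u) ^ 2 - κ * h)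

omit [MeasurableSpace α] [Norm α] in
theorem err_le {κ : ℝ} {f : Fld α} {a : α} {P : Pth} {u h : ℝ} (hh : 0 ≤ h)
    (hd : ∀ r ∈ Icc u (u + h), f.t a P r (P r) + κ / 2 * f.xx a P r (P r) ≤ 0) :
    err κ f a P u h ≤ |ierr κ f a P u h| := by
  have h1 : 0 ≤ ∫ r in u..(u + h), -(f.t a P r (P r) + κ / 2 * f.xx a P r (P r)) :=
    intervalIntegral.integral_nonneg (by linarith) fun r hr => neg_nonneg.2 (hd r hr)
  rw [intervalIntegral.integral_neg] at h1
  refine le_trans ?_ (le_abs_self _)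
  unfold err ierr
  linarith

theorem meas_err (κ : ℝ) {f : Fld α} (hf : Reg f) (a : α) (u h : ℝ) :
    Measurable fun P : Pth => err κ f a P u h := by
  have h1 := meas_at hf.nv a (u + h)
  have h2 := meas_at hf.nv a u
  have h3 := meas_at hf.nx a u
  have h4 := meas_at hf.nxx a u
  have h5 := (measurable_ev (u + h)).sub (measurable_ev u)
  exact ((h1.sub h2).sub (h3.mul h5)).sub ((h4.div_const 2).mul ((h5.pow_const 2).sub_const _))

theorem step' (hI : IncStmt) {κ : ℝ} {μ : Measure Pth} (hκ : 0 < κ) (hμ : Wie κ μ) {f : Fld α}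
    (hf : Reg f) (a : α) {s u h η C L : ℝ} (V : Pth) (hs : 0 ≤ s) (hu : s ≤ u) (hh : 0 < h)
    (hη : 0 < η) (hC : 0 ≤ C) {B : Set Pth} (hB : MeasurableSet B)
    (hv : ∀ W, 0 ≤ f.v a (cat s V W) u (cat s V W u))
    (b0 : ∀ P ∈ bs L u, |f.v a P u (P u)| ≤ C ∧ |f.x a P u (P u)| ≤ C ∧ |f.xx a P u (P u)| ≤ C)
    (b1 : ∀ P ∈ bs L (u + h), |f.v a P (u + h) (P (u + h))| ≤ C)
    (he : ∀ W, cat s V W ∈ bs L (u + h) →
      err κ f a (cat s V W) u h ≤ C * (h + (cat s V W (u + h) - cat s V W u) ^ 2))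
    (hb : ∀ W, W ∉ B →
      err κ f a (cat s V W) u h ≤ η * (h + (cat s V W (u + h) - cat s V W u) ^ 2)) :
    ∫ W, (bs L (u + h)).indicator (fun P => f.v a P (u + h) (P (u + h))) (cat s V W) ∂μ ≤
      ∫ W, (bs L u).indicator (fun P => f.v a P u (P u)) (cat s V W) ∂μ +
      (μ.real (cat s V ⁻¹' bs L u) - μ.real (cat s V ⁻¹' bs L (u + h))) * (C * (2 * η + κ * h)) +
      h * (C * (1 / η ^ 3 + 1 / η) * (100 * κ ^ 2) * h + η * (1 + κ + 100 * C * κ ^ 2) +
        C * (1 + 1 / η) * μ.real B) := by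
  have := hμ.prob
  have hu0 : 0 ≤ u := hs.trans hu
  have hc := measurable_cat_right s V
  obtain ⟨m1, m2, m4, mG⟩ := hI κ μ hκ hμ s u h V hs hu hh.le
  have bi : ∀ (G : Pth → ℝ) (g : Pth → ℝ), Measurable G → (∀ P, |G P| ≤ C) → Integrable g μ →
      Integrable (fun W => G (cat s V W) * g W) μ := fun G g h1 h2 h3 =>
    h3.bdd_mul (c := C) (h1.comp hc).aestronglyMeasurable (Eventually.of_forall fun W => h2 _)
  have bi' : ∀ G : Pth → ℝ, Measurable G → (∀ P, |G P| ≤ C) →
      Integrable (fun W => G (cat s V W)) μ := fun G h1 h2 => by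
    simpa using bi G (fun _ => 1) h1 h2 (integrable_const _)
  have g1 := (meas_at hf.nx a u).indicator (meas_bs L u)
  have g1' := ind_bd hC fun P hP => (b0 P hP).2.1
  have g2 := ((meas_at hf.nxx a u).div_const 2).indicator (meas_bs L u)
  have b2 : ∀ P ∈ bs L u, |f.xx a P u (P u) / 2| ≤ C := fun P hP => by
    have := (b0 P hP).2.2
    rw [abs_div, abs_two]; linarith
  have g2' := ind_bd hC b2
  exact step μ (hc (meas_bs L u)) (hc (meas_bs L (u + h))) hB
    (preimage_mono (bs_anti L (by linarith)))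
    (v0 := fun W => f.v a (cat s V W) u (cat s V W u))
    (v1 := fun W => f.v a (cat s V W) (u + h) (cat s V W (u + h)))
    (x := fun W => f.x a (cat s V W) u (cat s V W u))
    (y := fun W => f.xx a (cat s V W) u (cat s V W u) / 2)
    (D := fun W => cat s V W (u + h) - cat s V W u) hκ hh hη hC
    (bi' _ ((meas_at hf.nv a u).indicator (meas_bs L u)) (ind_bd hC fun P hP => (b0 P hP).1))
    (bi' _ ((meas_at hf.nv a (u + h)).indicator (meas_bs L (u + h))) (ind_bd hC b1))
    (bi _ _ g1 g1' (by simpa using m1 1))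
    (mG _ g1 ⟨C, g1'⟩ (ind_loc fun P P' e => by
      rw [(loc_x hf a hu0 e).1, e ⟨hu0, le_rfl⟩])).1
    (bi _ _ g2 g2' ((m1 2).sub (integrable_const _)))
    (mG _ g2 ⟨C, g2'⟩ (ind_loc fun P P' e => by
      rw [(loc_x hf a hu0 e).2, e ⟨hu0, le_rfl⟩])).2
    (m1 2) m2 (m1 4) m4 hv (fun W hW => ⟨(b0 _ hW).2.1, b2 _ hW⟩) he hb

theorem consts (hD : ItoDetStmt) {κ : ℝ} (hκ : 0 < κ) {f : Fld α} (hf : Reg f) (a : α) {L : ℝ}
    (ha : ‖a‖ ≤ L) : ∃ C, 0 ≤ C ∧ (∀ u ∈ Icc 0 L, ∀ P ∈ bs L u,
      |f.v a P u (P u)| ≤ C ∧ |f.x a P u (P u)| ≤ C ∧ |f.xx a P u (P u)| ≤ C) ∧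
      ∀ u h, 0 ≤ u → 0 ≤ h → u + h ≤ L → ∀ P ∈ bs L (u + h),
        |ierr κ f a P u h| ≤ C * (h + (P (u + h) - P u) ^ 2) := by
  obtain ⟨C1, h1⟩ := hf.nv.bdd L
  obtain ⟨C2, h2⟩ := hf.nx.bdd L
  obtain ⟨C3, h3⟩ := hf.nxx.bdd L
  obtain ⟨C4, h4⟩ := (hD κ hκ α f hf).2 L
  have a1 := le_abs_self C1
  have a2 := le_abs_self C2
  have a3 := le_abs_self C3
  have a4 := le_abs_self C4
  have b1 := abs_nonneg C1
  have b2 := abs_nonneg C2
  have b3 := abs_nonneg C3
  have b4 := abs_nonneg C4
  refine ⟨|C1| + |C2| + |C3| + |C4|, by positivity, fun u hu P hP => ?_,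
    fun u h hu hh huh P hP => (h4 a P u h ha hu hh huh hP).trans ?_⟩
  · have e := hP u ⟨hu.1, le_rfl⟩
    have e1 := h1 a P u _ ha hu hP e
    have e2 := h2 a P u _ ha hu hP e
    have e3 := h3 a P u _ ha hu hP e
    exact ⟨by linarith, by linarith, by linarith⟩
  · exact mul_le_mul_of_nonneg_right (by linarith) (by positivity)

theorem bound (hI : IncStmt) (hD : ItoDetStmt) {κ : ℝ} {μ : Measure Pth} (hκ : 0 < κ)
    (hμ : Wie κ μ) {f : Fld α} (hf : Reg f) (a : α) {s t L : ℝ} (V : Pth) (hs : 0 ≤ s)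
    (hst : s < t) (ha : ‖a‖ ≤ L) (ht : t ≤ L)
    (hv : ∀ W, ∀ u ∈ Icc s t, 0 ≤ f.v a (cat s V W) u (cat s V W u) ∧
      f.t a (cat s V W) u (cat s V W u) + κ / 2 * f.xx a (cat s V W) u (cat s V W u) ≤ 0) :
    ∫ W, (bs L t).indicator (fun P => f.v a P t (P t)) (cat s V W) ∂μ ≤
      ∫ W, (bs L s).indicator (fun P => f.v a P s (P s)) (cat s V W) ∂μ := by
  have := hμ.prob
  obtain ⟨C, hC, b0, b1⟩ := consts hD hκ hf a ha
  have hc := measurable_cat_right s V
  have hT : 0 < t - s := sub_pos.2 hst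
  set A : ℝ → ℝ := fun u => ∫ W, (bs L u).indicator (fun P => f.v a P u (P u)) (cat s V W) ∂μ
    with hA
  set b : ℝ → ℝ := fun u => μ.real (cat s V ⁻¹' bs L u) with hb
  have main : ∀ η, 0 < η →
      A t ≤ A s + C * (2 * η) + (t - s) * (η * (1 + κ + 100 * C * κ ^ 2)) := by
    intro η hη
    set h : ℕ → ℝ := fun n => (t - s) / ((n : ℝ) + 1) with hh
    have hpos : ∀ n, 0 < h n := fun n => by rw [hh]; positivity
    have hlim : Tendsto h atTop (𝓝 0) := by
      simpa [hh, div_eq_mul_inv] using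
        (tendsto_one_div_add_atTop_nhds_zero_nat (𝕜 := ℝ)).const_mul (t - s)
    have hend : ∀ n : ℕ, s + ((n + 1 : ℕ) : ℝ) * h n = t := fun n => by
      rw [hh]; push_cast; field_simp; ring
    have hle : ∀ n k : ℕ, k ≤ n → s + k * h n + h n ≤ t := fun n k hk => by
      have e1 : (k : ℝ) ≤ n := by exact_mod_cast hk
      have e2 := hend n
      have e3 := mul_le_mul_of_nonneg_right e1 (hpos n).le
      push_cast at e2
      linarith
    have hge : ∀ n k : ℕ, s ≤ s + k * h n := fun n k =>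
      le_add_of_nonneg_right (mul_nonneg (Nat.cast_nonneg k) (hpos n).le)
    set B : ℕ → Set Pth := fun n => ⋃ k ∈ Iic n, cat s V ⁻¹' {P : Pth |
      η * (h n + (P (s + k * h n + h n) - P (s + k * h n)) ^ 2) < err κ f a P (s + k * h n) (h n)}
      with hB
    have hBm : ∀ n, MeasurableSet (B n) := fun n =>
      MeasurableSet.biUnion (to_countable _) fun k _ => hc (measurableSet_lt
        (((((measurable_ev _).sub (measurable_ev _)).pow_const 2).const_add _).const_mul _)
        (meas_err κ hf a _ _))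
    have herr : ∀ (n k : ℕ) W, k ≤ n → err κ f a (cat s V W) (s + k * h n) (h n) ≤
        |ierr κ f a (cat s V W) (s + k * h n) (h n)| := fun n k W hk =>
      err_le (hpos n).le fun r hr =>
        (hv W r ⟨(hge n k).trans hr.1, hr.2.trans (hle n k hk)⟩).2
    have hBl : Tendsto (fun n => μ.real (B n)) atTop (𝓝 0) := by
      have h1 := tendsto_measure_of_tendsto_indicator_of_isFiniteMeasure atTop μ (A := ∅) hBm
        fun W => by
          obtain ⟨h0, h1, h2⟩ := (hD κ hκ α f hf).1 a (cat s V W) t η hη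
          filter_upwards [hlim.eventually (eventually_le_nhds h1)] with n hn
          refine iff_of_false (fun hW => ?_) (notMem_empty W)
          obtain ⟨k, hk, hW⟩ := mem_iUnion₂.1 hW
          have e1 := h2 (s + k * h n) (h n) (hs.trans (hge n k))
            (by linarith [hle n k hk, hpos n]) (hpos n).le hn
          exact absurd ((herr n k W hk).trans e1) (not_le.2 hW)
      rw [measure_empty] at h1
      exact (ENNReal.tendsto_toReal ENNReal.zero_ne_top).comp h1
    set K : ℕ → ℝ := fun n => C * (1 / η ^ 3 + 1 / η) * (100 * κ ^ 2) * h n +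
      η * (1 + κ + 100 * C * κ ^ 2) + C * (1 + 1 / η) * μ.real (B n) with hK
    have ind : ∀ n k : ℕ, k ≤ n + 1 → A (s + k * h n) ≤
        A s + (b s - b (s + k * h n)) * (C * (2 * η + κ * h n)) + k * h n * K n := by
      intro n k
      induction k with
      | zero => intro _; simp
      | succ k ih =>
        intro hk
        have hk' : k ≤ n := by omega
        have e0 := ih (by omega)
        have e1 := hge n k
        have e2 := hle n k hk'
        have e3 := hpos n
        have e4 : A (s + k * h n + h n) ≤ A (s + k * h n) +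
            (b (s + k * h n) - b (s + k * h n + h n)) * (C * (2 * η + κ * h n)) + h n * K n :=
          step' hI hκ hμ hf a V hs e1 e3 hη hC (hBm n)
            (fun W => (hv W _ ⟨e1, by linarith⟩).1) (b0 _ ⟨by linarith, by linarith⟩)
            (fun P hP => (b0 _ ⟨by linarith, by linarith⟩ P hP).1)
            (fun W hW => (herr n k W hk').trans
              (b1 _ _ (by linarith) e3.le (by linarith) _ hW))
            fun W hW => not_lt.1 fun h' => hW (mem_iUnion₂.2 ⟨k, hk', h'⟩)
        have e5 : s + ((k + 1 : ℕ) : ℝ) * h n = s + k * h n + h n := by push_cast; ring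
        rw [e5]
        push_cast
        linarith
    have fin : ∀ n, A t ≤ A s + C * (2 * η + κ * h n) + (t - s) * K n := fun n => by
      have e0 := ind n (n + 1) le_rfl
      have e1 := hend n
      rw [e1, show ((n + 1 : ℕ) : ℝ) * h n = t - s by linarith] at e0
      have e2 : b s - b t ≤ 1 := by
        have : b s ≤ 1 := measureReal_le_one
        have : 0 ≤ b t := measureReal_nonneg
        linarith
      have e3 : 0 ≤ C * (2 * η + κ * h n) := by have := hpos n; positivity
      nlinarith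
    have lim : Tendsto (fun n => A s + C * (2 * η + κ * h n) + (t - s) * K n) atTop
        (𝓝 (A s + C * (2 * η + κ * 0) + (t - s) * (C * (1 / η ^ 3 + 1 / η) * (100 * κ ^ 2) * 0 +
          η * (1 + κ + 100 * C * κ ^ 2) + C * (1 + 1 / η) * 0))) :=
      ((((hlim.const_mul κ).const_add _).const_mul C).const_add _).add
        ((((hlim.const_mul _).add_const _).add (hBl.const_mul _)).const_mul _)
    simpa using ge_of_tendsto' lim fin
  refine le_of_forall_pos_le_add fun ε hε => ?_
  have hM : 0 < C * 2 + (t - s) * (1 + κ + 100 * C * κ ^ 2) := by positivity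
  have e := main _ (div_pos hε hM)
  have e' : C * (2 * (ε / (C * 2 + (t - s) * (1 + κ + 100 * C * κ ^ 2)))) +
      (t - s) * (ε / (C * 2 + (t - s) * (1 + κ + 100 * C * κ ^ 2)) *
        (1 + κ + 100 * C * κ ^ 2)) = ε := by
    field_simp
  change A t ≤ A s + ε
  linarith

end Ito

open Ito in
theorem ito (hI : IncStmt) (hD : ItoDetStmt) : ItoStmt := by
  intro κ μ hκ hμ α _ _ v d g ⟨f, hf, hfv⟩ a s t V hs hst hv
  have := hμ.prob
  have hc := measurable_cat_right s V
  have ht : 0 ≤ t := hs.trans hst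
  have h0 : ∀ W, f.v a (cat s V W) s (cat s V W s) = v a V s := fun W => by
    rw [(hfv a V s hs).1, cat_of_le V W le_rfl]
    exact hf.loc a _ _ s _ hs (cat_eqOn s V W)
  have hv' : ∀ W, ∀ u ∈ Icc s t, 0 ≤ f.v a (cat s V W) u (cat s V W u) ∧
      f.t a (cat s V W) u (cat s V W u) + κ / 2 * f.xx a (cat s V W) u (cat s V W u) ≤ 0 :=
    fun W u hu => by
      rw [← (hfv a _ u (hs.trans hu.1)).1, ← (hfv a _ u (hs.trans hu.1)).2.1]
      exact hv W u hu
  unfold CE
  simp only [fun W => (hfv a W t ht).1]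
  rcases hst.eq_or_lt with rfl | hlt
  · simp only [h0]
    simp [(hfv a V s hs).1]
  have hv0 : 0 ≤ v a V s := h0 0 ▸ (hv' 0 s ⟨le_rfl, hst⟩).1
  obtain ⟨N, hN⟩ := exists_nat_ge (max ‖a‖ t)
  have hU : (⋃ n : ℕ, cat s V ⁻¹' bs (N + n) t) = univ := by
    refine eq_univ_of_forall fun W => ?_
    obtain ⟨M, hM⟩ := (isCompact_Icc (a := 0) (b := t)).exists_bound_of_continuousOn
      (cat s V W).continuous.continuousOn
    obtain ⟨n, hn⟩ := exists_nat_ge M
    refine mem_iUnion.2 ⟨n, fun r hr => (hM r hr).trans (hn.trans ?_)⟩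
    exact le_add_of_nonneg_left (Nat.cast_nonneg N)
  rw [← setLIntegral_univ, ← hU, setLIntegral_iUnion_of_directed]
  · refine iSup_le fun n => ?_
    have hL : (N : ℝ) ≤ N + n := le_add_of_nonneg_right (Nat.cast_nonneg n)
    have ha : ‖a‖ ≤ N + n := (le_max_left _ _).trans (hN.trans hL)
    have htL : t ≤ N + n := (le_max_right _ _).trans (hN.trans hL)
    obtain ⟨C, hC, b0, -⟩ := consts hD hκ hf a ha
    have hm := hc (meas_bs (N + n) t)
    have hi : Integrable
        (fun W => (bs (N + n) t).indicator (fun P => f.v a P t (P t)) (cat s V W)) μ :=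
      Integrable.of_bound (((meas_at hf.nv a t).indicator (meas_bs _ t)).comp
        hc).aestronglyMeasurable C
        (Eventually.of_forall fun W => ind_bd hC (fun P hP => (b0 t ⟨ht, htL⟩ P hP).1) _)
    have e1 := ofReal_integral_eq_lintegral_ofReal hi (Eventually.of_forall fun W => by
      by_cases hW : cat s V W ∈ bs (N + n) t
      · simp only [indicator_of_mem hW]
        exact (hv' W t ⟨hst, le_rfl⟩).1
      · simp [indicator_of_notMem hW])
    have e2 := bound hI hD hκ hμ hf a V hs hlt ha htL hv'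
    have e3 : ∫ W, (bs (N + n) s).indicator (fun P => f.v a P s (P s)) (cat s V W) ∂μ ≤
        v a V s := by
      have e4 : ∀ W, ‖(bs (N + n) s).indicator (fun P => f.v a P s (P s)) (cat s V W)‖ ≤
          v a V s := fun W => by
        rw [Real.norm_eq_abs]
        by_cases hW : cat s V W ∈ bs (N + n) s
        · simp only [indicator_of_mem hW, h0, abs_of_nonneg hv0, le_refl]
        · simpa [indicator_of_notMem hW] using hv0
      have e5 := norm_integral_le_of_norm_le_const (μ := μ) (Eventually.of_forall e4)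
      rw [probReal_univ, mul_one] at e5
      exact (le_abs_self _).trans e5
    refine le_trans (le_of_eq ?_) (ENNReal.ofReal_le_ofReal (e2.trans e3))
    rw [e1, ← lintegral_indicator hm]
    refine lintegral_congr fun W => ?_
    by_cases hW : cat s V W ∈ bs (N + n) t
    · rw [indicator_of_mem hW, indicator_of_mem (show W ∈ cat s V ⁻¹' bs (N + n) t from hW)]
    · rw [indicator_of_notMem hW,
        indicator_of_notMem (show W ∉ cat s V ⁻¹' bs (N + n) t from hW),
        ENNReal.ofReal_zero]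
  · refine Monotone.directed_le fun m n hmn W hW r hr => (hW r hr).trans ?_
    have : (m : ℝ) ≤ n := by exact_mod_cast hmn
    linarith

end Vale.Agent.P164
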