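import Vale.Agent.P164.Stm

/-! The deterministic part of the Ito expansion. -/

open Set MeasureTheory ProbabilityTheory Metric
open scoped ENNReal NNReal

namespace Vale.Agent.P164

theorem itoDet_taylor {v x xx : ℝ → ℝ} (h1 : ∀ ξ, HasDerivAt v (x ξ) ξ)
    (h2 : ∀ ξ, HasDerivAt x (xx ξ) ξ) {y0 y1 B : ℝ} (hB : ∀ ξ ∈ uIcc y0 y1, |xx ξ - xx y0| ≤ B) :
    |v y1 - v y0 - x y0 * (y1 - y0) - xx y0 / 2 * (y1 - y0) ^ 2| ≤ B * (y1 - y0) ^ 2 := by
  have B0 : 0 ≤ B := (abs_nonneg _).trans (hB y0 left_mem_uIcc)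
  have k1 : ∀ ξ ∈ uIcc y0 y1, ‖x ξ - x y0 - xx y0 * (ξ - y0)‖ ≤ B * |y1 - y0| := by
    intro ξ hξ
    have := (convex_uIcc y0 y1).norm_image_sub_le_of_norm_hasDerivWithin_le
      (f := fun ξ => x ξ - xx y0 * ξ) (f' := fun ξ => xx ξ - xx y0) (C := B)
      (fun z _ => (((h2 z).sub ((hasDerivAt_id z).const_mul (xx y0))).congr_deriv
        (by rw [mul_one])).hasDerivWithinAt)
      (fun z hz => hB z hz) left_mem_uIcc hξ
    calc _ = ‖x ξ - xx y0 * ξ - (x y0 - xx y0 * y0)‖ := by congr 1; ring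
      _ ≤ B * ‖ξ - y0‖ := this
      _ ≤ _ := mul_le_mul_of_nonneg_left (abs_sub_left_of_mem_uIcc hξ) B0
  have := (convex_uIcc y0 y1).norm_image_sub_le_of_norm_hasDerivWithin_le
    (f := fun ξ => v ξ - x y0 * ξ - xx y0 / 2 * (ξ - y0) ^ 2)
    (f' := fun ξ => x ξ - x y0 - xx y0 * (ξ - y0)) (C := B * |y1 - y0|)
    (fun z _ => by
      have e := ((h1 z).sub ((hasDerivAt_id z).const_mul (x y0))).sub
        ((((hasDerivAt_id z).sub_const y0).pow 2).const_mul (xx y0 / 2))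
      refine (e.congr_deriv ?_).hasDerivWithinAt
      simp only [id]; push_cast; ring) k1 left_mem_uIcc right_mem_uIcc
  rw [Real.norm_eq_abs, Real.norm_eq_abs, mul_assoc, abs_mul_abs_self] at this
  calc _ = |v y1 - x y0 * y1 - xx y0 / 2 * (y1 - y0) ^ 2 -
        (v y0 - x y0 * y0 - xx y0 / 2 * (y0 - y0) ^ 2)| := by congr 1; ring
    _ ≤ _ := this
    _ = _ := by ring

theorem itoDet_cont {F : ℝ → ℝ → ℝ} (hF : ContinuousOn (fun p : ℝ × ℝ => F p.1 p.2) (Ici 0 ×ˢ univ))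
    {Q : ℝ → ℝ} (hQ : Continuous Q) {u u' : ℝ} (hu : 0 ≤ u) :
    ContinuousOn (fun r => F r (Q r)) (Icc u u') :=
  hF.comp (continuous_id.prodMk hQ).continuousOn fun _ hr => ⟨hu.trans hr.1, mem_univ _⟩

theorem itoDet_core {κ : ℝ} (hκ : 0 < κ) {α : Type} [MeasurableSpace α] [Norm α] {f : Fld α}
    (hf : Reg f) (a : α) (P : Pth) {u h A B C : ℝ} (hu : 0 ≤ u) (hh : 0 ≤ h)
    (hA : ∀ r ∈ Icc u (u + h), |f.t a P r (P (u + h)) - f.t a P r (P r)| ≤ A)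
    (hB : ∀ ξ ∈ uIcc (P u) (P (u + h)), |f.xx a P u ξ - f.xx a P u (P u)| ≤ B)
    (hC : ∀ r ∈ Icc u (u + h), |f.xx a P r (P r) - f.xx a P u (P u)| ≤ C) :
    |ierr κ f a P u h| ≤ (A + κ / 2 * C) * h + B * (P (u + h) - P u) ^ 2 := by
  have hle : u ≤ u + h := by linarith
  have t1 := itoDet_taylor (fun ξ => hf.dx a P u ξ hu) (fun ξ => hf.dxx a P u ξ hu) hB
  have i1 : IntervalIntegrable (fun r => f.t a P r (P (u + h))) volume u (u + h) :=
    (itoDet_cont (hf.nt.cont a P) continuous_const hu).intervalIntegrable_of_Icc hle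
  have i2 : IntervalIntegrable (fun r => f.t a P r (P r) + κ / 2 * f.xx a P r (P r)) volume u
      (u + h) := ((itoDet_cont (hf.nt.cont a P) P.continuous hu).add
        (continuousOn_const.mul (itoDet_cont (hf.nxx.cont a P) P.continuous hu))).intervalIntegrable_of_Icc hle
  have e1 := intervalIntegral.integral_eq_sub_of_hasDerivAt_of_le hle
    (itoDet_cont (hf.nv.cont a P) (continuous_const (y := P (u + h))) hu)
    (fun r hr => hf.dt a P r (P (u + h)) (hu.trans_lt hr.1)) i1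
  have e2 : ∫ r in u..(u + h), (f.t a P r (P (u + h)) - (f.t a P r (P r) + κ / 2 * f.xx a P r (P r))
      + κ / 2 * f.xx a P u (P u)) = f.v a P (u + h) (P (u + h)) - f.v a P u (P (u + h)) -
        (∫ r in u..(u + h), (f.t a P r (P r) + κ / 2 * f.xx a P r (P r))) +
        h * (κ / 2 * f.xx a P u (P u)) := by
    rw [intervalIntegral.integral_add (i1.sub i2) intervalIntegrable_const,
      intervalIntegral.integral_sub i1 i2, e1, intervalIntegral.integral_const, add_sub_cancel_left,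
      smul_eq_mul]
  have e3 := intervalIntegral.norm_integral_le_of_norm_le_const (a := u) (b := u + h)
    (f := fun r => f.t a P r (P (u + h)) - (f.t a P r (P r) + κ / 2 * f.xx a P r (P r))
      + κ / 2 * f.xx a P u (P u)) (C := A + κ / 2 * C) (fun r hr => by
      rw [uIoc_of_le hle] at hr
      have a1 := abs_le.1 (hA r ⟨hr.1.le, hr.2⟩)
      have a2 := abs_le.1 (hC r ⟨hr.1.le, hr.2⟩)
      rw [Real.norm_eq_abs, abs_le]
      constructor <;> nlinarith)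
  rw [e2, add_sub_cancel_left, abs_of_nonneg hh, Real.norm_eq_abs] at e3
  have a1 := abs_le.1 t1
  have a2 := abs_le.1 e3
  unfold ierr
  rw [abs_le]
  constructor <;> linarith

theorem itoDet_unif {F : ℝ → ℝ → ℝ}
    (hF : ContinuousOn (fun p : ℝ × ℝ => F p.1 p.2) (Ici 0 ×ˢ univ)) (T L : ℝ) {η : ℝ}
    (hη : 0 < η) : ∃ δ, 0 < δ ∧ ∀ r ∈ Icc 0 T, ∀ r' ∈ Icc 0 T, ∀ ξ ξ', |ξ| ≤ L → |ξ'| ≤ L →
      |r - r'| < δ → |ξ - ξ'| < δ → |F r ξ - F r' ξ'| ≤ η := by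
  have hK : IsCompact (Icc (0 : ℝ) T ×ˢ Icc (-L) L) := isCompact_Icc.prod isCompact_Icc
  obtain ⟨δ, δ0, h⟩ := Metric.uniformContinuousOn_iff.1 (hK.uniformContinuousOn_of_continuous
    (hF.mono fun p hp => ⟨hp.1.1, mem_univ _⟩)) η hη
  refine ⟨δ, δ0, fun r hr r' hr' ξ ξ' h1 h2 h3 h4 => ?_⟩
  exact (h (r, ξ) ⟨hr, abs_le.1 h1⟩ (r', ξ') ⟨hr', abs_le.1 h2⟩ (max_lt h3 h4)).le

theorem itoDet_abs {y0 y1 ξ L : ℝ} (h : ξ ∈ uIcc y0 y1) (h0 : |y0| ≤ L) (h1 : |y1| ≤ L) :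
    |ξ| ≤ L := by
  have := abs_le.1 h0
  have := abs_le.1 h1
  rw [abs_le]
  rcases mem_uIcc.1 h with h | h <;> constructor <;> linarith [h.1, h.2]

theorem itoDet : ItoDetStmt := by
  intro κ hκ α _ _ f hf
  constructor
  · intro a P T η hη
    obtain ⟨L, hL⟩ := (isCompact_Icc (a := (0 : ℝ)) (b := T + 1)).exists_bound_of_continuousOn
      P.continuous.continuousOn
    have η' : 0 < η / (1 + κ / 2) := by positivity
    obtain ⟨δ₁, d1, h1⟩ := itoDet_unif (hf.nt.cont a P) (T + 1) L η'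
    obtain ⟨δ₂, d2, h2⟩ := itoDet_unif (hf.nxx.cont a P) (T + 1) L η'
    obtain ⟨δ₃, d3, h3⟩ := Metric.uniformContinuousOn_iff.1
      ((isCompact_Icc (a := (0 : ℝ)) (b := T + 1)).uniformContinuousOn_of_continuous
        P.continuous.continuousOn) (min δ₁ δ₂) (lt_min d1 d2)
    refine ⟨min 1 (min δ₂ δ₃ / 2), by positivity, fun u h hu hT hh hh0 => ?_⟩
    have a1 : h ≤ 1 := hh0.trans (min_le_left _ _)
    have a2 : h ≤ min δ₂ δ₃ / 2 := hh0.trans (min_le_right _ _)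
    have a3 : h < δ₂ := by linarith [min_le_left δ₂ δ₃]
    have a4 : h < δ₃ := by linarith [min_le_right δ₂ δ₃]
    have m : ∀ r ∈ Icc u (u + h), r ∈ Icc 0 (T + 1) := fun r hr =>
      ⟨hu.trans hr.1, by linarith [hr.2]⟩
    have mu : u ∈ Icc u (u + h) := ⟨le_rfl, by linarith⟩
    have mv : u + h ∈ Icc u (u + h) := ⟨by linarith, le_rfl⟩
    have cl : ∀ r ∈ Icc u (u + h), ∀ r' ∈ Icc u (u + h), |r - r'| ≤ h := fun r hr r' hr' =>
      abs_le.2 ⟨by linarith [hr.1, hr'.2], by linarith [hr.2, hr'.1]⟩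
    have cP : ∀ r ∈ Icc u (u + h), ∀ r' ∈ Icc u (u + h), |P r - P r'| < min δ₁ δ₂ :=
      fun r hr r' hr' => h3 r (m r hr) r' (m r' hr') ((cl r hr r' hr').trans_lt a4)
    have k := itoDet_core hκ hf a P hu hh
      (fun r hr => h1 r (m r hr) r (m r hr) _ _ (hL _ (m _ mv)) (hL _ (m r hr)) (by simpa using d1)
        ((cP _ mv r hr).trans_le (min_le_left _ _)))
      (fun ξ hξ => h2 u (m u mu) u (m u mu) _ _ (itoDet_abs hξ (hL _ (m _ mu)) (hL _ (m _ mv)))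
        (hL _ (m _ mu)) (by simpa using d2) ((abs_sub_left_of_mem_uIcc hξ).trans_lt
          ((cP _ mv _ mu).trans_le (min_le_right _ _))))
      (fun r hr => h2 r (m r hr) u (m u mu) _ _ (hL _ (m r hr)) (hL _ (m _ mu))
        ((cl r hr u mu).trans_lt a3) ((cP r hr u mu).trans_le (min_le_right _ _)))
    have e : η / (1 + κ / 2) + κ / 2 * (η / (1 + κ / 2)) = η := by field_simp
    have e' : η / (1 + κ / 2) ≤ η := div_le_self hη.le (by linarith)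
    rw [e] at k
    nlinarith [sq_nonneg (P (u + h) - P u)]
  · intro n
    obtain ⟨C₁, h1⟩ := hf.nt.bdd n
    obtain ⟨C₂, h2⟩ := hf.nxx.bdd n
    refine ⟨2 * |C₁| + κ / 2 * (2 * |C₂|) + 2 * |C₂|, fun a P u h ha hu hh hn hP => ?_⟩
    have m : ∀ r ∈ Icc u (u + h), r ∈ Icc 0 (u + h) := fun r hr => ⟨hu.trans hr.1, hr.2⟩
    have mu : u ∈ Icc u (u + h) := ⟨le_rfl, by linarith⟩
    have mv : u + h ∈ Icc u (u + h) := ⟨by linarith, le_rfl⟩
    have b1 : ∀ r ∈ Icc u (u + h), ∀ ξ, |ξ| ≤ n → |f.t a P r ξ| ≤ |C₁| := fun r hr ξ hξ =>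
      (h1 a P r ξ ha ⟨(m r hr).1, hr.2.trans hn⟩ (fun w hw => hP w ⟨hw.1, hw.2.trans hr.2⟩)
        hξ).trans (le_abs_self _)
    have b2 : ∀ r ∈ Icc u (u + h), ∀ ξ, |ξ| ≤ n → |f.xx a P r ξ| ≤ |C₂| := fun r hr ξ hξ =>
      (h2 a P r ξ ha ⟨(m r hr).1, hr.2.trans hn⟩ (fun w hw => hP w ⟨hw.1, hw.2.trans hr.2⟩)
        hξ).trans (le_abs_self _)
    have tri : ∀ x y c : ℝ, |x| ≤ c → |y| ≤ c → |x - y| ≤ 2 * c := fun x y c hx hy =>
      (abs_sub x y).trans (by linarith)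
    have k := itoDet_core hκ hf a P hu hh
      (fun r hr => tri _ _ _ (b1 r hr _ (hP _ (m _ mv))) (b1 r hr _ (hP _ (m r hr))))
      (fun ξ hξ => tri _ _ _ (b2 u mu _ (itoDet_abs hξ (hP _ (m _ mu)) (hP _ (m _ mv))))
        (b2 u mu _ (hP _ (m _ mu))))
      (fun r hr => tri _ _ _ (b2 r hr _ (hP _ (m r hr))) (b2 u mu _ (hP _ (m _ mu))))
    have p1 : 0 ≤ 2 * |C₁| + κ / 2 * (2 * |C₂|) := by positivity
    have p2 : 0 ≤ 2 * |C₂| := by positivity
    nlinarith [mul_nonneg p1 (sq_nonneg (P (u + h) - P u)), mul_nonneg p2 hh]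

end Vale.Agent.P164
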