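import Vale.Agent.P164.Stm

/-! Distortion estimates for the inverse Loewner map. -/

open Set MeasureTheory ProbabilityTheory Metric
open scoped ENNReal NNReal

namespace Vale.Agent.P164

section Abs
variable {f g : ℂ → ℂ}

theorem koebe_gr (hg : ∀ ζ : ℂ, 0 < ζ.im → ∃ D : ℂ, HasDerivAt g D ζ ∧ ‖D‖ ≤ 3 * ‖g ζ‖ / ζ.im)
    {ζ ζ' : ℂ} {y : ℝ} (hy : 0 < y) (h : y ≤ ζ.im) (h' : y ≤ ζ'.im) :
    ‖g ζ'‖ ≤ ‖g ζ‖ * Real.exp (3 * ‖ζ' - ζ‖ / y) := by
  choose! D hD hD' using hg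
  have him : ∀ s ∈ Icc (0 : ℝ) 1, y ≤ (ζ + (s : ℂ) * (ζ' - ζ)).im := by
    intro s hs
    simp only [Complex.add_im, Complex.mul_im, Complex.ofReal_re, Complex.ofReal_im, zero_mul,
      add_zero, Complex.sub_im]
    nlinarith [hs.1, hs.2]
  have hd : ∀ s ∈ Icc (0 : ℝ) 1, HasDerivAt (fun s : ℝ => g (ζ + (s : ℂ) * (ζ' - ζ)))
      (D (ζ + (s : ℂ) * (ζ' - ζ)) * (ζ' - ζ)) s := by
    intro s hs
    have h1 : HasDerivAt (fun z : ℂ => ζ + z * (ζ' - ζ)) (ζ' - ζ) (s : ℂ) := by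
      simpa using ((hasDerivAt_id (s : ℂ)).mul_const (ζ' - ζ)).const_add ζ
    exact ((hD _ (hy.trans_le (him s hs))).comp (s : ℂ) h1).comp_ofReal
  have h2 := norm_le_gronwallBound_of_norm_deriv_right_le (δ := ‖g ζ‖) (K := 3 * ‖ζ' - ζ‖ / y)
    (ε := 0) (a := 0) (b := 1) (fun s hs => (hd s hs).continuousAt.continuousWithinAt)
    (fun s hs => (hd s (Ico_subset_Icc_self hs)).hasDerivWithinAt) (by simp) (fun s hs => by
      have h3 := him s (Ico_subset_Icc_self hs)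
      have h4 := hD' _ (hy.trans_le h3)
      rw [norm_mul, add_zero]
      calc _ ≤ 3 * ‖g (ζ + (s : ℂ) * (ζ' - ζ))‖ / y * ‖ζ' - ζ‖ := by
            gcongr
            exact h4.trans (by gcongr)
        _ = _ := by ring) 1 ⟨zero_le_one, le_rfl⟩
  simpa [gronwallBound_ε0] using h2

theorem koebe_conv (y : ℝ) (ζ : ℂ) (r : ℝ) : Convex ℝ ({z : ℂ | y ≤ z.im} ∩ closedBall ζ r) :=
  (convex_halfSpace_im_ge y).inter (convex_closedBall ζ r)

theorem koebe_disp (hf : ∀ ζ : ℂ, 0 < ζ.im → HasDerivAt f (g ζ) ζ)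
    (hg : ∀ ζ : ℂ, 0 < ζ.im → ∃ D : ℂ, HasDerivAt g D ζ ∧ ‖D‖ ≤ 3 * ‖g ζ‖ / ζ.im)
    {ζ ζ' : ℂ} {y : ℝ} (hy : 0 < y) (h : y ≤ ζ.im) (h' : y ≤ ζ'.im) :
    ‖f ζ' - f ζ‖ ≤ ‖g ζ‖ * Real.exp (3 * ‖ζ' - ζ‖ / y) * ‖ζ' - ζ‖ := by
  refine (koebe_conv y ζ ‖ζ' - ζ‖).norm_image_sub_le_of_norm_hasDerivWithin_le (f' := g)
    (fun z hz => (hf z (hy.trans_le hz.1)).hasDerivWithinAt) (fun z hz => ?_)
    ⟨h, mem_closedBall_self (norm_nonneg _)⟩ ⟨h', by simp [dist_eq_norm]⟩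
  refine (koebe_gr hg hy h hz.1).trans ?_
  have h1 : ‖z - ζ‖ ≤ ‖ζ' - ζ‖ := by simpa [dist_eq_norm] using hz.2
  gcongr

theorem koebe_exp : Real.exp (3 / 7) ≤ 7 / 4 := by
  have h1 := Real.add_one_le_exp (-(3 / 7) : ℝ)
  have h2 : Real.exp (3 / 7) * Real.exp (-(3 / 7)) = 1 := by rw [← Real.exp_add]; simp
  nlinarith [Real.exp_pos (3 / 7 : ℝ)]

theorem koebe_exp' : Real.exp (4 / 7) ≤ 2 := by
  have h1 := Real.log_two_gt_d9
  calc Real.exp (4 / 7) ≤ Real.exp (Real.log 2) := Real.exp_le_exp.2 (by linarith)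
    _ = 2 := Real.exp_log two_pos

theorem koebe_im {Z z : ℂ} (hz : z ∈ closedBall Z (Z.im / 8)) : 7 * Z.im / 8 ≤ z.im := by
  have h1 : |(z - Z).im| ≤ ‖z - Z‖ := Complex.abs_im_le_norm _
  have h2 : ‖z - Z‖ ≤ Z.im / 8 := by simpa [dist_eq_norm] using hz
  rw [Complex.sub_im] at h1
  linarith [(abs_le.1 (h1.trans h2)).1]

theorem koebe_near (hg : ∀ ζ : ℂ, 0 < ζ.im → ∃ D : ℂ, HasDerivAt g D ζ ∧ ‖D‖ ≤ 3 * ‖g ζ‖ / ζ.im)
    {Z z : ℂ} (hZ : 0 < Z.im) (hz : z ∈ closedBall Z (Z.im / 8)) :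
    ‖g z - g Z‖ ≤ 3 / 4 * ‖g Z‖ := by
  have hg' := hg
  choose! D hD hD' using hg'
  have hy : 0 < 7 * Z.im / 8 := by linarith
  have h1 := (convex_closedBall Z (Z.im / 8)).norm_image_sub_le_of_norm_hasDerivWithin_le
    (f := g) (f' := D) (C := 6 * ‖g Z‖ / Z.im)
    (fun u hu => (hD u (hy.trans_le (koebe_im hu))).hasDerivWithinAt) (fun u hu => by
      have h2 := koebe_im hu
      have h3 := koebe_gr hg hy (ζ := Z) (by linarith) h2
      have h4 : ‖u - Z‖ ≤ Z.im / 8 := by simpa [dist_eq_norm] using hu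
      have h5 : 3 * ‖u - Z‖ / (7 * Z.im / 8) ≤ 3 / 7 := by
        rw [div_le_iff₀ hy]
        linarith
      have h6 : ‖g u‖ ≤ ‖g Z‖ * (7 / 4) :=
        h3.trans (mul_le_mul_of_nonneg_left ((Real.exp_le_exp.2 h5).trans koebe_exp)
          (norm_nonneg _))
      calc ‖D u‖ ≤ 3 * ‖g u‖ / u.im := hD' u (hy.trans_le h2)
        _ ≤ 3 * (‖g Z‖ * (7 / 4)) / (7 * Z.im / 8) := by gcongr
        _ = 6 * ‖g Z‖ / Z.im := by field_simp; ring)
    (mem_closedBall_self (by linarith)) hz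
  have h4 : ‖z - Z‖ ≤ Z.im / 8 := by simpa [dist_eq_norm] using hz
  calc _ ≤ 6 * ‖g Z‖ / Z.im * ‖z - Z‖ := h1
    _ ≤ 6 * ‖g Z‖ / Z.im * (Z.im / 8) := by gcongr
    _ = _ := by field_simp; ring

theorem koebe_surj (hf : ∀ ζ : ℂ, 0 < ζ.im → HasDerivAt f (g ζ) ζ)
    (hg : ∀ ζ : ℂ, 0 < ζ.im → ∃ D : ℂ, HasDerivAt g D ζ ∧ ‖D‖ ≤ 3 * ‖g ζ‖ / ζ.im)
    {Z w : ℂ} (hZ : 0 < Z.im) (h0 : g Z ≠ 0) (hw : ‖w - f Z‖ ≤ ‖g Z‖ * Z.im / 32) :
    ∃ z ∈ closedBall Z (Z.im / 8), f z = w := by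
  have hy : 0 < 7 * Z.im / 8 := by linarith
  have hn : 0 < ‖g Z‖ := norm_pos_iff.2 h0
  have hA : ApproximatesLinearOn (fun z => f z / g Z) (ContinuousLinearMap.id ℂ ℂ)
      (closedBall Z (Z.im / 8)) (3 / 4 : ℝ≥0) := by
    intro a ha b hb
    have h1 := (convex_closedBall Z (Z.im / 8)).norm_image_sub_le_of_norm_hasDerivWithin_le
      (f := fun z => f z / g Z - z) (f' := fun z => g z / g Z - 1) (C := 3 / 4)
      (fun u hu => (((hf u (hy.trans_le (koebe_im hu))).div_const (g Z)).sub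
        (hasDerivAt_id u)).hasDerivWithinAt) (fun u hu => by
        have h2 := koebe_near hg hZ hu
        have h3 : g u / g Z - 1 = (g u - g Z) / g Z := by field_simp
        rw [h3, norm_div, div_le_iff₀ hn]
        exact h2) hb ha
    have h2 : f a / g Z - f b / g Z - (ContinuousLinearMap.id ℂ ℂ) (a - b) =
        f a / g Z - a - (f b / g Z - b) := by
      simp only [ContinuousLinearMap.id_apply]
      ring
    rw [h2]
    simpa using h1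
  obtain ⟨z, hz, hz'⟩ := hA.surjOn_closedBall_of_nonlinearRightInverse
    ⟨id, 1, by simp, by simp⟩ (b := Z) (ε := Z.im / 8) (by linarith) subset_rfl
    (a := w / g Z) (by
      rw [mem_closedBall, dist_eq_norm, ← sub_div, norm_div, div_le_iff₀ hn]
      refine hw.trans (le_of_eq ?_)
      push_cast
      ring)
  refine ⟨z, hz, ?_⟩
  have h3 : f z / g Z = w / g Z := hz'
  field_simp at h3
  exact h3

theorem koebe_vert (hf : ∀ ζ : ℂ, 0 < ζ.im → HasDerivAt f (g ζ) ζ) {x y y' c : ℝ} (hy : 0 < y)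
    (h : y ≤ y') (hc : ∀ v ∈ Icc y y', ‖g ⟨x, v⟩‖ ≤ c / v) :
    ‖f ⟨x, y'⟩ - f ⟨x, y⟩‖ ≤ c * Real.log (y' / y) := by
  have e : ∀ v : ℝ, (⟨x, v⟩ : ℂ) = x + v * Complex.I := fun v => by
    apply Complex.ext <;> simp
  have hd : ∀ v : ℝ, 0 < v → HasDerivAt (fun v : ℝ => f ⟨x, v⟩ - f ⟨x, y⟩)
      (g ⟨x, v⟩ * Complex.I) v := by
    intro v hv
    have h1 : HasDerivAt (fun z : ℂ => (x : ℂ) + z * Complex.I) Complex.I (v : ℂ) := by
      simpa using ((hasDerivAt_id (v : ℂ)).mul_const Complex.I).const_add (x : ℂ)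
    have h2 : HasDerivAt f (g ⟨x, v⟩) ((x : ℂ) + (v : ℂ) * Complex.I) := by
      rw [← e v]
      exact hf _ hv
    have h3 := (h2.comp (v : ℂ) h1).comp_ofReal
    simp only [Function.comp_def, ← e] at h3
    exact h3.sub_const _
  have hB : ∀ v : ℝ, 0 < v → HasDerivAt (fun v => c * Real.log (v / y)) (c / v) v := by
    intro v hv
    have h1 := (((hasDerivAt_id v).div_const y).log (by simp [hv.ne', hy.ne'])).const_mul c
    refine h1.congr_deriv ?_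
    simp only [id]
    field_simp
  exact image_norm_le_of_norm_deriv_right_le_deriv_boundary' (a := y) (b := y')
    (f := fun v : ℝ => f ⟨x, v⟩ - f ⟨x, y⟩) (B := fun v => c * Real.log (v / y))
    (fun v hv => (hd v (hy.trans_le hv.1)).continuousAt.continuousWithinAt)
    (fun v hv => (hd v (hy.trans_le hv.1)).hasDerivWithinAt) (by simp [hy.ne'])
    (fun v hv => (hB v (hy.trans_le hv.1)).continuousAt.continuousWithinAt)
    (fun v hv => (hB v (hy.trans_le hv.1)).hasDerivWithinAt)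
    (fun v hv => by simpa using hc v (Ico_subset_Icc_self hv)) ⟨h, le_rfl⟩

end Abs

theorem koebe_up (hB : ConfBStmt) (W : Pth) {t : ℝ} {ζ : ℂ} (ht : 0 ≤ t) (h : 0 < ζ.im) :
    Up W t (fi W t ζ) = ‖fd W t ζ‖ * ζ.im := by
  rw [hB.norm W t ζ ht h]
  field_simp

theorem koebe_ratio (hB : ConfBStmt) (hD : DistStmt) (W : Pth) (t : ℝ) (ζ ζ' : ℂ) (y : ℝ)
    (ht : 0 ≤ t) (hy : 0 < y) (h : y ≤ ζ.im) (h' : y ≤ ζ'.im) :
    Up W t (fi W t ζ') ≤ Up W t (fi W t ζ) * Real.exp (4 * ‖ζ' - ζ‖ / y) := by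
  rw [koebe_up hB W ht (hy.trans_le h), koebe_up hB W ht (hy.trans_le h')]
  have h1 := koebe_gr (fun ζ hζ => hD W t ζ ht hζ) hy h h'
  have h2 : ζ'.im ≤ ζ.im * Real.exp (‖ζ' - ζ‖ / y) := by
    have h3 : |(ζ' - ζ).im| ≤ ‖ζ' - ζ‖ := Complex.abs_im_le_norm _
    rw [Complex.sub_im] at h3
    have h4 := Real.add_one_le_exp (‖ζ' - ζ‖ / y)
    have h5 : ‖ζ' - ζ‖ ≤ ζ.im * (‖ζ' - ζ‖ / y) := by
      rw [← mul_div_assoc, le_div_iff₀ hy]
      nlinarith [norm_nonneg (ζ' - ζ)]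
    nlinarith [(abs_le.1 h3).2]
  have h0 : 0 ≤ ζ'.im := (hy.trans_le h').le
  calc _ ≤ ‖fd W t ζ‖ * Real.exp (3 * ‖ζ' - ζ‖ / y) * (ζ.im * Real.exp (‖ζ' - ζ‖ / y)) := by
        gcongr
    _ = _ := by
        rw [show 4 * ‖ζ' - ζ‖ / y = 3 * ‖ζ' - ζ‖ / y + ‖ζ' - ζ‖ / y by ring, Real.exp_add]
        ring

theorem koebe (hA : FlowAStmt) (hB : ConfBStmt) (hD : DistStmt) : KoebeStmt where
  ratio := koebe_ratio hB hD
  disp := by
    intro W t ζ ζ' y ht hy h h'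
    refine (koebe_disp (fun ζ hζ => hB.der W t ζ ht hζ) (fun ζ hζ => hD W t ζ ht hζ)
      hy h h').trans ?_
    rw [koebe_up hB W ht (hy.trans_le h)]
    have h5 : ‖ζ' - ζ‖ ≤ ζ.im * (‖ζ' - ζ‖ / y) := by
      rw [← mul_div_assoc, le_div_iff₀ hy]
      nlinarith [norm_nonneg (ζ' - ζ)]
    calc _ ≤ ‖fd W t ζ‖ * Real.exp (4 * ‖ζ' - ζ‖ / y) * (ζ.im * (‖ζ' - ζ‖ / y)) := by
          gcongr
          norm_num
      _ = _ := by ring
  vert := by
    intro W t x y y' c ht hy h hc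
    refine koebe_vert (fun ζ hζ => hB.der W t ζ ht hζ) hy h fun v hv => ?_
    have h0 : 0 < v := hy.trans_le hv.1
    rw [hB.norm W t ⟨x, v⟩ ht h0]
    exact div_le_div_of_nonneg_right (hc v hv) h0.le
  cont := by
    intro W t ht
    have h1 : ContinuousOn (fun ζ => ‖fd W t ζ‖ * ζ.im) HP := by
      refine ContinuousOn.mul (fun ζ hζ => ?_) Complex.continuous_im.continuousOn
      obtain ⟨D, hd, -⟩ := hD W t ζ ht hζ
      exact hd.continuousAt.norm.continuousWithinAt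
    exact h1.congr fun ζ hζ => koebe_up hB W ht hζ
  ball := by
    intro W t w w' ht hw hw'
    have hZ : 0 < (Zf W t w).im := (hA.alive W t w ht).1 hw
    have hU := koebe_up hB W ht hZ
    have hl := hB.left W t w ht hw
    rw [hl] at hU
    have hp := Up_pos ht hw
    have h0 : fd W t (Zf W t w) ≠ 0 := by
      intro e
      rw [e, norm_zero, zero_mul] at hU
      exact hp.ne' hU
    obtain ⟨z, hz, rfl⟩ := koebe_surj (fun ζ hζ => hB.der W t ζ ht hζ)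
      (fun ζ hζ => hD W t ζ ht hζ) (w := w') hZ h0 (by rw [hl, ← hU]; linarith)
    have h1 := koebe_im hz
    have hy : 0 < 7 * (Zf W t w).im / 8 := by linarith
    have h2 := hB.right W t z ht (hy.trans_le h1)
    have h3 : ‖z - Zf W t w‖ ≤ (Zf W t w).im / 8 := by simpa [dist_eq_norm] using hz
    have h4 : Real.exp (4 * ‖z - Zf W t w‖ / (7 * (Zf W t w).im / 8)) ≤ 2 := by
      refine (Real.exp_le_exp.2 ?_).trans koebe_exp'
      rw [div_le_iff₀ hy]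
      linarith
    have h5 := koebe_ratio hB hD W t (Zf W t w) z _ ht hy (by linarith) h1
    have h6 := koebe_ratio hB hD W t z (Zf W t w) _ ht hy h1 (by linarith)
    rw [hl] at h5 h6
    rw [norm_sub_rev] at h6
    have h7 := Up_nonneg W t (fi W t z)
    refine ⟨h2.1, by rw [h2.2]; exact h3, ?_, ?_⟩
    · nlinarith
    · nlinarith

end Vale.Agent.P164
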