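import Vale.Agent.P164.Stm

/-! The calculus of one-point functionals and the supermartingale criterion. -/

open Set MeasureTheory ProbabilityTheory Metric Filter Topology
open scoped ENNReal NNReal

namespace Vale.Agent.P164

theorem lsAlg_dich {δ : ℝ} (hδ : 0 < δ) (w : ℂ) (W : Pth) (t : ℝ) :
    (cy δ w W t = 0 ∧ cyd δ w W t = 0) ∨
      (δ < Yf W t w ∧ cy (δ / 2) w W t = 1 ∧ cyd (δ / 2) w W t = 0) := by
  rcases le_or_gt (Yf W t w) δ with h | h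
  · have h1 : Yf W t w / δ ≤ 1 := (div_le_one hδ).2 h
    exact Or.inl ⟨cut_zero h1, by unfold cyd; rw [cut1_zero_left h1, zero_mul, zero_mul]⟩
  · have h1 : 2 ≤ Yf W t w / (δ / 2) := by
      rw [le_div_iff₀ (by positivity)]; linarith
    exact Or.inr ⟨h, cut_one h1, by unfold cyd; rw [cut1_zero_right h1, zero_mul, zero_mul]⟩

theorem lsAlg_phi {c : ℝ} (hc : 0 < c) : ∃ φ φ1 φ2 : ℝ → ℝ, (∀ x, HasDerivAt φ (φ1 x) x) ∧
    (∀ x, HasDerivAt φ1 (φ2 x) x) ∧ Continuous φ2 ∧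
    ∀ x, c ≤ x → φ x = Real.log x ∧ φ1 x = x⁻¹ ∧ φ2 x = -(x ^ 2)⁻¹ := by
  have h0 : ContDiff ℝ 2 fun x => cut (4 * x / c) * Real.log x := by
    refine contDiff_iff_contDiffAt.2 fun x => ?_
    rcases lt_or_ge x (c / 4) with h | h
    · have : (fun x => cut (4 * x / c) * Real.log x) =ᶠ[𝓝 x] fun _ => 0 := by
        filter_upwards [Iio_mem_nhds h] with y hy
        rw [cut_zero ((div_le_one hc).2 (by linarith [mem_Iio.1 hy])), zero_mul]
      exact contDiffAt_const.congr_of_eventuallyEq this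
    · have h1 : ContDiff ℝ 2 fun x : ℝ => cut (4 * x / c) :=
        (contDiff_cut (n := 2)).comp ((contDiff_const.mul contDiff_id).div_const c)
      exact h1.contDiffAt.mul (Real.contDiffAt_log.2 (by linarith))
  have h1 := contDiff_succ_iff_deriv.1 (show ContDiff ℝ (1 + 1) _ from h0)
  have h2 := contDiff_one_iff_deriv.1 h1.2.2
  refine ⟨_, _, _, fun x => (h1.1 x).hasDerivAt, fun x => (h2.1 x).hasDerivAt, h2.2,
    fun x hx => ?_⟩
  have h3 : (fun x => cut (4 * x / c) * Real.log x) =ᶠ[𝓝 x] Real.log := by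
    filter_upwards [Ioi_mem_nhds (show c / 2 < x by linarith)] with y hy
    rw [cut_one (by rw [le_div_iff₀ hc]; linarith [mem_Ioi.1 hy]), one_mul]
  have h4 := h3.deriv
  rw [Real.deriv_log'] at h4
  refine ⟨h3.eq_of_nhds, h4.eq_of_nhds, ?_⟩
  rw [h4.deriv_eq, deriv_inv]

theorem lsAlg (hS : SmAlgStmt) (hB : BaseStmt) : LSAlgStmt := by
  have ofSm : ∀ κ (v d g : ℂ → Pth → ℝ → ℝ), Sm κ v d g → LS κ v d g := by
    intro κ v d g h δ hδ
    refine hS.congr κ ℂ _ _ _ _ _ _ (hS.mul κ ℂ _ _ _ _ _ _ (hB.one κ δ hδ) h) fun w W t _ => ?_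
    exact ⟨by ring, by ring, by ring⟩
  have comp : ∀ κ (v d g : ℂ → Pth → ℝ → ℝ) (φ φ1 φ2 : ℝ → ℝ), (∀ x, HasDerivAt φ (φ1 x) x) →
      (∀ x, HasDerivAt φ1 (φ2 x) x) → Continuous φ2 → LS κ v d g →
      LS κ (fun w W t => φ (v w W t))
        (fun w W t => φ1 (v w W t) * d w W t + κ / 2 * φ2 (v w W t) * g w W t ^ 2)
        (fun w W t => φ1 (v w W t) * g w W t) := by
    intro κ v d g φ φ1 φ2 h1 h2 h3 h δ hδ
    refine hS.congr κ ℂ _ _ _ _ _ _ (hS.mul κ ℂ _ _ _ _ _ _ (hB.one κ δ hδ)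
      (hS.comp κ ℂ _ _ _ φ φ1 φ2 h1 h2 h3 (h (δ / 2) (by positivity)))) fun w W t _ => ?_
    rcases lsAlg_dich hδ w W t with ⟨e1, e2⟩ | ⟨-, e1, e2⟩
    · simp only [e1, e2]
      exact ⟨by ring, by ring, by ring⟩
    · simp only [e1, e2, one_mul, zero_mul, sub_zero]
      exact ⟨by ring, by ring, by ring⟩
  refine ⟨?_, fun κ c => ofSm κ _ _ _ (hS.const κ ℂ c), ofSm,
    fun κ => ofSm κ _ _ _ (hS.time κ ℂ), ?_, ?_, ?_, comp, ?_⟩
  · intro κ v d g v' d' g' h e δ hδ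
    refine hS.congr κ ℂ _ _ _ _ _ _ (h δ hδ) fun w W t ht => ?_
    rcases lsAlg_dich hδ w W t with ⟨e1, e2⟩ | ⟨e1, -⟩
    · simp only [e1, e2, zero_mul, and_self]
    · obtain ⟨e2, e3, e4⟩ := e w W t ht (hδ.trans e1)
      simp only [e2, e3, e4, and_self]
  · intro κ v d g v' d' g' h h' δ hδ
    refine hS.congr κ ℂ _ _ _ _ _ _ (hS.add κ ℂ _ _ _ _ _ _ (h δ hδ) (h' δ hδ)) fun w W t _ => ?_
    exact ⟨by ring, by ring, by ring⟩
  · intro κ v d g c h δ hδ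
    refine hS.congr κ ℂ _ _ _ _ _ _ (hS.smul κ ℂ _ _ _ c (h δ hδ)) fun w W t _ => ?_
    exact ⟨by ring, by ring, by ring⟩
  · intro κ v d g v' d' g' h h' δ hδ
    refine hS.congr κ ℂ _ _ _ _ _ _ (hS.mul κ ℂ _ _ _ _ _ _ (h δ hδ)
      (h' (δ / 2) (by positivity))) fun w W t _ => ?_
    rcases lsAlg_dich hδ w W t with ⟨e1, e2⟩ | ⟨-, e1, e2⟩
    · simp only [e1, e2]
      exact ⟨by ring, by ring, by ring⟩
    · simp only [e1, e2]
      exact ⟨by ring, by ring, by ring⟩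
  · intro κ v d g h hc δ hδ
    obtain ⟨c, hc0, hc⟩ := hc δ hδ
    obtain ⟨φ, φ1, φ2, h1, h2, h3, h4⟩ := lsAlg_phi hc0
    refine hS.congr κ ℂ _ _ _ _ _ _ (comp κ v d g φ φ1 φ2 h1 h2 h3 h δ hδ) fun w W t ht => ?_
    rcases lsAlg_dich hδ w W t with ⟨e1, e2⟩ | ⟨e1, -⟩
    · simp only [e1, e2, zero_mul, and_self]
    · obtain ⟨e2, e3, e4⟩ := h4 _ (hc w W t ht e1.le)
      simp only [e2, e3, e4]
      exact ⟨trivial, by ring, by ring⟩

theorem lsup (hI : ItoStmt) (hS : SmIntStmt) : LSupStmt := by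
  intro κ μ hκ hμ v d g h w δ hδ hv
  refine ⟨fun t ht => ?_, fun s t V hs ht => ?_⟩
  · exact (((hS.tame κ ℂ _ _ _ (h δ hδ)).1.meas' t ht).comp
      (measurable_const.prodMk measurable_id)).ennreal_ofReal
  · refine hI κ μ hκ hμ ℂ _ _ _ (h δ hδ) w s (s + t) V hs (by linarith) fun W u hu => ?_
    rcases lsAlg_dich hδ w (cat s V W) u with ⟨e1, e2⟩ | ⟨e1, -⟩
    · simp only [e1, e2, zero_mul, sub_zero, le_refl, and_self]
    · have e0 := hδ.trans e1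
      obtain ⟨e2, e3⟩ := hv _ u (hs.trans hu.1) e0
      have e4 : 0 ≤ cy δ w (cat s V W) u := cut_nonneg _
      have e5 : 0 ≤ cyd δ w (cat s V W) u :=
        mul_nonneg (mul_nonneg (cut1_nonneg _) (by positivity)) (by positivity)
      exact ⟨mul_nonneg e4 e2, by
        linarith [mul_nonneg e5 e2, mul_nonneg e4 (neg_nonneg.2 e3)]⟩

end Vale.Agent.P164
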