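import Vale.Agent.P164.Stm

/-! The mass distribution principle. -/

open Set MeasureTheory Metric
open scoped ENNReal NNReal

namespace Vale.Agent.P164

theorem mass_right {h : ℝ → ℝ} (hc : ContinuousOn h (Ici 0)) {x ε δ : ℝ} (hx : 0 ≤ x)
    (hε : 0 < ε) (hδ : 0 < δ) : ∃ t, 0 < t ∧ t ≤ δ ∧ h (x + 2 * t) ≤ h x + ε := by
  obtain ⟨s, s0, hs⟩ := Metric.continuousWithinAt_iff.1 (hc x hx) ε hε
  have t0 : 0 < min δ (s / 4) := lt_min hδ (by positivity)
  refine ⟨min δ (s / 4), t0, min_le_left _ _, ?_⟩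
  have h1 := hs (x := x + 2 * min δ (s / 4)) (by
    change 0 ≤ x + 2 * min δ (s / 4)
    linarith) (by
    rw [Real.dist_eq, add_sub_cancel_left, abs_of_pos (by linarith)]
    linarith [min_le_right δ (s / 4)])
  rw [Real.dist_eq] at h1
  linarith [(abs_lt.1 h1).2]

theorem mass_ball {U : Set ℂ} (hU : ediam U ≠ ⊤) {t : ℝ} {z : ℂ} (hz : z ∈ thickening t U) :
    thickening t U ⊆ ball z (diam U + 2 * t) := by
  intro w hw
  obtain ⟨a, ha, h1⟩ := mem_thickening_iff.1 hz
  obtain ⟨b, hb, h2⟩ := mem_thickening_iff.1 hw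
  have h3 := dist_le_diam_of_mem' hU hb ha
  have h4 := dist_triangle4 w b a z
  rw [dist_comm a z] at h4
  rw [mem_ball]
  linarith

theorem mass (hG : GaugeStmt) : MassStmt := by
  intro κ h0 h8 Γ c C r0 hΓ hc hC hr H
  obtain ⟨g1, g2, g3, -⟩ := hG.isGauge κ h0 h8
  have gn : ∀ r, 0 ≤ r → 0 ≤ gauge κ r := fun r hr => g3 ▸ g2 (le_refl (0 : ℝ)) hr hr
  have a0 : 0 < ENNReal.ofReal (c / (4 * C)) := ENNReal.ofReal_pos.2 (by positivity)
  refine lt_of_lt_of_le a0 (le_iSup₂_of_le (r0 / 3) (by positivity) ?_)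
  refine le_iInf fun U => le_iInf fun hU => le_iInf fun hd => ?_
  by_contra hlt
  rw [not_le] at hlt
  obtain ⟨ε, ε0, hε⟩ := ENNReal.exists_pos_sum_of_countable a0.ne' ℕ
  have hne : ∀ j, ediam (U j) ≠ ⊤ := fun j => ne_top_of_le_ne_top ENNReal.ofReal_ne_top (hd j)
  choose t t0 t1 t2 using fun j => mass_right g1 (x := diam (U j)) (ε := ε j) (δ := r0 / 3)
    diam_nonneg (ε0 j) (by positivity)
  obtain ⟨η, η0, hη⟩ := hΓ.exists_thickening_subset_open
    (isOpen_iUnion fun j => isOpen_thickening (δ := t j) (E := U j))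
    (hU.trans (iUnion_mono fun j => self_subset_thickening (t0 j) _))
  obtain ⟨ν, G, hG1, hG2, hG3⟩ := H η η0
  have key : ∀ j, ν (G ∩ thickening (t j) (U j)) ≤
      ENNReal.ofReal C * (ENNReal.ofReal (gauge κ (diam (U j))) + ε j) := by
    intro j
    rcases (G ∩ thickening (t j) (U j)).eq_empty_or_nonempty with h | ⟨z, hz, hz'⟩
    · rw [h, measure_empty]
      exact zero_le
    have k1 : diam (U j) ≤ r0 / 3 := ENNReal.toReal_le_of_le_ofReal (by positivity) (hd j)
    have k2 : 0 ≤ diam (U j) := diam_nonneg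
    refine (measure_mono (inter_subset_right.trans (mass_ball (hne j) hz'))).trans
      ((hG3 z hz _ (by linarith [t0 j]) (by linarith [t1 j])).trans ?_)
    rw [← ENNReal.ofReal_coe_nnreal, ← ENNReal.ofReal_add (gn _ k2) (ε j).coe_nonneg,
      ← ENNReal.ofReal_mul hC.le]
    exact ENNReal.ofReal_le_ofReal (mul_le_mul_of_nonneg_left (t2 j) hC.le)
  have k1 : ν G ≤ ENNReal.ofReal C *
      (ENNReal.ofReal (c / (4 * C)) + ENNReal.ofReal (c / (4 * C))) := by
    calc ν G = ν (⋃ j, G ∩ thickening (t j) (U j)) := by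
          rw [← inter_iUnion, inter_eq_left.2 (hG1.trans hη)]
      _ ≤ ∑' j, ν (G ∩ thickening (t j) (U j)) := measure_iUnion_le _
      _ ≤ ∑' j, ENNReal.ofReal C * (ENNReal.ofReal (gauge κ (diam (U j))) + ε j) :=
          ENNReal.tsum_le_tsum key
      _ ≤ _ := by
          rw [ENNReal.tsum_mul_left, ENNReal.tsum_add]
          exact mul_le_mul_right (add_le_add hlt.le hε.le) _
  rw [← ENNReal.ofReal_add (by positivity) (by positivity), ← ENNReal.ofReal_mul hC.le] at k1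
  have k2 := (ENNReal.ofReal_le_ofReal_iff (by positivity)).1 (hG2.trans k1)
  have k3 : C * (c / (4 * C) + c / (4 * C)) = c / 2 := by
    field_simp
    norm_num
  linarith

end Vale.Agent.P164
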