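import Vale.Agent.P164.Stm

/-! The maximal inequality and the steering estimate. -/

open Set MeasureTheory ProbabilityTheory Metric Filter Topology
open scoped ENNReal NNReal

namespace Vale.Agent.P164

theorem max_gauss (v : ℝ≥0) (a b c : ℝ) (hb : 0 ≤ b) (hc : 0 ≤ c) :
    ∫⁻ z, ENNReal.ofReal (((a + z) ^ 2 + b) / c) ∂gaussianReal 0 v =
      ENNReal.ofReal ((a ^ 2 + v + b) / c) := by
  have h2 : MemLp id 2 (gaussianReal 0 v) := memLp_id_gaussianReal 2
  have i1 : Integrable (fun z : ℝ => z) (gaussianReal 0 v) := h2.integrable one_le_two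
  have i2 : Integrable (fun z : ℝ => z ^ 2) (gaussianReal 0 v) := h2.integrable_sq
  have e1 : ∫ z, z ∂gaussianReal 0 v = 0 := integral_id_gaussianReal
  have e2 : ∫ z, z ^ 2 ∂gaussianReal 0 v = v := by
    rw [← variance_id_gaussianReal (μ := 0) (v := v),
      variance_of_integral_eq_zero aemeasurable_id e1]
    rfl
  have e3 : ∀ z : ℝ, ((a + z) ^ 2 + b) / c = (a ^ 2 + b + 2 * a * z + z ^ 2) / c := fun z => by
    ring
  have i3 : Integrable (fun z : ℝ => a ^ 2 + b + 2 * a * z) (gaussianReal 0 v) :=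
    (integrable_const _).add (i1.const_mul _)
  have i4 : Integrable (fun z : ℝ => a ^ 2 + b + 2 * a * z + z ^ 2) (gaussianReal 0 v) := i3.add i2
  have h0 : ∀ z : ℝ, 0 ≤ ((a + z) ^ 2 + b) / c := fun z => by positivity
  simp only [e3] at h0 ⊢
  rw [← ofReal_integral_eq_lintegral_ofReal (i4.div_const c) (Eventually.of_forall h0),
    integral_div, integral_add i3 i2, integral_add (integrable_const _) (i1.const_mul _),
    integral_const_mul, e1, e2]
  simp only [integral_const, probReal_univ, smul_eq_mul]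
  congr 2
  ring

/-- Exceeding the level at one of the grid points. -/
def max_A (x h : ℝ) (m : ℕ) (a : ℝ) : Set Pth :=
  {W | ∃ i : ℕ, i ≤ m ∧ x < |a + (W (i * h) - W 0)|}

theorem max_meas (x h : ℝ) (m : ℕ) (a : ℝ) : MeasurableSet (max_A x h m a) := by
  refine IsOpen.measurableSet ?_
  have : max_A x h m a = ⋃ i : ℕ, ⋃ _ : i ≤ m, {W : Pth | x < |a + (W (i * h) - W 0)|} := by
    ext W
    simp only [max_A, mem_ofPred_eq, mem_iUnion, exists_prop]
  rw [this]
  exact isOpen_iUnion fun i => isOpen_iUnion fun _ => isOpen_lt continuous_const (by fun_prop)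

theorem max_grid (hC : CatStmt) {κ : ℝ} {μ : Measure Pth} (hκ : 0 < κ) (hμ : Wie κ μ) {x h : ℝ}
    (hx : 0 < x) (hh : 0 ≤ h) (m : ℕ) : ∀ a : ℝ,
    μ (max_A x h m a) ≤ ENNReal.ofReal ((a ^ 2 + κ * (m * h)) / x ^ 2) := by
  have := hμ.prob
  have hbig : ∀ (m : ℕ) (a : ℝ), x < |a| →
      μ (max_A x h m a) ≤ ENNReal.ofReal ((a ^ 2 + κ * (m * h)) / x ^ 2) := by
    intro m a ha
    refine prob_le_one.trans (ENNReal.one_le_ofReal.2 ?_)
    rw [one_le_div (by positivity)]
    have h1 : x ^ 2 ≤ |a| ^ 2 := pow_le_pow_left₀ hx.le ha.le 2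
    have h2 : 0 ≤ κ * (m * h) := by positivity
    rw [sq_abs] at h1
    linarith
  induction m with
  | zero =>
    intro a
    by_cases ha : x < |a|
    · exact hbig 0 a ha
    · have : max_A x h 0 a = ∅ := by
        refine eq_empty_of_forall_notMem ?_
        rintro W ⟨i, hi, h1⟩
        obtain rfl := Nat.le_zero.1 hi
        simp only [Nat.cast_zero, zero_mul, sub_self, add_zero] at h1
        exact ha h1
      rw [this, measure_empty]
      exact zero_le
  | succ m ih =>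
    intro a
    by_cases ha : x < |a|
    · exact hbig _ a ha
    rw [hC.total' κ μ hμ h _ hh (max_meas x h (m + 1) a)]
    have h1 : ∀ V : Pth, CP μ h V (max_A x h (m + 1) a) ≤
        ENNReal.ofReal (((a + (V h - V 0)) ^ 2 + κ * (m * h)) / x ^ 2) := by
      intro V
      refine le_trans (measure_mono ?_) (ih (a + (V h - V 0)))
      rintro W ⟨i, hi, h2⟩
      rcases i with _ | i
      · simp only [Nat.cast_zero, zero_mul, sub_self, add_zero] at h2
        exact absurd h2 ha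
      · refine ⟨i, Nat.le_of_succ_le_succ hi, ?_⟩
        have e : ((i + 1 : ℕ) : ℝ) * h = h + i * h := by
          push_cast
          ring
        rw [e, cat_add _ _ (by positivity), cat_of_le _ _ hh] at h2
        refine h2.trans_eq ?_
        congr 1
        ring
    refine (lintegral_mono h1).trans (le_of_eq ?_)
    have h3 : Measurable fun W : Pth => W h - W 0 := (measurable_ev h).sub (measurable_ev 0)
    have h4 : Measurable fun z : ℝ => ENNReal.ofReal (((a + z) ^ 2 + κ * (m * h)) / x ^ 2) := by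
      fun_prop
    rw [← lintegral_map h4 h3, hμ.law h hh, max_gauss _ _ _ _ (by positivity) (by positivity),
      Real.coe_toNNReal _ (by positivity)]
    congr 2
    push_cast
    ring

theorem max_main (hC : CatStmt) {κ : ℝ} {μ : Measure Pth} (hκ : 0 < κ) (hμ : Wie κ μ) {x T : ℝ}
    (hx : 0 < x) (hT : 0 ≤ T) :
    μ {W | ∃ v ∈ Icc 0 T, x < |W v - W 0|} ≤ ENNReal.ofReal (κ * T / x ^ 2) := by
  have h1 : ∀ n : ℕ, μ (max_A x (T / (n + 1)) (n + 1) 0) ≤ ENNReal.ofReal (κ * T / x ^ 2) := by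
    intro n
    refine (max_grid hC hκ hμ hx (by positivity) (n + 1) 0).trans (le_of_eq ?_)
    congr 2
    push_cast
    field_simp
    ring
  have hm : Monotone fun N : ℕ => ⋂ n, ⋂ _ : N ≤ n, max_A x (T / (n + 1)) (n + 1) 0 :=
    fun a b hab => biInter_subset_biInter_left fun n hn => hab.trans hn
  have h2 : {W : Pth | ∃ v ∈ Icc 0 T, x < |W v - W 0|} ⊆
      ⋃ N : ℕ, ⋂ n, ⋂ _ : N ≤ n, max_A x (T / (n + 1)) (n + 1) 0 := by
    rintro W ⟨v, hv, hW⟩
    have hT0 : 0 < T := by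
      refine hT.lt_of_ne fun e => ?_
      have : v = 0 := le_antisymm (e ▸ hv.2) hv.1
      rw [this, sub_self, abs_zero] at hW
      exact lt_asymm hW hx
    have hp : ∀ n : ℕ, 0 < T / (n + 1) := fun n => by positivity
    have h3 : Tendsto (fun n : ℕ => T / ((n : ℝ) + 1)) atTop (𝓝 0) :=
      tendsto_const_nhds.div_atTop (tendsto_atTop_add_const_right _ _ tendsto_natCast_atTop_atTop)
    have h4 : Tendsto (fun n : ℕ => (⌊v / (T / (n + 1))⌋₊ : ℝ) * (T / (n + 1))) atTop (𝓝 v) := by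
      have h5 := h3.const_sub v
      rw [sub_zero] at h5
      refine tendsto_of_tendsto_of_tendsto_of_le_of_le h5 tendsto_const_nhds (fun n => ?_)
        fun n => ?_
      · have h6 := (div_lt_iff₀ (hp n)).1 (Nat.lt_floor_add_one (v / (T / (n + 1))))
        simp only
        linarith
      · exact (le_div_iff₀ (hp n)).1 (Nat.floor_le (div_nonneg hv.1 (hp n).le))
    have h7 : Continuous fun u : ℝ => |0 + (W u - W 0)| := by fun_prop
    have h8 := ((h7.tendsto v).comp h4).eventually_const_lt (by rwa [zero_add])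
    obtain ⟨N, hN⟩ := eventually_atTop.1 h8
    refine mem_iUnion.2 ⟨N, mem_iInter₂.2 fun n hn => ⟨_, ?_, hN n hn⟩⟩
    refine Nat.floor_le_of_le ?_
    rw [div_le_iff₀ (hp n)]
    push_cast
    rw [mul_div_cancel₀ _ (by positivity)]
    exact hv.2
  refine (measure_mono h2).trans ?_
  rw [hm.measure_iUnion]
  exact iSup_le fun N => (measure_mono (biInter_subset_of_mem (le_refl N))).trans (h1 N)

theorem max_cp (hC : CatStmt) {κ : ℝ} {μ : Measure Pth} (hκ : 0 < κ) (hμ : Wie κ μ) (s T x : ℝ)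
    (V : Pth) (hT : 0 ≤ T) (hx : 0 < x) :
    CP μ s V (Stay s (s + T) x)ᶜ ≤ ENNReal.ofReal (κ * T / x ^ 2) := by
  refine le_trans (measure_mono fun W hW => ?_) (max_main hC hκ hμ hx hT)
  by_contra h
  refine hW fun u hu => ?_
  obtain ⟨v, hv, rfl⟩ : ∃ v ∈ Icc 0 T, u = s + v :=
    ⟨u - s, ⟨by linarith [hu.1], by linarith [hu.2]⟩, by ring⟩
  rw [cat_add _ _ hv.1, cat_of_le _ _ le_rfl, add_sub_cancel_left]
  exact not_lt.1 fun h' => h ⟨v, hv, h'⟩

theorem max_lower {κ K y x : ℝ} (hκ : 0 < κ) (hy : 0 < y) (hx : |x| ≤ K * y) :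
    ENNReal.ofReal (2 / √(2 * Real.pi * κ) * Real.exp (-(K + 1) ^ 2 / (2 * κ))) ≤
      gaussianReal 0 (κ * y ^ 2).toNNReal (Icc (x - y) (x + y)) := by
  have hπ := Real.pi_pos
  have hv : 0 < κ * y ^ 2 := by positivity
  have h1 : ∀ z ∈ Icc (x - y) (x + y),
      ENNReal.ofReal ((√(2 * Real.pi * κ) * y)⁻¹ * Real.exp (-(K + 1) ^ 2 / (2 * κ))) ≤
        gaussianPDF 0 (κ * y ^ 2).toNNReal z := by
    intro z hz
    refine ENNReal.ofReal_le_ofReal ?_
    rw [gaussianPDFReal, Real.coe_toNNReal _ hv.le, ← mul_assoc,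
      Real.sqrt_mul (by positivity) (y ^ 2), Real.sqrt_sq hy.le, sub_zero]
    refine mul_le_mul_of_nonneg_left (Real.exp_le_exp.2 ?_) (by positivity)
    have h2 : z ^ 2 ≤ ((K + 1) * y) ^ 2 := by
      refine sq_le_sq' ?_ ?_ <;> linarith [hz.1, hz.2, (abs_le.1 hx).1, (abs_le.1 hx).2]
    rw [div_le_div_iff₀ (by positivity) (by positivity)]
    nlinarith [mul_le_mul_of_nonneg_left h2 hκ.le]
  rw [gaussianReal_apply _ (Real.toNNReal_pos.2 hv).ne']
  refine le_trans (le_of_eq ?_) (setLIntegral_mono' measurableSet_Icc h1)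
  rw [setLIntegral_const, Real.volume_Icc, ← ENNReal.ofReal_mul (by positivity)]
  congr 1
  field_simp
  ring

theorem maxS (hC : CatStmt) : MaxStmt := by
  refine ⟨fun κ μ hκ hμ s T x V hT hx => max_cp hC hκ hμ s T x V hT hx, fun κ μ hκ hμ K _ => ?_⟩
  have hπ := Real.pi_pos
  obtain ⟨p, hp, hlow⟩ : ∃ p : ℝ, 0 < p ∧ ∀ y x : ℝ, 0 < y → |x| ≤ K * y → ENNReal.ofReal p ≤
      gaussianReal 0 (κ * y ^ 2).toNNReal (Icc (x - y) (x + y)) :=
    ⟨_, by positivity, fun y x hy hx => max_lower hκ hy hx⟩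
  have hC0 : 0 < √(2 * κ / p) := Real.sqrt_pos.2 (by positivity)
  refine ⟨√(2 * κ / p), p / 2, hC0, half_pos hp, fun s y x V hy hx => ?_⟩
  have h1 := max_cp hC hκ hμ s (y ^ 2) (√(2 * κ / p) * y) V (sq_nonneg y) (mul_pos hC0 hy)
  have e1 : κ * y ^ 2 / (√(2 * κ / p) * y) ^ 2 = p / 2 := by
    rw [mul_pow, Real.sq_sqrt (by positivity)]
    field_simp
  rw [e1] at h1
  have h2 := hlow y x hy hx
  have hm : Measurable fun W : Pth => W (y ^ 2) - W 0 := (measurable_ev _).sub (measurable_ev 0)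
  rw [← hμ.law _ (sq_nonneg y), Measure.map_apply hm measurableSet_Icc] at h2
  have h3 : (fun W : Pth => W (y ^ 2) - W 0) ⁻¹' Icc (x - y) (x + y) ⊆
      {W | cat s V W ∈ {W : Pth | W ∈ Stay s (s + y ^ 2) (√(2 * κ / p) * y) ∧
        |W (s + y ^ 2) - W s - x| ≤ y}} ∪
      {W | cat s V W ∈ (Stay s (s + y ^ 2) (√(2 * κ / p) * y))ᶜ} := by
    intro W hW
    by_cases h : cat s V W ∈ Stay s (s + y ^ 2) (√(2 * κ / p) * y)
    · refine Or.inl ⟨h, ?_⟩
      rw [cat_add _ _ (sq_nonneg y), cat_of_le _ _ le_rfl, add_sub_cancel_left, abs_le]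
      constructor <;> linarith [hW.1, hW.2]
    · exact Or.inr h
  have h4 := h2.trans ((measure_mono h3).trans ((measure_union_le _ _).trans
    (add_le_add le_rfl h1)))
  rw [← add_halves p, ENNReal.ofReal_add (half_pos hp).le (half_pos hp).le, add_halves p] at h4
  exact ENNReal.le_of_add_le_add_right ENNReal.ofReal_ne_top h4

end Vale.Agent.P164
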