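import Vale.Agent.P164.Stm

open Set MeasureTheory ProbabilityTheory Metric
open scoped ENNReal NNReal

namespace Vale.Agent.P164

namespace MonA

theorem R_pos {W : Pth} {t : ℝ} {w : ℂ} (h : 0 < Yf W t w) : 0 < Rf W t w :=
  h.trans_le ((le_abs_self _).trans (Yf_le_Rf W t w))

theorem mon (hA : FlowAStmt) (hB : BaseStmt) (hL : LSAlgStmt) (κ a b q : ℝ) (hκ : 0 < κ) :
    LS κ (Mon a b q)
    (fun w W t => Mon a b q w W t *
      ((cX κ a q * (1 - Sf W t w ^ 2) + cY κ a b q * Sf W t w ^ 2) / Rf W t w ^ 2))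
    (fun w W t => Mon a b q w W t * (q * Xf W t w / Rf W t w ^ 2)) := by
  have hY := hL.log κ _ _ _ (hB.Y κ) fun δ hδ => ⟨δ, hδ, fun _ _ _ _ h => h⟩
  have hQ := hL.log κ _ _ _ (hL.add κ _ _ _ _ _ _ (hL.mul κ _ _ _ _ _ _ (hB.X κ) (hB.X κ))
    (hL.mul κ _ _ _ _ _ _ (hB.Y κ) (hB.Y κ))) fun δ hδ => ⟨δ * δ, by positivity,
      fun w W t _ h => by nlinarith [mul_self_nonneg (Xf W t w)]⟩
  have hS := hL.add κ _ _ _ _ _ _ (hL.add κ _ _ _ _ _ _ (hL.smul κ _ _ _ (a + q) hY)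
    (hL.smul κ _ _ _ b (hB.logUp κ))) (hL.smul κ _ _ _ (-q / 2) hQ)
  refine hL.congr κ _ _ _ _ _ _ (hL.comp κ _ _ _ Real.exp Real.exp Real.exp Real.hasDerivAt_exp
    Real.hasDerivAt_exp Real.continuous_exp hS) fun w W t ht hy => ?_
  have hR := R_pos hy
  have hU := Up_pos ht ((hA.alive W t w ht).2 hy)
  have hsq : Xf W t w * Xf W t w + Yf W t w * Yf W t w = Rf W t w ^ 2 := by
    rw [Rf_sq]
    ring
  have hv : Mon a b q w W t = Real.exp ((a + q) * Real.log (Yf W t w) + b * Real.log (Up W t w) +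
      -q / 2 * Real.log (Xf W t w * Xf W t w + Yf W t w * Yf W t w)) := by
    rw [hsq, Mon, Sf, Real.rpow_def_of_pos hy, Real.rpow_def_of_pos hU,
      Real.rpow_def_of_pos (div_pos hy hR), ← Real.exp_add, ← Real.exp_add,
      Real.log_div hy.ne' hR.ne', Real.log_pow]
    congr 1
    push_cast
    ring
  have hr : rr κ = (8 - κ) / κ := by
    rw [← kappa_rr hκ]
    field_simp
  have hx : Xf W t w ^ 2 = Rf W t w ^ 2 - Yf W t w ^ 2 := by
    rw [Rf_sq]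
    ring
  refine ⟨hv, ?_, ?_⟩
  · rw [← hv, hsq, cX, cY, Sf, hr]
    generalize Mon a b q w W t = m
    generalize Xf W t w = x at hx
    generalize Yf W t w = y at hx hy
    generalize Rf W t w = r at hx hR
    field_simp
    linear_combination (-(4 * m * y ^ 2 * q * (2 * κ - 4 + q * κ))) * hx
  · rw [← hv, hsq]
    field_simp
    ring

theorem cutUp (hA : FlowAStmt) (hB : BaseStmt) (hL : LSAlgStmt) (κ ε : ℝ) :
    LS κ (fun w W t => cut (Up W t w / ε))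
    (fun w W t => -(cut1 (Up W t w / ε) * (Up W t w / ε) * (4 * Sf W t w ^ 2 / Rf W t w ^ 2)))
    (fun _ _ _ => 0) := by
  have h0 : ∀ x, HasDerivAt (fun x => Real.exp x / ε) (Real.exp x / ε) x := fun x =>
    (Real.hasDerivAt_exp x).div_const ε
  have c1 := continuous_cut1
  have c2 := continuous_cut2
  refine hL.congr κ _ _ _ _ _ _ (hL.comp κ _ _ _ (fun x => cut (Real.exp x / ε))
    (fun x => cut1 (Real.exp x / ε) * (Real.exp x / ε))
    (fun x => cut2 (Real.exp x / ε) * (Real.exp x / ε) * (Real.exp x / ε) +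
      cut1 (Real.exp x / ε) * (Real.exp x / ε)) (fun x => (hasDerivAt_cut _).comp x (h0 x))
    (fun x => ((hasDerivAt_cut1 _).comp x (h0 x)).mul (h0 x)) (by fun_prop) (hB.logUp κ))
    fun w W t ht hy => ?_
  rw [Real.exp_log (Up_pos ht ((hA.alive W t w ht).2 hy))]
  exact ⟨rfl, by ring, by ring⟩

/-- smooth while alive, with some drift and gradient -/
def E (κ : ℝ) (v : ℂ → Pth → ℝ → ℝ) : Prop := ∃ d g, LS κ v d g

theorem E.mul (hL : LSAlgStmt) {κ : ℝ} {v v' : ℂ → Pth → ℝ → ℝ} (h : E κ v) (h' : E κ v') :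
    E κ fun w W t => v w W t * v' w W t := by
  obtain ⟨d, g, h⟩ := h
  obtain ⟨d', g', h'⟩ := h'
  exact ⟨_, _, hL.mul κ _ _ _ _ _ _ h h'⟩

theorem E.comp (hL : LSAlgStmt) {κ : ℝ} {v : ℂ → Pth → ℝ → ℝ} (h : E κ v) {φ : ℝ → ℝ}
    (hφ : ContDiff ℝ 2 φ) : E κ fun w W t => φ (v w W t) := by
  obtain ⟨d, g, h⟩ := h
  have h1 : ContDiff ℝ 1 (deriv φ) := (contDiff_succ_iff_deriv.1 (show ContDiff ℝ (1 + 1) φ from
    hφ)).2.2
  exact ⟨_, _, hL.comp κ _ _ _ φ (deriv φ) (deriv (deriv φ))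
    (fun x => (hφ.differentiable two_ne_zero x).hasDerivAt)
    (fun x => (h1.differentiable one_ne_zero x).hasDerivAt) (h1.continuous_deriv le_rfl) h⟩

theorem E.congr (hL : LSAlgStmt) {κ : ℝ} {v v' : ℂ → Pth → ℝ → ℝ} (h : E κ v)
    (e : ∀ w W t, 0 ≤ t → 0 < Yf W t w → v' w W t = v w W t) : E κ v' := by
  obtain ⟨d, g, h⟩ := h
  exact ⟨d, g, hL.congr κ _ _ _ _ _ _ h fun w W t ht hy => ⟨e w W t ht hy, rfl, rfl⟩⟩

end MonA

open MonA in
theorem monS (hA : FlowAStmt) (hB : BaseStmt) (hL : LSAlgStmt) : MonStmt := by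
  refine ⟨mon hA hB hL, fun κ ε _ _ => cutUp hA hB hL κ ε, fun κ ε hκ _ => ?_,
    fun κ s0 ε hκ => ?_⟩
  · refine hL.congr κ _ _ _ _ _ _ (hL.mul κ _ _ _ _ _ _ (cutUp hA hB hL κ ε)
      (mon hA hB hL κ 0 (dd κ - 2) (rr κ) hκ)) fun w W t _ _ => ?_
    have h1 : cX κ 0 (rr κ) = 0 := by simp [cX]
    have h2 : cY κ 0 (dd κ - 2) (rr κ) = 0 := by
      rw [cY, kappa_rr hκ, dd]
      ring
    rw [h1, h2, crf, MM_eq]
    exact ⟨rfl, by ring, by ring⟩
  · have hm : ∀ a b q, E κ (Mon a b q) := fun a b q => ⟨_, _, mon hA hB hL κ a b q hκ⟩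
    have h1 := (hm 0 0 1).comp hL (φ := fun x => cut (x / s0))
      ((contDiff_cut (n := 2)).comp (contDiff_id.div_const s0))
    have h2 := (hm 0 1 0).comp hL (φ := fun x => 4 * (cut1 (x / ε) * (x / ε)))
      (contDiff_const.mul (((contDiff_cut1 (n := 2)).comp (contDiff_id.div_const ε)).mul
        (contDiff_id.div_const ε)))
    refine (h1.mul hL ((hm 0 (dd κ - 2) (rr κ)).mul hL (h2.mul hL (hm (-2) 0 4)))).congr hL
      fun w W t _ hy => ?_
    have hR := R_pos hy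
    have e : Mon (-2) 0 4 w W t = Sf W t w ^ 2 / Rf W t w ^ 2 := by
      rw [Mon, Real.rpow_zero, Real.rpow_neg hy.le, Real.rpow_two, Real.rpow_ofNat, Sf]
      field_simp
    rw [e, cr, crf, MM_eq]
    simp only [Mon, Real.rpow_zero, Real.rpow_one, one_mul, mul_one]
    ring

end Vale.Agent.P164
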