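import Vale.Agent.P164.Stm

/-! Schwarz lemma for the Loewner maps. -/

open Set MeasureTheory ProbabilityTheory Metric
open scoped ENNReal NNReal ComplexConjugate

namespace Vale.Agent.P164

theorem schwarz_abs {h : ℂ → ℂ} {c h' : ℂ} {ρ : ℝ} (hρ : 0 < ρ)
    (hd : DifferentiableOn ℂ h (ball c ρ)) (hp : ∀ z ∈ ball c ρ, 0 < (h z).im)
    (hc : HasDerivAt h h' c) : ‖h'‖ * ρ ≤ 2 * (h c).im := by
  have h0 := hp c (mem_ball_self hρ)
  have hne : ∀ z ∈ ball c ρ, h z - conj (h c) ≠ 0 := by
    intro z hz e
    have h1 := congrArg Complex.im e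
    simp only [Complex.sub_im, Complex.conj_im, Complex.zero_im] at h1
    linarith [hp z hz]
  have hF : DifferentiableOn ℂ (fun z => (h z - h c) / (h z - conj (h c))) (ball c ρ) :=
    (hd.sub_const _).div (hd.sub_const _) hne
  have hm : MapsTo (fun z => (h z - h c) / (h z - conj (h c))) (ball c ρ)
      (closedBall ((fun z => (h z - h c) / (h z - conj (h c))) c) 1) := by
    intro z hz
    simp only [sub_self, zero_div, mem_closedBall, dist_zero_right, norm_div]
    rw [div_le_one (norm_pos_iff.2 (hne z hz))]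
    refine abs_le_of_sq_le_sq' ?_ (norm_nonneg _) |>.2
    rw [Complex.sq_norm, Complex.sq_norm, Complex.normSq_apply, Complex.normSq_apply]
    simp only [Complex.sub_re, Complex.sub_im, Complex.conj_re, Complex.conj_im]
    nlinarith [mul_pos h0 (hp z hz)]
  have h1 := Complex.norm_deriv_le_div_of_mapsTo_ball hF hm hρ
  have h2 : HasDerivAt (fun z => (h z - h c) / (h z - conj (h c))) (h' / (h c - conj (h c))) c := by
    refine ((hc.sub_const (h c)).fun_div (hc.sub_const (conj (h c)))
      (hne c (mem_ball_self hρ))).congr_deriv ?_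
    have := hne c (mem_ball_self hρ)
    field_simp
    ring
  have h3 : ‖h c - conj (h c)‖ = 2 * (h c).im := by
    rw [Complex.sub_conj, norm_mul, Complex.norm_I, mul_one, Complex.norm_real,
      Real.norm_of_nonneg (by linarith)]
  rw [h2.deriv, norm_div, h3, div_le_div_iff₀ (by linarith) hρ] at h1
  linarith

theorem schwarz_cay {u : ℂ} (hu : u ∈ ball (0 : ℂ) 1) :
    1 - u ≠ 0 ∧ 0 < (Complex.I * (1 + u) / (1 - u)).im := by
  have h1 : ‖u‖ < 1 := by simpa using hu
  have h2 : 1 - u ≠ 0 := by
    intro e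
    rw [← sub_eq_zero.1 e] at h1
    simp at h1
  refine ⟨h2, ?_⟩
  have h3 : u.re * u.re + u.im * u.im < 1 := by
    rw [← Complex.normSq_apply, ← Complex.sq_norm]
    nlinarith [norm_nonneg u]
  have h4 := Complex.normSq_pos.2 h2
  rw [Complex.div_im, ← sub_div]
  refine div_pos ?_ h4
  simp only [Complex.mul_im, Complex.mul_re, Complex.I_re, Complex.I_im, Complex.add_re,
    Complex.add_im, Complex.sub_re, Complex.sub_im, Complex.one_re, Complex.one_im]
  nlinarith

theorem schwarzS (hA : FlowAStmt) (hM : FlowMStmt) (hC : ConfAStmt) (hB : ConfBStmt) :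
    SchwarzStmt where
  schwarz := by
    intro W t w ρ ht hw hb
    have hp := Up_pos ht hw
    rcases le_or_gt ρ 0 with hρ | hρ
    · linarith
    have h1 := schwarz_abs hρ (h := Zf W t)
      (fun z hz => (hC.der W t z ht (hb hz)).differentiableAt.differentiableWithinAt)
      (fun z hz => (hA.alive W t z ht).1 (hb hz)) (hC.der W t w ht hw)
    have hY : 0 < Yf W t w := (hA.alive W t w ht).1 hw
    rw [hC.norm W t w ht hw, div_mul_eq_mul_div, div_le_iff₀ hp] at h1
    change _ ≤ 2 * Yf W t w * _ at h1
    nlinarith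
  grow := by
    intro W s t hs hst he
    have _ := hM
    have ht : 0 ≤ t := hs.trans hst.le
    have hCd : ∀ u ∈ ball (0 : ℂ) 1, HasDerivAt (fun u : ℂ => Complex.I * (1 + u) / (1 - u))
        (2 * Complex.I / (1 - u) ^ 2) u := by
      intro u hu
      refine ((((hasDerivAt_id u).const_add 1).const_mul Complex.I).fun_div
        ((hasDerivAt_id u).const_sub 1) (schwarz_cay hu).1).congr_deriv ?_
      simp only [id]
      ring
    have hdom : ∀ ζ : ℂ, 0 < ζ.im → fi W s ζ ∈ dom W t := fun ζ hζ => by
      rw [he]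
      exact (hB.right W s ζ hs hζ).1
    have hd : ∀ u ∈ ball (0 : ℂ) 1,
        HasDerivAt (fun u : ℂ => Zf W t (fi W s (Complex.I * (1 + u) / (1 - u))))
          (gd W t (fi W s (Complex.I * (1 + u) / (1 - u))) *
            (fd W s (Complex.I * (1 + u) / (1 - u)) * (2 * Complex.I / (1 - u) ^ 2))) u := by
      intro u hu
      have h1 := (hB.der W s _ hs (schwarz_cay hu).2).comp u (hCd u hu)
      exact (hC.der W t _ ht (hdom _ (schwarz_cay hu).2)).comp u h1
    have h1 := schwarz_abs one_pos
      (fun u hu => (hd u hu).differentiableAt.differentiableWithinAt)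
      (fun u hu => (hA.alive W t _ ht).1 (hdom _ (schwarz_cay hu).2))
      (hd 0 (mem_ball_self one_pos))
    simp only [add_zero, sub_zero, mul_one, div_one, one_pow, norm_mul, Complex.norm_I,
      Complex.norm_two] at h1
    have hI : 0 < Complex.I.im := by simp
    have hw := hdom _ hI
    rw [hC.norm W t _ ht hw, hB.norm W s _ hs hI] at h1
    have hY : 0 < Yf W t (fi W s Complex.I) := (hA.alive W t _ ht).1 hw
    have hp := Up_pos ht hw
    have h2 := hA.Up_strict W _ s t hs hst hw
    rw [Complex.I_im, div_one, div_mul_eq_mul_div, div_le_iff₀ hp] at h1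
    change _ ≤ 2 * Yf W t (fi W s Complex.I) * _ at h1
    nlinarith

end Vale.Agent.P164
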