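import Vale.Agent.P164.Stm

/-! Algebra of smooth functionals. -/

open Set MeasureTheory ProbabilityTheory Metric
open scoped ENNReal NNReal

namespace Vale.Agent.P164

section
variable {α : Type} [MeasurableSpace α] [Norm α] {f g : α → Pth → ℝ → ℝ → ℝ}

theorem smAlg_const (c : ℝ) : Nice fun (_ : α) (_ : Pth) (_ _ : ℝ) => c :=
  ⟨measurable_const, fun _ _ => continuousOn_const, fun _ => ⟨|c|, fun _ _ _ _ _ _ _ _ => le_rfl⟩⟩

theorem smAlg_time : Nice fun (_ : α) (_ : Pth) (t _ : ℝ) => t :=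
  ⟨by fun_prop, fun _ _ => continuousOn_fst, fun n => ⟨n, fun _ _ t _ _ ht _ _ => by
    rw [abs_of_nonneg ht.1]; exact ht.2⟩⟩

theorem smAlg_add (hf : Nice f) (hg : Nice g) : Nice fun a W t ξ => f a W t ξ + g a W t ξ := by
  refine ⟨hf.meas.add hg.meas, fun a W => (hf.cont a W).add (hg.cont a W), fun n => ?_⟩
  obtain ⟨C, hC⟩ := hf.bdd n
  obtain ⟨C', hC'⟩ := hg.bdd n
  exact ⟨C + C', fun a W t ξ h1 h2 h3 h4 => (abs_add_le _ _).trans
    (add_le_add (hC a W t ξ h1 h2 h3 h4) (hC' a W t ξ h1 h2 h3 h4))⟩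

theorem smAlg_mul (hf : Nice f) (hg : Nice g) : Nice fun a W t ξ => f a W t ξ * g a W t ξ := by
  refine ⟨hf.meas.mul hg.meas, fun a W => (hf.cont a W).mul (hg.cont a W), fun n => ?_⟩
  obtain ⟨C, hC⟩ := hf.bdd n
  obtain ⟨C', hC'⟩ := hg.bdd n
  refine ⟨C * C', fun a W t ξ h1 h2 h3 h4 => ?_⟩
  rw [abs_mul]
  exact mul_le_mul (hC a W t ξ h1 h2 h3 h4) (hC' a W t ξ h1 h2 h3 h4) (abs_nonneg _)
    ((abs_nonneg _).trans (hC a W t ξ h1 h2 h3 h4))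

theorem smAlg_comp {φ : ℝ → ℝ} (hφ : Continuous φ) (hf : Nice f) :
    Nice fun a W t ξ => φ (f a W t ξ) := by
  refine ⟨hφ.measurable.comp hf.meas, fun a W => hφ.comp_continuousOn (hf.cont a W), fun n => ?_⟩
  obtain ⟨C, hC⟩ := hf.bdd n
  obtain ⟨K, hK⟩ := (isCompact_Icc (a := -C) (b := C)).exists_bound_of_continuousOn hφ.continuousOn
  exact ⟨K, fun a W t ξ h1 h2 h3 h4 => hK _ (abs_le.1 (hC a W t ξ h1 h2 h3 h4))⟩

theorem smAlg_pull {β : Type} [MeasurableSpace β] [Norm β] {π : β → α} (hπ : Measurable π)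
    (hb : ∀ n : ℝ, ∃ n' : ℝ, ∀ b, ‖b‖ ≤ n → ‖π b‖ ≤ n') (hf : Nice f) : Nice fun b => f (π b) := by
  refine ⟨hf.meas.comp ((hπ.comp measurable_fst).prodMk measurable_snd),
    fun a W => hf.cont (π a) W, fun n => ?_⟩
  obtain ⟨n', hn'⟩ := hb n
  obtain ⟨C, hC⟩ := hf.bdd (max n n')
  exact ⟨C, fun a W t ξ h1 h2 h3 h4 => hC (π a) W t ξ ((hn' a h1).trans (le_max_right _ _))
    ⟨h2.1, h2.2.trans (le_max_left _ _)⟩ (fun u hu => (h3 u hu).trans (le_max_left _ _))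
    (h4.trans (le_max_left _ _))⟩

end

theorem smAlg_cst (κ : ℝ) (α : Type) [MeasurableSpace α] [Norm α] (c : ℝ) :
    Sm κ (fun (_ : α) _ _ => c) (fun _ _ _ => 0) (fun _ _ _ => 0) :=
  ⟨⟨fun _ _ _ _ => c, fun _ _ _ _ => 0, fun _ _ _ _ => 0, fun _ _ _ _ => 0⟩,
    ⟨smAlg_const c, smAlg_const 0, smAlg_const 0, smAlg_const 0, fun _ _ _ _ _ _ _ => rfl,
      fun _ _ _ _ _ => hasDerivAt_const _ _, fun _ _ _ _ _ => hasDerivAt_const _ _,
      fun _ _ _ _ _ => hasDerivAt_const _ _⟩, fun _ _ _ _ => ⟨rfl, by simp, rfl⟩⟩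

theorem smAlg_mulS (κ : ℝ) (α : Type) [MeasurableSpace α] [Norm α]
    (v d g v' d' g' : α → Pth → ℝ → ℝ) (h : Sm κ v d g) (h' : Sm κ v' d' g') :
    Sm κ (fun a W t => v a W t * v' a W t)
      (fun a W t => v a W t * d' a W t + v' a W t * d a W t + κ * (g a W t * g' a W t))
      (fun a W t => v a W t * g' a W t + v' a W t * g a W t) := by
  obtain ⟨F, hF, e⟩ := h
  obtain ⟨F', hF', e'⟩ := h'
  refine ⟨⟨fun a W t ξ => F.v a W t ξ * F'.v a W t ξ,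
    fun a W t ξ => F.t a W t ξ * F'.v a W t ξ + F.v a W t ξ * F'.t a W t ξ,
    fun a W t ξ => F.x a W t ξ * F'.v a W t ξ + F.v a W t ξ * F'.x a W t ξ,
    fun a W t ξ => (F.xx a W t ξ * F'.v a W t ξ + F.x a W t ξ * F'.x a W t ξ) +
      (F.x a W t ξ * F'.x a W t ξ + F.v a W t ξ * F'.xx a W t ξ)⟩,
    ⟨smAlg_mul hF.nv hF'.nv, smAlg_add (smAlg_mul hF.nt hF'.nv) (smAlg_mul hF.nv hF'.nt),
      smAlg_add (smAlg_mul hF.nx hF'.nv) (smAlg_mul hF.nv hF'.nx),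
      smAlg_add (smAlg_add (smAlg_mul hF.nxx hF'.nv) (smAlg_mul hF.nx hF'.nx))
        (smAlg_add (smAlg_mul hF.nx hF'.nx) (smAlg_mul hF.nv hF'.nxx)),
      fun a V W t ξ ht hV => ?_, fun a W t ξ ht => (hF.dt a W t ξ ht).fun_mul (hF'.dt a W t ξ ht),
      fun a W t ξ ht => (hF.dx a W t ξ ht).fun_mul (hF'.dx a W t ξ ht),
      fun a W t ξ ht => ((hF.dxx a W t ξ ht).fun_mul (hF'.dx a W t ξ ht)).fun_add
        ((hF.dx a W t ξ ht).fun_mul (hF'.dxx a W t ξ ht))⟩, fun a W t ht => ?_⟩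
  · simp only [hF.loc a V W t ξ ht hV, hF'.loc a V W t ξ ht hV]
  · obtain ⟨e1, e2, e3⟩ := e a W t ht
    obtain ⟨e1', e2', e3'⟩ := e' a W t ht
    simp only [e1, e2, e3, e1', e2', e3']
    refine ⟨trivial, by ring, by ring⟩

theorem smAlg_congr (κ : ℝ) (α : Type) [MeasurableSpace α] [Norm α]
    (v d g v' d' g' : α → Pth → ℝ → ℝ) (h : Sm κ v d g)
    (e' : ∀ a W t, 0 ≤ t → v' a W t = v a W t ∧ d' a W t = d a W t ∧ g' a W t = g a W t) :
    Sm κ v' d' g' := by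
  obtain ⟨F, hF, e⟩ := h
  refine ⟨F, hF, fun a W t ht => ?_⟩
  obtain ⟨e1, e2, e3⟩ := e a W t ht
  obtain ⟨e1', e2', e3'⟩ := e' a W t ht
  exact ⟨e1'.trans e1, e2'.trans e2, e3'.trans e3⟩

theorem smAlg : SmAlgStmt where
  congr := smAlg_congr
  const := smAlg_cst
  time := fun κ α _ _ =>
    ⟨⟨fun _ _ t _ => t, fun _ _ _ _ => 1, fun _ _ _ _ => 0, fun _ _ _ _ => 0⟩,
      ⟨smAlg_time, smAlg_const 1, smAlg_const 0, smAlg_const 0, fun _ _ _ _ _ _ _ => rfl,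
        fun _ _ _ _ _ => hasDerivAt_id _, fun _ _ _ _ _ => hasDerivAt_const _ _,
        fun _ _ _ _ _ => hasDerivAt_const _ _⟩, fun _ _ _ _ => ⟨rfl, by simp, rfl⟩⟩
  add := by
    intro κ α _ _ v d g v' d' g' h h'
    obtain ⟨F, hF, e⟩ := h
    obtain ⟨F', hF', e'⟩ := h'
    refine ⟨⟨fun a W t ξ => F.v a W t ξ + F'.v a W t ξ, fun a W t ξ => F.t a W t ξ + F'.t a W t ξ,
      fun a W t ξ => F.x a W t ξ + F'.x a W t ξ, fun a W t ξ => F.xx a W t ξ + F'.xx a W t ξ⟩,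
      ⟨smAlg_add hF.nv hF'.nv, smAlg_add hF.nt hF'.nt, smAlg_add hF.nx hF'.nx,
        smAlg_add hF.nxx hF'.nxx, fun a V W t ξ ht hV => ?_,
        fun a W t ξ ht => (hF.dt a W t ξ ht).fun_add (hF'.dt a W t ξ ht),
        fun a W t ξ ht => (hF.dx a W t ξ ht).fun_add (hF'.dx a W t ξ ht),
        fun a W t ξ ht => (hF.dxx a W t ξ ht).fun_add (hF'.dxx a W t ξ ht)⟩, fun a W t ht => ?_⟩
    · simp only [hF.loc a V W t ξ ht hV, hF'.loc a V W t ξ ht hV]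
    · obtain ⟨e1, e2, e3⟩ := e a W t ht
      obtain ⟨e1', e2', e3'⟩ := e' a W t ht
      simp only [e1, e2, e3, e1', e2', e3']
      refine ⟨trivial, by ring, trivial⟩
  smul := by
    intro κ α _ _ v d g c h
    refine smAlg_congr κ α _ _ _ _ _ _ (smAlg_mulS κ α _ _ _ _ _ _ (smAlg_cst κ α c) h) ?_
    intro a W t _
    refine ⟨rfl, by ring, by ring⟩
  mul := smAlg_mulS
  comp := by
    intro κ α _ _ v d g φ φ1 φ2 h0 h1 c2 h
    obtain ⟨F, hF, e⟩ := h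
    have c0 : Continuous φ := continuous_iff_continuousAt.2 fun x => (h0 x).continuousAt
    have c1 : Continuous φ1 := continuous_iff_continuousAt.2 fun x => (h1 x).continuousAt
    refine ⟨⟨fun a W t ξ => φ (F.v a W t ξ), fun a W t ξ => φ1 (F.v a W t ξ) * F.t a W t ξ,
      fun a W t ξ => φ1 (F.v a W t ξ) * F.x a W t ξ,
      fun a W t ξ => φ2 (F.v a W t ξ) * F.x a W t ξ * F.x a W t ξ +
        φ1 (F.v a W t ξ) * F.xx a W t ξ⟩,
      ⟨smAlg_comp c0 hF.nv, smAlg_mul (smAlg_comp c1 hF.nv) hF.nt,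
        smAlg_mul (smAlg_comp c1 hF.nv) hF.nx,
        smAlg_add (smAlg_mul (smAlg_mul (smAlg_comp c2 hF.nv) hF.nx) hF.nx)
          (smAlg_mul (smAlg_comp c1 hF.nv) hF.nxx), fun a V W t ξ ht hV => ?_,
        fun a W t ξ ht => (h0 _).comp t (hF.dt a W t ξ ht),
        fun a W t ξ ht => (h0 _).comp ξ (hF.dx a W t ξ ht),
        fun a W t ξ ht => HasDerivAt.fun_mul ((h1 _).comp ξ (hF.dx a W t ξ ht))
          (hF.dxx a W t ξ ht)⟩, fun a W t ht => ?_⟩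
    · simp only [hF.loc a V W t ξ ht hV]
    · obtain ⟨e1, e2, e3⟩ := e a W t ht
      simp only [e1, e2, e3]
      refine ⟨trivial, by ring, trivial⟩
  pull := by
    intro κ α β _ _ _ _ v d g π hπ hb h
    obtain ⟨F, hF, e⟩ := h
    have n1 := smAlg_pull hπ hb hF.nv
    have n2 := smAlg_pull hπ hb hF.nt
    have n3 := smAlg_pull hπ hb hF.nx
    have n4 := smAlg_pull hπ hb hF.nxx
    exact ⟨⟨fun b => F.v (π b), fun b => F.t (π b), fun b => F.x (π b), fun b => F.xx (π b)⟩,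
      ⟨n1, n2, n3, n4, fun b => hF.loc (π b), fun b => hF.dt (π b),
        fun b => hF.dx (π b), fun b => hF.dxx (π b)⟩, fun b => e (π b)⟩

end Vale.Agent.P164
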