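import Vale.Agent.P164.Stm

open Set MeasureTheory ProbabilityTheory Metric Filter Topology
open scoped ENNReal NNReal

namespace Vale.Agent.P164

section General

variable {α : Type} [MeasurableSpace α] [Norm α]

/-- Bound for a fixed path. -/
theorem smInt_bd {f : α → Pth → ℝ → ℝ → ℝ} (hf : Nice f) (W : Pth) (n : ℝ) :
    ∃ C : ℝ, ∀ a t ξ, ‖a‖ ≤ n → t ∈ Icc 0 n → |ξ| ≤ n → |f a W t ξ| ≤ C := by
  obtain ⟨B, hB⟩ := (isCompact_Icc (a := (0 : ℝ)) (b := n)).exists_bound_of_continuousOn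
    W.continuous.continuousOn
  obtain ⟨C, hC⟩ := hf.bdd (max n B)
  refine ⟨C, fun a t ξ ha ht hξ => hC a W t ξ (ha.trans (le_max_left _ _))
    ⟨ht.1, ht.2.trans (le_max_left _ _)⟩ (fun u hu => ?_) (hξ.trans (le_max_left _ _))⟩
  exact (hB u ⟨hu.1, hu.2.trans ht.2⟩).trans (le_max_right _ _)

theorem smInt_ev : Measurable fun p : α × Pth × ℝ => p.2.1 (max p.2.2 0) :=
  measurable_ev2.comp (f := fun p : α × Pth × ℝ => (p.2.1, max p.2.2 0)) (by fun_prop)

theorem smInt_diag {f : α → Pth → ℝ → ℝ → ℝ} (hf : Nice f) :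
    Measurable fun p : α × Pth × ℝ => f p.1 p.2.1 (max p.2.2 0) (p.2.1 (max p.2.2 0)) :=
  hf.meas.comp (f := fun p : α × Pth × ℝ => (p.1, p.2.1, max p.2.2 0, p.2.1 (max p.2.2 0)))
    (measurable_fst.prodMk (measurable_snd.fst.prodMk
      ((measurable_snd.snd.max measurable_const).prodMk smInt_ev)))

theorem smInt_cdiag {f : α → Pth → ℝ → ℝ → ℝ} (hf : Nice f) (a : α) (W : Pth) :
    ContinuousOn (fun t => f a W t (W t)) (Ici 0) :=
  (hf.cont a W).comp (f := fun t : ℝ => (t, W t)) (by fun_prop) fun t ht => ⟨ht, mem_univ _⟩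

theorem smInt_cmax {f : α → Pth → ℝ → ℝ → ℝ} (hf : Nice f) (a : α) (W : Pth) :
    Continuous fun t : ℝ => f a W (max t 0) (W (max t 0)) :=
  (smInt_cdiag hf a W).comp_continuous (f := fun t : ℝ => max t 0) (by fun_prop)
    fun t => le_max_right t 0

theorem smInt_tame0 {f : α → Pth → ℝ → ℝ → ℝ} (hf : Nice f) :
    Tame fun a W t => f a W t (W t) := by
  refine ⟨smInt_diag hf, fun t ht => ?_, smInt_cdiag hf, fun W n => ?_⟩
  · have h := (smInt_diag hf).comp (f := fun p : α × Pth => (p.1, p.2, t)) (by fun_prop)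
    simpa only [Function.comp_def, max_eq_left ht] using h
  · obtain ⟨B, hB⟩ := (isCompact_Icc (a := (0 : ℝ)) (b := n)).exists_bound_of_continuousOn
      W.continuous.continuousOn
    obtain ⟨C, hC⟩ := smInt_bd hf W (max n B)
    exact ⟨C, fun a t ha ht => hC a t _ (ha.trans (le_max_left _ _))
      ⟨ht.1, ht.2.trans (le_max_left _ _)⟩ ((hB t ht).trans (le_max_right _ _))⟩

theorem smInt_tcongr {v v' : α → Pth → ℝ → ℝ} (h : Tame v)
    (e : ∀ a W t, 0 ≤ t → v' a W t = v a W t) : Tame v' := by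
  refine ⟨?_, fun t ht => ?_, fun a W => (h.cont a W).congr fun t ht => e a W t ht,
    fun W n => ?_⟩
  · simpa only [e _ _ _ (le_max_right _ _)] using h.meas
  · simpa only [e _ _ _ ht] using h.meas' t ht
  · obtain ⟨C, hC⟩ := h.bdd W n
    exact ⟨C, fun a t ha ht => by rw [e a W t ht.1]; exact hC a t ha ht⟩

theorem smInt_tadd {v v' : α → Pth → ℝ → ℝ} (h : Tame v) (h' : Tame v') (c : ℝ) :
    Tame fun a W t => v a W t + c * v' a W t := by
  refine ⟨h.meas.add (h'.meas.const_mul c), fun t ht => (h.meas' t ht).add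
    ((h'.meas' t ht).const_mul c),
    fun a W => (h.cont a W).add (continuousOn_const.mul (h'.cont a W)), fun W n => ?_⟩
  obtain ⟨C, hC⟩ := h.bdd W n
  obtain ⟨C', hC'⟩ := h'.bdd W n
  refine ⟨C + |c| * C', fun a t ha ht => (abs_add_le _ _).trans (add_le_add (hC a t ha ht) ?_)⟩
  rw [abs_mul]
  exact mul_le_mul_of_nonneg_left (hC' a t ha ht) (abs_nonneg _)

theorem smInt_zero : Nice fun (_ : α) (_ : Pth) (_ _ : ℝ) => (0 : ℝ) :=
  ⟨measurable_const, fun _ _ => continuousOn_const, fun _ => ⟨0, fun _ _ _ _ _ _ _ _ => by simp⟩⟩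

/-! ### Integration in a parameter -/

variable {f : α × ℂ → Pth → ℝ → ℝ → ℝ} {ν : Measure ℂ} [IsFiniteMeasure ν] {R : ℝ}

theorem smInt_mw (hf : Nice f) (a : α) (W : Pth) (t ξ : ℝ) :
    AEStronglyMeasurable (fun w => f (a, w) W t ξ) ν :=
  (hf.meas.comp (f := fun w : ℂ => ((a, w), W, t, ξ)) (by fun_prop)).aestronglyMeasurable

theorem smInt_bw (hf : Nice f) (hR : ∀ᵐ w ∂ν, ‖w‖ ≤ R) (a : α) (W : Pth) (m : ℝ) :
    ∃ C : ℝ, ∀ᵐ w ∂ν, ∀ t ξ, t ∈ Icc 0 m → |ξ| ≤ m → ‖f (a, w) W t ξ‖ ≤ C := by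
  obtain ⟨C, hC⟩ := smInt_bd hf W (max (max ‖a‖ R) m)
  refine ⟨C, hR.mono fun w hw t ξ ht hξ => hC (a, w) t ξ ?_
    ⟨ht.1, ht.2.trans (le_max_right _ _)⟩ (hξ.trans (le_max_right _ _))⟩
  exact (max_le_max le_rfl hw).trans (le_max_left _ _)

theorem smInt_iw (hf : Nice f) (hR : ∀ᵐ w ∂ν, ‖w‖ ≤ R) (a : α) (W : Pth) {t : ℝ} (ht : 0 ≤ t)
    (ξ : ℝ) : Integrable (fun w => f (a, w) W t ξ) ν := by
  obtain ⟨C, hC⟩ := smInt_bw hf hR a W (max t |ξ|)
  exact Integrable.of_bound (smInt_mw hf a W t ξ) C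
    (hC.mono fun w hw => hw t ξ ⟨ht, le_max_left _ _⟩ (le_max_right _ _))

theorem smInt_nice (hf : Nice f) (hR : ∀ᵐ w ∂ν, ‖w‖ ≤ R) :
    Nice fun a W t ξ => ∫ w, f (a, w) W t ξ ∂ν := by
  refine ⟨?_, fun a W p hp => ?_, fun n => ?_⟩
  · have h1 := hf.meas.comp
      (f := fun q : (α × Pth × ℝ × ℝ) × ℂ => ((q.1.1, q.2), q.1.2.1, q.1.2.2.1, q.1.2.2.2))
      (by fun_prop)
    exact (h1.stronglyMeasurable.integral_prod_right' (ν := ν)).measurable
  · obtain ⟨C, hC⟩ := smInt_bw hf hR a W (max p.1 |p.2| + 1)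
    refine continuousWithinAt_of_dominated (bound := fun _ => C)
      (Eventually.of_forall fun q => smInt_mw hf a W q.1 q.2) ?_ (integrable_const C)
      (Eventually.of_forall fun w => hf.cont (a, w) W p hp)
    have h1 : ∀ᶠ q : ℝ × ℝ in 𝓝 p, max q.1 |q.2| < max p.1 |p.2| + 1 :=
      (by fun_prop : Continuous fun q : ℝ × ℝ => max q.1 |q.2|).continuousAt.eventually_lt
        continuousAt_const (lt_add_one _)
    filter_upwards [mem_nhdsWithin_of_mem_nhds h1, self_mem_nhdsWithin] with q h2 h3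
    exact hC.mono fun w hw => hw q.1 q.2 ⟨h3.1, (le_max_left _ _).trans h2.le⟩
      ((le_max_right _ _).trans h2.le)
  · obtain ⟨C, hC⟩ := hf.bdd (max n R)
    refine ⟨C * ν.real univ, fun a W t ξ ha ht hW hξ => ?_⟩
    rw [← Real.norm_eq_abs]
    refine norm_integral_le_of_norm_le_const (hR.mono fun w hw => ?_)
    exact hC (a, w) W t ξ (max_le_max ha hw) ⟨ht.1, ht.2.trans (le_max_left _ _)⟩
      (fun u hu => (hW u hu).trans (le_max_left _ _)) (hξ.trans (le_max_left _ _))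

theorem smInt_dx {f' : α × ℂ → Pth → ℝ → ℝ → ℝ} (hf : Nice f) (hf' : Nice f')
    (hR : ∀ᵐ w ∂ν, ‖w‖ ≤ R)
    (hd : ∀ a W t ξ, 0 ≤ t → HasDerivAt (f a W t) (f' a W t ξ) ξ) (a : α) (W : Pth) (t ξ : ℝ)
    (ht : 0 ≤ t) :
    HasDerivAt (fun ξ => ∫ w, f (a, w) W t ξ ∂ν) (∫ w, f' (a, w) W t ξ ∂ν) ξ := by
  obtain ⟨C, hC⟩ := smInt_bw hf' hR a W (max t (|ξ| + 1))
  refine (hasDerivAt_integral_of_dominated_loc_of_deriv_le (bound := fun _ => C)
    (F := fun ξ w => f (a, w) W t ξ) (F' := fun ξ w => f' (a, w) W t ξ)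
    (ball_mem_nhds ξ one_pos) (Eventually.of_forall fun y => smInt_mw hf a W t y)
    (smInt_iw hf hR a W ht ξ) (smInt_mw hf' a W t ξ) (hC.mono fun w hw y hy => ?_)
    (integrable_const C) (Eventually.of_forall fun w y _ => hd (a, w) W t y ht)).2
  refine hw t y ⟨ht, le_max_left _ _⟩ (le_trans ?_ (le_max_right _ _))
  rw [mem_ball, Real.dist_eq] at hy
  have := abs_sub_abs_le_abs_sub y ξ
  linarith

theorem smInt_dt {f' : α × ℂ → Pth → ℝ → ℝ → ℝ} (hf : Nice f) (hf' : Nice f')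
    (hR : ∀ᵐ w ∂ν, ‖w‖ ≤ R)
    (hd : ∀ a W t ξ, 0 < t → HasDerivAt (fun u => f a W u ξ) (f' a W t ξ) t) (a : α) (W : Pth)
    (t ξ : ℝ) (ht : 0 < t) :
    HasDerivAt (fun u => ∫ w, f (a, w) W u ξ ∂ν) (∫ w, f' (a, w) W t ξ ∂ν) t := by
  obtain ⟨C, hC⟩ := smInt_bw hf' hR a W (max (t + 1) |ξ|)
  exact (hasDerivAt_integral_of_dominated_loc_of_deriv_le (bound := fun _ => C)
    (F := fun u w => f (a, w) W u ξ) (F' := fun u w => f' (a, w) W u ξ)
    (Ioo_mem_nhds ht (lt_add_one t)) (Eventually.of_forall fun y => smInt_mw hf a W y ξ)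
    (smInt_iw hf hR a W ht.le ξ) (smInt_mw hf' a W t ξ)
    (hC.mono fun w hw y hy => hw y ξ ⟨hy.1.le, hy.2.le.trans (le_max_left _ _)⟩
      (le_max_right _ _))
    (integrable_const C) (Eventually.of_forall fun w y hy => hd (a, w) W y ξ hy.1)).2

theorem smInt_int {κ : ℝ} {v d g : α × ℂ → Pth → ℝ → ℝ} (hR : ∀ᵐ w ∂ν, ‖w‖ ≤ R)
    (h : Sm κ v d g) :
    Sm κ (fun a W t => ∫ w, v (a, w) W t ∂ν) (fun a W t => ∫ w, d (a, w) W t ∂ν)
      (fun a W t => ∫ w, g (a, w) W t ∂ν) := by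
  obtain ⟨F, hF, he⟩ := h
  refine ⟨⟨fun a W t ξ => ∫ w, F.v (a, w) W t ξ ∂ν, fun a W t ξ => ∫ w, F.t (a, w) W t ξ ∂ν,
    fun a W t ξ => ∫ w, F.x (a, w) W t ξ ∂ν, fun a W t ξ => ∫ w, F.xx (a, w) W t ξ ∂ν⟩,
    ⟨smInt_nice hF.nv hR, smInt_nice hF.nt hR, smInt_nice hF.nx hR, smInt_nice hF.nxx hR,
      fun a V W t ξ ht hVW => ?_, smInt_dt hF.nv hF.nt hR hF.dt, smInt_dx hF.nv hF.nx hR hF.dx,
      smInt_dx hF.nx hF.nxx hR hF.dxx⟩, fun a W t ht => ⟨?_, ?_, ?_⟩⟩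
  · simp only [hF.loc _ V W t ξ ht hVW]
  · simp only [(he _ W t ht).1]
  · simp only [(he _ W t ht).2.1]
    rw [integral_add (smInt_iw hF.nt hR a W ht _) ((smInt_iw hF.nxx hR a W ht _).const_mul _),
      integral_const_mul]
  · simp only [(he _ W t ht).2.2]

theorem smInt_intg2 {v : α × ℂ → Pth → ℝ → ℝ} (hv : Tame v) (hR : ∀ᵐ w ∂ν, ‖w‖ ≤ R) (a : α)
    (W : Pth) (t : ℝ) (ht : 0 ≤ t) : Integrable (fun w => v (a, w) W t) ν := by
  obtain ⟨C, hC⟩ := hv.bdd W (max (max ‖a‖ R) t)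
  refine Integrable.of_bound ((hv.meas' t ht).comp (f := fun w : ℂ => ((a, w), W))
    (by fun_prop)).aestronglyMeasurable C (hR.mono fun w hw => ?_)
  exact hC (a, w) t ((max_le_max le_rfl hw).trans (le_max_left _ _)) ⟨ht, le_max_right _ _⟩

/-! ### Integration in time -/

theorem smInt_nt {f : α → Pth → ℝ → ℝ → ℝ} (hf : Nice f) :
    Nice fun a W t (_ : ℝ) => f a W (max t 0) (W (max t 0)) := by
  refine ⟨(smInt_diag hf).comp (f := fun p : α × Pth × ℝ × ℝ => (p.1, p.2.1, p.2.2.1))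
    (by fun_prop), fun a W => ((smInt_cmax hf a W).comp continuous_fst).continuousOn, fun n => ?_⟩
  obtain ⟨C, hC⟩ := hf.bdd n
  refine ⟨C, fun a W t ξ ha ht hW _ => ?_⟩
  rw [max_eq_left ht.1]
  exact hC a W t _ ha ht hW (hW t ⟨ht.1, le_rfl⟩)

theorem smInt_nv {f : α → Pth → ℝ → ℝ → ℝ} (hf : Nice f) :
    Nice fun a W t (_ : ℝ) => ∫ u in (0 : ℝ)..(max t 0), f a W (max u 0) (W (max u 0)) := by
  refine ⟨?_, fun a W => ?_, fun n => ?_⟩
  · have hS : MeasurableSet {q : (α × Pth × ℝ × ℝ) × ℝ | 0 < q.2 ∧ q.2 ≤ max q.1.2.2.1 0} :=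
      (measurableSet_lt measurable_const measurable_snd).inter
        (measurableSet_le measurable_snd (by fun_prop))
    have h1 := (smInt_diag hf).comp
      (f := fun q : (α × Pth × ℝ × ℝ) × ℝ => (q.1.1, q.1.2.1, q.2)) (by fun_prop)
    have h2 := ((h1.indicator hS).stronglyMeasurable.integral_prod_right'
      (ν := (volume : Measure ℝ))).measurable
    convert h2 using 1
    funext p
    rw [intervalIntegral.integral_of_le (le_max_right _ _), ← integral_indicator measurableSet_Ioc]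
    rfl
  · have h1 := intervalIntegral.continuous_primitive
      (fun x y => (smInt_cmax hf a W).intervalIntegrable (μ := volume) x y) 0
    exact (h1.comp (f := fun p : ℝ × ℝ => max p.1 0) (by fun_prop)).continuousOn
  · obtain ⟨C, hC⟩ := hf.bdd n
    refine ⟨|C| * n, fun a W t ξ ha ht hW _ => ?_⟩
    rw [max_eq_left ht.1, ← Real.norm_eq_abs]
    refine (intervalIntegral.norm_integral_le_of_norm_le_const (C := |C|) fun u hu => ?_).trans ?_
    · rw [uIoc_of_le ht.1] at hu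
      rw [max_eq_left hu.1.le]
      exact (hC a W u _ ha ⟨hu.1.le, hu.2.trans ht.2⟩
        (fun x hx => hW x ⟨hx.1, hx.2.trans hu.2⟩) (hW u ⟨hu.1.le, hu.2⟩)).trans (le_abs_self C)
    · rw [sub_zero, abs_of_nonneg ht.1]
      exact mul_le_mul_of_nonneg_left ht.2 (abs_nonneg _)

theorem smInt_tint {κ : ℝ} {v d g : α → Pth → ℝ → ℝ} (h : Sm κ v d g) :
    Sm κ (fun a W t => ∫ u in (0 : ℝ)..t, v a W u) v (fun _ _ _ => 0) := by
  obtain ⟨F, hF, he⟩ := h
  refine ⟨⟨fun a W t _ => ∫ u in (0 : ℝ)..(max t 0), F.v a W (max u 0) (W (max u 0)),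
    fun a W t _ => F.v a W (max t 0) (W (max t 0)), fun _ _ _ _ => 0, fun _ _ _ _ => 0⟩,
    ⟨smInt_nv hF.nv, smInt_nt hF.nv, smInt_zero, smInt_zero, fun a V W t ξ ht hVW => ?_,
      fun a W t ξ ht => ?_, fun a W t ξ _ => hasDerivAt_const _ _,
      fun a W t ξ _ => hasDerivAt_const _ _⟩, fun a W t ht => ⟨?_, ?_, rfl⟩⟩
  · dsimp only
    rw [max_eq_left ht]
    refine intervalIntegral.integral_congr fun u hu => ?_
    rw [uIcc_of_le ht] at hu
    rw [max_eq_left hu.1, hVW hu]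
    exact hF.loc a V W u _ hu.1 (hVW.mono (Icc_subset_Icc_right hu.2))
  · have c := smInt_cmax hF.nv a W
    have h1 := intervalIntegral.integral_hasDerivAt_right (c.intervalIntegrable 0 t)
      (c.stronglyMeasurableAtFilter _ _) c.continuousAt
    refine h1.congr_of_eventuallyEq ?_
    filter_upwards [Ioi_mem_nhds ht] with u hu
    rw [max_eq_left (le_of_lt hu)]
  · dsimp only
    rw [max_eq_left ht]
    refine intervalIntegral.integral_congr fun u hu => ?_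
    rw [uIcc_of_le ht] at hu
    rw [max_eq_left hu.1]
    exact (he a W u hu.1).1
  · dsimp only
    rw [max_eq_left ht, mul_zero, add_zero]
    exact (he a W t ht).1

end General

theorem smInt_pull {f : ℂ → Pth → ℝ → ℝ → ℝ} (hf : Nice f) :
    Nice fun p : Unit × ℂ => f p.2 := by
  refine ⟨hf.meas.comp (f := fun p : (Unit × ℂ) × Pth × ℝ × ℝ => (p.1.2, p.2)) (by fun_prop),
    fun a W => hf.cont a.2 W, fun n => ?_⟩
  obtain ⟨C, hC⟩ := hf.bdd n
  exact ⟨C, fun a W t ξ ha => hC a.2 W t ξ ((le_max_right _ _).trans ha)⟩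

theorem smInt : SmIntStmt := by
  refine ⟨fun κ α _ _ v d g h => ?_, fun κ α _ _ v d g h a V W t ht hVW => ?_,
    fun v hv ν _ R hR W t ht => ?_,
    fun α _ _ v hv ν _ R hR a W t ht => smInt_intg2 hv hR a W t ht,
    fun κ α _ _ v d g ν _ R hR h => smInt_int hR h, fun κ v d g ν _ R hR h => ?_,
    fun κ α _ _ v d g h => smInt_tint h⟩
  · obtain ⟨F, hF, he⟩ := h
    exact ⟨smInt_tcongr (smInt_tame0 hF.nv) fun a W t ht => (he a W t ht).1,
      smInt_tcongr (smInt_tadd (smInt_tame0 hF.nt) (smInt_tame0 hF.nxx) (κ / 2))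
        fun a W t ht => (he a W t ht).2.1,
      smInt_tcongr (smInt_tame0 hF.nx) fun a W t ht => (he a W t ht).2.2⟩
  · obtain ⟨F, hF, he⟩ := h
    rw [(he a V t ht).1, (he a W t ht).1, hVW ⟨ht, le_rfl⟩]
    exact hF.loc a V W t _ ht hVW
  · obtain ⟨C, hC⟩ := hv.bdd W (max R t)
    refine Integrable.of_bound ((hv.meas' t ht).comp (f := fun w : ℂ => (w, W))
      (by fun_prop)).aestronglyMeasurable C (hR.mono fun w hw => ?_)
    exact hC w t (hw.trans (le_max_left _ _)) ⟨ht, le_max_right _ _⟩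
  · obtain ⟨F, hF, he⟩ := h
    refine smInt_int (v := fun p : Unit × ℂ => v p.2) (d := fun p : Unit × ℂ => d p.2)
      (g := fun p : Unit × ℂ => g p.2) hR
      ⟨⟨fun p => F.v p.2, fun p => F.t p.2, fun p => F.x p.2, fun p => F.xx p.2⟩,
        ⟨smInt_pull hF.nv, smInt_pull hF.nt, smInt_pull hF.nx, smInt_pull hF.nxx,
          fun a => hF.loc a.2, fun a => hF.dt a.2, fun a => hF.dx a.2, fun a => hF.dxx a.2⟩,
        fun a => he a.2⟩

end Vale.Agent.P164
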