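import Vale.Agent.P164.Stm

/-! Probabilistic estimates for P164 (see PLAN.md). -/

open Set MeasureTheory ProbabilityTheory Metric
open scoped ENNReal NNReal

namespace Vale.Agent.P164

/-- All foundation statements. -/
structure Fnd : Prop where
  cat : CatStmt
  max : MaxStmt
  ito : ItoStmt
  alg : SmAlgStmt
  int : SmIntStmt
  flow : FlowAStmt
  meas : FlowMStmt
  confA : ConfAStmt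
  confB : ConfBStmt
  koebe : KoebeStmt
  schwarz : SchwarzStmt
  base : BaseStmt
  ls : LSAlgStmt
  lsup : LSupStmt
  mon : MonStmt
  elem : IntStmt
  gauge : GaugeStmt
  cover : CoverStmt
  mass : MassStmt
  hit : HitDPStmt

structure Ctx (κ : ℝ) (μ : Measure Pth) : Prop where
  pos : 0 < κ
  lt : κ < 8
  wie : Wie κ μ

/-! ### One-point estimates -/

noncomputable def ob (κ ε : ℝ) (z : ℂ) (W : Pth) (t : ℝ) : ℝ :=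
  (ε / Up W t z) ^ (2 - dd κ) * Sf W t z ^ rr κ + (ε / Up W t z) ^ (3 - dd κ)

def UStmt : Prop :=
  ∀ κ μ, Ctx κ μ → ∃ A : ℝ, 1 ≤ A ∧ ∀ (z : ℂ) (ε δ : ℝ), 0 < ε → 0 < δ → ∃ N, Sup μ N ∧
    (∀ t W, 0 ≤ t → ε ≤ Up W t z → Up W t z ≤ 2 * ε → δ ≤ Yf W t z → 1 ≤ N t W) ∧
    ∀ t W, 0 ≤ t → N t W ≤ ENNReal.ofReal (A * ob κ ε z W t)

structure OPStmt : Prop where
  meas : ∀ ε δ b, MeasurableSet {p : ℂ × Pth | p.2 ∈ Hit p.1 ε δ b}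
  meas' : ∀ z ε δ b, MeasurableSet (Hit z ε δ b)
  zero : ∀ z ε δ b t V W, 0 ≤ t → ε ≤ Up V t z → (Yf V t z ≤ δ ∨ b ≤ t) →
    cat t V W ∉ Hit z ε δ b
  union : ∀ z ε b, Hit z ε 0 b = ⋃ n : ℕ, Hit z ε (1 / (n + 1)) b
  mono : ∀ z ε b, Monotone fun n : ℕ => Hit z ε (1 / (n + 1)) b
  cond : ∀ κ μ, Ctx κ μ → ∃ A : ℝ, 1 ≤ A ∧ ∀ z ε δ b a V, 0 < ε → 0 ≤ δ → 0 ≤ a →
    ε ≤ Up V a z → CP μ a V (Hit z ε δ b) ≤ ENNReal.ofReal (A * ob κ ε z V a)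
  abs : ∀ κ μ, Ctx κ μ → ∃ A : ℝ, 1 ≤ A ∧ ∀ (z : ℂ) ε b, 0 < ε → 0 < z.im →
    μ (Hit z ε 0 b) ≤ ENNReal.ofReal (A * (ε / z.im) ^ (2 - dd κ))

def LyStmt : Prop :=
  ∀ κ, 0 < κ → κ < 8 → ∃ C : ℝ, 0 < C ∧ ∀ ε, 0 < ε → ∃ v d g, LS κ v d g ∧
    ∀ w W t, 0 ≤ t → 0 < Yf W t w → 0 ≤ v w W t ∧
      d w W t ≤ -(crf κ ε w W t * Sf W t w ^ (-(rr κ / 2))) ∧
      (2 * ε ≤ Up W t w → Up W t w ≤ 4 * ε →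
        MM κ w W t * Sf W t w ^ (-(rr κ / 2)) ≤ v w W t) ∧
      v w W t ≤ MM κ w W t * (√(4 * ε / Up W t w) * Sf W t w ^ (-(rr κ / 2)) + C)

/-- The weighted payoff `M (1 + η S ^ (-r / 2))`. -/
noncomputable def PP (κ η : ℝ) (z : ℂ) (W : Pth) (t : ℝ) : ℝ :=
  MM κ z W t * (1 + η * Sf W t z ^ (-(rr κ / 2)))

def LypStmt : Prop :=
  ∀ κ μ, Ctx κ μ → ∃ C : ℝ, 0 < C ∧ ∀ (z : ℂ) (ρ δ η : ℝ), 0 < ρ → 0 < δ → 0 ≤ η →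
    ∃ N, Sup μ N ∧
      (∀ t V, 0 ≤ t → N t V ≤ ENNReal.ofReal (MM κ z V t *
        (1 + η * (√(ρ / Up V t z) * Sf V t z ^ (-(rr κ / 2)) + C)))) ∧
      ∀ t V, 0 ≤ t → δ ≤ Yf V t z → ρ / 2 ≤ Up V t z →
        ENNReal.ofReal (MM κ z V t) ≤ N t V ∧
        (Up V t z ≤ ρ → ENNReal.ofReal (PP κ η z V t) ≤ N t V)

def FMVStmt : Prop :=
  ∀ κ, 0 < κ → κ < 8 → ∃ T0 : ℝ, 0 < T0 ∧ ∀ ε a V w, 0 < ε → 0 ≤ a → 1 / 2 ≤ Sf V a w →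
    ∃ v d g, LS κ v d g ∧
      (∀ W t, a ≤ t → 0 < Yf W t w → 0 ≤ v w W t ∧ d w W t ≤ 0) ∧
      v w V a ≤ MM κ w V a / 4 ∧
      ∀ W, 0 < Yf W (a + T0 * Rf V a w ^ 2) w →
        cut (Up W (a + T0 * Rf V a w ^ 2) w / ε) * MM κ w W (a + T0 * Rf V a w ^ 2) ≤
          v w W (a + T0 * Rf V a w ^ 2)

/-- First moment lower bound with angle cutoff `s0` and time constant `T0`. -/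
def FMP (κ : ℝ) (μ : Measure Pth) (s0 T0 : ℝ) : Prop :=
  0 < s0 ∧ 0 < T0 ∧ ∀ ε a V w, 0 < ε → 0 ≤ a → 1 / 2 ≤ Sf V a w → 2 * ε ≤ Up V a w →
    ENNReal.ofReal (MM κ w V a / 4) ≤
      CE μ a V fun W => den κ s0 ε a (a + T0 * Rf V a w ^ 2) W w

def FMStmt : Prop := ∀ κ μ, Ctx κ μ → ∃ s0 T0, FMP κ μ s0 T0

/-! ### Content -/

/-- Accumulated content density with height cutoff, as a real number. -/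
noncomputable def gain (κ s0 ε δ : ℝ) (w : ℂ) (W : Pth) (t : ℝ) : ℝ :=
  ∫ u in (0 : ℝ)..t, cy δ w W u * cr κ s0 ε w W u

structure ContAStmt : Prop where
  nonneg : ∀ κ s0 ε w W t, 0 < ε → 0 ≤ cr κ s0 ε w W t ∧ cr κ s0 ε w W t ≤ crf κ ε w W t
  meas : ∀ κ s0 ε a b, Measurable fun p : Pth × ℂ => den κ s0 ε a b p.1 p.2
  measd : ∀ κ s0 ε δ a b, Measurable fun p : Pth × ℂ => dend κ s0 ε δ a b p.1 p.2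
  mball : ∀ κ s0 ε a b ρ, Measurable fun p : Pth × ℂ => cm κ s0 ε a b p.1 (ball p.2 ρ)
  mballd : ∀ κ s0 ε δ a b ρ, Measurable fun p : Pth × ℂ => cmd κ s0 ε δ a b p.1 (ball p.2 ρ)
  add : ∀ κ s0 ε a b c W, a ≤ b → b ≤ c →
    cm κ s0 ε a c W = cm κ s0 ε a b W + cm κ s0 ε b c W
  addd : ∀ κ s0 ε δ a b c W w, a ≤ b → b ≤ c →
    dend κ s0 ε δ a c W w = dend κ s0 ε δ a b W w + dend κ s0 ε δ b c W w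
  mono : ∀ κ s0 ε a b a' b' W, a' ≤ a → b ≤ b' →
    (∀ w, den κ s0 ε a b W w ≤ den κ s0 ε a' b' W w) ∧ cm κ s0 ε a b W ≤ cm κ s0 ε a' b' W
  loc : ∀ κ s0 ε a b (V W : Pth), 0 ≤ a → EqOn V W (Icc 0 b) →
    den κ s0 ε a b V = den κ s0 ε a b W ∧ cm κ s0 ε a b V = cm κ s0 ε a b W ∧
      ∀ δ, dend κ s0 ε δ a b V = dend κ s0 ε δ a b W ∧ cmd κ s0 ε δ a b V = cmd κ s0 ε δ a b W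
  zero : ∀ κ s0 ε a b W w, 0 < ε → 2 * ε ≤ Up W b w → den κ s0 ε a b W w = 0
  zerod : ∀ κ s0 ε δ a b W w, 0 < δ → Yf W a w ≤ δ → dend κ s0 ε δ a b W w = 0
  supp : ∀ κ s0 ε a b (W : Pth) w, 0 < ε → 0 ≤ a → den κ s0 ε a b W w ≠ 0 →
    ∃ t ∈ Icc a b, w ∈ dom W t ∧ Up W t w ≤ 2 * ε
  le : ∀ κ s0 ε δ a b W, 0 < ε →
    (∀ w, dend κ s0 ε δ a b W w ≤ den κ s0 ε a b W w) ∧ cmd κ s0 ε δ a b W ≤ cm κ s0 ε a b W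
  sup : ∀ κ s0 ε a b W, 0 < ε →
    (∀ w, (Monotone fun n : ℕ => dend κ s0 ε (1 / (n + 1)) a b W w) ∧
      den κ s0 ε a b W w = ⨆ n : ℕ, dend κ s0 ε (1 / (n + 1)) a b W w) ∧
    ∀ B, MeasurableSet B → (Monotone fun n : ℕ => cmd κ s0 ε (1 / (n + 1)) a b W B) ∧
      cm κ s0 ε a b W B = ⨆ n : ℕ, cmd κ s0 ε (1 / (n + 1)) a b W B
  sm : ∀ κ s0 ε δ, 0 < κ → 0 < δ → Sm κ (gain κ s0 ε δ)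
    (fun w W t => cy δ w W t * cr κ s0 ε w W t) (fun _ _ _ => 0)
  real : ∀ κ s0 ε δ a b W w, 0 < κ → 0 < ε → 0 < δ → 0 ≤ a → a ≤ b →
    0 ≤ gain κ s0 ε δ w W a ∧ gain κ s0 ε δ w W a ≤ gain κ s0 ε δ w W b ∧
      dend κ s0 ε δ a b W w = ENNReal.ofReal (gain κ s0 ε δ w W b - gain κ s0 ε δ w W a)

structure ContBStmt : Prop where
  dens : ∀ κ s0 ε a b W w, 0 < κ → κ < 8 → 0 < ε → 0 ≤ a →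
    den κ s0 ε a b W w ≤ ENNReal.ofReal (ε ^ (dd κ - 2))
  ballb : ∀ κ s0 ε a b W z ρ, 0 < κ → κ < 8 → 0 < ε → 0 ≤ a →
    cm κ s0 ε a b W (ball z ρ) ≤ ENNReal.ofReal (ε ^ (dd κ - 2) * (Real.pi * ρ ^ 2))
  expc : ∀ κ μ, Ctx κ μ → ∀ s0 ε a b V w, 0 < ε → 0 ≤ a → a ≤ b →
    CE μ a V (fun W => den κ s0 ε a b W w) ≤ ENNReal.ofReal (MM κ w V a)
  total : ∀ κ μ, Ctx κ μ → ∀ R : ℝ, 0 < R → ∃ C : ℝ, ∀ s0 ε b, 0 < ε → 0 ≤ b →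
    ∫⁻ W, cm κ s0 ε 0 b W (ball 0 R) ∂μ ≤ ENNReal.ofReal C

/-! ### The exponential tail of the content -/

/-- Area in units of `ℓ ^ 2`. -/
noncomputable def ar (ℓ : ℝ) : Measure ℂ := ENNReal.ofReal (1 / ℓ ^ 2) • volume

def Bp (z0 : ℂ) (m ℓ : ℝ) : Set ℂ := ball z0 ((2 * m + 1) * ℓ)

noncomputable def Qf (w w' : ℂ) (W : Pth) (t : ℝ) : ℝ :=
  ‖Zf W t w - Zf W t w'‖ ^ 2 / Yf W t w' ^ 2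

noncomputable def kern (ℓ δ : ℝ) (w w' : ℂ) (W : Pth) (t : ℝ) : ℝ :=
  cy (δ / 2) w W t * cy (δ / 6) w' W t * (cut (Up W t w' / ℓ) - cut (Up W t w' / (3 * ℓ))) *
    (1 - cut (Qf w w' W t / 2)) * (1 - cut (8 * Sf W t w'))

/-- The amount of cells of size `ℓ` above the point. -/
noncomputable def NN (ℓ δ : ℝ) (z0 : ℂ) (m : ℝ) (w : ℂ) (W : Pth) (t : ℝ) : ℝ :=
  ∫ w' in Bp z0 m ℓ, kern ℓ δ w w' W t ∂ar ℓ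

def sc (ℓ : ℝ) (w w' : ℂ) (W : Pth) (t : ℝ) : Prop :=
  ℓ ≤ Up W t w' ∧ Up W t w' ≤ 6 * ℓ ∧ ‖Zf W t w - Zf W t w'‖ ≤ 2 * Yf W t w' ∧
    Sf W t w' ≤ 1 / 4

def supp (ℓ : ℝ) (z0 : ℂ) (m : ℝ) (w : ℂ) (W : Pth) (t : ℝ) : Set ℂ :=
  {w' | w' ∈ Bp z0 m ℓ ∧ sc ℓ w w' W t}

noncomputable def HH (ℓ : ℝ) (z0 : ℂ) (m : ℝ) (w : ℂ) (W : Pth) (t : ℝ) : ℝ≥0∞ :=
  ∫⁻ w' in supp ℓ z0 m w W t, ENNReal.ofReal (Sf W t w' / Rf W t w' ^ 2) ∂ar ℓ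

noncomputable def GG (ℓ : ℝ) (z0 : ℂ) (m : ℝ) (w : ℂ) (W : Pth) (t : ℝ) : ℝ≥0∞ :=
  ∫⁻ w' in supp ℓ z0 m w W t ∩ {w' | 1 / 8 ≤ Sf W t w'}, ENNReal.ofReal (1 / Rf W t w') ∂ar ℓ

noncomputable def nn (κ : ℝ) : ℕ := ⌈4 / (2 - dd κ)⌉₊

noncomputable def uu (ℓ δ : ℝ) (z0 : ℂ) (m : ℝ) (w : ℂ) (W : Pth) (t : ℝ) : ℝ :=
  max (1 - 100 * NN ℓ δ z0 m w W t) 0

noncomputable def aa (ℓ δ : ℝ) (w : ℂ) (W : Pth) (t : ℝ) : ℝ :=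
  cy δ w W t * (1 - cut (Up W t w / ℓ))

noncomputable def vv (κ ℓ δ : ℝ) (w : ℂ) (W : Pth) (t : ℝ) : ℝ :=
  aa ℓ δ w W t * (ℓ ^ (2 - dd κ) * MM κ w W t + Sf W t w ^ pp κ)

/-- The good (negative drift) integrand. -/
noncomputable def ee (κ ℓ δ : ℝ) (z0 : ℂ) (m : ℝ) (w : ℂ) (W : Pth) (t : ℝ) : ℝ :=
  uu ℓ δ z0 m w W t ^ nn κ * aa ℓ δ w W t * Sf W t w ^ pp κ / Rf W t w ^ 2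

open Classical in
/-- The source integrand. -/
noncomputable def src (ℓ δ : ℝ) (w : ℂ) (W : Pth) (t : ℝ) : ℝ :=
  if ℓ ≤ Up W t w ∧ Up W t w ≤ 6 * ℓ ∧ δ / 3 ≤ Yf W t w then Sf W t w ^ 2 / Rf W t w ^ 2 else 0

noncomputable def DD (κ ℓ δ : ℝ) (z0 : ℂ) (m : ℝ) (W : Pth) (t : ℝ) : ℝ≥0∞ :=
  ∫⁻ w in ball z0 (m * ℓ), ENNReal.ofReal (ee κ ℓ δ z0 m w W t) ∂ar ℓ

noncomputable def DS (ℓ δ : ℝ) (z0 : ℂ) (m : ℝ) (W : Pth) (t : ℝ) : ℝ≥0∞ :=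
  ∫⁻ w in Bp z0 m ℓ, ENNReal.ofReal (src ℓ δ w W t) ∂ar ℓ

/-- Points that are not yet covered by cells. -/
def Lin (ℓ δ : ℝ) (z0 : ℂ) (m : ℝ) (W : Pth) (t : ℝ) : Set ℂ :=
  {w | w ∈ ball z0 (m * ℓ) ∧ NN ℓ δ z0 m w W t < 1 / 100 ∧ δ ≤ Yf W t w ∧ Up W t w ≤ 2 * ℓ}

def QStmt : Prop :=
  ∀ κ, 0 < κ → ∃ C : ℝ, 0 < C ∧ ∀ δ1 δ2, 0 < δ1 → 0 < δ2 → ∃ d,
    Sm κ (fun (p : ℂ × ℂ) W t => cy δ1 p.1 W t * cy δ2 p.2 W t * Qf p.1 p.2 W t) d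
      (fun _ _ _ => 0) ∧
    ∀ w w' W t, 0 ≤ t → 2 * δ1 ≤ Yf W t w → 2 * δ2 ≤ Yf W t w' →
      ‖Zf W t w - Zf W t w'‖ ≤ 2 * Yf W t w' → Sf W t w' ≤ 1 / 4 →
      |d (w, w') W t| ≤ C * (Sf W t w' / Rf W t w' ^ 2)

def KernStmt : Prop :=
  ∀ κ, 0 < κ → ∃ C : ℝ, 0 < C ∧ ∀ ℓ δ, 0 < ℓ → 0 < δ → ∃ d g,
    Sm κ (fun (p : ℂ × ℂ) W t => kern ℓ δ p.1 p.2 W t) d g ∧
    ∀ w w' W t, 0 ≤ t → 0 ≤ kern ℓ δ w w' W t ∧ (δ ≤ Yf W t w →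
      (sc ℓ w w' W t → |d (w, w') W t| ≤ C * (Sf W t w' / Rf W t w' ^ 2) ∧
        |g (w, w') W t| ≤ C * (1 / Rf W t w')) ∧
      (¬ sc ℓ w w' W t → d (w, w') W t = 0 ∧ g (w, w') W t = 0) ∧
      (Sf W t w' < 1 / 8 → g (w, w') W t = 0))

def NStmt : Prop :=
  ∀ κ, 0 < κ → ∃ C : ℝ, 0 < C ∧ ∀ ℓ δ z0 m, 0 < ℓ → 0 < δ → ∃ d g,
    Sm κ (NN ℓ δ z0 m) d g ∧
    ∀ w W t, 0 ≤ t → 0 ≤ NN ℓ δ z0 m w W t ∧ (δ ≤ Yf W t w →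
      ENNReal.ofReal |d w W t| ≤ ENNReal.ofReal C * HH ℓ z0 m w W t ∧
      ENNReal.ofReal |g w W t| ≤ ENNReal.ofReal C * GG ℓ z0 m w W t)

structure TentStmt : Prop where
  geo : ∀ ℓ w w' W t, sc ℓ w w' W t →
    Rf W t w' / 2 ≤ Rf W t w ∧ Rf W t w ≤ 3 / 2 * Rf W t w' ∧ Yf W t w ≤ 3 * Yf W t w'
  meas : ∀ ℓ z0 m W t, MeasurableSet {p : ℂ × ℂ | p.2 ∈ supp ℓ z0 m p.1 W t}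
  push : ∀ ℓ (W : Pth) t (φ : ℂ → ℝ≥0∞), 0 < ℓ → 0 ≤ t →
    ∫⁻ w in dom W t, ENNReal.ofReal ((ℓ / Up W t w) ^ 2 * Sf W t w ^ 2) * φ (Zf W t w) ∂ar ℓ =
      ∫⁻ ζ in HP, ENNReal.ofReal (1 / ‖ζ‖ ^ 2) * φ ζ
  bound : ∀ α : ℝ, 0 < α → ∃ C : ℝ, 0 < C ∧ ∀ ℓ z0 m w W t, 0 < ℓ → 0 ≤ t → 0 < Yf W t w →
    GG ℓ z0 m w W t ≤ ENNReal.ofReal (C / Rf W t w) ∧
    GG ℓ z0 m w W t ≤ ENNReal.ofReal (C * Rf W t w) * HH ℓ z0 m w W t ∧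
    HH ℓ z0 m w W t ≤ ENNReal.ofReal (C / Rf W t w ^ 2) ∧
    ∫⁻ w' in supp ℓ z0 m w W t, ENNReal.ofReal (Sf W t w' ^ α) ∂ar ℓ ≤ ENNReal.ofReal C

structure NLowStmt : Prop where
  low : ∀ ℓ δ z0 m w W t y, 0 < ℓ → 0 < δ → 0 ≤ t → δ ≤ Yf W t w → Yf W t w ≤ y →
    y ≤ Rf W t w / 10 → Up W t (fi W t ⟨Xf W t w, y⟩) = 5 / 2 * ℓ →
    (∀ ζ ∈ ball (⟨Xf W t w, y⟩ : ℂ) (y / 30), fi W t ζ ∈ Bp z0 m ℓ) →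
    1 / 100 ≤ NN ℓ δ z0 m w W t
  zero : ∀ s0 : ℝ, 0 < s0 → ∃ c : ℝ, 0 < c ∧ c ≤ 1 / 2 ∧ ∀ ℓ δ z0 m w W t, 0 < ℓ → 0 < δ →
    0 ≤ t → s0 ≤ Sf W t w → Up W t w ≤ 2 * c * ℓ → NN ℓ δ z0 m w W t = 0

def AB1Stmt : Prop :=
  ∃ C c : ℝ, 0 < C ∧ 0 < c ∧ ∀ ℓ δ z0 m w W t R0, 0 < ℓ → 0 < δ → 0 ≤ t → 0 < R0 →
    w ∈ Lin ℓ δ z0 m W t → R0 ≤ Rf W t w → Rf W t w ≤ 4 * R0 →
    Sf W t w ≤ C * Real.exp (-(c * m)) ∨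
      Sf W t w ≤ C * Real.exp (-(c * ‖w - fi W t ⟨0, R0⟩‖ / ℓ))

def ABStmt : Prop :=
  ∀ κ, 0 < κ → κ < 8 → ∃ C : ℝ, 0 < C ∧ ∀ ℓ δ z0 m W t R0, 0 < ℓ → 0 < δ → 0 ≤ t → 0 < R0 →
    ∫⁻ w in Lin ℓ δ z0 m W t ∩ {w | R0 ≤ Rf W t w ∧ Rf W t w ≤ 4 * R0},
      ENNReal.ofReal (Sf W t w ^ pp κ) ∂ar ℓ ≤ ENNReal.ofReal C

def CostStmt : Prop :=
  ∀ κ, 0 < κ → κ < 8 → ∀ η : ℝ, 0 < η → ∃ C : ℝ, 0 < C ∧ ∀ ℓ δ z0 m W t, 0 < ℓ → 0 < δ → 0 ≤ t →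
    ∫⁻ w in ball z0 (m * ℓ),
      ENNReal.ofReal (uu ℓ δ z0 m w W t ^ (nn κ - 2) * vv κ ℓ δ w W t) * HH ℓ z0 m w W t ∂ar ℓ ≤
      ENNReal.ofReal η * DD κ ℓ δ z0 m W t + ENNReal.ofReal C * DS ℓ δ z0 m W t

def GradStmt : Prop :=
  ∀ κ, 0 < κ → κ < 8 → ∃ C : ℝ, 0 < C ∧ ∀ ℓ δ z0 m W t R0, 0 < ℓ → 0 < δ → 0 ≤ t → 0 < R0 →
    ∫⁻ w in ball z0 (m * ℓ),
      (ENNReal.ofReal (uu ℓ δ z0 m w W t ^ nn κ * vv κ ℓ δ w W t / Rf W t w) +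
        ENNReal.ofReal (uu ℓ δ z0 m w W t ^ (nn κ - 1) * vv κ ℓ δ w W t) * GG ℓ z0 m w W t) ∂ar ℓ ≤
      ENNReal.ofReal (C * R0) * (DD κ ℓ δ z0 m W t + DS ℓ δ z0 m W t) + ENNReal.ofReal (C / R0)

structure VStmt : Prop where
  v : ∀ κ, 0 < κ → κ < 8 → ∃ C c : ℝ, 0 < C ∧ 0 < c ∧ ∀ ℓ δ ε, 0 < ℓ → 0 < δ → 0 < ε →
    ∃ v d g, Sm κ v d g ∧ ∀ w W t, 0 ≤ t → 0 ≤ v w W t ∧ v w W t ≤ vv κ ℓ δ w W t ∧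
      |g w W t| ≤ C * (vv κ ℓ δ w W t / Rf W t w) ∧
      d w W t + aa ℓ δ w W t * (ℓ ^ (2 - dd κ) * crf κ ε w W t) +
        c * (aa ℓ δ w W t * Sf W t w ^ pp κ / Rf W t w ^ 2) ≤ C * src ℓ δ w W t
  phi : ∀ κ, 0 < κ → ∀ ℓ δ, 0 < ℓ → 0 < δ → ∃ v d : ℂ → Pth → ℝ → ℝ,
    Sm κ v d (fun _ _ _ => 0) ∧ ∀ w W t, 0 ≤ t → 0 ≤ v w W t ∧ v w W t ≤ 1 ∧
      d w W t ≤ -(1 / 5 * src ℓ δ w W t)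

def TailPtStmt : Prop :=
  ∀ κ, 0 < κ → κ < 8 → ∃ C c : ℝ, 0 < C ∧ 0 < c ∧ ∀ s0, 0 < s0 → ∃ c0 : ℝ, 0 < c0 ∧ c0 ≤ 1 / 2 ∧
    ∀ ℓ δ ε z0 m, 0 < ℓ → 0 < δ → 0 < ε → ε ≤ c0 * ℓ → ∃ v d g, Sm κ v d g ∧
      ∀ w W t, 0 ≤ t → 0 ≤ v w W t ∧ (2 * ℓ ≤ Up W t w → v w W t = 0) ∧
        ENNReal.ofReal (d w W t + ℓ ^ (2 - dd κ) * (cy δ w W t * cr κ s0 ε w W t) +
            c * ee κ ℓ δ z0 m w W t) ≤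
          ENNReal.ofReal C * (ENNReal.ofReal (src ℓ δ w W t) +
            ENNReal.ofReal (uu ℓ δ z0 m w W t ^ (nn κ - 2) * vv κ ℓ δ w W t) * HH ℓ z0 m w W t) ∧
        ENNReal.ofReal |g w W t| ≤ ENNReal.ofReal C *
          (ENNReal.ofReal (uu ℓ δ z0 m w W t ^ nn κ * vv κ ℓ δ w W t / Rf W t w) +
            ENNReal.ofReal (uu ℓ δ z0 m w W t ^ (nn κ - 1) * vv κ ℓ δ w W t) * GG ℓ z0 m w W t)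

/-- Normalised accumulated content of the ball. -/
noncomputable def GN (κ s0 ε δ ℓ : ℝ) (z0 : ℂ) (m : ℝ) (W : Pth) (t : ℝ) : ℝ :=
  (∫ w in ball z0 (m * ℓ), gain κ s0 ε δ w W t) / ℓ ^ dd κ

def TailDrStmt : Prop :=
  ∀ κ, 0 < κ → κ < 8 → ∃ θ C : ℝ, 0 < θ ∧ 0 < C ∧ ∀ s0, 0 < s0 → ∃ c0 : ℝ, 0 < c0 ∧ c0 ≤ 1 / 2 ∧
    ∀ ℓ δ ε z0 m, 0 < ℓ → 0 < δ → 0 < ε → ε ≤ c0 * ℓ → 1 ≤ m →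
      ∃ v d g : Unit → Pth → ℝ → ℝ, Sm κ v d g ∧ ∀ W t, 0 ≤ t →
        d () W t + κ / 2 * g () W t ^ 2 ≤ 0 ∧ θ * GN κ s0 ε δ ℓ z0 m W t ≤ v () W t ∧
        ((∀ w ∈ ball z0 (m * ℓ), 2 * ℓ ≤ Up W t w) →
          v () W t ≤ C * m ^ 2 + θ * GN κ s0 ε δ ℓ z0 m W t)

def TailStmt : Prop :=
  ∀ κ μ, Ctx κ μ → ∃ θ C : ℝ, 0 < θ ∧ 0 < C ∧ ∀ s0, 0 < s0 → ∃ c0 : ℝ, 0 < c0 ∧ c0 ≤ 1 / 2 ∧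
    ∀ ℓ ε z0 m a b V lam, 0 < ℓ → 0 < ε → ε ≤ c0 * ℓ → 1 ≤ m → 0 ≤ a → a ≤ b → 0 ≤ lam →
      (∀ w ∈ ball z0 (m * ℓ), 2 * ℓ ≤ Up V a w) →
      CP μ a V {W | ENNReal.ofReal (lam * ℓ ^ dd κ) < cm κ s0 ε a b W (ball z0 (m * ℓ))} ≤
        ENNReal.ofReal (Real.exp (C * m ^ 2 - θ * lam))

open Classical in
/-- The value if it exceeds the threshold, else zero. -/
noncomputable def big (x : ℝ) (y : ℝ≥0∞) : ℝ≥0∞ := if ENNReal.ofReal x < y then y else 0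

structure BigStmt : Prop where
  meas : ∀ x, Measurable (big x)
  mono : ∀ x, Monotone (big x)
  sup : ∀ x (y : ℕ → ℝ≥0∞), Monotone y → big x (⨆ n, y n) = ⨆ n, big x (y n)
  tail : ∀ κ μ, Ctx κ μ → ∃ θ C : ℝ, 0 < θ ∧ 0 < C ∧ ∀ s0, 0 < s0 → ∃ c0 : ℝ, 0 < c0 ∧
    c0 ≤ 1 / 2 ∧ ∀ ℓ ε z0 m a b V lam, 0 < ℓ → 0 < ε → ε ≤ c0 * ℓ → 1 ≤ m → 0 ≤ a → a ≤ b →
      0 ≤ lam → (∀ w ∈ ball z0 (m * ℓ), 2 * ℓ ≤ Up V a w) →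
      CE μ a V (fun W => big (lam * ℓ ^ dd κ) (cm κ s0 ε a b W (ball z0 (m * ℓ)))) ≤
        ENNReal.ofReal (C * (lam + 1) * ℓ ^ dd κ * Real.exp (C * m ^ 2 - θ * lam))

def GainStmt : Prop :=
  ∀ κ μ, Ctx κ μ → ∀ s0 T0, FMP κ μ s0 T0 → ∃ c : ℝ, 0 < c ∧ c ≤ 1 ∧
    ∀ a V w ρ ε, 0 ≤ a → 3 / 4 ≤ Sf V a w → Up V a w / 200 ≤ ρ → ρ ≤ Up V a w / 40 →
      0 < ε → ε ≤ c * ρ → ENNReal.ofReal c ≤ CP μ a V {W | ENNReal.ofReal (c * ρ ^ dd κ) ≤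
        cm κ s0 ε a (a + 4 * T0 * Rf V a w ^ 2) W (ball w ρ)}

def P2Stmt : Prop :=
  ∀ κ μ, Ctx κ μ → ∀ s0, 0 < s0 → ∃ C1 C : ℝ, 0 < C1 ∧ 0 < C ∧
    ∀ ε ρ m a b V z, 0 < ε → 0 < ρ → 1 ≤ m → 0 ≤ a → a ≤ b → 40 * ρ ≤ Up V a z →
      CE μ a V (fun W => big (C1 * m ^ (2 - dd κ) * ρ ^ dd κ) (cm κ s0 ε a b W (ball z ρ))) ≤
        ENNReal.ofReal (C * (ρ / Up V a z) ^ (2 - dd κ) * ρ ^ dd κ * Real.exp (-(2 * m ^ 2)))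

/-! ### Filling a ball -/

def WinStmt : Prop :=
  ∀ κ, 0 < κ → κ < 8 → ∀ s1 : ℝ, 0 < s1 → ∃ a0 : ℝ, 0 < a0 ∧ a0 ≤ s1 ∧ ∀ W w s t, 0 ≤ s → s ≤ t →
    s1 ≤ Sf W s w → t - s ≤ (a0 * Rf W s w) ^ 2 → W ∈ Stay s t (3 * (a0 * Rf W s w)) →
    Yf W s w / 2 ≤ Yf W t w ∧ Up W s w / 2 ≤ Up W t w ∧ MM κ w W s / 2 ≤ MM κ w W t

/-- The driver oscillates with amplitude `a` at speed about `1 / y` during `[s,t]`. -/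
structure Osc (C P a y s t : ℝ) (W : Pth) : Prop where
  o1 : W ∈ Stay s t (a + C * y)
  o2 : ∀ u ∈ Icc s t, ∀ v ∈ Icc s t, |W u - W v| ≤ C * (y + |u - v| / y)
  o3 : ∀ u, s ≤ u → u + P * a * y ≤ t →
    (∃ v ∈ Icc u (u + P * a * y), a - C * y ≤ W v - W s) ∧
      ∃ v ∈ Icc u (u + P * a * y), W v - W s ≤ -(a - C * y)

def Sweep1Stmt : Prop :=
  ∀ C P : ℝ, 1 ≤ C → 1 ≤ P → ∃ c : ℝ, 0 < c ∧ ∀ (W : Pth) s t a y w, 0 ≤ s → s ≤ t → 0 < a →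
    0 < y → y ^ 2 + 4 * (t - s) ≤ a ^ 2 → Osc C P a y s t W → Zf W t w = ⟨0, y⟩ →
    ∀ u ∈ Icc s t, c * (t - u) / a ≤ Yf W u w

def SweepStmt : Prop :=
  ∀ C P : ℝ, 1 ≤ C → 1 ≤ P → ∃ τ0 c : ℝ, 0 < τ0 ∧ τ0 ≤ 1 ∧ 0 < c ∧
    ∀ (W : Pth) s t a y w, 0 ≤ s → s ≤ t → 0 < y → y ≤ τ0 * a → t - s ≤ τ0 * a ^ 2 →
    Osc C P a y s t W → Zf W t w = ⟨0, y⟩ →
    c * (t - s) / a ≤ Yf W s w ∧ Yf W s w ≤ a ∧ |Xf W s w - (W t - W s)| ≤ a / 4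

def DrvStmt : Prop :=
  ∀ b C1 : ℝ, 1 ≤ b → 1 ≤ C1 → ∃ C P : ℝ, 1 ≤ C ∧ 1 ≤ P ∧ ∀ a y : ℝ, 0 < y → y ≤ a →
    ∃ T : ℕ → ℝ, T 0 = 0 ∧ (∀ j, |T (j + 1) - T j| ≤ y) ∧
      (∀ j : ℕ, (∃ i : ℕ, j ≤ i ∧ (i : ℝ) ≤ j + 4 * a / y ∧ a - y ≤ T i) ∧
        ∃ i : ℕ, j ≤ i ∧ (i : ℝ) ≤ j + 4 * a / y ∧ T i ≤ -(a - y)) ∧
      ∀ (W : Pth) (s : ℝ) (N : ℕ),
        (∀ j : ℕ, j < N → W ∈ Stay (s + j * (b * y ^ 2)) (s + j * (b * y ^ 2) + b * y ^ 2) (C1 * y) ∧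
          |W (s + j * (b * y ^ 2) + b * y ^ 2) - W s - T (j + 1)| ≤ y) →
        Osc C P a y s (s + N * (b * y ^ 2)) W

/-- The point above the tip at height `y`. -/
noncomputable def wt (W : Pth) (t y : ℝ) : ℂ := fi W t ⟨0, y⟩

/-- Its scale. -/
noncomputable def Lt (W : Pth) (t y : ℝ) : ℝ := Up W t (wt W t y)

structure GeoStmt : Prop where
  step : ∀ b C1 : ℝ, 0 ≤ b → 0 ≤ C1 → ∃ C : ℝ, 0 < C ∧ ∀ W t y, 0 ≤ t → 0 < y →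
    W ∈ Stay t (t + b * y ^ 2) (C1 * y) → ‖wt W (t + b * y ^ 2) y - wt W t y‖ ≤ C * Lt W t y
  near : ∀ s1 a0 c : ℝ, 0 < s1 → 0 < a0 → 0 < c → ∃ C c' : ℝ, 0 < C ∧ 0 < c' ∧
    ∀ W s z w ρ, 0 ≤ s → s1 ≤ Sf W s z → ρ / 2 ≤ Up W s z → Up W s z ≤ ρ →
      c * (a0 * Rf W s z) ≤ Yf W s w → Rf W s w ≤ 5 * (a0 * Rf W s z) →
      ‖w - z‖ ≤ C * ρ ∧ c' * ρ ≤ Up W s w ∧ Up W s w ≤ C * ρ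

def FillAStmt : Prop :=
  ∀ s1 a0 b C1 : ℝ, 0 < s1 → 0 < a0 → 1 ≤ b → 1 ≤ C1 → ∃ τ C c : ℝ, 0 < τ ∧ τ ≤ 1 ∧ 0 < C ∧ 0 < c ∧
    ∀ a y : ℝ, 0 < a → 0 < y → y ^ 2 ≤ τ * a ^ 2 → ∃ T : ℕ → ℝ, T 0 = 0 ∧
      (∀ j, |T (j + 1) - T j| ≤ y) ∧ ∀ (W : Pth) s z ρ (N : ℕ), 0 ≤ s →
        N * (b * y ^ 2) = τ * a ^ 2 → a = a0 * Rf W s z → s1 ≤ Sf W s z → ρ / 2 ≤ Up W s z →
        Up W s z ≤ ρ →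
        (∀ j : ℕ, j < N → W ∈ Stay (s + j * (b * y ^ 2)) (s + j * (b * y ^ 2) + b * y ^ 2) (C1 * y) ∧
          |W (s + j * (b * y ^ 2) + b * y ^ 2) - W s - T (j + 1)| ≤ y) →
        W ∈ Stay s (s + τ * a ^ 2) (3 * a) ∧
        (∀ j : ℕ, N ≤ 2 * j → j ≤ N →
          ball (wt W (s + j * (b * y ^ 2)) y) (Lt W (s + j * (b * y ^ 2)) y) ⊆ ball z (C * ρ)) ∧
        ∀ j Λ : ℕ, N ≤ 2 * j → 4 * a / y ≤ Λ → j + Λ ≤ N →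
          c * ρ ≤ ∑ i ∈ Finset.range Λ, Lt W (s + ((j + i : ℕ) : ℝ) * (b * y ^ 2)) y

/-- One successful step of the filling strategy. -/
def StepOK (κ s0 ε b C c t y x : ℝ) : Set Pth :=
  {W | W ∈ Stay t (t + b * y ^ 2) (C * y) ∧ |W (t + b * y ^ 2) - W t - x| ≤ y ∧
    (ε ≤ c * Lt W t y → ENNReal.ofReal (c * Lt W t y ^ dd κ) ≤
      cm κ s0 ε t (t + b * y ^ 2) W (ball (wt W t y) (Lt W t y)))}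

structure StepStmt : Prop where
  loc : ∀ κ s0 ε b C c t y x (V W : Pth), 0 ≤ t → 0 ≤ b → EqOn V W (Icc 0 (t + b * y ^ 2)) →
    V ∈ StepOK κ s0 ε b C c t y x → W ∈ StepOK κ s0 ε b C c t y x
  prob : ∀ κ μ, Ctx κ μ → ∀ s0 T0, FMP κ μ s0 T0 → ∃ b C c : ℝ, 1 ≤ b ∧ 1 ≤ C ∧ 0 < c ∧ c ≤ 1 ∧
    ∀ t V y x ε, 0 ≤ t → 0 < y → |x| ≤ 2 * y → 0 < ε →
      ENNReal.ofReal c ≤ CP μ t V (StepOK κ s0 ε b C c t y x)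

def FillDetStmt : Prop :=
  ∀ κ, 0 < κ → κ < 8 → ∀ s1 a0 b C1 c : ℝ, 0 < s1 → 0 < a0 → 1 ≤ b → 1 ≤ C1 → 0 < c →
    ∃ τ C c' m0 : ℝ, 0 < τ ∧ τ ≤ 1 ∧ 0 < C ∧ 0 < c' ∧ 1 ≤ m0 ∧ ∀ m a : ℝ, m0 ≤ m → 0 < a →
      ∃ (N : ℕ) (y : ℝ) (T : ℕ → ℝ), 0 < y ∧ N * (b * y ^ 2) = τ * a ^ 2 ∧ (N : ℝ) ≤ 2 * m ^ 2 ∧
        T 0 = 0 ∧ (∀ j, |T (j + 1) - T j| ≤ y) ∧
        ∀ (W : Pth) s0 s z ρ ε, 0 ≤ s → 0 < ε → a = a0 * Rf W s z → s1 ≤ Sf W s z →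
          ρ / 2 ≤ Up W s z → Up W s z ≤ ρ → ε ≤ c' * ρ / m →
          (∀ j : ℕ, j < N → W ∈ StepOK κ s0 ε b C1 c (s + j * (b * y ^ 2)) y
            (T (j + 1) - (W (s + j * (b * y ^ 2)) - W s))) →
          W ∈ Stay s (s + τ * a ^ 2) (3 * a) ∧
          ENNReal.ofReal (c' * m ^ (2 - dd κ) * ρ ^ dd κ) ≤
            cm κ s0 ε s (s + τ * a ^ 2) W (ball z (C * ρ))

def FillStmt : Prop :=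
  ∀ κ μ, Ctx κ μ → ∀ s0 T0, FMP κ μ s0 T0 → ∀ s1 a0 : ℝ, 0 < s1 → 0 < a0 →
    ∃ τ C c m0 : ℝ, 0 < τ ∧ τ ≤ 1 ∧ 0 < C ∧ 0 < c ∧ 1 ≤ m0 ∧ ∀ m ρ ε s V z, m0 ≤ m → 0 < ε →
      ε ≤ c * ρ / m → 0 ≤ s → s1 ≤ Sf V s z → ρ / 2 ≤ Up V s z → Up V s z ≤ ρ →
      ENNReal.ofReal (Real.exp (-(C * m ^ 2))) ≤ CP μ s V
        {W | W ∈ Stay s (s + τ * (a0 * Rf V s z) ^ 2) (3 * (a0 * Rf V s z)) ∧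
          ENNReal.ofReal (c * m ^ (2 - dd κ) * ρ ^ dd κ) ≤
            cm κ s0 ε s (s + τ * (a0 * Rf V s z) ^ 2) W (ball z (C * ρ))}

/-! ### The upper bound -/

def StageStmt : Prop :=
  ∀ κ μ, Ctx κ μ → ∀ s0 T0, FMP κ μ s0 T0 → ∃ C c c' m0 : ℝ, 0 < C ∧ 0 < c ∧ 0 < c' ∧ c' ≤ 1 / 4 ∧
    1 ≤ m0 ∧ ∀ (m η : ℝ) (F : Pth → ℝ≥0∞) (z : ℂ) (ρ δ ε Q b : ℝ) (N0 : ℝ → Pth → ℝ≥0∞),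
      m0 ≤ m → η = c' * Real.exp (-(C * m ^ 2)) → Measurable F → Sup μ N0 → 0 < ρ → 0 < δ →
      0 < ε → ε ≤ c * ρ / m → 0 ≤ Q →
      (∀ t V, 0 ≤ t → ρ / 16 ≤ Up V t z → Up V t z ≤ ρ / 8 →
        CE μ t V F ≤ ENNReal.ofReal (Q * PP κ η z V t) + N0 t V) →
      (∀ t V, 0 ≤ t → ρ / 16 ≤ Up V t z → (Yf V t z ≤ δ ∨ b ≤ t) → CE μ t V F = 0) →
      (∀ W s t, 0 ≤ s → s ≤ b → t ≤ s + z.im ^ 2 →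
        ENNReal.ofReal (c * m ^ (2 - dd κ) * ρ ^ dd κ) ≤ cm κ s0 ε s t W (ball z (C * ρ)) →
        F W = 0) →
      ∀ t V, 0 ≤ t → ρ / 2 ≤ Up V t z → Up V t z ≤ ρ →
        CE μ t V F ≤ ENNReal.ofReal ((1 - η) * Q * PP κ η z V t) + N0 t V

/-- No scale among the first `K` carries a large content. -/
def Bad (κ s0 ε T C c m ρ0 : ℝ) (K : ℕ) (z : ℂ) : Set Pth :=
  {W | ∀ k : ℕ, k < K → cm κ s0 ε 0 T W (ball z (C * (ρ0 / 8 ^ k))) <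
    ENNReal.ofReal (c * m ^ (2 - dd κ) * (ρ0 / 8 ^ k) ^ dd κ)}

def TrialStmt : Prop :=
  ∀ κ μ, Ctx κ μ → ∀ s0 T0, FMP κ μ s0 T0 → ∃ C c c' A m0 : ℝ, 0 < C ∧ 0 < c ∧ 0 < c' ∧
    c' ≤ 1 / 4 ∧ 0 < A ∧ 1 ≤ m0 ∧ ∀ (m : ℝ) (K : ℕ) (ρ0 ε ε' b T : ℝ) (z : ℂ), m0 ≤ m → 0 < ρ0 →
      0 < ε → 0 < ε' → 0 ≤ b → b + z.im ^ 2 ≤ T → ρ0 ≤ z.im → ε ≤ c * (ρ0 / 8 ^ K) / m →
      2 * ε' ≤ ρ0 / 8 ^ K →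
      μ (Hit z ε' 0 b ∩ Bad κ s0 ε T C c m ρ0 K z) ≤ ENNReal.ofReal (A * (ε' / z.im) ^ (2 - dd κ) *
        ((1 - c' * Real.exp (-(C * m ^ 2))) ^ K + ε' / (ρ0 / 8 ^ K)))

/-- Points that have to be covered by balls of the smallest radius. -/
def Bd (κ s0 ε T C c m ρ0 : ℝ) (K : ℕ) (e b : ℝ) (W : Pth) : Set ℂ :=
  {w | |w.im| ≤ 3 * e ∨
    (W ∈ Hit w (81 * e) 0 b ∧ (w.im < ρ0 ∨ W ∈ Bad κ s0 ε T C c m ρ0 K w))}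

def FinExpStmt : Prop :=
  ∀ κ μ, Ctx κ μ → ∀ s0 T0, FMP κ μ s0 T0 → ∃ C c c' m0 : ℝ, 0 < C ∧ 0 < c ∧ 0 < c' ∧
    c' ≤ 1 / 4 ∧ 1 ≤ m0 ∧ ∀ R : ℝ, 0 < R → ∃ A : ℝ, 0 < A ∧
      ∀ (m : ℝ) (K : ℕ) (ρ0 ε e b T : ℝ), m0 ≤ m → 0 < ρ0 → 0 < ε → 0 < e → 0 ≤ b →
        b + R ^ 2 ≤ T → ε ≤ c * (ρ0 / 8 ^ K) / m → 162 * e ≤ ρ0 / 8 ^ K →
        (∀ W, MeasurableSet (Bd κ s0 ε T C c m ρ0 K e b W)) ∧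
        (Measurable fun W => volume (Bd κ s0 ε T C c m ρ0 K e b W ∩ ball 0 R)) ∧
        ∫⁻ W, volume (Bd κ s0 ε T C c m ρ0 K e b W ∩ ball 0 R) ∂μ ≤
          ENNReal.ofReal (A * (e + e ^ (2 - dd κ) * (ρ0 ^ (dd κ - 1) +
            (1 - c' * Real.exp (-(C * m ^ 2))) ^ K + e / (ρ0 / 8 ^ K))))

def FinNumStmt : Prop :=
  ∀ κ, 0 < κ → κ < 8 → ∀ C c' m0 B : ℝ, 0 < C → 0 < c' → c' ≤ 1 / 4 → 1 ≤ m0 → 1 ≤ B →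
    ∃ (K0 : ℝ) (n1 : ℕ), 0 < K0 ∧ ∀ n : ℕ, n1 ≤ n → ∀ e ρ0 : ℝ, e = 1 / 8 ^ (4 * n) →
      ρ0 = 1 / 8 ^ n → ∃ m : ℝ, m0 ≤ m ∧ 162 * e ≤ ρ0 / 8 ^ n ∧
        gauge κ e / e ^ 2 * (e + e ^ (2 - dd κ) * (ρ0 ^ (dd κ - 1) +
          (1 - c' * Real.exp (-(C * m ^ 2))) ^ n + e / (ρ0 / 8 ^ n))) ≤ K0 ∧
        ∀ k : ℕ, k < n → gauge κ (B * (ρ0 / 8 ^ k)) ≤ K0 * (m ^ (2 - dd κ) * (ρ0 / 8 ^ k) ^ dd κ)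

def UpperStmt : Prop :=
  ∀ κ μ, Ctx κ μ → ∀ b R : ℝ, 0 ≤ b → 0 < R →
    ∀ᵐ W ∂μ, hausd (gauge κ) (Tr W b ∩ ball 0 R) < ⊤

/-! ### The lower bound -/

noncomputable def thr (κ C1 : ℝ) (k : ℕ) : ℝ :=
  C1 * LL (1 / 2 ^ k) ^ ((2 - dd κ) / 2) * (2 * (1 / 2 ^ k)) ^ dd κ

/-- An upper bound for the content of points with a heavy ball at some scale below `2 ^ (-k0)`. -/
noncomputable def badm (κ s0 ε a b C1 : ℝ) (w : ℂ) (ρ : ℝ) (k0 : ℕ) (W : Pth) : ℝ≥0∞ :=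
  ∑' k : ℕ, ENNReal.ofReal (1 / (Real.pi * (1 / 2 ^ (k + k0)) ^ 2)) *
    ∫⁻ z in ball w (2 * ρ),
      big (thr κ C1 (k + k0)) (cm κ s0 ε a b W (ball z (2 * (1 / 2 ^ (k + k0)))))

def GoodE (κ s0 C1 a b : ℝ) : Set Pth :=
  {W | ∃ (x y ρ c : ℚ) (k0 : ℕ), (0 : ℝ) < ρ ∧ (0 : ℝ) < c ∧ (1 / 2 ^ k0 : ℝ) ≤ ρ ∧
    80 * (ρ : ℝ) ≤ Up W a ⟨x, y⟩ ∧ ∀ n0 : ℕ, ∃ n : ℕ, n0 ≤ n ∧
      ENNReal.ofReal c + badm κ s0 (1 / (n + 1)) a b C1 ⟨x, y⟩ ρ k0 W ≤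
        cm κ s0 (1 / (n + 1)) a b W (ball ⟨x, y⟩ ρ)}

structure GoodMStmt : Prop where
  mbad : ∀ κ s0 ε a b C1 w ρ k0, Measurable (badm κ s0 ε a b C1 w ρ k0)
  meas : ∀ κ s0 C1 a b, MeasurableSet (GoodE κ s0 C1 a b)
  loc : ∀ κ s0 C1 a b (V W : Pth), 0 ≤ a → a ≤ b → EqOn V W (Icc 0 b) →
    V ∈ GoodE κ s0 C1 a b → W ∈ GoodE κ s0 C1 a b

def PosDetStmt : Prop :=
  ∀ κ, 0 < κ → κ < 8 → ∀ s0 C1 a b W, 0 < C1 → 0 ≤ a → a ≤ b → W ∈ GoodE κ s0 C1 a b →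
    ∀ Γ, IsCompact Γ → Fr W a b ⊆ Γ → 0 < hausd (gauge κ) Γ

def BadEStmt : Prop :=
  ∀ κ μ, Ctx κ μ → ∀ s0, 0 < s0 → ∃ C1 : ℝ, 0 < C1 ∧ ∀ a b V w ρ η, 0 ≤ a → a ≤ b → 0 < ρ →
    80 * ρ ≤ Up V a w → 0 < η → ∃ k0 : ℕ, (1 / 2 ^ k0 : ℝ) ≤ ρ ∧ ∀ ε, 0 < ε →
      CE μ a V (badm κ s0 ε a b C1 w ρ k0) ≤ ENNReal.ofReal η

def PosProbStmt : Prop :=
  ∀ κ μ, Ctx κ μ → ∀ s0 T0, FMP κ μ s0 T0 → ∃ C1 p : ℝ, 0 < C1 ∧ 0 < p ∧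
    ∀ a b V, 0 ≤ a → a < b → ENNReal.ofReal p ≤ CP μ a V (GoodE κ s0 C1 a b)

def LowerStmt : Prop :=
  ∀ κ μ, Ctx κ μ → ∀ᵐ W ∂μ, ∀ s t : ℝ, 0 ≤ s → s < t → ∃ a b, s ≤ a ∧ a ≤ b ∧ b ≤ t ∧
    ∀ Γ, IsCompact Γ → Fr W a b ⊆ Γ → 0 < hausd (gauge κ) Γ

end Vale.Agent.P164
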