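import Vale.Agent.P164.Stm

/-! The centred Loewner map is onto the half plane. -/

open Set MeasureTheory ProbabilityTheory Metric Filter Topology
open scoped ENNReal NNReal

namespace Vale.Agent.P164

namespace Surj

theorem reg_ge (δ : ℝ) (z : ℂ) : δ ≤ ‖reg δ z‖ :=
  (le_max_right z.im δ).trans ((le_abs_self _).trans (Complex.abs_im_le_norm (reg δ z)))

theorem reg_lip (δ : ℝ) (z z' : ℂ) : ‖reg δ z - reg δ z'‖ ≤ ‖z - z'‖ := by
  have h := abs_max_sub_max_le_abs z.im z'.im δ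
  have h2 := sq_le_sq.2 (h.trans_eq rfl)
  refine abs_le_of_sq_le_sq' ?_ (norm_nonneg _) |>.2
  rw [Complex.sq_norm, Complex.sq_norm, Complex.normSq_apply, Complex.normSq_apply]
  simp only [reg, Complex.sub_re, Complex.sub_im]
  nlinarith

theorem lip {δ : ℝ} (hδ : 0 < δ) (c : ℂ) :
    LipschitzWith (2 / δ ^ 2).toNNReal fun z => ((1 : ℝ) : ℂ) * (2 / reg δ (z - c)) := by
  refine LipschitzWith.of_dist_le_mul fun z z' => ?_
  have h1 := reg_ge δ (z - c)
  have h2 := reg_ge δ (z' - c)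
  have h3 := reg_lip δ (z' - c) (z - c)
  have n1 : reg δ (z - c) ≠ 0 := norm_pos_iff.1 (hδ.trans_le h1)
  have n2 : reg δ (z' - c) ≠ 0 := norm_pos_iff.1 (hδ.trans_le h2)
  rw [sub_sub_sub_cancel_right, norm_sub_rev z'] at h3
  rw [dist_eq_norm, dist_eq_norm, Real.coe_toNNReal _ (by positivity)]
  have e : ((1 : ℝ) : ℂ) * (2 / reg δ (z - c)) - ((1 : ℝ) : ℂ) * (2 / reg δ (z' - c)) =
      2 * (reg δ (z' - c) - reg δ (z - c)) / (reg δ (z - c) * reg δ (z' - c)) := by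
    push_cast
    field_simp
  rw [e, norm_div, norm_mul, norm_mul, Complex.norm_ofNat, div_mul_eq_mul_div, sq]
  gcongr

end Surj

theorem surj (h0 : Flow0Stmt) (hC : FlowCStmt) : SurjStmt := by
  intro W t ζ ht hζ
  have hδ := half_pos hζ
  obtain ⟨φ, hφ⟩ := h0 (ζ.im / 2) 1 hδ (by simp)
  obtain ⟨ψ, hψ⟩ := h0 (ζ.im / 2) (-1) hδ (by simp)
  let W' : Pth := ⟨fun u => W (t - u), by fun_prop⟩
  have hg : ∀ u : ℝ, HasDerivAt (fun u => ψ (ζ + W t) W' (t - u))
      (((1 : ℝ) : ℂ) * (2 / reg (ζ.im / 2) (ψ (ζ + W t) W' (t - u) - W u))) u := fun u => by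
    have h := (hψ.der (ζ + W t) W' (t - u)).scomp u ((hasDerivAt_id u).const_sub t)
    refine h.congr_deriv ?_
    have e : W' (t - u) = W u := by simp [W']
    rw [e]
    simp
  have he : φ (ψ (ζ + W t) W' t) W = fun u => ψ (ζ + W t) W' (t - u) :=
    ODE_solution_unique_univ (v := fun u z => ((1 : ℝ) : ℂ) * (2 / reg (ζ.im / 2) (z - W u)))
      (s := fun _ => univ) (t₀ := 0) (fun u => (Surj.lip hδ (W u)).lipschitzOnWith)
      (fun u => ⟨hφ.der _ W u, mem_univ _⟩) (fun u => ⟨hg u, mem_univ _⟩)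
      (by simp [hφ.init])
  have e : φ (ψ (ζ + W t) W' t) W t = ζ + W t := by rw [he]; simp [hψ.init]
  obtain ⟨h1, h2⟩ := hC.of_flow _ φ hδ hφ (ψ (ζ + W t) W' t) W t ht (by rw [e]; simpa using hζ)
  exact ⟨_, h1, by rw [h2, e]; simp⟩

end Vale.Agent.P164
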