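import Vale.Agent.P164.Stm2

/-! The integrated form of the angle bound on uncovered points (P164). -/

open Set MeasureTheory ProbabilityTheory Metric
open scoped ENNReal NNReal

namespace Vale.Agent.P164

theorem ab_sq_exp {a : ℝ} (ha : 0 < a) (m : ℝ) (hm : 0 ≤ m) :
    m ^ 2 * Real.exp (-(a * m)) ≤ 2 / a ^ 2 := by
  have h := Real.pow_div_factorial_le_exp (a * m) (mul_nonneg ha.le hm) 2
  have h2 : ((Nat.factorial 2 : ℕ) : ℝ) = 2 := by norm_num [Nat.factorial]
  rw [h2] at h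
  have he := Real.exp_pos (a * m)
  rw [Real.exp_neg, ← div_eq_mul_inv, div_le_div_iff₀ he (by positivity)]
  nlinarith

theorem ab_ball (ℓ : ℝ) (hℓ : 0 < ℓ) (z0 : ℂ) (m : ℝ) (hm : 0 ≤ m) :
    ar ℓ (ball z0 (m * ℓ)) = ENNReal.ofReal (Real.pi * m ^ 2) := by
  unfold ar
  rw [Measure.smul_apply, Complex.volume_ball, smul_eq_mul]
  have h1 : ((NNReal.pi : ℝ≥0) : ℝ≥0∞) = ENNReal.ofReal Real.pi := by
    rw [← NNReal.coe_real_pi, ENNReal.ofReal_coe_nnreal]
  rw [h1, ← ENNReal.ofReal_pow (by positivity), ← ENNReal.ofReal_mul (by positivity),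
    ← ENNReal.ofReal_mul (by positivity)]
  refine congrArg _ ?_
  field_simp

theorem ab_rpow {S C x p : ℝ} (hS : 0 ≤ S) (hC : 0 < C) (hp : 0 < p)
    (h : S ≤ C * Real.exp (-x)) : S ^ p ≤ C ^ p * Real.exp (-(x * p)) := by
  have h1 : S ^ p ≤ (C * Real.exp (-x)) ^ p := Real.rpow_le_rpow hS h hp.le
  rw [Real.mul_rpow hC.le (Real.exp_pos _).le, ← Real.exp_mul] at h1
  have h2 : -x * p = -(x * p) := by ring
  rwa [h2] at h1

theorem abS (hF : Fnd) (h1 : AB1Stmt) : ABStmt := by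
  obtain ⟨C, c, hC, hc, H⟩ := h1
  intro κ hκ h8
  have hp := pp_pos hκ h8
  set p := pp κ with hpdef
  have hcp : 0 < c * p := mul_pos hc hp
  obtain ⟨C2, hC2, H2⟩ := hF.elem.expo (c * p) hcp
  have hCp : 0 < C ^ p := Real.rpow_pos_of_pos hC p
  refine ⟨C ^ p * (Real.pi * (2 / (c * p) ^ 2)) + C ^ p * C2, by positivity, ?_⟩
  intro ℓ δ z0 m W t R0 hℓ hδ ht hR0
  rcases lt_or_ge m 0 with hm | hm
  · have : Lin ℓ δ z0 m W t ∩ {w | R0 ≤ Rf W t w ∧ Rf W t w ≤ 4 * R0} = ∅ := by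
      refine eq_empty_of_forall_notMem fun w hw => ?_
      have h3 : w ∈ ball z0 (m * ℓ) := hw.1.1
      rw [ball_eq_empty.2 (by nlinarith)] at h3
      exact h3
    rw [this, Measure.restrict_empty, lintegral_zero_measure]
    exact zero_le
  set w0 : ℂ := fi W t ⟨0, R0⟩ with hw0
  have hSm : Measurable fun w : ℂ => Sf W t w :=
    hF.meas.S_meas.comp (measurable_id.prodMk (measurable_const (a := (W, t))))
  have hEm : Measurable fun w : ℂ => C * Real.exp (-(c * ‖w - w0‖ / ℓ)) := by fun_prop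
  set B : Set ℂ := ball z0 (m * ℓ) ∩ ({w | Sf W t w ≤ C * Real.exp (-(c * m))} ∪
    {w | Sf W t w ≤ C * Real.exp (-(c * ‖w - w0‖ / ℓ))}) with hB
  have hBm : MeasurableSet B :=
    measurableSet_ball.inter ((measurableSet_le hSm measurable_const).union
      (measurableSet_le hSm hEm))
  have hsub : Lin ℓ δ z0 m W t ∩ {w | R0 ≤ Rf W t w ∧ Rf W t w ≤ 4 * R0} ⊆ B := by
    intro w hw
    exact ⟨hw.1.1, H ℓ δ z0 m w W t R0 hℓ hδ ht hR0 hw.1 hw.2.1 hw.2.2⟩
  have hS0 : ∀ w, 0 ≤ Sf W t w := fun w =>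
    div_nonneg (hF.flow.Y_nonneg W t w) (Rf_nonneg W t w)
  have hpt : ∀ w ∈ B, ENNReal.ofReal (Sf W t w ^ p) ≤
      ENNReal.ofReal (C ^ p * Real.exp (-(c * p * m))) +
        ENNReal.ofReal (C ^ p) * ENNReal.ofReal (Real.exp (-(c * p * ‖w - w0‖ / ℓ))) := by
    intro w hw
    rcases hw.2 with h | h
    · refine le_trans (ENNReal.ofReal_le_ofReal ?_) le_self_add
      have h3 := ab_rpow (hS0 w) hC hp h
      have h4 : c * m * p = c * p * m := by ring
      rwa [h4] at h3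
    · refine le_trans ?_ le_add_self
      rw [← ENNReal.ofReal_mul hCp.le]
      refine ENNReal.ofReal_le_ofReal ?_
      have h3 := ab_rpow (hS0 w) hC hp h
      have h4 : c * ‖w - w0‖ / ℓ * p = c * p * ‖w - w0‖ / ℓ := by ring
      rwa [h4] at h3
  have hEm2 : Measurable fun w : ℂ => ENNReal.ofReal (Real.exp (-(c * p * ‖w - w0‖ / ℓ))) := by
    fun_prop
  calc ∫⁻ w in Lin ℓ δ z0 m W t ∩ {w | R0 ≤ Rf W t w ∧ Rf W t w ≤ 4 * R0},
        ENNReal.ofReal (Sf W t w ^ p) ∂ar ℓ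
      ≤ ∫⁻ w in B, ENNReal.ofReal (Sf W t w ^ p) ∂ar ℓ := lintegral_mono_set hsub
    _ ≤ ∫⁻ w in B, (ENNReal.ofReal (C ^ p * Real.exp (-(c * p * m))) +
        ENNReal.ofReal (C ^ p) * ENNReal.ofReal (Real.exp (-(c * p * ‖w - w0‖ / ℓ)))) ∂ar ℓ :=
        setLIntegral_mono' hBm hpt
    _ = ENNReal.ofReal (C ^ p * Real.exp (-(c * p * m))) * ar ℓ B +
        ENNReal.ofReal (C ^ p) *
          ∫⁻ w in B, ENNReal.ofReal (Real.exp (-(c * p * ‖w - w0‖ / ℓ))) ∂ar ℓ := by
        rw [lintegral_add_left measurable_const, setLIntegral_const, lintegral_const_mul _ hEm2]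
    _ ≤ ENNReal.ofReal (C ^ p * Real.exp (-(c * p * m))) * ENNReal.ofReal (Real.pi * m ^ 2) +
        ENNReal.ofReal (C ^ p) * ENNReal.ofReal C2 := by
        refine add_le_add (mul_le_mul_right ?_ _) (mul_le_mul_right ?_ _)
        · rw [← ab_ball ℓ hℓ z0 m hm]
          exact measure_mono inter_subset_left
        · refine le_trans (setLIntegral_le_lintegral _ _) ?_
          unfold ar
          rw [lintegral_smul_measure, smul_eq_mul]
          refine le_trans (mul_le_mul_right (H2 ℓ w0 hℓ) _) ?_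
          rw [← ENNReal.ofReal_mul (by positivity)]
          refine le_of_eq (congrArg _ ?_)
          field_simp
    _ ≤ ENNReal.ofReal (C ^ p * (Real.pi * (2 / (c * p) ^ 2)) + C ^ p * C2) := by
        rw [← ENNReal.ofReal_mul (by positivity), ← ENNReal.ofReal_mul hCp.le,
          ← ENNReal.ofReal_add (by positivity) (by positivity)]
        refine ENNReal.ofReal_le_ofReal (add_le_add ?_ le_rfl)
        have h5 := ab_sq_exp hcp m hm
        have h6 : C ^ p * Real.exp (-(c * p * m)) * (Real.pi * m ^ 2) =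
            C ^ p * (Real.pi * (m ^ 2 * Real.exp (-(c * p * m)))) := by ring
        rw [h6]
        exact mul_le_mul_of_nonneg_left (mul_le_mul_of_nonneg_left h5 Real.pi_pos.le) hCp.le

end Vale.Agent.P164
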