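import Vale.Agent.P164.Stm2

/-! P164: pointwise decay of the angle for points not yet covered by cells. -/

open Set MeasureTheory ProbabilityTheory Metric
open scoped ENNReal NNReal

namespace Vale.Agent.P164

theorem ab1_far (hF : Fnd) (W : Pth) {t R0 L : ℝ} (ζ : ℂ) (ht : 0 ≤ t) (hR : 0 < R0)
    (h1 : R0 / 10 ≤ ζ.im) (h2 : ‖(⟨0, R0⟩ : ℂ) - ζ‖ ≤ 5 * R0) (h3 : Up W t (fi W t ζ) ≤ L) :
    ‖fi W t ⟨0, R0⟩ - fi W t ζ‖ ≤ L * (50 * Real.exp 200) := by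
  have h := hF.koebe.disp W t ζ ⟨0, R0⟩ (R0 / 10) ht (by positivity) h1 (by simp only; linarith)
  have a1 : ‖(⟨0, R0⟩ : ℂ) - ζ‖ / (R0 / 10) ≤ 50 := by
    rw [div_le_iff₀ (by positivity)]; linarith
  have a2 : 4 * ‖(⟨0, R0⟩ : ℂ) - ζ‖ / (R0 / 10) ≤ 200 := by
    rw [div_le_iff₀ (by positivity)]; linarith
  have a3 := (Up_nonneg W t (fi W t ζ)).trans h3
  refine h.trans ?_
  rw [← mul_assoc]
  gcongr

theorem ab1_exp {Y y x S R : ℝ} (hY : 0 < Y) (hy : 0 < y) (hR : y ≤ R) (hS : S = Y / R)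
    (h : x ≤ Real.log (y / Y)) : S ≤ Real.exp (-x) := by
  have a1 : Real.exp x ≤ y / Y := (Real.le_log_iff_exp_le (by positivity)).1 h
  rw [hS, Real.exp_neg, le_inv_comm₀ (div_pos hY (by linarith)) (Real.exp_pos _), inv_div]
  exact a1.trans (by gcongr)

theorem ab1 (hF : Fnd) (hN : NLowStmt) : AB1Stmt := by
  refine ⟨Real.exp (50 * Real.exp 200), 2 / 5, Real.exp_pos _, by norm_num, ?_⟩
  intro ℓ δ z0 m w W t R0 hl hδ ht hR ⟨hw, hn, hY, hU⟩ r1 r2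
  have Y0 : 0 < Yf W t w := hδ.trans_le hY
  have hd : w ∈ dom W t := (hF.flow.alive W t w ht).2 Y0
  have e0 : fi W t ⟨Xf W t w, Yf W t w⟩ = w := hF.confB.left W t w ht hd
  have E0 : 0 < 50 * Real.exp 200 := by positivity
  have nI : ‖(⟨0, R0⟩ : ℂ)‖ = R0 := by
    rw [Complex.norm_eq_sqrt_sq_add_sq]; simp [hR.le]
  have fin : ∀ x : ℝ, ‖w - fi W t ⟨0, R0⟩‖ ≤ 5 / 2 * ℓ * x + 5 / 2 * ℓ * (50 * Real.exp 200) →
      Sf W t w ≤ Real.exp (-x) → Sf W t w ≤ Real.exp (50 * Real.exp 200) *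
        Real.exp (-(2 / 5 * ‖w - fi W t ⟨0, R0⟩‖ / ℓ)) := fun x h1 h2 => by
    rw [← Real.exp_add]
    refine h2.trans (Real.exp_le_exp.2 ?_)
    have : 2 / 5 * ‖w - fi W t ⟨0, R0⟩‖ / ℓ ≤ x + 50 * Real.exp 200 := by
      rw [div_le_iff₀ hl]; linarith
    linarith
  rcases le_total (R0 / 10) (Yf W t w) with h | h
  · right
    have a1 := ab1_far hF W (L := 5 / 2 * ℓ) ⟨Xf W t w, Yf W t w⟩ ht hR h
      ((norm_sub_le _ _).trans (by rw [nI]; exact (add_le_add le_rfl r2).trans (by linarith)))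
      (by rw [e0]; linarith)
    rw [e0, norm_sub_rev] at a1
    exact fin 0 (by linarith) (by simpa using Sf_le_one W t w)
  have uc : ContinuousOn (fun v : ℝ => Up W t (fi W t ⟨Xf W t w, v⟩)) (Icc (Yf W t w) (R0 / 10)) := by
    refine (hF.koebe.cont W t ht).comp (f := fun v : ℝ => (⟨Xf W t w, v⟩ : ℂ)) ?_
      fun v hv => Y0.trans_le hv.1
    simp only [Complex.mk_eq_add_mul_I]
    fun_prop
  by_cases hc : ∀ v ∈ Icc (Yf W t w) (R0 / 10), Up W t (fi W t ⟨Xf W t w, v⟩) ≤ 5 / 2 * ℓ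
  · right
    have a1 := hF.koebe.vert W t (Xf W t w) (Yf W t w) (R0 / 10) _ ht Y0 h hc
    have a2 := ab1_far hF W (L := 5 / 2 * ℓ) ⟨Xf W t w, R0 / 10⟩ ht hR le_rfl
      ((Complex.norm_le_abs_re_add_abs_im _).trans (by
        simp only [Complex.sub_re, Complex.sub_im, zero_sub, abs_neg]
        rw [abs_of_nonneg (by linarith : 0 ≤ R0 - R0 / 10)]
        linarith [Xf_le_Rf W t w])) (hc _ ⟨h, le_rfl⟩)
    rw [e0] at a1
    refine fin _ ?_ (ab1_exp Y0 (y := R0 / 10) (by positivity) (by linarith) rfl le_rfl)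
    rw [norm_sub_rev]
    exact (norm_sub_le_norm_sub_add_norm_sub _ (fi W t ⟨Xf W t w, R0 / 10⟩) _).trans (by linarith)
  left
  push Not at hc
  obtain ⟨v0, hv0, hv1⟩ := hc
  obtain ⟨y, ⟨hy, hy'⟩, hm⟩ := (isCompact_Icc.of_isClosed_subset
    (uc.preimage_isClosed_of_isClosed isClosed_Icc (isClosed_Ici (a := 5 / 2 * ℓ)))
    inter_subset_left).exists_isLeast ⟨v0, hv0, hv1.le⟩
  have y0 : 0 < y := Y0.trans_le hy.1
  obtain ⟨v, hv, hv'⟩ := intermediate_value_Icc hy.1 (uc.mono (Icc_subset_Icc_right hy.2))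
    (show 5 / 2 * ℓ ∈ Icc _ _ from ⟨by simp only [e0]; linarith, hy'⟩)
  obtain rfl : v = y := le_antisymm hv.2 (hm ⟨⟨hv.1, hv.2.trans hy.2⟩, le_of_eq hv'.symm⟩)
  have b1 : ∀ u ∈ Icc (Yf W t w) v, Up W t (fi W t ⟨Xf W t w, u⟩) ≤ 5 / 2 * ℓ := fun u hu => by
    by_contra hh
    have := hm ⟨⟨hu.1, hu.2.trans hy.2⟩, (not_le.1 hh).le⟩
    obtain rfl : u = v := le_antisymm hu.2 this
    exact hh (le_of_eq hv')
  have b2 := hF.koebe.vert W t (Xf W t w) (Yf W t w) v _ ht Y0 hy.1 b1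
  have vR : v ≤ Rf W t w / 10 := by linarith [hy.2]
  have b3 := mt (hN.low ℓ δ z0 m w W t v hl hδ ht hY hy.1 vR hv') (not_le.2 hn)
  push Not at b3
  obtain ⟨ζ, hζ, b4⟩ := b3
  rw [mem_ball, dist_eq_norm] at hζ hw
  rw [Bp, mem_ball, dist_eq_norm, not_lt] at b4
  have b5 := hF.koebe.disp W t ⟨Xf W t w, v⟩ ζ (v / 2) ht (by positivity) (by simp only; linarith)
    (by
      have := (abs_le.1 ((Complex.abs_im_le_norm _).trans hζ.le)).1
      simp only [Complex.sub_im] at this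
      linarith)
  have c1 : ‖ζ - ⟨Xf W t w, v⟩‖ / (v / 2) ≤ 1 / 15 := by
    rw [div_le_iff₀ (by positivity)]; linarith
  have c2 : Real.exp (4 * ‖ζ - ⟨Xf W t w, v⟩‖ / (v / 2)) ≤ 3 := by
    refine le_trans (Real.exp_le_exp.2 ?_) (Real.exp_one_lt_d9.le.trans (by norm_num))
    rw [div_le_iff₀ (by positivity)]; linarith
  have c3 : ‖fi W t ζ - fi W t ⟨Xf W t w, v⟩‖ ≤ 5 / 2 * ℓ * (1 / 15) * 3 := by
    refine b5.trans ?_
    rw [show Up W t (fi W t ⟨Xf W t w, v⟩) = 5 / 2 * ℓ from hv']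
    gcongr
  rw [e0] at b2
  have c4 := norm_sub_le_norm_sub_add_norm_sub (fi W t ζ) (fi W t ⟨Xf W t w, v⟩) z0
  have c5 := norm_sub_le_norm_sub_add_norm_sub (fi W t ⟨Xf W t w, v⟩) w z0
  have c6 : 2 / 5 * m ≤ Real.log (v / Yf W t w) :=
    le_of_mul_le_mul_left (a := ℓ) (by linarith) hl
  refine (ab1_exp Y0 y0 (R := Rf W t w) (by linarith [Rf_nonneg W t w]) rfl c6).trans ?_
  exact le_mul_of_one_le_left (Real.exp_pos _).le (Real.one_le_exp E0.le)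

end Vale.Agent.P164
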