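import Vale.Agent.P164.Stm2

open Set MeasureTheory ProbabilityTheory Metric Filter Topology
open scoped ENNReal NNReal

namespace Vale.Agent.P164

theorem badE_num {C r u ρ d l : ℝ} (hC : 0 < C) (hr : 0 < r) (hρ : 0 < ρ) (hu : 40 * ρ ≤ u)
    (hd : d < 2) (hl : 0 < l) :
    C * (2 * r / u) ^ (2 - d) * (2 * r) ^ d * Real.exp (-(2 * Real.log l)) ≤
      C * (2 * r) ^ 2 / (40 * ρ) ^ (2 - d) / l ^ 2 := by
  have u0 : 0 < u := lt_of_lt_of_le (by positivity) hu
  have e1 : Real.exp (-(2 * Real.log l)) = 1 / l ^ 2 := by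
    rw [Real.exp_neg, mul_comm, ← Real.rpow_def_of_pos hl, Real.rpow_two, one_div]
  have e2 : (2 * r) ^ (2 - d) * (2 * r) ^ d = (2 * r) ^ 2 := by
    rw [← Real.rpow_add (by positivity), sub_add_cancel, Real.rpow_two]
  have e3 : (2 * r / u) ^ (2 - d) ≤ (2 * r) ^ (2 - d) / (40 * ρ) ^ (2 - d) := by
    rw [← Real.div_rpow (by positivity) (by positivity)]
    exact Real.rpow_le_rpow (by positivity) (by gcongr) (by linarith)
  rw [e1, ← e2]
  refine le_of_le_of_eq (b := C * ((2 * r) ^ (2 - d) / (40 * ρ) ^ (2 - d)) * (2 * r) ^ d *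
    (1 / l ^ 2)) (by gcongr) (by ring)

theorem badE_cm (hA : ContAStmt) {α : Type} [MeasurableSpace α] {f : α → Pth} {g : α → ℂ}
    (hf : Measurable f) (hg : Measurable g) (κ s0 ε a b ρ : ℝ) :
    Measurable fun p => cm κ s0 ε a b (f p) (ball (g p) ρ) :=
  ((hA.mball κ s0 ε a b ρ).comp (hf.prodMk hg) :)

theorem badE (hF : Fnd) (hA : ContAStmt) (hB : BigStmt) (hP : P2Stmt) : BadEStmt := by
  intro κ μ hc s0 hs0
  obtain ⟨C1, C, hC1, hC, h⟩ := hP κ μ hc s0 hs0
  refine ⟨C1, hC1, fun a b V w ρ η ha hab hρ hU hη => ?_⟩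
  have := hc.wie.prob
  obtain ⟨v, v0, hv⟩ : ∃ v : ℝ, 0 ≤ v ∧ volume (ball w (2 * ρ)) = ENNReal.ofReal v :=
    ⟨_, ENNReal.toReal_nonneg, (ENNReal.ofReal_toReal measure_ball_lt_top.ne).symm⟩
  set K := 4 * C * v / (40 * ρ) ^ (2 - dd κ) / (Real.pi * Real.log 2 ^ 2) with hK
  have K0 : 0 ≤ K := by positivity
  have sm : Summable fun k : ℕ => K * (1 / (k : ℝ) ^ 2) :=
    (Real.summable_one_div_nat_pow.2 one_lt_two).mul_left K
  have t2 : Tendsto (fun k : ℕ => (1 / 2 ^ k : ℝ)) atTop (𝓝 0) := by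
    simpa only [one_div, inv_pow] using
      tendsto_pow_atTop_nhds_zero_of_lt_one (r := (2 : ℝ)⁻¹) (by norm_num) (by norm_num)
  obtain ⟨k0, ⟨k1, k2⟩, k3⟩ := ((((tendsto_sum_nat_add fun k : ℕ => K * (1 / (k : ℝ) ^ 2)).eventually_lt_const
    hη).and (t2.eventually_lt_const (half_pos hρ))).and (t2.eventually_lt_const
      (show (0 : ℝ) < 1 / 16 by norm_num))).exists
  refine ⟨k0, by linarith, fun ε hε => ?_⟩
  have mb : ∀ x r, Measurable fun p : Pth × ℂ =>
      big x (cm κ s0 ε a b (cat a V p.1) (ball p.2 r)) := fun x r =>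
    (hB.meas _).comp (badE_cm hA ((measurable_cat_right a V).comp measurable_fst) measurable_snd
      κ s0 ε a b r)
  simp only [CE, badm]
  rw [lintegral_tsum fun k => ((Measurable.lintegral_prod_right' (mb _ _)).const_mul _).aemeasurable]
  refine le_trans (ENNReal.tsum_le_tsum fun k => ?_) (((ENNReal.ofReal_tsum_of_nonneg
    (fun k => by positivity) ((summable_nat_add_iff k0).2 sm)).symm.trans_le
      (ENNReal.ofReal_le_ofReal k1.le)))
  generalize hj : k + k0 = j
  have r0 : (0 : ℝ) < 1 / 2 ^ j := by positivity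
  have r1 : (1 / 2 ^ j : ℝ) ≤ 1 / 2 ^ k0 :=
    one_div_le_one_div_of_le (by positivity) (pow_le_pow_right₀ one_le_two (by omega))
  have j0 : (0 : ℝ) < j := by
    rcases Nat.eq_zero_or_pos j with e | e
    · obtain rfl : k0 = 0 := by omega
      norm_num at k3
    · exact_mod_cast e
  have l2 := Real.log_pos one_lt_two
  have L1 := hF.gauge.one_le _ r0
  have L2 : LL (1 / 2 ^ j) = Real.log (j * Real.log 2) := by
    rw [hF.gauge.LL_eq _ (by linarith), one_div_one_div, Real.log_pow]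
  have key : ∀ z ∈ ball w (2 * ρ),
      ∫⁻ W, big (thr κ C1 j) (cm κ s0 ε a b (cat a V W) (ball z (2 * (1 / 2 ^ j)))) ∂μ ≤
      ENNReal.ofReal (C * (2 * (1 / 2 ^ j)) ^ 2 / (40 * ρ) ^ (2 - dd κ) / (j * Real.log 2) ^ 2) :=
    fun z hz => by
      have u := (hF.koebe.ball V a w z ha (mem_dom_of_Up_pos ha (by linarith))
        ((mem_ball_iff_norm.1 hz).trans_le (by linarith))).2.2.1
      have k := h ε (2 * (1 / 2 ^ j)) (√(LL (1 / 2 ^ j))) a b V z hε (by positivity)
        (Real.one_le_sqrt.2 L1) ha hab (by linarith)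
      rw [Real.sq_sqrt (by linarith), Real.sqrt_eq_rpow, ← Real.rpow_mul (by linarith),
        one_div_mul_eq_div] at k
      refine le_trans k (ENNReal.ofReal_le_ofReal ?_)
      rw [L2]
      exact badE_num hC r0 hρ (by linarith) (dd_lt_two hc.lt) (by positivity)
  rw [lintegral_const_mul' _ _ ENNReal.ofReal_ne_top, lintegral_lintegral_swap (mb _ _).aemeasurable]
  refine (mul_le_mul_right (setLIntegral_mono' measurableSet_ball key) _).trans_eq ?_
  rw [setLIntegral_const, hv, ← ENNReal.ofReal_mul (by positivity),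
    ← ENNReal.ofReal_mul (by positivity), hK]
  congr 1
  field_simp
  ring

end Vale.Agent.P164
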