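import Vale.Agent.P164.Stm

open Set MeasureTheory Filter Topology

namespace Vale.Agent.P164

/-- Measurable, continuous at nonnegative times, locally uniformly bounded. -/
structure BaseN (f : ℂ → Pth → ℝ → ℝ) : Prop where
  meas : Measurable fun p : ℂ × Pth × ℝ => f p.1 p.2.1 p.2.2
  cont : ∀ w W t, 0 ≤ t → ContinuousAt (f w W) t
  bdd : ∀ n : ℝ, ∃ C : ℝ, ∀ w (W : Pth) t, ‖w‖ ≤ n → t ∈ Icc 0 n →
    (∀ u ∈ Icc 0 t, |W u| ≤ n) → |f w W t| ≤ C

/-- The same while the point is alive. -/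
structure BaseA (f : ℂ → Pth → ℝ → ℝ) : Prop where
  meas : Measurable fun p : ℂ × Pth × ℝ => f p.1 p.2.1 p.2.2
  cont : ∀ w (W : Pth) t, 0 ≤ t → w ∈ dom W t → ContinuousAt (f w W) t
  bdd : ∀ δ, 0 < δ → ∀ n : ℝ, ∃ C : ℝ, ∀ w (W : Pth) t, ‖w‖ ≤ n → t ∈ Icc 0 n →
    (∀ u ∈ Icc 0 t, |W u| ≤ n) → δ ≤ Yf W t w → |f w W t| ≤ C

theorem BaseA.const (c : ℝ) : BaseA fun _ _ _ => c :=
  ⟨measurable_const, fun _ _ _ _ _ => continuousAt_const, fun _ _ _ => ⟨|c|, fun _ _ _ _ _ _ _ => le_rfl⟩⟩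

theorem BaseA.mul {f g : ℂ → Pth → ℝ → ℝ} (hf : BaseA f) (hg : BaseA g) :
    BaseA fun w W t => f w W t * g w W t := by
  refine ⟨hf.meas.mul hg.meas, fun w W t ht hw => (hf.cont w W t ht hw).mul (hg.cont w W t ht hw),
    fun δ hδ n => ?_⟩
  obtain ⟨C, hC⟩ := hf.bdd δ hδ n
  obtain ⟨D, hD⟩ := hg.bdd δ hδ n
  refine ⟨C * D, fun w W t h1 h2 h3 h4 => ?_⟩
  rw [abs_mul]
  exact mul_le_mul (hC w W t h1 h2 h3 h4) (hD w W t h1 h2 h3 h4) (abs_nonneg _)
    ((abs_nonneg _).trans (hC w W t h1 h2 h3 h4))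

theorem BaseA.congr {f g : ℂ → Pth → ℝ → ℝ} (hf : BaseA f) (h : ∀ w W t, f w W t = g w W t) :
    BaseA g := by
  have : f = g := by funext w W t; exact h w W t
  rwa [← this]

theorem BaseN.sub {f g : ℂ → Pth → ℝ → ℝ} (hf : BaseN f) (hg : BaseN g) :
    BaseN fun w W t => f w W t - g w W t := by
  refine ⟨hf.meas.sub hg.meas, fun w W t ht => (hf.cont w W t ht).sub (hg.cont w W t ht),
    fun n => ?_⟩
  obtain ⟨C, hC⟩ := hf.bdd n
  obtain ⟨D, hD⟩ := hg.bdd n
  exact ⟨C + D, fun w W t h1 h2 h3 =>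
    (abs_sub _ _).trans (add_le_add (hC w W t h1 h2 h3) (hD w W t h1 h2 h3))⟩

theorem base_gate (hA : FlowAStmt) (hM : FlowMStmt) {φ : ℝ → ℝ} (hφ : Continuous φ)
    (h0 : ∀ x, x ≤ 1 → φ x = 0) {K : ℝ} (hK : ∀ x, |φ x| ≤ K) {δ : ℝ} (hδ : 0 < δ)
    {g : ℂ → Pth → ℝ → ℝ} (hg : BaseA g) :
    BaseN fun w W t => φ (Yf W t w / δ) * g w W t := by
  refine ⟨(hφ.measurable.comp (hM.Y_meas.div_const δ)).mul hg.meas, fun w W t ht => ?_, fun n => ?_⟩
  · rcases lt_or_ge (Yf W t w) δ with h | h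
    · have : ∀ᶠ u in 𝓝 t, Yf W u w < δ :=
        (hA.Y_cont W w).continuousAt.eventually (gt_mem_nhds h)
      refine (continuousAt_const (y := (0 : ℝ))).congr ?_
      filter_upwards [this] with u hu
      rw [h0 _ ((div_le_one hδ).2 hu.le), zero_mul]
    · have hw := (hA.alive W t w ht).2 (hδ.trans_le h)
      exact ((hφ.comp ((hA.Y_cont W w).div_const δ)).continuousAt).mul (hg.cont w W t ht hw)
  · obtain ⟨C, hC⟩ := hg.bdd δ hδ n
    refine ⟨max (K * C) 0, fun w W t h1 h2 h3 => ?_⟩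
    rcases lt_or_ge (Yf W t w) δ with h | h
    · rw [h0 _ ((div_le_one hδ).2 h.le), zero_mul, abs_zero]; exact le_max_right _ _
    · rw [abs_mul]
      exact (mul_le_mul (hK _) (hC w W t h1 h2 h3 h) (abs_nonneg _)
        ((abs_nonneg _).trans (hK 0))).trans (le_max_left _ _)

theorem base_nice {f g : ℂ → Pth → ℝ → ℝ} (hf : BaseN f) (hg : BaseN g) :
    Nice fun w W t ξ => f w W t + g w W t * (W t - ξ) := by
  have hp : Measurable fun p : ℂ × Pth × ℝ × ℝ => ((p.1, p.2.1, p.2.2.1) : ℂ × Pth × ℝ) := by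
    fun_prop
  refine ⟨(hf.meas.comp hp).add ((hg.meas.comp hp).mul
    ((measurable_ev2.comp (f := fun p : ℂ × Pth × ℝ × ℝ => (p.2.1, p.2.2.1)) (by fun_prop)).sub
      (by fun_prop))), fun w W p hp => ?_, fun n => ?_⟩
  · have h1 := (hf.cont w W p.1 hp.1).comp (f := Prod.fst) continuousAt_fst
    have h2 := (hg.cont w W p.1 hp.1).comp (f := Prod.fst) continuousAt_fst
    have h3 : ContinuousAt (fun q : ℝ × ℝ => W q.1 - q.2) p := by fun_prop
    exact (h1.add (h2.mul h3)).continuousWithinAt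
  · obtain ⟨C, hC⟩ := hf.bdd n
    obtain ⟨D, hD⟩ := hg.bdd n
    refine ⟨C + D * (n + n), fun w W t ξ h1 h2 h3 h4 => (abs_add_le _ _).trans
      (add_le_add (hC w W t h1 h2 h3) ?_)⟩
    rw [abs_mul]
    exact mul_le_mul (hD w W t h1 h2 h3)
      ((abs_sub _ _).trans (add_le_add (h3 t ⟨h2.1, le_rfl⟩) h4)) (abs_nonneg _)
      ((abs_nonneg _).trans (hD w W t h1 h2 h3))

theorem base_Y_le (hA : FlowAStmt) {W : Pth} {t : ℝ} {w : ℂ} (ht : 0 ≤ t) (hw : w ∈ dom W t) :
    Yf W t w ≤ w.im := by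
  have h1 := hA.Y_anti W w ht
  have h2 : Yf W 0 w = w.im := by
    unfold Yf; rw [(hA.init W w hw.1).2.1]; simp
  simpa only [h2] using h1

theorem baseA_Y (hA : FlowAStmt) (hM : FlowMStmt) : BaseA fun w W t => Yf W t w := by
  refine ⟨hM.Y_meas, fun w W t _ _ => (hA.Y_cont W w).continuousAt, fun δ hδ n =>
    ⟨n, fun w W t h1 h2 _ h4 => ?_⟩⟩
  rw [abs_of_nonneg (hA.Y_nonneg W t w)]
  exact (base_Y_le hA h2.1 ((hA.alive W t w h2.1).2 (hδ.trans_le h4))).trans
    ((le_abs_self _).trans ((Complex.abs_im_le_norm w).trans h1))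

theorem baseA_X (hA : FlowAStmt) (hM : FlowMStmt) : BaseA fun w W t => Xf W t w := by
  refine ⟨hM.X_meas, fun w W t ht hw =>
    Complex.continuous_re.continuousAt.comp (hA.cont W t w ht hw).1, fun δ hδ n =>
    ⟨2 * n / δ + n + n, fun w W t h1 h2 h3 h4 => ?_⟩⟩
  have hw := (hA.alive W t w h2.1).2 (hδ.trans_le h4)
  have h5 := hA.move W w 0 t le_rfl h2.1 hw
  rw [(hA.init W w hw.1).2.1, sub_add_cancel, sub_zero] at h5
  have h6 : 2 * t / Yf W t w ≤ 2 * n / δ := by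
    have := h2.1
    have := h2.2
    gcongr
    linarith
  have h7 : Zf W t w = (Zf W t w + (W t : ℂ) - w) + w - (W t : ℂ) := by ring
  have h8 : ‖((W t : ℝ) : ℂ)‖ ≤ n := by
    rw [Complex.norm_real, Real.norm_eq_abs]; exact h3 t ⟨h2.1, le_rfl⟩
  refine (Xf_le_Rf W t w).trans ?_
  unfold Rf
  rw [h7]
  exact (norm_sub_le _ _).trans (add_le_add ((norm_add_le _ _).trans (add_le_add (h5.trans h6) h1)) h8)

theorem baseA_Ri (hA : FlowAStmt) (hM : FlowMStmt) : BaseA fun w W t => (Rf W t w)⁻¹ := by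
  refine ⟨hM.R_meas.inv, fun w W t ht hw => ?_, fun δ hδ n => ⟨δ⁻¹, fun w W t _ _ _ h4 => ?_⟩⟩
  · have h1 : 0 < Rf W t w :=
      ((hA.alive W t w ht).1 hw).trans_le ((le_abs_self _).trans (Yf_le_Rf W t w))
    exact ((hA.cont W t w ht hw).1.norm).inv₀ h1.ne'
  · have h1 : δ ≤ Rf W t w := h4.trans ((le_abs_self _).trans (Yf_le_Rf W t w))
    rw [abs_of_nonneg (inv_nonneg.2 (Rf_nonneg W t w))]
    exact inv_anti₀ hδ h1

theorem baseA_logUp (hA : FlowAStmt) (hM : FlowMStmt) :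
    BaseA fun w W t => Real.log (Up W t w) := by
  refine ⟨Real.measurable_log.comp hM.Up_meas, fun w W t ht hw =>
    ((hA.cont W t w ht hw).2.1).log (Up_pos ht hw).ne', fun δ hδ n =>
    ⟨|Real.log δ| + 4 * n / δ ^ 2 + |Real.log n|, fun w W t h1 h2 _ h4 => ?_⟩⟩
  have hw := (hA.alive W t w h2.1).2 (hδ.trans_le h4)
  have h0 := (hA.init W w hw.1).2.2.1
  have h5 := hA.Up_ge W w 0 t le_rfl h2.1 hw
  have h6 := hA.Up_anti W w h2.1
  simp only [h0, sub_zero] at h5 h6
  have h7 : w.im ≤ n := (le_abs_self _).trans ((Complex.abs_im_le_norm w).trans h1)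
  have h8 : δ ≤ w.im := h4.trans (base_Y_le hA h2.1 hw)
  have hp := Up_pos h2.1 hw
  have h9 : Real.log (Up W t w) ≤ Real.log n := Real.log_le_log hp (h6.trans h7)
  have h10 : 4 * t / Yf W t w ^ 2 ≤ 4 * n / δ ^ 2 := by
    have := h2.1
    have := h2.2
    gcongr
    linarith
  have h11 : Real.log δ - 4 * t / Yf W t w ^ 2 ≤ Real.log (Up W t w) := by
    have := Real.log_le_log (mul_pos hw.1 (Real.exp_pos _)) h5
    rw [Real.log_mul (ne_of_gt hw.1) (Real.exp_pos _).ne', Real.log_exp] at this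
    have := Real.log_le_log hδ h8
    linarith
  have h12 : 0 ≤ 4 * n / δ ^ 2 := by
    have := h2.1.trans h2.2
    positivity
  rw [abs_le]
  constructor
  · linarith [neg_abs_le (Real.log δ), abs_nonneg (Real.log n)]
  · linarith [le_abs_self (Real.log n), abs_nonneg (Real.log δ)]

theorem base_LS (hA : FlowAStmt) (hM : FlowMStmt) (κ c : ℝ) {h h' : ℂ → Pth → ℝ → ℝ}
    (hh : BaseA h) (hh' : BaseA h')
    (hloc : ∀ w (V W : Pth) t, 0 ≤ t → EqOn V W (Icc 0 t) → h w V t = h w W t)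
    (hder : ∀ w (W : Pth) t, 0 < t → w ∈ dom W t →
      HasDerivAt (fun u => h w W u + c * W u) (h' w W t) t) :
    LS κ h h' (fun _ _ _ => -c) := by
  intro δ hδ
  obtain ⟨K, -, hK, -⟩ := cut_bounds
  have hK0 : ∀ x, |cut x| ≤ 1 := fun x => by rw [abs_of_nonneg (cut_nonneg x)]; exact cut_le_one x
  have hK1 : ∀ x, |cut1 x| ≤ K := fun x => by rw [abs_of_nonneg (cut1_nonneg x)]; exact hK x
  have g0 : ∀ {g}, BaseA g → BaseN fun w W t => cy δ w W t * g w W t := fun hg =>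
    base_gate hA hM continuous_cut (fun _ => cut_zero) hK0 hδ hg
  have g1 : ∀ {g}, BaseA g → BaseN fun w W t => cyd δ w W t * g w W t := fun {g} hg => by
    have := base_gate hA hM continuous_cut1 (fun _ => cut1_zero_left) hK1 hδ
      ((((baseA_Y hA hM).mul (BaseA.const (2 / δ))).mul
        ((baseA_Ri hA hM).mul (baseA_Ri hA hM))).mul hg)
    convert this using 4 with w W t
    unfold cyd; ring
  let f : Fld ℂ :=
    ⟨fun w W t ξ => cy δ w W t * h w W t + cy δ w W t * c * (W t - ξ),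
     fun w W t ξ => (cy δ w W t * h' w W t - cyd δ w W t * h w W t) +
       cyd δ w W t * (-c) * (W t - ξ),
     fun w W t ξ => cy δ w W t * (-c) + cy δ w W t * 0 * (W t - ξ),
     fun w W t ξ => cy δ w W t * 0 + cy δ w W t * 0 * (W t - ξ)⟩
  refine ⟨f, ⟨base_nice (g0 hh) (g0 (BaseA.const c)),
    base_nice ((g0 hh').sub (g1 hh)) (g1 (BaseA.const (-c))),
    base_nice (g0 (BaseA.const (-c))) (g0 (BaseA.const 0)),
    base_nice (g0 (BaseA.const 0)) (g0 (BaseA.const 0)), ?_, ?_, ?_, ?_⟩, ?_⟩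
  · intro w V W t ξ ht hVW
    have h1 := ((hA.loc V W t hVW t ⟨ht, le_rfl⟩).2 w).1
    have h2 : V t = W t := hVW ⟨ht, le_rfl⟩
    simp only [f, cy, Yf, h1, h2, hloc w V W t ht hVW]
  · intro w W t ξ ht
    rcases lt_or_ge (Yf W t w) δ with hy | hy
    · have h1 : ∀ᶠ u in 𝓝 t, Yf W u w < δ :=
        (hA.Y_cont W w).continuousAt.eventually (gt_mem_nhds hy)
      have h2 : f.t w W t ξ = 0 := by
        simp only [f, cy, cyd, cut_zero ((div_le_one hδ).2 hy.le),
          cut1_zero_left ((div_le_one hδ).2 hy.le)]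
        ring
      rw [h2]
      refine (hasDerivAt_const t (0 : ℝ)).congr_of_eventuallyEq ?_
      filter_upwards [h1] with u hu
      simp only [f, cy, cut_zero ((div_le_one hδ).2 hu.le)]
      ring
    · have hw := (hA.alive W t w ht.le).2 (hδ.trans_le hy)
      have h1 := (hasDerivAt_cut (Yf W t w / δ)).comp t (((hA.der W t w ht hw).2.2.1).div_const δ)
      have h2 := h1.mul ((hder w W t ht hw).sub_const (c * ξ))
      refine (h2.congr_deriv ?_).congr_of_eventuallyEq (Eventually.of_forall fun u => ?_)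
      · simp only [f, cy, cyd, Function.comp]
        ring
      · simp only [f, cy, Pi.mul_apply, Function.comp]
        ring
  · intro w W t ξ _
    have := (((hasDerivAt_id ξ).const_sub (W t)).const_mul (cy δ w W t * c)).const_add
      (cy δ w W t * h w W t)
    exact this.congr_deriv (by simp only [f]; ring)
  · intro w W t ξ _
    have := (((hasDerivAt_id ξ).const_sub (W t)).const_mul (cy δ w W t * 0)).const_add
      (cy δ w W t * (-c))
    exact this.congr_deriv (by simp only [f]; ring)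
  · intro w W t _
    simp [f]

theorem base (hA : FlowAStmt) (hM : FlowMStmt) : BaseStmt := by
  have hR := (baseA_Ri hA hM).mul (baseA_Ri hA hM)
  refine ⟨fun κ => ?_, fun κ => ?_, fun κ => ?_, fun κ => ?_⟩
  · have := base_LS hA hM κ 0 (BaseA.const 1) (BaseA.const 0) (fun _ _ _ _ _ _ => rfl)
      (fun w W t _ _ => by simpa using hasDerivAt_const t (1 : ℝ))
    simpa using this
  · refine base_LS hA hM κ 1 (baseA_X hA hM)
      ((((BaseA.const 2).mul (baseA_X hA hM)).mul hR).congr fun w W t => by ring) ?_ ?_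
    · intro w V W t ht hVW
      simp only [Xf, ((hA.loc V W t hVW t ⟨ht, le_rfl⟩).2 w).1]
    · intro w W t ht hw
      simpa using (hA.der W t w ht hw).2.1
  · have := base_LS hA hM κ 0 (baseA_Y hA hM) (h' := fun w W t => -(2 * Yf W t w / Rf W t w ^ 2))
      ((((BaseA.const (-2)).mul (baseA_Y hA hM)).mul hR).congr fun w W t => by ring)
      (fun w V W t ht hVW => by simp only [Yf, ((hA.loc V W t hVW t ⟨ht, le_rfl⟩).2 w).1])
      (fun w W t ht hw => by simpa using (hA.der W t w ht hw).2.2.1)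
    simpa using this
  · have := base_LS hA hM κ 0 (baseA_logUp hA hM)
      (h' := fun w W t => -(4 * Sf W t w ^ 2 / Rf W t w ^ 2))
      (((((BaseA.const (-4)).mul ((baseA_Y hA hM).mul (baseA_Y hA hM))).mul hR).mul hR).congr
        fun w W t => by unfold Sf; ring)
      (fun w V W t ht hVW => by simp only [((hA.loc V W t hVW t ⟨ht, le_rfl⟩).2 w).2.1])
      (fun w W t ht hw => by
        have h1 := ((hA.der W t w ht hw).2.2.2.1).log (Up_pos ht.le hw).ne'
        have h2 := (Up_pos ht.le hw).ne'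
        convert h1 using 1
        · simp
        · field_simp)
    simpa using this

end Vale.Agent.P164
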