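import Vale.Agent.P164.Stm2

/-! Truncated first moment from the exponential tail. -/

open Set MeasureTheory ProbabilityTheory Metric
open scoped ENNReal NNReal

namespace Vale.Agent.P164

theorem big_meas (x : ℝ) : Measurable (big x) := by
  unfold big
  exact Measurable.ite measurableSet_Ioi measurable_id measurable_const

theorem big_mono (x : ℝ) : Monotone (big x) := by
  intro y z h
  unfold big
  split_ifs with h1 h2
  · exact h
  · exact absurd (h1.trans_le h) h2
  · exact zero_le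
  · exact le_rfl

theorem big_sup (x : ℝ) (y : ℕ → ℝ≥0∞) (hy : Monotone y) :
    big x (⨆ n, y n) = ⨆ n, big x (y n) := by
  refine le_antisymm ?_ (iSup_le fun n => big_mono x (le_iSup y n))
  by_cases h : ENNReal.ofReal x < ⨆ n, y n
  · obtain ⟨n0, hn0⟩ := lt_iSup_iff.1 h
    have e : big x (⨆ n, y n) = ⨆ n, y n := if_pos h
    rw [e]
    refine iSup_le fun n => ?_
    have e2 : big x (y (max n n0)) = y (max n n0) :=
      if_pos (hn0.trans_le (hy (le_max_right _ _)))
    exact (hy (le_max_left n n0)).trans (e2.symm.le.trans (le_iSup (fun k => big x (y k)) _))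
  · have e : big x (⨆ n, y n) = 0 := if_neg h
    rw [e]
    exact zero_le

/-- The layer decomposition. -/
theorem big_le_tsum {lam L : ℝ} (hl : 0 ≤ lam) (hL : 0 < L) (X : ℝ≥0∞) :
    big (lam * L) X ≤ ∑' j : ℕ, ENNReal.ofReal ((lam + j + 1) * L) *
      indicator {y : ℝ≥0∞ | ENNReal.ofReal ((lam + j) * L) < y} 1 X := by
  classical
  by_cases h : ENNReal.ofReal (lam * L) < X
  swap
  · have e : big (lam * L) X = 0 := if_neg h
    rw [e]
    exact zero_le
  have e : big (lam * L) X = X := if_pos h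
  rw [e]
  by_cases hex : ∃ j : ℕ, X ≤ ENNReal.ofReal ((lam + j + 1) * L)
  · have h1 := Nat.find_spec hex
    have h2 : ENNReal.ofReal ((lam + (Nat.find hex : ℕ)) * L) < X := by
      rcases Nat.eq_zero_or_pos (Nat.find hex) with h0 | h0
      · rw [h0]; simpa using h
      · obtain ⟨k, hk⟩ := Nat.exists_eq_succ_of_ne_zero h0.ne'
        have h3 := Nat.find_min hex (m := k) (by omega)
        rw [hk]
        push_cast
        rw [← add_assoc]
        exact not_le.1 h3
    refine le_trans ?_ (ENNReal.le_tsum (Nat.find hex))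
    rw [indicator_of_mem
      (s := {y : ℝ≥0∞ | ENNReal.ofReal ((lam + (Nat.find hex : ℕ)) * L) < y}) h2]
    simpa using h1
  · push Not at hex
    have h1 : ∀ j : ℕ, ENNReal.ofReal L ≤ ENNReal.ofReal ((lam + j + 1) * L) *
        indicator {y : ℝ≥0∞ | ENNReal.ofReal ((lam + j) * L) < y} 1 X := by
      intro j
      have hj : (0 : ℝ) ≤ j := Nat.cast_nonneg j
      have h2 : ENNReal.ofReal ((lam + j) * L) < X :=
        (ENNReal.ofReal_le_ofReal (by nlinarith)).trans_lt (hex j)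
      rw [indicator_of_mem (s := {y : ℝ≥0∞ | ENNReal.ofReal ((lam + j) * L) < y}) h2]
      simp only [Pi.one_apply, mul_one]
      exact ENNReal.ofReal_le_ofReal (by nlinarith)
    refine le_trans ?_ (ENNReal.tsum_le_tsum h1)
    rw [ENNReal.tsum_const_eq_top_of_ne_zero (by simpa using hL)]
    exact le_top

theorem big_summable {θ : ℝ} (hθ : 0 < θ) :
    Summable fun j : ℕ => ((j : ℝ) + 1) * Real.exp (-(θ * j)) := by
  have hr : ‖Real.exp (-θ)‖ < 1 := by
    rw [Real.norm_eq_abs, abs_of_pos (Real.exp_pos _)]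
    exact Real.exp_lt_one_iff.2 (by linarith)
  have h1 := summable_pow_mul_geometric_of_norm_lt_one 1 hr
  have h2 := summable_geometric_of_norm_lt_one hr
  refine (h1.add h2).congr fun j => ?_
  rw [← Real.exp_nat_mul]
  have : (j : ℝ) * -θ = -(θ * j) := by ring
  rw [this]; ring

theorem big_int {Ω : Type} [MeasurableSpace Ω] (μ : Measure Ω) {X : Ω → ℝ≥0∞} (hX : Measurable X)
    {θ lam L E : ℝ} (hθ : 0 < θ) (hl : 0 ≤ lam) (hL : 0 < L)
    (H : ∀ x : ℝ, 0 ≤ x → μ {W | ENNReal.ofReal (x * L) < X W} ≤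
      ENNReal.ofReal (Real.exp (E - θ * x))) :
    ∫⁻ W, big (lam * L) (X W) ∂μ ≤ ENNReal.ofReal ((lam + 1) * L * Real.exp (E - θ * lam) *
      ∑' j : ℕ, ((j : ℝ) + 1) * Real.exp (-(θ * j))) := by
  have hs := big_summable hθ
  obtain ⟨A, hAe⟩ : ∃ A : ℝ, A = (lam + 1) * L * Real.exp (E - θ * lam) := ⟨_, rfl⟩
  have hA0 : 0 ≤ A := by rw [hAe]; positivity
  have hj : ∀ j : ℕ, ∫⁻ W, ENNReal.ofReal ((lam + j + 1) * L) *
      indicator {y : ℝ≥0∞ | ENNReal.ofReal ((lam + j) * L) < y} 1 (X W) ∂μ ≤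
      ENNReal.ofReal (A * (((j : ℝ) + 1) * Real.exp (-(θ * j)))) := by
    intro j
    have hj0 : (0 : ℝ) ≤ j := Nat.cast_nonneg j
    have h1 := H (lam + j) (by positivity)
    have hm' : MeasurableSet {W | ENNReal.ofReal ((lam + j) * L) < X W} := hX measurableSet_Ioi
    have e : ∀ W, indicator {y : ℝ≥0∞ | ENNReal.ofReal ((lam + j) * L) < y}
        (1 : ℝ≥0∞ → ℝ≥0∞) (X W) =
        indicator {W | ENNReal.ofReal ((lam + j) * L) < X W} (1 : Ω → ℝ≥0∞) W := fun W => rfl
    simp only [e]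
    rw [lintegral_const_mul' _ _ ENNReal.ofReal_ne_top, lintegral_indicator_one hm']
    refine (mul_le_mul_right h1 _).trans ?_
    rw [← ENNReal.ofReal_mul (by positivity)]
    refine ENNReal.ofReal_le_ofReal ?_
    have e2 : Real.exp (E - θ * (lam + j)) = Real.exp (E - θ * lam) * Real.exp (-(θ * j)) := by
      rw [← Real.exp_add]; congr 1; ring
    have h2 : lam + j + 1 ≤ (lam + 1) * (j + 1) := by nlinarith
    rw [e2, hAe]
    calc (lam + j + 1) * L * (Real.exp (E - θ * lam) * Real.exp (-(θ * j)))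
        ≤ (lam + 1) * (j + 1) * L * (Real.exp (E - θ * lam) * Real.exp (-(θ * j))) := by gcongr
      _ = _ := by ring
  refine (lintegral_mono fun W => big_le_tsum hl hL _).trans ?_
  have hm : ∀ j : ℕ, AEMeasurable (fun W => ENNReal.ofReal ((lam + j + 1) * L) *
      indicator {y : ℝ≥0∞ | ENNReal.ofReal ((lam + j) * L) < y} 1 (X W)) μ := fun j =>
    (((measurable_one.indicator measurableSet_Ioi).comp hX).const_mul _).aemeasurable
  rw [lintegral_tsum hm]
  refine (ENNReal.tsum_le_tsum hj).trans ?_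
  rw [← ENNReal.ofReal_tsum_of_nonneg (fun j => by positivity) (hs.mul_left A), tsum_mul_left, hAe]

theorem bigS (_hF : Fnd) (hA : ContAStmt) (hT : TailStmt) : BigStmt := by
  refine ⟨big_meas, big_mono, big_sup, fun κ μ hc => ?_⟩
  obtain ⟨θ, C, hθ, hC, H⟩ := hT κ μ hc
  obtain ⟨K, hK⟩ : ∃ K : ℝ, K = ∑' j : ℕ, ((j : ℝ) + 1) * Real.exp (-(θ * j)) := ⟨_, rfl⟩
  have hK0 : 0 ≤ K := by
    rw [hK]; exact tsum_nonneg fun j => by positivity
  refine ⟨θ, C + K, hθ, by positivity, fun s0 hs0 => ?_⟩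
  obtain ⟨c0, hc0, hc1, H⟩ := H s0 hs0
  refine ⟨c0, hc0, hc1, fun ℓ ε z0 m a b V lam hℓ hε hεℓ hm ha hab hl hU => ?_⟩
  have hL : 0 < ℓ ^ dd κ := Real.rpow_pos_of_pos hℓ _
  have hp : Measurable fun W : Pth => (cat a V W, z0) :=
    (measurable_cat_right a V).prodMk measurable_const
  have hX := (hA.mball κ s0 ε a b (m * ℓ)).comp hp
  have h1 := big_int μ hX (E := C * m ^ 2) hθ hl hL fun x hx =>
    H ℓ ε z0 m a b V x hℓ hε hεℓ hm ha hab hx hU
  rw [← hK] at h1
  refine le_trans h1 (ENNReal.ofReal_le_ofReal ?_)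
  have h3 : Real.exp (C * m ^ 2 - θ * lam) ≤ Real.exp ((C + K) * m ^ 2 - θ * lam) :=
    Real.exp_le_exp.2 (by nlinarith [sq_nonneg m])
  calc (lam + 1) * ℓ ^ dd κ * Real.exp (C * m ^ 2 - θ * lam) * K
      ≤ (lam + 1) * ℓ ^ dd κ * Real.exp ((C + K) * m ^ 2 - θ * lam) * (C + K) := by
        gcongr; linarith
    _ = _ := by ring

end Vale.Agent.P164
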