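import Vale.Agent.P164.Stm2

/-! Measure theoretic properties of the content. -/

open Set MeasureTheory ProbabilityTheory Metric
open scoped ENNReal NNReal

namespace Vale.Agent.P164

theorem contA_S (hF : Fnd) (W : Pth) (t : ℝ) (w : ℂ) : 0 ≤ Sf W t w :=
  div_nonneg (hF.flow.Y_nonneg W t w) (Rf_nonneg W t w)

theorem contA_crf (hF : Fnd) (κ : ℝ) {ε : ℝ} (w : ℂ) (W : Pth) (t : ℝ) (hε : 0 < ε) :
    0 ≤ crf κ ε w W t := by
  have h1 := Up_nonneg W t w
  have h2 := contA_S hF W t w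
  have h3 := cut1_nonneg (Up W t w / ε)
  unfold crf MM
  positivity

theorem contA_nonneg (hF : Fnd) (κ s0 : ℝ) {ε : ℝ} (w : ℂ) (W : Pth) (t : ℝ) (hε : 0 < ε) :
    0 ≤ cr κ s0 ε w W t ∧ cr κ s0 ε w W t ≤ crf κ ε w W t :=
  ⟨mul_nonneg (cut_nonneg _) (contA_crf hF κ w W t hε),
    mul_le_of_le_one_left (contA_crf hF κ w W t hε) (cut_le_one _)⟩

theorem contA_mcr (hF : Fnd) (κ s0 ε : ℝ) :
    Measurable fun p : ℂ × Pth × ℝ => cr κ s0 ε p.1 p.2.1 p.2.2 := by
  have h1 := hF.meas.Up_meas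
  have h2 := hF.meas.S_meas
  have h3 := hF.meas.R_meas
  unfold cr crf MM
  exact (continuous_cut.measurable.comp (h2.div_const s0)).mul
    (((h1.pow_const _).mul (h2.pow_const _)).mul
      (((continuous_cut1.measurable.comp (h1.div_const ε)).mul (h1.div_const ε)).mul
        (((h2.pow_const 2).const_mul 4).div (h3.pow_const 2))))

theorem contA_mcd (hF : Fnd) (κ s0 ε δ : ℝ) :
    Measurable fun p : ℂ × Pth × ℝ =>
      cut (Yf p.2.1 p.2.2 p.1 / δ) * cr κ s0 ε p.1 p.2.1 p.2.2 :=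
  (continuous_cut.measurable.comp (hF.meas.Y_meas.div_const δ)).mul (contA_mcr hF κ s0 ε)

theorem contA_lint {f : ℂ × Pth × ℝ → ℝ} (hf : Measurable f) (a b : ℝ) :
    Measurable fun p : Pth × ℂ => ∫⁻ t in Ioc a b, ENNReal.ofReal (f (p.2, p.1, t)) :=
  Measurable.lintegral_prod_right' (ν := volume.restrict (Ioc a b))
    (f := fun q : (Pth × ℂ) × ℝ => ENNReal.ofReal (f (q.1.2, q.1.1, q.2)))
    (hf.comp (measurable_fst.snd.prodMk (measurable_fst.fst.prodMk measurable_snd))).ennreal_ofReal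

theorem contA_meas (hF : Fnd) (κ s0 ε a b : ℝ) :
    Measurable fun p : Pth × ℂ => den κ s0 ε a b p.1 p.2 :=
  contA_lint (contA_mcr hF κ s0 ε) a b

theorem contA_measd (hF : Fnd) (κ s0 ε δ a b : ℝ) :
    Measurable fun p : Pth × ℂ => dend κ s0 ε δ a b p.1 p.2 :=
  contA_lint (contA_mcd hF κ s0 ε δ) a b

theorem contA_sec {f : Pth → ℂ → ℝ≥0∞} (hf : Measurable fun p : Pth × ℂ => f p.1 p.2) (W : Pth) :
    Measurable (f W) := hf.comp (measurable_const.prodMk measurable_id)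

theorem contA_ball {f : Pth → ℂ → ℝ≥0∞} (hf : Measurable fun p : Pth × ℂ => f p.1 p.2) (ρ : ℝ) :
    Measurable fun p : Pth × ℂ => (volume.withDensity (f p.1)) (ball p.2 ρ) := by
  have hS : MeasurableSet {q : (Pth × ℂ) × ℂ | dist q.2 q.1.2 < ρ} :=
    measurableSet_lt (measurable_snd.dist measurable_fst.snd) measurable_const
  have h := Measurable.lintegral_prod_right' (ν := (volume : Measure ℂ))
    ((hf.comp (measurable_fst.fst.prodMk measurable_snd :
      Measurable fun q : (Pth × ℂ) × ℂ => (q.1.1, q.2))).indicator hS)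
  have e : (fun p : Pth × ℂ => (volume.withDensity (f p.1)) (ball p.2 ρ)) = fun p : Pth × ℂ =>
      ∫⁻ w, {q : (Pth × ℂ) × ℂ | dist q.2 q.1.2 < ρ}.indicator
        ((fun p : Pth × ℂ => f p.1 p.2) ∘ fun q : (Pth × ℂ) × ℂ => (q.1.1, q.2)) (p, w) := by
    funext p
    rw [withDensity_apply _ measurableSet_ball, ← lintegral_indicator measurableSet_ball]
    rfl
  rw [e]
  exact h

theorem contA_split (f : ℝ → ℝ≥0∞) {a b c : ℝ} (hab : a ≤ b) (hbc : b ≤ c) :
    ∫⁻ t in Ioc a c, f t = (∫⁻ t in Ioc a b, f t) + ∫⁻ t in Ioc b c, f t := by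
  rw [← Ioc_union_Ioc_eq_Ioc hab hbc, lintegral_union measurableSet_Ioc
    (Ioc_disjoint_Ioc_of_le le_rfl)]

theorem contA_loc (hF : Fnd) (κ s0 ε : ℝ) {b t : ℝ} {V W : Pth} (h : EqOn V W (Icc 0 b))
    (ht : t ∈ Icc 0 b) (w : ℂ) :
    Yf V t w = Yf W t w ∧ cr κ s0 ε w V t = cr κ s0 ε w W t := by
  obtain ⟨h1, h2, -⟩ := (hF.flow.loc V W b h t ht).2 w
  simp only [cr, crf, MM, Sf, Yf, Rf, h1, h2, and_self]

theorem contA_mono1 (hF : Fnd) (κ s0 : ℝ) {ε : ℝ} (hε : 0 < ε) (w : ℂ) (W : Pth) (t : ℝ) :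
    Monotone fun n : ℕ =>
      ENNReal.ofReal (cut (Yf W t w / (1 / ((n : ℝ) + 1))) * cr κ s0 ε w W t) := by
  intro n m hnm
  refine ENNReal.ofReal_le_ofReal (mul_le_mul_of_nonneg_right (cut_mono ?_)
    (contA_nonneg hF κ s0 w W t hε).1)
  have : (n : ℝ) ≤ m := by exact_mod_cast hnm
  rw [div_div_eq_mul_div, div_div_eq_mul_div, div_one, div_one]
  exact mul_le_mul_of_nonneg_left (by linarith) (hF.flow.Y_nonneg W t w)

theorem contA_le1 (hF : Fnd) (κ s0 : ℝ) {ε : ℝ} (hε : 0 < ε) (δ : ℝ) (w : ℂ) (W : Pth) (t : ℝ) :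
    ENNReal.ofReal (cut (Yf W t w / δ) * cr κ s0 ε w W t) ≤ ENNReal.ofReal (cr κ s0 ε w W t) :=
  ENNReal.ofReal_le_ofReal
    (mul_le_of_le_one_left (contA_nonneg hF κ s0 w W t hε).1 (cut_le_one _))

theorem contA_sup1 (hF : Fnd) (κ s0 : ℝ) {ε : ℝ} (hε : 0 < ε) (w : ℂ) (W : Pth) (t : ℝ) :
    ENNReal.ofReal (cr κ s0 ε w W t) =
      ⨆ n : ℕ, ENNReal.ofReal (cut (Yf W t w / (1 / ((n : ℝ) + 1))) * cr κ s0 ε w W t) := by
  refine le_antisymm ?_ (iSup_le fun n => contA_le1 hF κ s0 hε _ w W t)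
  rcases (hF.flow.Y_nonneg W t w).eq_or_lt with h | h
  · have : cr κ s0 ε w W t = 0 := by simp [cr, crf, Sf, ← h]
    rw [this, ENNReal.ofReal_zero]
    exact zero_le
  · obtain ⟨n, hn⟩ := exists_nat_ge (2 / Yf W t w)
    refine le_trans (le_of_eq ?_) (le_iSup _ n)
    rw [div_le_iff₀ h] at hn
    rw [cut_one, one_mul]
    rw [div_div_eq_mul_div, div_one]
    nlinarith

theorem contA_sup (hF : Fnd) (κ s0 : ℝ) {ε : ℝ} (a b : ℝ) (W : Pth) (hε : 0 < ε) (w : ℂ) :
    (Monotone fun n : ℕ => dend κ s0 ε (1 / (n + 1)) a b W w) ∧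
      den κ s0 ε a b W w = ⨆ n : ℕ, dend κ s0 ε (1 / (n + 1)) a b W w := by
  refine ⟨fun n m h => lintegral_mono fun t => contA_mono1 hF κ s0 hε w W t h, ?_⟩
  have hm : ∀ δ, Measurable fun t => ENNReal.ofReal (cut (Yf W t w / δ) * cr κ s0 ε w W t) :=
    fun δ => ((contA_mcd hF κ s0 ε δ).comp
      (measurable_const.prodMk (measurable_const.prodMk measurable_id))).ennreal_ofReal
  unfold den dend
  rw [← lintegral_iSup (fun n => hm _) (fun n m h t => contA_mono1 hF κ s0 hε w W t h)]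
  exact lintegral_congr fun t => contA_sup1 hF κ s0 hε w W t

theorem contA_real (hF : Fnd) {κ s0 ε δ a b : ℝ} (W : Pth) (w : ℂ) (hκ : 0 < κ) (hε : 0 < ε)
    (hδ : 0 < δ) (ha : 0 ≤ a) (hab : a ≤ b) :
    0 ≤ gain κ s0 ε δ w W a ∧ gain κ s0 ε δ w W a ≤ gain κ s0 ε δ w W b ∧
      dend κ s0 ε δ a b W w = ENNReal.ofReal (gain κ s0 ε δ w W b - gain κ s0 ε δ w W a) := by
  obtain ⟨d, g, hL⟩ := hF.mon.rate κ s0 ε hκ
  have hc : ContinuousOn (fun u => cy δ w W u * cr κ s0 ε w W u) (Ici 0) :=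
    (hF.int.tame κ ℂ _ _ _ (hL δ hδ)).1.cont w W
  have hn : ∀ u, 0 ≤ cy δ w W u * cr κ s0 ε w W u := fun u =>
    mul_nonneg (cut_nonneg _) (contA_nonneg hF κ s0 w W u hε).1
  have hi : ∀ x y, 0 ≤ x → x ≤ y →
      IntervalIntegrable (fun u => cy δ w W u * cr κ s0 ε w W u) volume x y := fun x y hx hxy =>
    (hc.mono fun u hu => hx.trans hu.1).intervalIntegrable_of_Icc hxy
  have e : gain κ s0 ε δ w W b - gain κ s0 ε δ w W a =
      ∫ u in a..b, cy δ w W u * cr κ s0 ε w W u :=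
    intervalIntegral.integral_interval_sub_left (hi 0 b le_rfl (ha.trans hab)) (hi 0 a le_rfl ha)
  have h0 : 0 ≤ ∫ u in a..b, cy δ w W u * cr κ s0 ε w W u :=
    intervalIntegral.integral_nonneg hab fun u _ => hn u
  refine ⟨intervalIntegral.integral_nonneg ha fun u _ => hn u, by linarith, ?_⟩
  rw [e, intervalIntegral.integral_of_le hab,
    ofReal_integral_eq_lintegral_ofReal (hi a b ha hab).1 (ae_of_all _ hn)]
  rfl

theorem contA (hF : Fnd) : ContAStmt where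
  nonneg κ s0 _ w W t hε := contA_nonneg hF κ s0 w W t hε
  meas := contA_meas hF
  measd := contA_measd hF
  mball κ s0 ε a b ρ := contA_ball (f := den κ s0 ε a b) (contA_meas hF κ s0 ε a b) ρ
  mballd κ s0 ε δ a b ρ := contA_ball (f := dend κ s0 ε δ a b) (contA_measd hF κ s0 ε δ a b) ρ
  add κ s0 ε a b c W hab hbc := by
    unfold cm
    rw [← withDensity_add_left
      (contA_sec (f := den κ s0 ε a b) (contA_meas hF κ s0 ε a b) W)]
    exact congrArg _ (funext fun w => contA_split _ hab hbc)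
  addd _ _ _ _ _ _ _ _ _ hab hbc := contA_split _ hab hbc
  mono κ s0 ε a b a' b' W ha hb := by
    have h : ∀ w, den κ s0 ε a b W w ≤ den κ s0 ε a' b' W w := fun w =>
      lintegral_mono_set (Ioc_subset_Ioc ha hb)
    exact ⟨h, withDensity_mono (ae_of_all _ h)⟩
  loc κ s0 ε a b V W ha h := by
    have h1 : den κ s0 ε a b V = den κ s0 ε a b W := funext fun w =>
      setLIntegral_congr_fun measurableSet_Ioc fun t ht => by
        simp only [(contA_loc hF κ s0 ε h ⟨ha.trans ht.1.le, ht.2⟩ w).2]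
    have h2 : ∀ δ, dend κ s0 ε δ a b V = dend κ s0 ε δ a b W := fun δ => funext fun w =>
      setLIntegral_congr_fun measurableSet_Ioc fun t ht => by
        simp only [(contA_loc hF κ s0 ε h ⟨ha.trans ht.1.le, ht.2⟩ w).2,
          (contA_loc hF κ s0 ε h ⟨ha.trans ht.1.le, ht.2⟩ w).1]
    exact ⟨h1, by rw [cm, cm, h1], fun δ => ⟨h2 δ, by rw [cmd, cmd, h2]⟩⟩
  zero κ s0 ε a b W w hε h := by
    refine (setLIntegral_congr_fun measurableSet_Ioc (g := fun _ => 0) fun t ht => ?_).trans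
      lintegral_zero
    have h1 : 2 ≤ Up W t w / ε := (le_div_iff₀ hε).2 (h.trans (hF.flow.Up_anti W w ht.2))
    simp [cr, crf, cut1_zero_right h1]
  zerod κ s0 ε δ a b W w hδ h := by
    refine (setLIntegral_congr_fun measurableSet_Ioc (g := fun _ => 0) fun t ht => ?_).trans
      lintegral_zero
    have h1 : Yf W t w / δ ≤ 1 := (div_le_one hδ).2 ((hF.flow.Y_anti W w ht.1.le).trans h)
    simp [cut_zero h1]
  supp κ s0 ε a b W w hε ha h := by
    by_contra hc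
    refine h ((setLIntegral_congr_fun measurableSet_Ioc (g := fun _ => 0) fun t ht => ?_).trans
      lintegral_zero)
    have h1 : cut1 (Up W t w / ε) = 0 := by
      rcases le_total (Up W t w / ε) 1 with h2 | h2
      · exact cut1_zero_left h2
      · rcases le_total 2 (Up W t w / ε) with h3 | h3
        · exact cut1_zero_right h3
        · exact absurd ⟨t, ⟨ht.1.le, ht.2⟩, mem_dom_of_Up_pos (ha.trans ht.1.le)
            (hε.trans_le ((one_le_div hε).1 h2)), (div_le_iff₀ hε).1 h3⟩ hc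
    simp [cr, crf, h1]
  le κ s0 ε δ a b W hε := by
    have h : ∀ w, dend κ s0 ε δ a b W w ≤ den κ s0 ε a b W w := fun w =>
      lintegral_mono fun t => contA_le1 hF κ s0 hε δ w W t
    exact ⟨h, withDensity_mono (ae_of_all _ h)⟩
  sup κ s0 ε a b W hε := by
    refine ⟨contA_sup hF κ s0 a b W hε, fun B hB => ?_⟩
    simp only [cm, cmd, withDensity_apply _ hB]
    refine ⟨fun n m h => lintegral_mono fun w => (contA_sup hF κ s0 a b W hε w).1 h, ?_⟩
    rw [← lintegral_iSup (fun n : ℕ => contA_sec (f := dend κ s0 ε (1 / (n + 1)) a b)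
      (contA_measd hF κ s0 ε _ a b) W) (fun n m h w => (contA_sup hF κ s0 a b W hε w).1 h)]
    exact lintegral_congr fun w => (contA_sup hF κ s0 a b W hε w).2
  sm κ s0 ε δ hκ hδ := by
    obtain ⟨d, g, hL⟩ := hF.mon.rate κ s0 ε hκ
    exact hF.int.tint κ ℂ _ _ _ (hL δ hδ)
  real _ _ _ _ _ _ W w hκ hε hδ ha hab := contA_real hF W w hκ hε hδ ha hab

end Vale.Agent.P164
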