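import Vale.Agent.P164.Stm2

/-! P164: upper bounds for the content. -/

open Set MeasureTheory ProbabilityTheory Metric Filter
open scoped ENNReal NNReal Topology

namespace Vale.Agent.P164

theorem contB_S (hF : Fnd) (W : Pth) (t : ℝ) (w : ℂ) : 0 ≤ Sf W t w :=
  div_nonneg (hF.flow.Y_nonneg W t w) (Rf_nonneg W t w)

theorem contB_M0 (hF : Fnd) (κ : ℝ) (w : ℂ) (W : Pth) (t : ℝ) : 0 ≤ MM κ w W t :=
  mul_nonneg (Real.rpow_nonneg (Up_nonneg W t w) _) (Real.rpow_nonneg (contB_S hF W t w) _)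

theorem contB_M1 (hF : Fnd) {κ : ℝ} (h0 : 0 < κ) (h8 : κ < 8) (w : ℂ) (W : Pth) (t : ℝ) :
    MM κ w W t ≤ Up W t w ^ (dd κ - 2) :=
  mul_le_of_le_one_right (Real.rpow_nonneg (Up_nonneg W t w) _)
    (Real.rpow_le_one (contB_S hF W t w) (Sf_le_one W t w) (rr_pos h0 h8).le)

theorem contB_der (hF : Fnd) (hA : ContAStmt) {κ ε δ : ℝ} (s0 : ℝ) (h0 : 0 < κ) (h8 : κ < 8)
    (hε : 0 < ε) (hδ : 0 < δ) (W : Pth) (w : ℂ) (t : ℝ) (ht : 0 < t) :
    ∃ D, HasDerivAt (fun u => -ε ^ (dd κ - 2) * (cy δ w W u * cut (Up W u w / ε))) D t ∧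
      cy δ w W t * cr κ s0 ε w W t ≤ D := by
  by_cases hw : w ∈ dom W t
  · obtain ⟨-, -, hY, hU, -⟩ := hF.flow.der W t w ht hw
    refine ⟨_, (((hasDerivAt_cut _).comp t (hY.div_const δ)).mul
      ((hasDerivAt_cut _).comp t (hU.div_const ε))).const_mul _, ?_⟩
    have e0 : 0 ≤ ε ^ (dd κ - 2) := Real.rpow_nonneg hε.le _
    have a1 : 0 ≤ cut1 (Yf W t w / δ) * (2 * Yf W t w / Rf W t w ^ 2 / δ) *
        cut (Up W t w / ε) := by
      have := hF.flow.Y_nonneg W t w
      have := cut1_nonneg (Yf W t w / δ)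
      have := cut_nonneg (Up W t w / ε)
      positivity
    have a2 : crf κ ε w W t ≤ ε ^ (dd κ - 2) *
        (cut1 (Up W t w / ε) * (Up W t w / ε) * (4 * Sf W t w ^ 2 / Rf W t w ^ 2)) := by
      unfold crf
      rcases le_total (Up W t w) ε with h | h
      · rw [cut1_zero_left ((div_le_one hε).2 h), zero_mul, zero_mul, mul_zero, mul_zero]
      · have := Up_nonneg W t w
        have := cut1_nonneg (Up W t w / ε)
        exact mul_le_mul_of_nonneg_right ((contB_M1 hF h0 h8 w W t).trans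
          (Real.rpow_le_rpow_of_nonpos hε h (by linarith [dd_lt_two h8]))) (by positivity)
    have a3 := mul_le_mul_of_nonneg_left ((hA.nonneg κ s0 ε w W t hε).2.trans a2)
      (cut_nonneg (Yf W t w / δ))
    refine a3.trans ((le_add_of_nonneg_right (mul_nonneg e0 a1)).trans (le_of_eq ?_))
    simp only [Function.comp]
    ring
  · have hY : Yf W t w < δ :=
      (not_lt.1 fun h => hw ((hF.flow.alive W t w ht.le).2 h)).trans_lt hδ
    refine ⟨0, (hasDerivAt_const t (0 : ℝ)).congr_of_eventuallyEq ?_, ?_⟩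
    · filter_upwards [(hF.flow.Y_cont W w).continuousAt.eventually_lt_const hY] with u hu
      rw [cy, cut_zero ((div_le_one hδ).2 hu.le), zero_mul, mul_zero]
    · rw [cy, cut_zero ((div_le_one hδ).2 hY.le), zero_mul]

theorem contB_dens (hF : Fnd) (hA : ContAStmt) (κ s0 ε a b : ℝ) (W : Pth) (w : ℂ) (h0 : 0 < κ)
    (h8 : κ < 8) (hε : 0 < ε) (ha : 0 ≤ a) :
    den κ s0 ε a b W w ≤ ENNReal.ofReal (ε ^ (dd κ - 2)) := by
  rcases le_total b a with hab | hab
  · rw [den, Ioc_eq_empty (not_lt.2 hab), Measure.restrict_empty, lintegral_zero_measure]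
    exact bot_le
  rw [((hA.sup κ s0 ε a b W hε).1 w).2]
  refine iSup_le fun n => ?_
  have hδ : (0 : ℝ) < 1 / (n + 1) := by positivity
  generalize (1 : ℝ) / (n + 1) = δ at hδ ⊢
  rw [(hA.real κ s0 ε δ a b W w h0 hε hδ ha hab).2.2]
  refine ENNReal.ofReal_le_ofReal ?_
  have c1 := (hF.int.tame _ _ _ _ _ (hA.sm κ s0 ε δ h0 hδ)).2.1.cont w W
  have c2 := (hF.int.tame _ _ _ _ _ (hF.mon.cutUp κ ε h0 hε δ hδ)).1.cont w W
  have i1 : ∀ t, 0 ≤ t → IntervalIntegrable (fun u => cy δ w W u * cr κ s0 ε w W u) volume 0 t :=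
    fun t ht => (c1.mono Icc_subset_Ici_self).intervalIntegrable_of_Icc ht
  choose! D d1 d2 using contB_der hF hA s0 h0 h8 hε hδ W w
  have hs : Icc a b ⊆ Ici 0 := fun t ht => ha.trans ht.1
  have := intervalIntegral.integral_le_sub_of_hasDeriv_right_of_le hab
    (continuousOn_const.mul (c2.mono hs))
    (fun t ht => (d1 t (ha.trans_lt ht.1)).hasDerivWithinAt)
    (c1.mono hs).integrableOn_Icc fun t ht => d2 t (ha.trans_lt ht.1)
  rw [gain, gain, intervalIntegral.integral_interval_sub_left (i1 b (ha.trans hab)) (i1 a ha)]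
  refine this.trans ?_
  have e0 : 0 ≤ ε ^ (dd κ - 2) := Real.rpow_nonneg hε.le _
  have b1 := mul_nonneg e0 (mul_nonneg (cut_nonneg (Yf W b w / δ)) (cut_nonneg (Up W b w / ε)))
  have b2 := mul_le_of_le_one_right e0 (mul_le_one₀ (cut_le_one (Yf W a w / δ))
    (cut_nonneg (Up W a w / ε)) (cut_le_one _))
  simp only [cy, Pi.mul_apply]
  linarith

theorem contB_expc (hF : Fnd) (hA : ContAStmt) (κ : ℝ) (μ : Measure Pth) (hc : Ctx κ μ)
    (s0 ε a b : ℝ) (V : Pth) (w : ℂ) (hε : 0 < ε) (ha : 0 ≤ a) (hab : a ≤ b) :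
    CE μ a V (fun W => den κ s0 ε a b W w) ≤ ENNReal.ofReal (MM κ w V a) := by
  unfold CE
  simp only [fun W => ((hA.sup κ s0 ε a b W hε).1 w).2]
  refine (lintegral_iSup (fun n => (hA.measd κ s0 ε _ a b).comp
    ((measurable_cat_right a V).prodMk measurable_const))
    fun m n h W => ((hA.sup κ s0 ε a b _ hε).1 w).1 h).trans_le (iSup_le fun n => ?_)
  show ∫⁻ W, dend κ s0 ε (1 / (n + 1)) a b (cat a V W) w ∂μ ≤ _
  have hδ : (0 : ℝ) < 1 / (n + 1) := by positivity
  generalize (1 : ℝ) / (n + 1) = δ at hδ ⊢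
  have hs := hA.sm κ s0 ε δ hc.pos hδ
  have l : ∀ W, gain κ s0 ε δ w (cat a V W) a = gain κ s0 ε δ w V a := fun W =>
    hF.int.loc _ _ _ _ _ hs w _ _ a ha (cat_eqOn a V W)
  have p : ∀ W t, 0 ≤ cy δ w W t * (cut (Up W t w / ε) * MM κ w W t) := fun W t =>
    mul_nonneg (cut_nonneg _) (mul_nonneg (cut_nonneg _) (contB_M0 hF κ w W t))
  have := hF.ito κ μ hc.pos hc.wie _ _ _ _ (hF.alg.add _ _ _ _ _ _ _ _
    (hF.mon.cutM κ ε hc.pos hε δ hδ) (hF.alg.add _ _ _ _ _ _ _ _ hs
      (hF.alg.const κ ℂ (-gain κ s0 ε δ w V a)))) w a b V ha hab fun W u hu => ⟨?_, ?_⟩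
  · refine le_trans (lintegral_mono fun W => ?_) (this.trans (ENNReal.ofReal_le_ofReal ?_))
    · rw [(hA.real κ s0 ε δ a b _ w hc.pos hε hδ ha hab).2.2, l]
      exact ENNReal.ofReal_le_ofReal (by linarith [p (cat a V W) b])
    · rw [add_neg_cancel, add_zero, ← mul_assoc]
      exact mul_le_of_le_one_left (contB_M0 hF κ w V a)
        (mul_le_one₀ (cut_le_one _) (cut_nonneg _) (cut_le_one _))
  · have := (hA.real κ s0 ε δ a u (cat a V W) w hc.pos hε hδ ha hu.1).2.1
    rw [l] at this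
    linarith [p (cat a V W) u]
  · generalize cat a V W = P
    have a1 := mul_le_mul_of_nonneg_left (hA.nonneg κ s0 ε w P u hε).2
      (show 0 ≤ cy δ w P u from cut_nonneg _)
    have a2 : 0 ≤ cyd δ w P u := by
      have := hF.flow.Y_nonneg P u w
      have := cut1_nonneg (Yf P u w / δ)
      unfold cyd
      positivity
    have a3 := mul_nonneg a2 (mul_nonneg (cut_nonneg (Up P u w / ε)) (contB_M0 hF κ w P u))
    linarith

theorem contB (hF : Fnd) (hA : ContAStmt) : ContBStmt where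
  dens := contB_dens hF hA
  ballb κ s0 ε a b W z ρ h0 h8 hε ha := by
    rw [cm, withDensity_apply _ measurableSet_ball]
    refine (lintegral_mono fun w => contB_dens hF hA κ s0 ε a b W w h0 h8 hε ha).trans ?_
    rw [setLIntegral_const, Complex.volume_ball, ENNReal.ofReal_mul (Real.rpow_nonneg hε.le _),
      mul_comm Real.pi, ENNReal.ofReal_mul (sq_nonneg _), ← NNReal.coe_real_pi,
      ENNReal.ofReal_coe_nnreal]
    gcongr
    rcases le_total 0 ρ with h | h
    · rw [ENNReal.ofReal_pow h]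
    · rw [ENNReal.ofReal_of_nonpos h, zero_pow two_ne_zero]
      exact bot_le
  expc := contB_expc hF hA
  total κ μ hc R hR := by
    have := hc.wie.prob
    have h1 := one_lt_dd hc.pos
    have h2 := dd_lt_two hc.lt
    refine ⟨_, fun s0 ε b hε hb => le_trans ?_
      (hF.elem.strip (2 - dd κ) R R (by linarith) (by linarith) hR hR)⟩
    simp only [cm, withDensity_apply _ measurableSet_ball]
    have hm : MeasurableSet {w : ℂ | ‖w‖ < R ∧ 0 < w.im ∧ w.im < R} := by measurability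
    rw [lintegral_lintegral_swap (hA.meas κ s0 ε 0 b).aemeasurable, ← lintegral_indicator hm]
    refine le_trans (setLIntegral_mono' measurableSet_ball fun w hw => ?_)
      (setLIntegral_le_lintegral _ _)
    have m := (hA.meas κ s0 ε 0 b).comp (measurable_prodMk_right (y := w))
    refine (hF.cat.total κ μ hc.wie 0 _ le_rfl m).trans_le
      (lintegral_le_const (Eventually.of_forall fun V =>
      (contB_expc hF hA κ μ hc s0 ε 0 b V w hε le_rfl hb).trans
        ((ENNReal.ofReal_le_ofReal (contB_M1 hF hc.pos hc.lt w V 0)).trans ?_)))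
    by_cases h : 0 < w.im
    · have hw' := mem_ball_zero_iff.1 hw
      rw [indicator_of_mem (show w ∈ {w : ℂ | ‖w‖ < R ∧ 0 < w.im ∧ w.im < R} from
        ⟨hw', h, (Complex.im_le_norm w).trans_lt hw'⟩), (hF.flow.init V w h).2.2.1, neg_sub]
    · rw [Up_dead le_rfl fun h' => h h'.1, Real.zero_rpow (by linarith), ENNReal.ofReal_zero]
      exact bot_le

end Vale.Agent.P164
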