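import Vale.Agent.P164.Stm2

/-! The cost of the interaction term. -/

open Set MeasureTheory ProbabilityTheory Metric
open scoped ENNReal NNReal

namespace Vale.Agent.P164

theorem Cost_amgm {θ η : ℝ} (h0 : 0 < θ) (h1 : θ < 1) (hη : 0 < η) :
    ∃ C : ℝ, 0 < C ∧ ∀ x y : ℝ, 0 ≤ x → 0 ≤ y → x ^ θ * y ^ (1 - θ) ≤ η * x + C * y := by
  have h2 : 0 < 1 - θ := by linarith
  refine ⟨η ^ (-(θ / (1 - θ))), by positivity, fun x y hx hy => ?_⟩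
  have hC : 0 < η ^ (-(θ / (1 - θ))) := by positivity
  have h3 := Real.geom_mean_le_arith_mean2_weighted (w₁ := θ) (w₂ := 1 - θ) (p₁ := η * x)
    (p₂ := η ^ (-(θ / (1 - θ))) * y) h0.le h2.le (by positivity) (by positivity) (by ring)
  have h4 : η ^ θ * (η ^ (-(θ / (1 - θ)))) ^ (1 - θ) = 1 := by
    rw [← Real.rpow_mul hη.le, ← Real.rpow_add hη]
    have : θ + -(θ / (1 - θ)) * (1 - θ) = 0 := by field_simp; ring
    rw [this, Real.rpow_zero]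
  rw [Real.mul_rpow hη.le hx, Real.mul_rpow hC.le hy, mul_mul_mul_comm, h4, one_mul] at h3
  have h5 : 0 ≤ η * x := by positivity
  have h6 : 0 ≤ η ^ (-(θ / (1 - θ))) * y := by positivity
  nlinarith

theorem Cost_key {θ α η C u b y s : ℝ} {n : ℕ} (h0 : 0 < θ) (h1 : θ < 1)
    (hC : ∀ x y : ℝ, 0 ≤ x → 0 ≤ y → x ^ θ * y ^ (1 - θ) ≤ η * x + C * y)
    (hα : α * θ + 2 * (1 - θ) = 1) (hn2 : 2 ≤ n) (hn : n * θ ≤ n - 2)
    (hu : 0 ≤ u) (hu1 : u ≤ 1) (hb : 0 ≤ b) (hy : 0 ≤ y) (hs : 0 < s) :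
    u ^ (n - 2) * (b * y ^ (1 - θ)) * s ≤ η * (u ^ n * b * s ^ α) + C * (b * y * s ^ 2) := by
  refine le_trans ?_ (hC _ _ (by positivity) (by positivity))
  have e1 : u ^ (n - 2) ≤ (u ^ n) ^ θ := by
    rw [← Real.rpow_natCast, ← Real.rpow_natCast, ← Real.rpow_mul hu, Nat.cast_sub hn2]
    exact Real.rpow_le_rpow_of_exponent_ge' hu hu1 (by positivity) (by simpa using hn)
  have e2 : b ^ θ * b ^ (1 - θ) = b := by
    rw [← Real.rpow_add' hb (by linarith)]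
    simp
  have e3 : (s ^ α) ^ θ * (s ^ 2) ^ (1 - θ) = s := by
    rw [← Real.rpow_natCast, ← Real.rpow_mul hs.le, ← Real.rpow_mul hs.le, ← Real.rpow_add hs]
    have : α * θ + ((2 : ℕ) : ℝ) * (1 - θ) = 1 := by simpa using hα
    rw [this, Real.rpow_one]
  rw [Real.mul_rpow (by positivity) (by positivity), Real.mul_rpow (by positivity) hb,
    Real.mul_rpow (by positivity) (by positivity), Real.mul_rpow hb hy]
  calc u ^ (n - 2) * (b * y ^ (1 - θ)) * s ≤ (u ^ n) ^ θ * (b * y ^ (1 - θ)) * s := by gcongr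
    _ = (u ^ n) ^ θ * ((b ^ θ * b ^ (1 - θ)) * y ^ (1 - θ)) *
          ((s ^ α) ^ θ * (s ^ 2) ^ (1 - θ)) := by rw [e2, e3]
    _ = _ := by ring

theorem Cost_pt {θ α η C u a p S ℓ U s R R' : ℝ} {n : ℕ} (h0 : 0 < θ) (h1 : θ < 1)
    (hη : 0 < η) (hC0 : 0 < C)
    (hC : ∀ x y : ℝ, 0 ≤ x → 0 ≤ y → x ^ θ * y ^ (1 - θ) ≤ η * x + C * y)
    (hα : α * θ + 2 * (1 - θ) = 1) (hn2 : 2 ≤ n) (hn : n * θ ≤ n - 2)
    (hu : 0 ≤ u) (hu1 : u ≤ 1) (ha : 0 ≤ a) (ha1 : a ≤ 1) (hp : 0 < p) (hS : 0 < S) (hS1 : S ≤ 1)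
    (hℓ : 0 < ℓ) (hU : 0 < U) (hs : 0 < s) (hR : 0 < R) (hR' : 0 < R') (hRR : R ≤ 3 / 2 * R') :
    u ^ (n - 2) * (a * (ℓ ^ (2 - 2 * θ) * (U ^ (2 * θ - 2) * S ^ (p + (2 - 2 * θ))) + S ^ p)) *
        (s / R' ^ 2) ≤
      9 / 2 * η * (u ^ n * a * S ^ p / R ^ 2) * s ^ α +
        C * ((S ^ p + (ℓ / U) ^ 2 * S ^ 2) * (s ^ 2 / R' ^ 2)) := by
  have hSp : 0 < S ^ p := by positivity
  have hSp1 : S ^ p ≤ 1 := Real.rpow_le_one hS.le hS1 hp.le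
  have e1 : ℓ ^ (2 - 2 * θ) * (U ^ (2 * θ - 2) * S ^ (p + (2 - 2 * θ))) =
      S ^ p * ((ℓ / U) ^ 2 * S ^ 2) ^ (1 - θ) := by
    rw [← mul_pow, ← Real.rpow_natCast, ← Real.rpow_mul (by positivity),
      Real.mul_rpow (by positivity) hS.le, Real.div_rpow hℓ.le hU.le, Real.rpow_add hS]
    have e : ((2 : ℕ) : ℝ) * (1 - θ) = 2 - 2 * θ := by push_cast; ring
    have e' : 2 * θ - 2 = -(2 - 2 * θ) := by ring
    rw [e, e', Real.rpow_neg hU.le]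
    field_simp
  rw [e1]
  set x := (ℓ / U) ^ 2 * S ^ 2 with hx
  have hx0 : 0 ≤ x := by positivity
  have k1 := Cost_key (b := a * S ^ p) (y := x) h0 h1 hC hα hn2 hn hu hu1 (by positivity) hx0 hs
  have k2 := Cost_key (b := a * S ^ p) (y := 1) h0 h1 hC hα hn2 hn hu hu1 (by positivity)
    zero_le_one hs
  rw [Real.one_rpow] at k2
  have hb1 : a * S ^ p ≤ 1 := by nlinarith
  have hb2 : a * S ^ p ≤ S ^ p := by nlinarith
  have k3 : u ^ (n - 2) * (a * (S ^ p * x ^ (1 - θ) + S ^ p)) * s ≤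
      2 * η * (u ^ n * a * S ^ p * s ^ α) + C * ((S ^ p + x) * s ^ 2) := by
    have f1 : C * (a * S ^ p * x * s ^ 2) ≤ C * (1 * x * s ^ 2) := by gcongr
    have f2 : C * (a * S ^ p * 1 * s ^ 2) ≤ C * (S ^ p * 1 * s ^ 2) := by gcongr
    nlinarith
  have k4 : 1 / R' ^ 2 ≤ 9 / 4 * (1 / R ^ 2) := by
    rw [div_le_iff₀ (by positivity)]
    have : R ^ 2 ≤ (3 / 2 * R') ^ 2 := by gcongr
    have h9 : 9 / 4 * (1 / R ^ 2) * R' ^ 2 = (3 / 2 * R') ^ 2 / R ^ 2 := by field_simp; ring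
    rw [h9, le_div_iff₀ (by positivity)]
    linarith
  calc u ^ (n - 2) * (a * (S ^ p * x ^ (1 - θ) + S ^ p)) * (s / R' ^ 2)
      = u ^ (n - 2) * (a * (S ^ p * x ^ (1 - θ) + S ^ p)) * s * (1 / R' ^ 2) := by ring
    _ ≤ (2 * η * (u ^ n * a * S ^ p * s ^ α) + C * ((S ^ p + x) * s ^ 2)) * (1 / R' ^ 2) := by
        gcongr
    _ = 2 * η * (u ^ n * a * S ^ p * s ^ α) * (1 / R' ^ 2) +
          C * ((S ^ p + x) * (s ^ 2 / R' ^ 2)) := by ring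
    _ ≤ 2 * η * (u ^ n * a * S ^ p * s ^ α) * (9 / 4 * (1 / R ^ 2)) +
          C * ((S ^ p + x) * (s ^ 2 / R' ^ 2)) := by gcongr
    _ = _ := by ring

theorem Cost_nn {κ : ℝ} (h : 0 < κ) (h8 : κ < 8) :
    3 ≤ nn κ ∧ (nn κ : ℝ) * (dd κ / 2) ≤ nn κ - 2 := by
  have h1 := one_lt_dd h
  have h2 := dd_lt_two h8
  have h3 : 4 / (2 - dd κ) ≤ nn κ := Nat.le_ceil _
  rw [div_le_iff₀ (by linarith)] at h3
  refine ⟨?_, by nlinarith⟩
  have h4 : (0 : ℝ) ≤ nn κ := Nat.cast_nonneg _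
  have h5 : (3 : ℝ) ≤ nn κ := by nlinarith
  exact_mod_cast h5

theorem Cost_ann (hT : TentStmt) {ℓ t R0 : ℝ} (W : Pth) (hℓ : 0 < ℓ) (ht : 0 ≤ t) (hR : 0 < R0)
    {A : Set ℂ} (hA : MeasurableSet A) (hd : A ⊆ dom W t)
    (hr : ∀ w ∈ A, R0 ≤ Rf W t w ∧ Rf W t w ≤ 4 * R0) :
    ∫⁻ w in A, ENNReal.ofReal ((ℓ / Up W t w) ^ 2 * Sf W t w ^ 2) ∂ar ℓ ≤
      ENNReal.ofReal (16 * Real.pi) := by
  let φ : ℂ → ℝ≥0∞ := indicator {ζ | R0 ≤ ‖ζ‖ ∧ ‖ζ‖ ≤ 4 * R0} 1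
  calc ∫⁻ w in A, ENNReal.ofReal ((ℓ / Up W t w) ^ 2 * Sf W t w ^ 2) ∂ar ℓ
      ≤ ∫⁻ w in A, ENNReal.ofReal ((ℓ / Up W t w) ^ 2 * Sf W t w ^ 2) * φ (Zf W t w) ∂ar ℓ := by
        refine setLIntegral_mono' hA fun w hw => ?_
        have : φ (Zf W t w) = 1 := indicator_of_mem (s := {ζ : ℂ | R0 ≤ ‖ζ‖ ∧ ‖ζ‖ ≤ 4 * R0})
          (hr w hw) _
        rw [this, mul_one]
    _ ≤ ∫⁻ w in dom W t, ENNReal.ofReal ((ℓ / Up W t w) ^ 2 * Sf W t w ^ 2) * φ (Zf W t w)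
          ∂ar ℓ := lintegral_mono_set hd
    _ = ∫⁻ ζ in HP, ENNReal.ofReal (1 / ‖ζ‖ ^ 2) * φ ζ := hT.push ℓ W t φ hℓ ht
    _ ≤ ∫⁻ ζ, ENNReal.ofReal (1 / ‖ζ‖ ^ 2) * φ ζ := setLIntegral_le_lintegral _ _
    _ ≤ ∫⁻ ζ, indicator (closedBall (0 : ℂ) (4 * R0)) (fun _ => ENNReal.ofReal (1 / R0 ^ 2)) ζ := by
        refine lintegral_mono fun ζ => ?_
        by_cases hζ : ζ ∈ {ζ : ℂ | R0 ≤ ‖ζ‖ ∧ ‖ζ‖ ≤ 4 * R0}
        · have h1 : φ ζ = 1 := indicator_of_mem hζ _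
          have h2 : ζ ∈ closedBall (0 : ℂ) (4 * R0) := by simpa using hζ.2
          rw [h1, mul_one, indicator_of_mem h2]
          refine ENNReal.ofReal_le_ofReal ?_
          have := hζ.1
          gcongr
        · have h1 : φ ζ = 0 := indicator_of_notMem hζ _
          rw [h1, mul_zero]
          exact zero_le
    _ = ENNReal.ofReal (16 * Real.pi) := by
        rw [lintegral_indicator_const measurableSet_closedBall, Complex.volume_closedBall,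
          ← ENNReal.ofReal_pow (by positivity), ← ENNReal.ofReal_coe_nnreal,
          ← ENNReal.ofReal_mul (by positivity), ← ENNReal.ofReal_mul (by positivity)]
        congr 1
        rw [NNReal.coe_real_pi]
        field_simp
        ring

theorem Cost_slice {f : Pth → ℝ → ℂ → ℝ}
    (h : Measurable fun p : ℂ × Pth × ℝ => f p.2.1 p.2.2 p.1) (W : Pth) (t : ℝ) :
    Measurable fun w => f W t w :=
  h.comp (measurable_id.prodMk measurable_const : Measurable fun w : ℂ => (w, W, t))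

theorem Cost_tame {v : ℂ → Pth → ℝ → ℝ} (h : Tame v) (W : Pth) {t : ℝ} (ht : 0 ≤ t) :
    Measurable fun w => v w W t :=
  (h.meas' t ht).comp (measurable_id.prodMk measurable_const : Measurable fun w : ℂ => (w, W))

theorem Cost_pos (hF : Fnd) {W : Pth} {t : ℝ} {w : ℂ} (ht : 0 ≤ t) (hw : 0 < Yf W t w) :
    0 < Up W t w ∧ 0 < Rf W t w ∧ 0 < Sf W t w := by
  have h1 : 0 < Rf W t w := lt_of_lt_of_le hw ((le_abs_self _).trans (Yf_le_Rf W t w))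
  exact ⟨Up_pos ht ((hF.flow.alive W t w ht).2 hw), h1, div_pos hw h1⟩

theorem Cost_mLin (hF : Fnd) {ℓ δ m t : ℝ} {z0 : ℂ} {W : Pth}
    (mN : Measurable fun w => NN ℓ δ z0 m w W t) : MeasurableSet (Lin ℓ δ z0 m W t) :=
  measurableSet_ball.inter ((measurableSet_lt mN measurable_const).inter
    ((measurableSet_le measurable_const (Cost_slice hF.meas.Y_meas W t)).inter
      (measurableSet_le (Cost_slice hF.meas.Up_meas W t) measurable_const)))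

theorem Cost_msrc (hF : Fnd) (ℓ δ t : ℝ) (W : Pth) : Measurable fun w => src ℓ δ w W t := by
  have mY := Cost_slice hF.meas.Y_meas W t
  have mU := Cost_slice hF.meas.Up_meas W t
  have mR := Cost_slice hF.meas.R_meas W t
  have mS := Cost_slice hF.meas.S_meas W t
  unfold src
  exact Measurable.ite ((measurableSet_le measurable_const mU).inter
    ((measurableSet_le mU measurable_const).inter (measurableSet_le measurable_const mY)))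
    ((mS.pow_const 2).div (mR.pow_const 2)) measurable_const

/-- The weight of the first point. -/
noncomputable def Cost_g (κ ℓ t : ℝ) (W : Pth) (w : ℂ) : ℝ≥0∞ :=
  ENNReal.ofReal (Sf W t w ^ pp κ) + ENNReal.ofReal ((ℓ / Up W t w) ^ 2 * Sf W t w ^ 2)

/-- The pairs of interacting points. -/
def Cost_E (ℓ δ : ℝ) (z0 : ℂ) (m t : ℝ) (W : Pth) : Set (ℂ × ℂ) :=
  {q | q.1 ∈ Lin ℓ δ z0 m W t} ∩ {q | q.2 ∈ supp ℓ z0 m q.1 W t}

/-- The two point kernel. -/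
noncomputable def Cost_K (κ ℓ δ : ℝ) (z0 : ℂ) (m t : ℝ) (W : Pth) : ℂ × ℂ → ℝ≥0∞ :=
  (Cost_E ℓ δ z0 m t W).indicator fun q => Cost_g κ ℓ t W q.1 * ENNReal.ofReal (src ℓ δ q.2 W t)

theorem Cost_mK (hF : Fnd) (hT : TentStmt) (κ : ℝ) {ℓ δ m t : ℝ} {z0 : ℂ} {W : Pth}
    (mL : MeasurableSet (Lin ℓ δ z0 m W t)) : Measurable (Cost_K κ ℓ δ z0 m t W) := by
  have mU := Cost_slice hF.meas.Up_meas W t
  have mS := Cost_slice hF.meas.S_meas W t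
  have mg : Measurable (Cost_g κ ℓ t W) :=
    (mS.pow_const _).ennreal_ofReal.add
      ((((measurable_const.div mU).pow_const 2).mul (mS.pow_const 2)).ennreal_ofReal)
  have mE : MeasurableSet (Cost_E ℓ δ z0 m t W) :=
    (measurable_fst mL).inter (hT.meas ℓ z0 m W t)
  exact ((mg.comp measurable_fst).mul
    ((Cost_msrc hF ℓ δ t W).comp measurable_snd).ennreal_ofReal).indicator mE

theorem Cost_zero {κ ℓ δ m t : ℝ} {z0 w : ℂ} {W : Pth} (hn3 : 3 ≤ nn κ) (hℓ : 0 < ℓ)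
    (hδ : 0 < δ) (hw : w ∈ ball z0 (m * ℓ)) (hL : w ∉ Lin ℓ δ z0 m W t) :
    uu ℓ δ z0 m w W t ^ (nn κ - 2) * vv κ ℓ δ w W t = 0 := by
  by_contra hne
  have hu : uu ℓ δ z0 m w W t ≠ 0 := fun h => hne (by
    rw [h, zero_pow (by omega), zero_mul])
  have ha : aa ℓ δ w W t ≠ 0 := fun h => hne (by unfold vv; rw [h]; simp)
  refine hL ⟨hw, ?_, ?_, ?_⟩
  · by_contra h
    exact hu (max_eq_right (by linarith [not_lt.1 h]))
  · by_contra h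
    refine ha ?_
    unfold aa cy
    rw [cut_zero ((div_le_one hδ).2 (not_le.1 h).le), zero_mul]
  · by_contra h
    refine ha ?_
    unfold aa
    rw [cut_one ((le_div_iff₀ hℓ).2 (not_le.1 h).le), sub_self, mul_zero]

theorem Cost_aa (ℓ δ t : ℝ) (w : ℂ) (W : Pth) : 0 ≤ aa ℓ δ w W t ∧ aa ℓ δ w W t ≤ 1 :=
  ⟨mul_nonneg (cut_nonneg _) (sub_nonneg.2 (cut_le_one _)),
    mul_le_one₀ (cut_le_one _) (sub_nonneg.2 (cut_le_one _))
      (by linarith [cut_nonneg (Up W t w / ℓ)])⟩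

theorem Cost_pair (hF : Fnd) (hT : TentStmt) {κ η C ℓ δ m t : ℝ} {z0 w w' : ℂ} {W : Pth}
    (hκ : 0 < κ) (hκ8 : κ < 8) (hη : 0 < η) (hC0 : 0 < C)
    (hC : ∀ x y : ℝ, 0 ≤ x → 0 ≤ y → x ^ (dd κ / 2) * y ^ (1 - dd κ / 2) ≤ η * x + C * y)
    (hℓ : 0 < ℓ) (hδ : 0 < δ) (ht : 0 ≤ t) (hN0 : 0 ≤ NN ℓ δ z0 m w W t)
    (hL : w ∈ Lin ℓ δ z0 m W t) (hw' : w' ∈ supp ℓ z0 m w W t) :
    ENNReal.ofReal (uu ℓ δ z0 m w W t ^ (nn κ - 2) * vv κ ℓ δ w W t) *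
        ENNReal.ofReal (Sf W t w' / Rf W t w' ^ 2) ≤
      ENNReal.ofReal (9 / 2 * η * ee κ ℓ δ z0 m w W t) *
          ENNReal.ofReal (Sf W t w' ^ (2 * (dd κ - 1) / dd κ)) +
        ENNReal.ofReal C * (Cost_g κ ℓ t W w * ENNReal.ofReal (src ℓ δ w' W t)) := by
  have hd1 := one_lt_dd hκ
  have hd2 := dd_lt_two hκ8
  have hp := pp_pos hκ hκ8
  obtain ⟨hn3, hn⟩ := Cost_nn hκ hκ8
  have hθ0 : 0 < dd κ / 2 := by linarith
  have hθ1 : dd κ / 2 < 1 := by linarith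
  have hα : 2 * (dd κ - 1) / dd κ * (dd κ / 2) + 2 * (1 - dd κ / 2) = 1 := by
    field_simp; ring
  have hY : 0 < Yf W t w := lt_of_lt_of_le hδ hL.2.2.1
  obtain ⟨hU, hR, hS⟩ := Cost_pos hF ht hY
  have hu0 : 0 ≤ uu ℓ δ z0 m w W t := le_max_right _ _
  have hu1 : uu ℓ δ z0 m w W t ≤ 1 := max_le (by linarith) zero_le_one
  obtain ⟨ha0, ha1⟩ := Cost_aa ℓ δ t w W
  have he0 : 0 ≤ ee κ ℓ δ z0 m w W t := by unfold ee; positivity
  have hf0 : 0 ≤ uu ℓ δ z0 m w W t ^ (nn κ - 2) * vv κ ℓ δ w W t := by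
    unfold vv MM; positivity
  obtain ⟨g1, g2, g3⟩ := hT.geo ℓ w w' W t hw'.2
  have hY' : 0 < Yf W t w' := by linarith
  obtain ⟨hU', hR', hS'⟩ := Cost_pos hF ht hY'
  have hsrc : src ℓ δ w' W t = Sf W t w' ^ 2 / Rf W t w' ^ 2 :=
    if_pos ⟨hw'.2.1, hw'.2.2.1, by linarith [hL.2.2.1]⟩
  have key := Cost_pt (a := aa ℓ δ w W t) hθ0 hθ1 hη hC0 hC hα (by omega) hn hu0 hu1
    ha0 ha1 hp hS (Sf_le_one W t w) hℓ hU hS' hR hR' g2
  have e1 : 2 - 2 * (dd κ / 2) = 2 - dd κ := by ring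
  have e2 : 2 * (dd κ / 2) - 2 = dd κ - 2 := by ring
  have e3 : pp κ + (2 - dd κ) = rr κ := by unfold pp; ring
  rw [e1, e2, e3] at key
  have hg : Cost_g κ ℓ t W w =
      ENNReal.ofReal (Sf W t w ^ pp κ + (ℓ / Up W t w) ^ 2 * Sf W t w ^ 2) :=
    (ENNReal.ofReal_add (by positivity) (by positivity)).symm
  rw [hg, hsrc, ← ENNReal.ofReal_mul hf0, ← ENNReal.ofReal_mul (by positivity),
    ← ENNReal.ofReal_mul (by positivity), ← ENNReal.ofReal_mul hC0.le,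
    ← ENNReal.ofReal_add (by positivity) (by positivity)]
  exact ENNReal.ofReal_le_ofReal key

theorem Cost_step1 (hF : Fnd) (hT : TentStmt) {κ η C CT ℓ δ m t : ℝ} {z0 w : ℂ} {W : Pth}
    (hκ : 0 < κ) (hκ8 : κ < 8) (hη : 0 < η) (hC0 : 0 < C) (hCT : 0 < CT)
    (hC : ∀ x y : ℝ, 0 ≤ x → 0 ≤ y →
      x ^ (dd κ / 2) * y ^ (1 - dd κ / 2) ≤ η / (9 / 2 * CT) * x + C * y)
    (hℓ : 0 < ℓ) (hδ : 0 < δ) (ht : 0 ≤ t) (hN0 : 0 ≤ NN ℓ δ z0 m w W t)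
    (hb : 0 < Yf W t w → ∫⁻ w' in supp ℓ z0 m w W t,
      ENNReal.ofReal (Sf W t w' ^ (2 * (dd κ - 1) / dd κ)) ∂ar ℓ ≤ ENNReal.ofReal CT)
    (hw : w ∈ ball z0 (m * ℓ)) :
    ENNReal.ofReal (uu ℓ δ z0 m w W t ^ (nn κ - 2) * vv κ ℓ δ w W t) * HH ℓ z0 m w W t ≤
      ENNReal.ofReal η * ENNReal.ofReal (ee κ ℓ δ z0 m w W t) +
        ENNReal.ofReal C * ∫⁻ w', Cost_K κ ℓ δ z0 m t W (w, w') ∂ar ℓ := by
  by_cases hL : w ∈ Lin ℓ δ z0 m W t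
  swap
  · rw [Cost_zero (Cost_nn hκ hκ8).1 hℓ hδ hw hL, ENNReal.ofReal_zero, zero_mul]
    exact zero_le
  have hY : 0 < Yf W t w := lt_of_lt_of_le hδ hL.2.2.1
  obtain ⟨hU, hR, hS⟩ := Cost_pos hF ht hY
  have hu0 : 0 ≤ uu ℓ δ z0 m w W t := le_max_right _ _
  have ha0 := (Cost_aa ℓ δ t w W).1
  have he0 : 0 ≤ ee κ ℓ δ z0 m w W t := by unfold ee; positivity
  have mS := Cost_slice hF.meas.S_meas W t
  have ms : MeasurableSet (supp ℓ z0 m w W t) := measurable_prodMk_left (hT.meas ℓ z0 m W t)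
  have hK : ∫⁻ w', Cost_K κ ℓ δ z0 m t W (w, w') ∂ar ℓ =
      ∫⁻ w' in supp ℓ z0 m w W t, Cost_g κ ℓ t W w * ENNReal.ofReal (src ℓ δ w' W t) ∂ar ℓ := by
    rw [← lintegral_indicator ms]
    refine lintegral_congr fun w' => ?_
    by_cases hw' : w' ∈ supp ℓ z0 m w W t
    · rw [indicator_of_mem hw']
      exact indicator_of_mem (s := Cost_E ℓ δ z0 m t W) ⟨hL, hw'⟩ _
    · rw [indicator_of_notMem hw']
      exact indicator_of_notMem (s := Cost_E ℓ δ z0 m t W) (fun h => hw' h.2) _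
  rw [hK]
  unfold HH
  rw [← lintegral_const_mul' _ _ ENNReal.ofReal_ne_top]
  refine (setLIntegral_mono' ms fun w' hw' =>
    Cost_pair hF hT hκ hκ8 (by positivity) hC0 hC hℓ hδ ht hN0 hL hw').trans ?_
  rw [lintegral_add_left ((mS.pow_const _).ennreal_ofReal.const_mul _),
    lintegral_const_mul' _ _ ENNReal.ofReal_ne_top,
    lintegral_const_mul' _ _ ENNReal.ofReal_ne_top]
  refine add_le_add ((mul_le_mul_right (hb hY) _).trans (le_of_eq ?_)) le_rfl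
  rw [← ENNReal.ofReal_mul (by positivity), ← ENNReal.ofReal_mul hη.le]
  congr 1
  field_simp

theorem Cost_step2 (hF : Fnd) (hT : TentStmt) {κ CA ℓ δ m t : ℝ} {z0 : ℂ} {W : Pth}
    (hCA : 0 < CA) (hℓ : 0 < ℓ) (hδ : 0 < δ) (ht : 0 ≤ t)
    (mL : MeasurableSet (Lin ℓ δ z0 m W t))
    (hA : ∀ R0, 0 < R0 → ∫⁻ w in Lin ℓ δ z0 m W t ∩ {w | R0 ≤ Rf W t w ∧ Rf W t w ≤ 4 * R0},
      ENNReal.ofReal (Sf W t w ^ pp κ) ∂ar ℓ ≤ ENNReal.ofReal CA) (w' : ℂ) :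
    ∫⁻ w, Cost_K κ ℓ δ z0 m t W (w, w') ∂ar ℓ ≤ (Bp z0 m ℓ).indicator
      (fun w' => ENNReal.ofReal (CA + 16 * Real.pi) * ENNReal.ofReal (src ℓ δ w' W t)) w' := by
  have mR := Cost_slice hF.meas.R_meas W t
  have mS := Cost_slice hF.meas.S_meas W t
  by_cases hw' : w' ∈ Bp z0 m ℓ ∧ ℓ ≤ Up W t w'
  swap
  · have : ∀ w, Cost_K κ ℓ δ z0 m t W (w, w') = 0 := fun w =>
      indicator_of_notMem (s := Cost_E ℓ δ z0 m t W) (fun h => hw' ⟨h.2.1, h.2.2.1⟩) _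
    simp only [this, lintegral_zero]
    exact zero_le
  rw [indicator_of_mem hw'.1]
  have hY' : 0 < Yf W t w' :=
    (hF.flow.alive W t w' ht).1 (mem_dom_of_Up_pos ht (lt_of_lt_of_le hℓ hw'.2))
  have hR0 : 0 < Rf W t w' / 2 := half_pos (Cost_pos hF ht hY').2.1
  have mA : MeasurableSet (Lin ℓ δ z0 m W t ∩
      {w | Rf W t w' / 2 ≤ Rf W t w ∧ Rf W t w ≤ 4 * (Rf W t w' / 2)}) := mL.inter
    ((measurableSet_le measurable_const mR).inter (measurableSet_le mR measurable_const))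
  calc ∫⁻ w, Cost_K κ ℓ δ z0 m t W (w, w') ∂ar ℓ
      ≤ ∫⁻ w, (Lin ℓ δ z0 m W t ∩
          {w | Rf W t w' / 2 ≤ Rf W t w ∧ Rf W t w ≤ 4 * (Rf W t w' / 2)}).indicator
          (fun w => Cost_g κ ℓ t W w * ENNReal.ofReal (src ℓ δ w' W t)) w ∂ar ℓ := by
        refine lintegral_mono fun w => ?_
        by_cases h : (w, w') ∈ Cost_E ℓ δ z0 m t W
        · obtain ⟨g1, g2, -⟩ := hT.geo ℓ w w' W t h.2.2
          have hwA : w ∈ Lin ℓ δ z0 m W t ∩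
              {w | Rf W t w' / 2 ≤ Rf W t w ∧ Rf W t w ≤ 4 * (Rf W t w' / 2)} :=
            ⟨h.1, g1, by linarith⟩
          rw [indicator_of_mem hwA]
          exact (indicator_of_mem h _).le
        · have : Cost_K κ ℓ δ z0 m t W (w, w') = 0 := indicator_of_notMem h _
          rw [this]
          exact zero_le
    _ ≤ _ := by
        rw [lintegral_indicator mA, lintegral_mul_const' _ _ ENNReal.ofReal_ne_top]
        refine mul_le_mul_left ?_ _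
        unfold Cost_g
        rw [lintegral_add_left (mS.pow_const _).ennreal_ofReal,
          ENNReal.ofReal_add hCA.le (by positivity)]
        exact add_le_add (hA _ hR0)
          (Cost_ann hT W hℓ ht hR0 mA
            (fun w hw => (hF.flow.alive W t w ht).2 (lt_of_lt_of_le hδ hw.1.2.2.1))
            fun w hw => hw.2)

theorem cost (hF : Fnd) (hN : NStmt) (hT : TentStmt) (hAB : ABStmt) : CostStmt := by
  intro κ hκ hκ8 η hη
  have hd1 := one_lt_dd hκ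
  have hd2 := dd_lt_two hκ8
  have hθ0 : 0 < dd κ / 2 := by linarith
  have hθ1 : dd κ / 2 < 1 := by linarith
  have hα0 : 0 < 2 * (dd κ - 1) / dd κ := by
    have : 0 < dd κ - 1 := by linarith
    positivity
  obtain ⟨CT, hCT, hTb⟩ := hT.bound _ hα0
  obtain ⟨CA, hCA, hA⟩ := hAB κ hκ hκ8
  obtain ⟨CN, -, hNN⟩ := hN κ hκ
  have hη' : 0 < η / (9 / 2 * CT) := by positivity
  obtain ⟨C, hC0, hC⟩ := Cost_amgm hθ0 hθ1 hη'
  refine ⟨C * (CA + 16 * Real.pi), by positivity, fun ℓ δ z0 m W t hℓ hδ ht => ?_⟩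
  obtain ⟨dN, gN, hSm, hNn⟩ := hNN ℓ δ z0 m hℓ hδ
  have : SFinite (ar ℓ) := by unfold ar; infer_instance
  have mL := Cost_mLin hF (Cost_tame (hF.int.tame κ ℂ _ _ _ hSm).1 W ht)
  have mK := Cost_mK hF hT κ mL
  refine (setLIntegral_mono' measurableSet_ball fun w hw =>
    Cost_step1 hF hT hκ hκ8 hη hC0 hCT hC hℓ hδ ht (hNn w W t ht).1
      (fun hY => (hTb ℓ z0 m w W t hℓ ht hY).2.2.2) hw).trans ?_
  rw [lintegral_add_right _ (mK.lintegral_prod_right'.const_mul _),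
    lintegral_const_mul' _ _ ENNReal.ofReal_ne_top,
    lintegral_const_mul' _ _ ENNReal.ofReal_ne_top, ENNReal.ofReal_mul hC0.le, mul_assoc]
  refine add_le_add le_rfl (mul_le_mul_right ?_ _)
  calc ∫⁻ w in ball z0 (m * ℓ), ∫⁻ w', Cost_K κ ℓ δ z0 m t W (w, w') ∂ar ℓ ∂ar ℓ
      ≤ ∫⁻ w, ∫⁻ w', Cost_K κ ℓ δ z0 m t W (w, w') ∂ar ℓ ∂ar ℓ := setLIntegral_le_lintegral _ _
    _ = ∫⁻ w', ∫⁻ w, Cost_K κ ℓ δ z0 m t W (w, w') ∂ar ℓ ∂ar ℓ :=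
        lintegral_lintegral_swap (f := fun w w' => Cost_K κ ℓ δ z0 m t W (w, w')) mK.aemeasurable
    _ ≤ _ := lintegral_mono (Cost_step2 hF hT hCA hℓ hδ ht mL
        fun R0 hR0 => hA ℓ δ z0 m W t R0 hℓ hδ ht hR0)
    _ = _ := by
        have mB : MeasurableSet (Bp z0 m ℓ) := measurableSet_ball
        rw [lintegral_indicator mB, lintegral_const_mul' _ _ ENNReal.ofReal_ne_top]
        rfl

end Vale.Agent.P164
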