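import Vale.Agent.P164.Stm

open Set MeasureTheory ProbabilityTheory Metric Filter Topology
open scoped ENNReal NNReal

namespace Vale.Agent.P164

theorem curve_open {γ : ℝ → ℂ} (hγ : ContinuousOn γ (Ici 0)) (s : ℝ) : IsOpen (slit γ s) :=
  (isOpen_lt continuous_const Complex.continuous_im).sdiff
    (isCompact_Icc.image_of_continuousOn (hγ.mono Icc_subset_Ici_self)).isClosed

theorem curve_anti (γ : ℝ → ℂ) {s t : ℝ} (h : s ≤ t) : slit γ t ⊆ slit γ s :=
  fun _ hz => ⟨hz.1, fun h' => hz.2 (image_mono (Icc_subset_Icc_right h) h')⟩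

theorem curve_same {γ : ℝ → ℂ} {s s' t : ℝ} {w : ℂ} (h1 : s ≤ s')
    (hb : Bornology.IsBounded (connectedComponentIn (slit γ s) w))
    (hin : ∀ u ∈ Icc s' t, γ u ∈ connectedComponentIn (slit γ s) w) : unbd γ s' ⊆ unbd γ t := by
  intro x hx
  have hD : connectedComponentIn (slit γ s') x ⊆ slit γ t := by
    intro y hy
    have hy1 := connectedComponentIn_subset _ _ hy
    refine ⟨hy1.1, ?_⟩
    rintro ⟨u, hu, rfl⟩
    rcases le_total u s' with h | h
    · exact hy1.2 ⟨u, ⟨hu.1, h⟩, rfl⟩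
    · have h2 := connectedComponentIn_mono x (curve_anti γ h1)
      refine hx.2 (hb.subset (h2.trans ?_))
      rw [connectedComponentIn_eq (h2 hy), connectedComponentIn_eq (hin u ⟨h, hu.2⟩)]
  have hxD := mem_connectedComponentIn hx.1
  exact ⟨hD hxD, fun hb' => hx.2 (hb'.subset
    (isPreconnected_connectedComponentIn.subset_connectedComponentIn hxD hD))⟩

theorem curve_left {γ : ℝ → ℂ} (hγ : ContinuousOn γ (Ici 0)) {s t : ℝ} (hs : 0 ≤ s) (h : s < t)
    {O : Set ℂ} (hO : IsOpen O) (ht : γ t ∈ O) : ∃ s' ∈ Ico s t, ∀ u ∈ Icc s' t, γ u ∈ O := by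
  have h1 : ContinuousAt γ t := hγ.continuousAt (Ici_mem_nhds (hs.trans_lt h))
  obtain ⟨η, hη, h2⟩ := Metric.mem_nhds_iff.1 (h1.preimage_mem_nhds (hO.mem_nhds ht))
  refine ⟨max s (t - η / 2), ⟨le_max_left _ _, max_lt h (by linarith)⟩, fun u hu => h2 ?_⟩
  rw [mem_ball, Real.dist_eq, abs_lt]
  constructor <;> linarith [hu.2, (le_max_right _ _).trans hu.1]

theorem curve (hA : FlowAStmt) (_hM : FlowMStmt) (hS : SchwarzStmt) : CurveStmt := by
  rintro W γ ⟨hγ, h0, him, hd⟩
  constructor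
  · rintro b hb _ ⟨t0, ht0, rfl⟩
    refine ⟨him t0 ht0.1, fun w e he hw hew => ?_⟩
    have hK : IsCompact (Icc 0 b ∩ γ ⁻¹' closedBall w e) :=
      isCompact_Icc.of_isClosed_subset ((hγ.mono Icc_subset_Ici_self).preimage_isClosed_of_isClosed
        isClosed_Icc isClosed_closedBall) inter_subset_left
    obtain ⟨t1, ⟨ht1, hg1⟩, hmin⟩ := hK.exists_isLeast
      ⟨t0, ht0, by rwa [mem_preimage, mem_closedBall, dist_comm, dist_eq_norm]⟩
    have hpos : 0 < t1 := lt_of_le_of_ne ht1.1 fun h => by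
      rw [← h, mem_preimage, h0, mem_closedBall, dist_zero_left] at hg1
      linarith [Complex.abs_im_le_norm w, le_abs_self w.im]
    by_cases hc : ∀ s ∈ Ico 0 t1, w ∈ dom W s
    · obtain ⟨s, hs, h2⟩ := curve_left hγ le_rfl hpos (isOpen_ball (x := w) (ε := 2 * e))
        (closedBall_subset_ball (by linarith) hg1)
      refine ⟨s, ⟨hs.1, hs.2.le.trans ht1.2⟩, hc s hs, γ s, fun h => ?_, ?_⟩
      · rw [hd s hs.1] at h
        exact h.1.2 ⟨s, ⟨hs.1, le_rfl⟩, rfl⟩
      · rw [← dist_eq_norm]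
        exact (h2 s ⟨le_rfl, hs.2.le⟩).le
    · exfalso
      push Not at hc
      obtain ⟨s, hs, hw'⟩ := hc
      have hball : closedBall w e ⊆ slit γ s := by
        intro y hy
        constructor
        · have h1 := Complex.abs_im_le_norm (y - w)
          rw [mem_closedBall, dist_eq_norm] at hy
          rw [Complex.sub_im, abs_le] at h1
          show 0 < y.im
          linarith [(abs_le.1 ((Complex.abs_im_le_norm (y - w)).trans hy)).1, h1.1]
        · rintro ⟨u, hu, rfl⟩
          have := hmin ⟨⟨hu.1, hu.2.trans (hs.2.le.trans ht1.2)⟩, hy⟩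
          linarith [hu.2, hs.2]
      have hwm := mem_closedBall_self (x := w) he.le
      have hb' : Bornology.IsBounded (connectedComponentIn (slit γ s) w) := by
        by_contra hn
        rw [hd s hs.1] at hw'
        exact hw' ⟨hball hwm, hn⟩
      obtain ⟨s', hs', h2⟩ := curve_left hγ hs.1 hs.2 (curve_open hγ s).connectedComponentIn
        ((convex_closedBall w e).isPreconnected.subset_connectedComponentIn hwm hball hg1)
      have hs0 := hs.1.trans hs'.1
      refine hS.grow W s' t1 hs0 hs'.2 (Subset.antisymm (hA.dom_anti W s' t1 hs0 hs'.2.le) ?_)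
      rw [hd s' hs0, hd t1 ht1.1]
      exact curve_same hs'.1 hb' h2
  · rintro s t hs _ z ⟨hz, u, hu, hf⟩
    rw [hd s hs] at hz
    rw [hd u (hs.trans hu.1)] at hf
    by_cases hc : z ∈ γ '' Icc 0 u
    · obtain ⟨v, hv, rfl⟩ := hc
      refine ⟨v, ⟨?_, hv.2.trans hu.2⟩, rfl⟩
      by_contra hn
      exact hz.1.2 ⟨v, ⟨hv.1, (not_le.1 hn).le⟩, rfl⟩
    · exfalso
      have h1 : z ∈ slit γ u := ⟨hz.1.1, hc⟩
      have h2 := (curve_open hγ u).connectedComponentIn.mem_nhds (mem_connectedComponentIn h1)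
      obtain ⟨y, hy1, hy2⟩ := mem_closure_iff_nhds.1 hf.1 _ h2
      refine hf.2 (mem_interior_iff_mem_nhds.2 (mem_of_superset h2 fun x hx => ?_))
      refine ⟨connectedComponentIn_subset _ _ hx, ?_⟩
      rw [← connectedComponentIn_eq hx, connectedComponentIn_eq hy1]
      exact hy2.2

end Vale.Agent.P164
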