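import Vale.Agent.P164.Stm2

/-! The oscillating target sequence for the driver. -/

open Set

namespace Vale.Agent.P164

/-- Triangular wave of period `4 J`. -/
def drvT (J j : ℕ) : ℤ := |(((j + J) % (4 * J) : ℕ) : ℤ) - 2 * J| - J

theorem drv_zero {J : ℕ} (hJ : 0 < J) : drvT J 0 = 0 := by
  unfold drvT
  rw [zero_add, Nat.mod_eq_of_lt (by omega), abs_of_nonpos (by omega)]
  ring

theorem drv_abs {J : ℕ} (hJ : 0 < J) (j : ℕ) : |drvT J j| ≤ J := by
  unfold drvT
  have := Nat.mod_lt (j + J) (show 0 < 4 * J by omega)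
  generalize (j + J) % (4 * J) = r at this
  rcases abs_cases ((r : ℤ) - 2 * J) with h | h <;> rw [h.1, abs_le] <;> omega

theorem drv_step {J : ℕ} (hJ : 0 < J) (j : ℕ) : |drvT J (j + 1) - drvT J j| ≤ 1 := by
  unfold drvT
  have h1 := Nat.mod_lt (j + J) (show 0 < 4 * J by omega)
  rw [show j + 1 + J = j + J + 1 by ring, ← Nat.mod_add_mod]
  generalize (j + J) % (4 * J) = r at h1
  have h2 : (r + 1) % (4 * J) = r + 1 ∨ ((r + 1) % (4 * J) = 0 ∧ r + 1 = 4 * J) := by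
    rcases Nat.lt_or_ge (r + 1) (4 * J) with h | h
    · exact Or.inl (Nat.mod_eq_of_lt h)
    · have e : r + 1 = 4 * J := by omega
      exact Or.inr ⟨by rw [e, Nat.mod_self], e⟩
  generalize (r + 1) % (4 * J) = r' at h2
  rcases abs_cases ((r : ℤ) - 2 * J) with h | h <;>
    rcases abs_cases ((r' : ℤ) - 2 * J) with h' | h' <;> rw [h.1, h'.1, abs_le] <;> omega

theorem drv_hit {J : ℕ} (hJ : 0 < J) (j r0 : ℕ) (hr : r0 < 4 * J) :
    ∃ i, j ≤ i ∧ i ≤ j + 4 * J ∧ drvT J i = |(r0 : ℤ) - 2 * J| - J := by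
  have h1 := Nat.mod_lt (j + J) (show 0 < 4 * J by omega)
  have key : ∀ d, (j + d + J) % (4 * J) = ((j + J) % (4 * J) + d) % (4 * J) := fun d => by
    rw [Nat.mod_add_mod, add_right_comm]
  unfold drvT
  generalize (j + J) % (4 * J) = r at h1 key
  rcases le_total r r0 with h | h
  · refine ⟨j + (r0 - r), by omega, by omega, ?_⟩
    rw [key, Nat.add_sub_cancel' h, Nat.mod_eq_of_lt hr]
  · refine ⟨j + (r0 + 4 * J - r), by omega, by omega, ?_⟩
    rw [key, Nat.add_sub_cancel' (by omega), Nat.add_mod_right, Nat.mod_eq_of_lt hr]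

theorem drv_lip {T : ℕ → ℝ} {y : ℝ} (h : ∀ j, |T (j + 1) - T j| ≤ y) (i j : ℕ) :
    |T i - T j| ≤ y * |(i : ℝ) - j| := by
  have key : ∀ j d : ℕ, |T (j + d) - T j| ≤ y * d := fun j d => by
    induction d with
    | zero => simp
    | succ d ih =>
      have := abs_sub_le (T (j + d + 1)) (T (j + d)) (T j)
      rw [← add_assoc]
      push_cast
      linarith [h (j + d)]
  rcases le_total i j with hij | hij
  · obtain ⟨d, rfl⟩ := Nat.exists_eq_add_of_le hij
    rw [abs_sub_comm, abs_sub_comm (i : ℝ)]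
    simpa using key i d
  · obtain ⟨d, rfl⟩ := Nat.exists_eq_add_of_le hij
    simpa using key j d

theorem drv_osc {b C1 a y h : ℝ} {T : ℕ → ℝ} (hC1 : 1 ≤ C1) (hy : 0 < y) (T0 : T 0 = 0)
    (T1 : ∀ j, |T (j + 1) - T j| ≤ y) (T2 : ∀ j, |T j| ≤ a)
    (T3 : ∀ j : ℕ, (∃ i : ℕ, j ≤ i ∧ (i : ℝ) ≤ j + 4 * a / y ∧ a - y ≤ T i) ∧
      ∃ i : ℕ, j ≤ i ∧ (i : ℝ) ≤ j + 4 * a / y ∧ T i ≤ -(a - y))
    (hby : 0 < h) (hy2 : y ^ 2 ≤ h) (hh5 : h + 4 * a / y * h ≤ 5 * b * a * y)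
    (W : Pth) (s : ℝ) (N : ℕ)
    (H : ∀ j : ℕ, j < N → W ∈ Stay (s + j * h) (s + j * h + h) (C1 * y) ∧
      |W (s + j * h + h) - W s - T (j + 1)| ≤ y) :
    Osc (2 * C1 + 3) (5 * b) a y s (s + N * h) W := by
  have cy0 : 0 ≤ C1 * y := by positivity
  have A : ∀ j : ℕ, j ≤ N → |W (s + j * h) - W s - T j| ≤ y := fun j hj => by
    rcases j with _ | j
    · simp [T0, hy.le]
    · have := (H j hj).2
      rwa [show s + j * h + h = s + (j + 1 : ℕ) * h by push_cast; ring] at this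
  have B : ∀ u ∈ Icc s (s + N * h), ∃ j : ℕ, s + j * h ≤ u ∧ u ≤ s + j * h + h ∧
      |W u - W s - T j| ≤ (C1 + 1) * y := fun u hu => by
    rcases hu.2.eq_or_lt with e | hlt
    · refine ⟨N, e.ge, by linarith, ?_⟩
      rw [e]
      linarith [A N le_rfl]
    · have h0 : 0 ≤ (u - s) / h := div_nonneg (by linarith [hu.1]) hby.le
      have h1 := Nat.floor_le h0
      have h2 := Nat.lt_floor_add_one ((u - s) / h)
      have h3 : ⌊(u - s) / h⌋₊ < N := (Nat.floor_lt h0).2 (by rw [div_lt_iff₀ hby]; linarith)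
      generalize ⌊(u - s) / h⌋₊ = j at h1 h2 h3
      rw [le_div_iff₀ hby] at h1
      rw [div_lt_iff₀ hby] at h2
      have m : u ∈ Icc (s + j * h) (s + j * h + h) := ⟨by linarith, by linarith⟩
      refine ⟨j, m.1, m.2, ?_⟩
      have a1 := abs_le.1 ((H j h3).1 u m)
      have a2 := abs_le.1 (A j h3.le)
      rw [abs_le]
      constructor <;> linarith [a1.1, a1.2, a2.1, a2.2]
  refine ⟨fun u hu => ?_, fun u hu v hv => ?_, fun u hu hu' => ?_⟩
  · obtain ⟨j, -, -, h3⟩ := B u hu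
    have a1 := abs_le.1 h3
    have a2 := abs_le.1 (T2 j)
    rw [abs_le]
    constructor <;> linarith [a1.1, a1.2, a2.1, a2.2]
  · obtain ⟨i, h1, h2, h3⟩ := B u hu
    obtain ⟨j, h4, h5, h6⟩ := B v hv
    have a0 : |(i : ℝ) - j| * h ≤ |u - v| + h := by
      rw [← abs_of_pos hby, ← abs_mul, abs_of_pos hby, abs_le]
      constructor <;> linarith [le_abs_self (u - v), neg_abs_le (u - v)]
    have a1 : y * |(i : ℝ) - j| ≤ y + |u - v| / y := by
      have b1 : |(i : ℝ) - j| ≤ |u - v| / h + 1 := by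
        rw [div_add_one hby.ne', le_div_iff₀ hby]; exact a0
      have b2 : |u - v| / h ≤ |u - v| / y ^ 2 := by gcongr
      have b3 : y * (|u - v| / y ^ 2) = |u - v| / y := by field_simp
      nlinarith
    have a2 := abs_le.1 ((drv_lip T1 i j).trans a1)
    have a3 := abs_le.1 h3
    have a4 := abs_le.1 h6
    have a5 : 0 ≤ |u - v| / y := by positivity
    have a6 : 0 ≤ C1 * (|u - v| / y) := by positivity
    rw [abs_le]
    constructor <;> linarith [a2.1, a2.2, a3.1, a3.2, a4.1, a4.2]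
  · have h0 : 0 ≤ (u - s) / h := div_nonneg (by linarith) hby.le
    have h1 := Nat.le_ceil ((u - s) / h)
    have h2 := Nat.ceil_lt_add_one h0
    generalize ⌈(u - s) / h⌉₊ = j at h1 h2
    rw [div_le_iff₀ hby] at h1
    rw [div_add_one hby.ne', lt_div_iff₀ hby] at h2
    have c : ∀ i : ℕ, j ≤ i → (i : ℝ) ≤ j + 4 * a / y →
        s + i * h ∈ Icc u (u + 5 * b * a * y) ∧ |W (s + i * h) - W s - T i| ≤ y := fun i hi hi' => by
      have b1 : (j : ℝ) * h ≤ i * h := by gcongr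
      have b2 : (i : ℝ) * h ≤ (j + 4 * a / y) * h := by gcongr
      have b3 : s + i * h ≤ u + 5 * b * a * y := by linarith
      refine ⟨⟨by linarith, b3⟩, A i ?_⟩
      have b4 : (i : ℝ) * h ≤ N * h := by linarith
      exact_mod_cast le_of_mul_le_mul_right b4 hby
    obtain ⟨⟨i, i1, i2, i3⟩, k, k1, k2, k3⟩ := T3 j
    have a1 := abs_le.1 (c i i1 i2).2
    have a2 := abs_le.1 (c k k1 k2).2
    exact ⟨⟨_, (c i i1 i2).1, by linarith [a1.1]⟩, _, (c k k1 k2).1, by linarith [a2.2]⟩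

theorem drv : DrvStmt := by
  intro b C1 hb hC1
  refine ⟨2 * C1 + 3, 5 * b, by linarith, by linarith, fun a y hy hya => ?_⟩
  set J : ℕ := ⌊a / y⌋₊ with hJdef
  have hJ : 0 < J := Nat.floor_pos.2 ((one_le_div hy).2 hya)
  have hJ1 : (J : ℝ) ≤ a / y := Nat.floor_le (div_nonneg (by linarith) hy.le)
  have hJ2 : a / y < J + 1 := Nat.lt_floor_add_one _
  have hJ3 : y * J ≤ a := by rwa [le_div_iff₀' hy] at hJ1
  have hJ4 : a - y ≤ y * J := by rw [div_lt_iff₀ hy] at hJ2; linarith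
  set T : ℕ → ℝ := fun j => y * drvT J j with hT
  have T0 : T 0 = 0 := by simp [hT, drv_zero hJ]
  have T1 : ∀ j, |T (j + 1) - T j| ≤ y := fun j => by
    have : |(drvT J (j + 1) : ℝ) - drvT J j| ≤ 1 := by exact_mod_cast drv_step hJ j
    simp only [hT]
    rw [← mul_sub, abs_mul, abs_of_pos hy]
    exact mul_le_of_le_one_right hy.le this
  have T2 : ∀ j, |T j| ≤ a := fun j => by
    have : |(drvT J j : ℝ)| ≤ J := by exact_mod_cast drv_abs hJ j
    simp only [hT]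
    rw [abs_mul, abs_of_pos hy]
    exact (mul_le_mul_of_nonneg_left this hy.le).trans hJ3
  have T3 : ∀ j : ℕ, (∃ i : ℕ, j ≤ i ∧ (i : ℝ) ≤ j + 4 * a / y ∧ a - y ≤ T i) ∧
      ∃ i : ℕ, j ≤ i ∧ (i : ℝ) ≤ j + 4 * a / y ∧ T i ≤ -(a - y) := fun j => by
    have c : ∀ i : ℕ, i ≤ j + 4 * J → (i : ℝ) ≤ j + 4 * a / y := fun i hi => by
      have : (i : ℝ) ≤ j + 4 * J := by exact_mod_cast hi
      rw [mul_div_assoc]
      linarith
    constructor
    · obtain ⟨i, h1, h2, h3⟩ := drv_hit hJ j 0 (by omega)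
      refine ⟨i, h1, c i h2, ?_⟩
      have : drvT J i = J := by rw [h3, abs_of_nonpos (by omega)]; omega
      simpa [hT, this] using hJ4
    · obtain ⟨i, h1, h2, h3⟩ := drv_hit hJ j (2 * J) (by omega)
      refine ⟨i, h1, c i h2, ?_⟩
      have : drvT J i = -J := by rw [h3]; simp
      simp only [hT, this]
      push_cast
      linarith
  refine ⟨T, T0, T1, T3, fun W s N H => ?_⟩
  have hby : 0 < b * y ^ 2 := by positivity
  have hy2 : y ^ 2 ≤ b * y ^ 2 := le_mul_of_one_le_left (by positivity) hb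
  have hh5 : b * y ^ 2 + 4 * a / y * (b * y ^ 2) ≤ 5 * b * a * y := by
    have e : 4 * a / y * (b * y ^ 2) = 4 * (b * a * y) := by field_simp
    have : b * y * y ≤ b * y * a := by gcongr
    rw [e]; nlinarith
  exact drv_osc hC1 hy T0 T1 T2 T3 hby hy2 hh5 W s N H

end Vale.Agent.P164
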