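import Vale.Agent.P164.Stm2

/-! First moment lower bound for the content density. -/

open Set MeasureTheory ProbabilityTheory Metric
open scoped ENNReal NNReal

namespace Vale.Agent.P164

namespace FM

lemma small {a η y : ℝ} (ha : 0 < a) (hη : 0 < η) (hy : 0 < y) :
    ∃ x, 0 < x ∧ x ≤ y ∧ x ^ a ≤ η :=
  ⟨min y (η ^ a⁻¹), by positivity, min_le_left _ _,
    (Real.rpow_le_rpow (by positivity) (min_le_right _ _) ha.le).trans_eq
      (Real.rpow_inv_rpow hη.le ha.ne')⟩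

variable {κ ε δ s0 t : ℝ} {w : ℂ} {W : Pth}

lemma S_nonneg (hF : Fnd) (W : Pth) (t : ℝ) (w : ℂ) : 0 ≤ Sf W t w :=
  div_nonneg (hF.flow.Y_nonneg W t w) (Rf_nonneg W t w)

lemma S_pos (h : 0 < Yf W t w) : 0 < Sf W t w :=
  div_pos h (h.trans_le ((le_abs_self _).trans (Yf_le_Rf W t w)))

lemma M_nonneg (hF : Fnd) (κ : ℝ) (w : ℂ) (W : Pth) (t : ℝ) : 0 ≤ MM κ w W t :=
  mul_nonneg (Real.rpow_nonneg (Up_nonneg W t w) _) (Real.rpow_nonneg (S_nonneg hF W t w) _)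

lemma Mon_nonneg (hF : Fnd) (a b q : ℝ) (w : ℂ) (W : Pth) (t : ℝ) : 0 ≤ Mon a b q w W t :=
  mul_nonneg (mul_nonneg (Real.rpow_nonneg (hF.flow.Y_nonneg W t w) _)
    (Real.rpow_nonneg (Up_nonneg W t w) _)) (Real.rpow_nonneg (S_nonneg hF W t w) _)

lemma M_le (hF : Fnd) (h0 : 0 < κ) (h8 : κ < 8) (hε : 0 < ε) (h : ε ≤ Up W t w) :
    MM κ w W t ≤ ε ^ (dd κ - 2) :=
  (mul_le_of_le_one_right (Real.rpow_nonneg (Up_nonneg W t w) _)
    (Real.rpow_le_one (S_nonneg hF W t w) (Sf_le_one W t w) (rr_pos h0 h8).le)).trans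
    (Real.rpow_le_rpow_of_nonpos hε h (by linarith [dd_lt_two h8]))

lemma cutM_le (hF : Fnd) (h0 : 0 < κ) (h8 : κ < 8) (hε : 0 < ε) (w : ℂ) (W : Pth) (t : ℝ) :
    cut (Up W t w / ε) * MM κ w W t ≤ ε ^ (dd κ - 2) := by
  rcases le_total (Up W t w) ε with h | h
  · rw [cut_zero ((div_le_one hε).2 h), zero_mul]; positivity
  · exact (mul_le_of_le_one_left (M_nonneg hF κ w W t) (cut_le_one _)).trans (M_le hF h0 h8 hε h)

lemma gain_le (hF : Fnd) (hA : ContAStmt) (h0 : 0 < κ) (h8 : κ < 8) (hε : 0 < ε) (hδ : 0 < δ)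
    (s0 : ℝ) : ∃ C, 0 ≤ C ∧ ∀ w W t, 0 ≤ t → gain κ s0 ε δ w W t ≤ C * t := by
  obtain ⟨K, hK, hK1, -⟩ := cut_bounds
  refine ⟨ε ^ (dd κ - 2) * (K * 2 * (4 / δ ^ 2)), by positivity, fun w W t ht => ?_⟩
  have key : ∀ u, ‖cy δ w W u * cr κ s0 ε w W u‖ ≤ ε ^ (dd κ - 2) * (K * 2 * (4 / δ ^ 2)) := by
    intro u
    obtain ⟨c1, c2⟩ := hA.nonneg κ s0 ε w W u hε
    rw [Real.norm_of_nonneg (mul_nonneg (show 0 ≤ cy δ w W u from cut_nonneg _) c1)]
    rcases le_total (Yf W u w) δ with h | h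
    · rw [cy, cut_zero ((div_le_one hδ).2 h), zero_mul]; positivity
    refine ((mul_le_of_le_one_left c1 (cut_le_one _)).trans c2).trans ?_
    unfold crf
    rcases le_total (Up W u w / ε) 1 with h1 | h1
    · rw [cut1_zero_left h1, zero_mul, zero_mul, mul_zero]; positivity
    rcases le_total 2 (Up W u w / ε) with h2 | h2
    · rw [cut1_zero_right h2, zero_mul, zero_mul, mul_zero]; positivity
    have hR : δ ≤ Rf W u w := h.trans ((le_abs_self _).trans (Yf_le_Rf W u w))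
    have hS : Sf W u w ^ 2 ≤ 1 := pow_le_one₀ (S_nonneg hF W u w) (Sf_le_one W u w)
    have := cut1_nonneg (Up W u w / ε)
    refine mul_le_mul (M_le hF h0 h8 hε ((one_le_div hε).1 h1)) ?_ (by positivity) (by positivity)
    gcongr
    · exact hK1 _
    · linarith
  have := intervalIntegral.norm_integral_le_of_norm_le_const (a := 0) (b := t) fun u _ => key u
  rw [sub_zero, abs_of_nonneg ht] at this
  exact (le_abs_self _).trans this

/-- The killing functional. -/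
lemma kill (hF : Fnd) (h0 : 0 < κ) (h8 : κ < 8) (hε : 0 < ε) : ∃ (al : ℝ) (v d g : ℂ → Pth → ℝ → ℝ),
    0 < al ∧ LS κ v d g ∧ ∀ w W t, 0 ≤ t → 0 ≤ v w W t ∧ d w W t ≤ 0 ∧ ∀ y, 0 < Yf W t w →
      Yf W t w ≤ y → cut (Up W t w / ε) * MM κ w W t ≤ y ^ al * v w W t := by
  have hr := rr_pos h0 h8
  have hd := dd_lt_two h8
  obtain ⟨al, hal⟩ : ∃ al, al = κ * rr κ ^ 2 / 16 := ⟨_, rfl⟩
  have a0 : 0 < al := by rw [hal]; positivity
  refine ⟨al, _, _, _, a0, hF.ls.smul κ _ _ _ (ε ^ (dd κ - 2 - al / 2)) (hF.ls.mul κ _ _ _ _ _ _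
    (hF.mon.cutUp κ ε h0 hε) (hF.mon.mon κ (-al) (al / 2) (rr κ / 2) h0)), fun w W t ht => ?_⟩
  have m0 := Mon_nonneg hF (-al) (al / 2) (rr κ / 2) w W t
  have c0 := cut_nonneg (Up W t w / ε)
  refine ⟨by positivity, ?_, fun y hY hy => ?_⟩
  · have e1 : cX κ (-al) (rr κ / 2) = 0 := by rw [cX, hal]; ring
    have e2 : cY κ (-al) (al / 2) (rr κ / 2) = -(κ * rr κ / 4) := by rw [cY]; ring
    have c1 := cut1_nonneg (Up W t w / ε)
    have u0 := Up_nonneg W t w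
    rw [e1, e2]
    refine mul_nonpos_of_nonneg_of_nonpos (by positivity) ?_
    have b1 : 0 ≤ cut (Up W t w / ε) * (Mon (-al) (al / 2) (rr κ / 2) w W t *
      (κ * rr κ / 4 * Sf W t w ^ 2 / Rf W t w ^ 2)) := by positivity
    have b2 : 0 ≤ Mon (-al) (al / 2) (rr κ / 2) w W t * (cut1 (Up W t w / ε) * (Up W t w / ε) *
      (4 * Sf W t w ^ 2 / Rf W t w ^ 2)) := by positivity
    have e3 : (0 * (1 - Sf W t w ^ 2) + -(κ * rr κ / 4) * Sf W t w ^ 2) / Rf W t w ^ 2 =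
      -(κ * rr κ / 4 * Sf W t w ^ 2 / Rf W t w ^ 2) := by ring
    rw [e3]
    linarith
  · rcases le_total (Up W t w) ε with h | h
    · rw [cut_zero ((div_le_one hε).2 h)]; simp
    have hU := hε.trans_le h
    have hS := S_pos hY
    have b1 : Sf W t w ^ rr κ ≤ Sf W t w ^ (rr κ / 2) :=
      Real.rpow_le_rpow_of_exponent_ge hS (Sf_le_one W t w) (by linarith)
    have b2 : Up W t w ^ (dd κ - 2) ≤ ε ^ (dd κ - 2 - al / 2) * Up W t w ^ (al / 2) := by
      rw [show dd κ - 2 = dd κ - 2 - al / 2 + al / 2 by ring, Real.rpow_add hU, add_sub_cancel_right]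
      exact mul_le_mul_of_nonneg_right (Real.rpow_le_rpow_of_nonpos hε h (by linarith))
        (by positivity)
    have b3 : 1 ≤ y ^ al * Yf W t w ^ (-al) := by
      rw [Real.rpow_neg hY.le, ← div_eq_mul_inv, one_le_div (by positivity)]
      exact Real.rpow_le_rpow hY.le hy a0.le
    calc cut (Up W t w / ε) * MM κ w W t = cut (Up W t w / ε) *
          (1 * (Up W t w ^ (dd κ - 2) * Sf W t w ^ rr κ)) := by rw [one_mul, MM]
      _ ≤ cut (Up W t w / ε) * (y ^ al * Yf W t w ^ (-al) *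
          (ε ^ (dd κ - 2 - al / 2) * Up W t w ^ (al / 2) * Sf W t w ^ (rr κ / 2))) := by
          gcongr
      _ = _ := by unfold Mon; ring

lemma angle (h0 : 0 < κ) (h8 : κ < 8) (hs : 0 < s0) {S : ℝ} (hS : 0 < S) :
    1 ≤ cut (S / s0) + (2 * s0) ^ (rr κ / 2) * S ^ (-(rr κ / 2)) := by
  have hr := rr_pos h0 h8
  rcases le_total S (2 * s0) with h | h
  · refine le_add_of_nonneg_of_le (cut_nonneg _) ?_
    rw [Real.rpow_neg hS.le, ← div_eq_mul_inv, one_le_div (by positivity)]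
    exact Real.rpow_le_rpow hS.le h (by positivity)
  · rw [cut_one ((le_div_iff₀ hs).2 h)]
    exact le_add_of_nonneg_right (by positivity)

/-- The optional stopping step. -/
lemma core (hF : Fnd) (hA : ContAStmt) {μ : Measure Pth} (hc : Ctx κ μ) {v d g : ℂ → Pth → ℝ → ℝ}
    (l : LS κ v d g) {a T m B : ℝ} {V : Pth} (hε : 0 < ε) (hδ : 0 < δ) (ha : 0 ≤ a) (haT : a ≤ T)
    (hm : 0 ≤ m) (hB : 0 ≤ B)
    (h1 : ∀ P u, a ≤ u → 0 < Yf P u w → -B ≤ v w P u ∧ d w P u ≤ cr κ s0 ε w P u ∧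
      (Yf P u w ≤ 2 * δ → 0 ≤ v w P u))
    (h2 : ∀ P, 0 < Yf P T w → 0 ≤ v w P T) (h3 : v w V a ≤ -m) (hY : 2 * δ ≤ Yf V a w) :
    ENNReal.ofReal m ≤ CE μ a V fun W => den κ s0 ε a T W w := by
  obtain ⟨h0, h8, hμ⟩ := hc
  obtain ⟨G, hG, hG'⟩ := gain_le hF hA h0 h8 hε hδ s0
  have sg := hA.sm κ s0 ε δ h0 hδ
  have l2 := hF.alg.add κ ℂ _ _ _ _ _ _ (hF.alg.add κ ℂ _ _ _ _ _ _
    (hF.alg.const κ ℂ (G * T + B)) (hF.alg.smul κ ℂ _ _ _ (-1) sg)) (l δ hδ)
  have dead : ∀ (P : Pth) u, ¬ 0 < Yf P u w → cy δ w P u = 0 ∧ cyd δ w P u = 0 := fun P u h => by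
    have e : Yf P u w = 0 := le_antisymm (not_lt.1 h) (hF.flow.Y_nonneg P u w)
    rw [cy, cyd, e, zero_div, cut_zero zero_le_one]
    simp
  have y0 : ∀ P u, 0 ≤ cy δ w P u := fun P u => cut_nonneg _
  have ito := hF.ito κ μ h0 hμ ℂ _ _ _ l2 w a T V ha haT fun W u hu => by
    generalize cat a V W = P
    have b2 := (hG' w P u (ha.trans hu.1)).trans (mul_le_mul_of_nonneg_left hu.2 hG)
    by_cases h : 0 < Yf P u w
    · obtain ⟨k1, k2, k3⟩ := h1 P u hu.1 h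
      have b1 := mul_le_mul_of_nonneg_left k1 (y0 P u)
      have b3 : cy δ w P u * B ≤ B := mul_le_of_le_one_left hB (cut_le_one _)
      have b5 := mul_le_mul_of_nonneg_left k2 (y0 P u)
      have b6 : 0 ≤ cyd δ w P u * v w P u := by
        rcases le_total (Yf P u w) (2 * δ) with h' | h'
        · have b8 := cut1_nonneg (Yf P u w / δ)
          exact mul_nonneg (by unfold cyd; positivity) (k3 h')
        · rw [cyd, cut1_zero_right ((le_div_iff₀ hδ).2 h')]; simp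
      constructor <;> linarith
    · rw [(dead P u h).1, (dead P u h).2]
      constructor <;> linarith
  have e1 : cy δ w V a = 1 := cut_one ((le_div_iff₀ hδ).2 hY)
  obtain ⟨K, hK'⟩ : ∃ K, K = G * T + B - gain κ s0 ε δ w V a := ⟨_, rfl⟩
  have e5 : m ≤ K := by
    have b1 := (hG' w V a ha).trans (mul_le_mul_of_nonneg_left haT hG)
    have b2 := (h1 V a le_rfl (by linarith)).1
    linarith
  have md : Measurable fun W => den κ s0 ε a T (cat a V W) w :=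
    Measurable.fun_comp (g := fun p : Pth × ℂ => den κ s0 ε a T p.1 p.2)
      (f := fun W => (cat a V W, w)) (hA.meas κ s0 ε a T)
      ((measurable_cat_right a V).prodMk measurable_const)
  have := hμ.prob
  refine (ENNReal.add_le_add_iff_left (a := ENNReal.ofReal (K - m)) ENNReal.ofReal_ne_top).1 ?_
  rw [← ENNReal.ofReal_add (by linarith) hm, sub_add_cancel]
  refine le_trans ?_ (add_le_add (ito.trans (ENNReal.ofReal_le_ofReal ?_)) le_rfl)
  · rw [CE, CE, ← lintegral_add_right _ md]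
    refine le_trans (by simp) (lintegral_mono (f := fun _ => ENNReal.ofReal K) fun W => ?_)
    have b1 := hF.int.loc κ ℂ _ _ _ sg w _ V a ha (cat_eqOn a V W)
    generalize cat a V W = P at b1 ⊢
    have b2 := (hA.le κ s0 ε δ a T P hε).1 w
    rw [(hA.real κ s0 ε δ a T P w h0 hε hδ ha haT).2.2, b1] at b2
    refine le_trans ?_ (add_le_add le_rfl b2)
    refine le_trans (ENNReal.ofReal_le_ofReal ?_) ENNReal.ofReal_add_le
    have b4 : 0 ≤ cy δ w P T * v w P T := by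
      by_cases h : 0 < Yf P T w
      · exact mul_nonneg (y0 P T) (h2 P h)
      · rw [(dead P T h).1, zero_mul]
    linarith
  · rw [e1]
    linarith

end FM

open FM in
theorem fm (hF : Fnd) (hL : LyStmt) (hV : FMVStmt) (hA : ContAStmt) : FMStmt := by
  intro κ μ hc
  have h0 := hc.pos
  have h8 := hc.lt
  have hr := rr_pos h0 h8
  obtain ⟨C, hC, hL⟩ := hL κ h0 h8
  obtain ⟨T0, hT0, hV⟩ := hV κ h0 h8
  obtain ⟨x, hx, -, hx'⟩ := small (a := rr κ / 2)
    (η := 1 / (4 * (2 * (1 / 2) ^ (-(rr κ / 2)) + C))) (y := 1) (by positivity) (by positivity)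
    one_pos
  obtain ⟨s0, rfl⟩ : ∃ s0, x = 2 * s0 := ⟨x / 2, by ring⟩
  have hs : 0 < s0 := by linarith
  refine ⟨s0, T0, hs, hT0, fun ε a V w hε ha hS hU => ?_⟩
  obtain ⟨vL, dL, gL, lL, hL⟩ := hL ε hε
  obtain ⟨vF, dF, gF, lF, f1, f2, f3⟩ := hV ε a V w hε ha hS
  obtain ⟨al, vK, dK, gK, hal, lK, hK⟩ := kill hF h0 h8 hε
  have hY : 0 < Yf V a w := by
    refine (hF.flow.Y_nonneg V a w).lt_of_ne fun h => ?_
    rw [Sf, ← h, zero_div] at hS
    linarith
  have hU0 : 0 < Up V a w := by linarith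
  have hM : 0 < MM κ w V a :=
    mul_pos (Real.rpow_pos_of_pos hU0 _) (Real.rpow_pos_of_pos (S_pos hY) _)
  have k0 := (hK w V a ha).1
  obtain ⟨y, hy, hy1, hy2⟩ := small (η := MM κ w V a / 4 / (vK w V a + 1)) hal (by positivity) hY
  obtain ⟨δ, rfl⟩ : ∃ δ, y = 2 * δ := ⟨y / 2, by ring⟩
  have hδ : 0 < δ := by linarith
  have haT : a ≤ a + T0 * Rf V a w ^ 2 := le_add_of_nonneg_right (by positivity)
  generalize a + T0 * Rf V a w ^ 2 = T at f3 haT ⊢
  have θ0 : 0 ≤ (2 * s0) ^ (rr κ / 2) := by positivity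
  have c0 : 0 ≤ (2 * δ) ^ al := by positivity
  refine core hF hA hc (B := ε ^ (dd κ - 2)) (hF.ls.add κ _ _ _ _ _ _ (hF.ls.add κ _ _ _ _ _ _
    (hF.ls.add κ _ _ _ _ _ _ (hF.ls.smul κ _ _ _ (-1) (hF.mon.cutM κ ε h0 hε)) lF)
    (hF.ls.smul κ _ _ _ ((2 * s0) ^ (rr κ / 2)) lL)) (hF.ls.smul κ _ _ _ ((2 * δ) ^ al) lK)) hε hδ
    ha haT (by positivity) (by positivity) (fun P u hu h => ?_) (fun P h => ?_) ?_ hy1
  · have u0 := ha.trans hu
    obtain ⟨l1, l2, -⟩ := hL w P u u0 h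
    obtain ⟨k1, k2, k3⟩ := hK w P u u0
    obtain ⟨v1, v2⟩ := f1 P u hu h
    obtain ⟨r1, r2⟩ := hA.nonneg κ s0 ε w P u hε
    have b0 := mul_nonneg θ0 l1
    refine ⟨?_, ?_, fun h' => ?_⟩
    · linarith [cutM_le hF h0 h8 hε w P u, mul_nonneg c0 k1]
    · have b1 := mul_le_mul_of_nonneg_left (angle h0 h8 hs (S_pos h)) (r1.trans r2)
      have b2 := mul_le_mul_of_nonneg_left l2 θ0
      have b3 := mul_nonpos_of_nonneg_of_nonpos c0 k2
      unfold cr
      linarith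
    · linarith [k3 _ h h']
  · have u0 := ha.trans haT
    linarith [f3 P h, mul_nonneg θ0 (hL w P T u0 h).1, mul_nonneg c0 (hK w P T u0).1]
  · have e3 : (2 * s0) ^ (rr κ / 2) * vL w V a ≤ MM κ w V a / 4 := by
      have b1 : √(4 * ε / Up V a w) ≤ 2 := by
        rw [Real.sqrt_le_left zero_le_two, div_le_iff₀ hU0]; linarith
      have b2 : Sf V a w ^ (-(rr κ / 2)) ≤ (1 / 2) ^ (-(rr κ / 2)) :=
        Real.rpow_le_rpow_of_nonpos one_half_pos hS (by linarith)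
      have b3 := S_pos hY
      calc (2 * s0) ^ (rr κ / 2) * vL w V a ≤ 1 / (4 * (2 * (1 / 2) ^ (-(rr κ / 2)) + C)) *
            (MM κ w V a * (2 * (1 / 2) ^ (-(rr κ / 2)) + C)) :=
            mul_le_mul hx' ((hL w V a ha hY).2.2.2.trans (by gcongr))
              (hL w V a ha hY).1 (by positivity)
        _ = _ := by field_simp
    have e4 : (2 * δ) ^ al * vK w V a ≤ MM κ w V a / 4 := by
      rw [le_div_iff₀ (by positivity)] at hy2
      linarith
    rw [cut_one ((le_div_iff₀ hε).2 hU)]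
    linarith

end Vale.Agent.P164
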