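import Vale.Agent.P164.Stm2

/-! The Lyapunov functional for the first moment lower bound. -/

open Set

namespace Vale.Agent.P164

theorem fmv_pow (n : ℕ) (x : ℝ) :
    HasDerivAt (fun x : ℝ => max x 0 ^ (n + 2)) ((n + 2 : ℕ) * max x 0 ^ (n + 1)) x := by
  rcases lt_trichotomy x 0 with h | rfl | h
  · rw [max_eq_right h.le, zero_pow (Nat.succ_ne_zero n), mul_zero]
    refine (hasDerivAt_const x (0 : ℝ)).congr_of_eventuallyEq ?_
    filter_upwards [Iio_mem_nhds h] with y hy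
    rw [max_eq_right (le_of_lt hy), zero_pow (Nat.succ_ne_zero _)]
  · rw [← hasDerivWithinAt_univ, ← Iic_union_Ici (a := (0 : ℝ))]
    refine HasDerivWithinAt.union ?_ ?_
    · refine ((hasDerivWithinAt_const (0 : ℝ) (Iic (0 : ℝ)) (0 : ℝ)).congr (fun y hy => ?_)
        (by simp)).congr_deriv (by simp)
      rw [max_eq_right hy, zero_pow (Nat.succ_ne_zero _)]
    · refine ((hasDerivAt_pow (n + 2) (0 : ℝ)).hasDerivWithinAt.congr (fun y hy => ?_)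
        (by simp)).congr_deriv (by simp)
      rw [max_eq_left hy]
  · rw [max_eq_left h.le]
    refine (hasDerivAt_pow (n + 2) x).congr_of_eventuallyEq ?_
    filter_upwards [Ioi_mem_nhds h] with y hy
    rw [max_eq_left (le_of_lt hy)]

theorem fmv_lin (u : ℝ) : HasDerivAt (fun u : ℝ => 1 - u / 2) (-(1 / 2)) u :=
  ((hasDerivAt_id' u).div_const 2).const_sub 1

theorem fmv_G (u : ℝ) : HasDerivAt (fun u : ℝ => 1 - max (1 - u / 2) 0 ^ 3)
    (3 / 2 * max (1 - u / 2) 0 ^ 2) u :=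
  (((fmv_pow 1 _).comp u (fmv_lin u)).const_sub 1).congr_deriv (by push_cast; ring)

theorem fmv_G1 (u : ℝ) : HasDerivAt (fun u : ℝ => 3 / 2 * max (1 - u / 2) 0 ^ 2)
    (-(3 / 2 * max (1 - u / 2) 0)) u :=
  (((fmv_pow 0 _).comp u (fmv_lin u)).const_mul (3 / 2)).congr_deriv (by push_cast; ring)

theorem fmv_eta {c1 q : ℝ} (h1 : 0 < c1) (hq : q ≤ 0) : ∃ η c : ℝ, 0 < η ∧ 0 < c ∧
    ∀ S : ℝ, 0 < S → S ≤ 1 → -1 + η * S ^ q * (-c1 * (1 - S ^ 2) + S ^ 2) ≤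
      -c * (1 + η * S ^ q) := by
  obtain ⟨s, hs⟩ : ∃ s, s = c1 / (2 * (1 + c1)) := ⟨_, rfl⟩
  have hs0 : 0 < s := by rw [hs]; positivity
  have hs1 : (1 + c1) * s = c1 / 2 := by rw [hs]; field_simp
  have hp := Real.rpow_pos_of_pos hs0 q
  refine ⟨(s ^ q)⁻¹ / 4, min (1 / 2) (c1 / 2), by positivity, by positivity, fun S h0 h2 => ?_⟩
  have a1 := min_le_left (1 / 2) (c1 / 2)
  have a2 := min_le_right (1 / 2) (c1 / 2)
  have a0 : 0 < min (1 / 2) (c1 / 2) := by positivity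
  generalize min (1 / 2) (c1 / 2) = c at a0 a1 a2
  have hP : 0 < (s ^ q)⁻¹ / 4 * S ^ q := by positivity
  have hS : S ^ 2 ≤ S := by nlinarith
  rcases le_total S s with h3 | h3
  · have : c - c1 + (1 + c1) * S ^ 2 ≤ 0 := by nlinarith
    nlinarith [mul_nonpos_of_nonneg_of_nonpos hP.le this]
  · have h4 : (s ^ q)⁻¹ / 4 * S ^ q ≤ 1 / 4 := by
      have := Real.rpow_le_rpow_of_nonpos hs0 h3 hq
      rw [div_mul_eq_mul_div, inv_mul_eq_div]
      gcongr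
      exact (div_le_one hp).2 this
    have h5 : c - c1 + (1 + c1) * S ^ 2 ≤ 3 / 2 := by nlinarith
    nlinarith [mul_le_mul_of_nonneg_left h5 hP.le]

theorem fmv_mon (q : ℝ) (w : ℂ) (W : Pth) (t : ℝ) :
    Mon (1 / 2) 0 q w W t = √(Yf W t w) * Sf W t w ^ q := by
  rw [Mon, Real.rpow_zero, mul_one, Real.sqrt_eq_rpow]

theorem fmv_key {η c V0 f R : ℝ} (hη : 0 < η) (hc : 0 < c) (hf : 0 < f) (hR : 0 < R)
    (h1 : η ^ 2 * R ≤ f ^ 2) (h2 : f ≤ 2 * V0) :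
    V0⁻¹ * (-c * f / R ^ 2) + c * η ^ 4 / (8 * V0 ^ 4) ≤ 0 := by
  have hV : 0 < V0 := by linarith
  have h3 : η ^ 4 * R ^ 2 ≤ f * (8 * V0 ^ 3) :=
    calc η ^ 4 * R ^ 2 = (η ^ 2 * R) ^ 2 := by ring
      _ ≤ (f ^ 2) ^ 2 := by gcongr
      _ = f * f ^ 3 := by ring
      _ ≤ f * (2 * V0) ^ 3 := by gcongr
      _ = _ := by ring
  have e : V0⁻¹ * (-c * f / R ^ 2) + c * η ^ 4 / (8 * V0 ^ 4) =
      c * (η ^ 4 * R ^ 2 - f * (8 * V0 ^ 3)) / (8 * V0 ^ 4 * R ^ 2) := by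
    field_simp; ring
  rw [e]
  exact div_nonpos_of_nonpos_of_nonneg (mul_nonpos_of_nonneg_of_nonpos hc.le (by linarith))
    (by positivity)

theorem fmv (hF : Fnd) : FMVStmt := by
  intro κ hκ h8
  have hr := rr_pos hκ h8
  have hkr := kappa_rr hκ
  obtain ⟨q, hq⟩ : ∃ q, q = -(rr κ + 1) / 2 := ⟨_, rfl⟩
  have hq0 : q ≤ 0 := by rw [hq]; linarith
  obtain ⟨η, c, hη, hc, hL⟩ := fmv_eta (c1 := 1 - κ / 8 + κ * rr κ ^ 2 / 8) (q := q)
    (by have : 0 < κ * rr κ ^ 2 := by positivity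
        linarith) hq0
  obtain ⟨B, hB⟩ : ∃ B : ℝ, B = (1 / 2) ^ q := ⟨_, rfl⟩
  have hB0 : 0 < B := by rw [hB]; positivity
  refine ⟨16 * 6 ^ 4 * (1 + η * B) ^ 4 / (c * η ^ 4), by positivity,
    fun ε a V w hε ha hS => ?_⟩
  have hpos : ∀ (W : Pth) t, 0 < Yf W t w → 0 < Rf W t w ∧ 0 < Sf W t w := fun W t h => by
    have h1 : 0 < Rf W t w := h.trans_le ((le_abs_self _).trans (Yf_le_Rf W t w))
    exact ⟨h1, div_pos h h1⟩
  have hM : ∀ (W : Pth) t, 0 < Yf W t w → 0 ≤ MM κ w W t := fun W t h =>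
    mul_nonneg (Real.rpow_nonneg (Up_nonneg _ _ _) _) (Real.rpow_nonneg (hpos W t h).2.le _)
  have hf : ∀ (W : Pth) t, 0 < Yf W t w →
      0 < Mon (1 / 2) 0 0 w W t + η * Mon (1 / 2) 0 q w W t := fun W t h => by
    have := (hpos W t h).2
    rw [fmv_mon, fmv_mon]
    positivity
  have hY : 0 < Yf V a w := by
    by_contra h
    have : Sf V a w ≤ 0 := div_nonpos_of_nonpos_of_nonneg (not_lt.1 h) (Rf_nonneg _ _ _)
    linarith
  obtain ⟨V0, hV⟩ : ∃ V0, V0 = 6 * (Mon (1 / 2) 0 0 w V a + η * Mon (1 / 2) 0 q w V a) :=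
    ⟨_, rfl⟩
  have hV0 : 0 < V0 := hV ▸ mul_pos (by norm_num) (hf V a hY)
  obtain ⟨k, hk⟩ : ∃ k, k = c * η ^ 4 / (8 * V0 ^ 4) := ⟨_, rfl⟩
  have hk0 : 0 < k := by rw [hk]; positivity
  have l1 := hF.ls.add _ _ _ _ _ _ _ (hF.mon.mon κ (1 / 2) 0 0 hκ)
    (hF.ls.smul _ _ _ _ η (hF.mon.mon κ (1 / 2) 0 q hκ))
  have l2 := hF.ls.add _ _ _ _ _ _ _ (hF.ls.smul _ _ _ _ V0⁻¹ l1)
    (hF.ls.add _ _ _ _ _ _ _ (hF.ls.smul _ _ _ _ k (hF.ls.time κ)) (hF.ls.const κ (-(k * a))))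
  have l3 := hF.ls.comp _ _ _ _ _ _ _ fmv_G fmv_G1 (by fun_prop) l2
  refine ⟨_, _, _, hF.ls.mul _ _ _ _ _ _ _ (hF.mon.cutM κ ε hκ hε) l3, fun W t ht h => ?_, ?_,
    fun W h => ?_⟩
  · obtain ⟨hR, hS0⟩ := hpos W t h
    have hA : 0 ≤ cut (Up W t w / ε) * MM κ w W t := mul_nonneg (cut_nonneg _) (hM W t h)
    have hcr : 0 ≤ crf κ ε w W t := mul_nonneg (hM W t h) (mul_nonneg
      (mul_nonneg (cut1_nonneg _) (div_nonneg (Up_nonneg _ _ _) hε.le)) (by positivity))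
    have hf0 := hf W t h
    have hkt : 0 ≤ k * t + -(k * a) := by nlinarith
    have hfl : η ^ 2 * Rf W t w ≤ (Mon (1 / 2) 0 0 w W t + η * Mon (1 / 2) 0 q w W t) ^ 2 := by
      have h1 : 1 ≤ Sf W t w * (Sf W t w ^ q) ^ 2 := by
        rw [← Real.rpow_natCast, ← Real.rpow_mul hS0.le, ← Real.rpow_one_add' hS0.le]
        · exact Real.one_le_rpow_of_pos_of_le_one_of_nonpos hS0 (Sf_le_one _ _ _)
            (by rw [hq]; push_cast; linarith)
        · rw [hq]; push_cast; linarith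
      have h2 : Yf W t w = Rf W t w * Sf W t w := by rw [Sf]; field_simp
      calc η ^ 2 * Rf W t w ≤ η ^ 2 * (Rf W t w * (Sf W t w * (Sf W t w ^ q) ^ 2)) := by
            gcongr; exact le_mul_of_one_le_right hR.le h1
        _ = (η * Mon (1 / 2) 0 q w W t) ^ 2 := by
            rw [fmv_mon, mul_pow, mul_pow, Real.sq_sqrt h.le, h2]; ring
        _ ≤ _ := by
            rw [fmv_mon, fmv_mon]
            gcongr
            exact le_add_of_nonneg_left (by positivity)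
    have hX : Xf W t w ^ 2 = Rf W t w ^ 2 * (1 - Sf W t w ^ 2) := by
      rw [Sf, div_pow, mul_sub, mul_one, mul_div_cancel₀ _ (by positivity), Rf_sq]; ring
    have hd : Mon (1 / 2) 0 0 w W t * ((cX κ (1 / 2) 0 * (1 - Sf W t w ^ 2) +
          cY κ (1 / 2) 0 0 * Sf W t w ^ 2) / Rf W t w ^ 2) +
        η * (Mon (1 / 2) 0 q w W t * ((cX κ (1 / 2) q * (1 - Sf W t w ^ 2) +
          cY κ (1 / 2) 0 q * Sf W t w ^ 2) / Rf W t w ^ 2)) +
        κ * (rr κ * Xf W t w / Rf W t w ^ 2) *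
          (Mon (1 / 2) 0 0 w W t * (0 * Xf W t w / Rf W t w ^ 2) +
          η * (Mon (1 / 2) 0 q w W t * (q * Xf W t w / Rf W t w ^ 2))) ≤
        -c * (Mon (1 / 2) 0 0 w W t + η * Mon (1 / 2) 0 q w W t) / Rf W t w ^ 2 := by
      have h1 := mul_le_mul_of_nonneg_left (hL _ hS0 (Sf_le_one _ _ _))
        (div_nonneg (Real.sqrt_nonneg (Yf W t w)) (sq_nonneg (Rf W t w)))
      have e1 : cX κ (1 / 2) q = -(1 - κ / 8 + κ * rr κ ^ 2 / 8) - κ * rr κ * q := by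
        rw [cX, hq]; ring
      have e2 : cY κ (1 / 2) 0 q = 1 := by rw [cY, hq]; linarith
      have e3 : κ * (rr κ * Xf W t w / Rf W t w ^ 2) *
          (Mon (1 / 2) 0 0 w W t * (0 * Xf W t w / Rf W t w ^ 2) +
          η * (Mon (1 / 2) 0 q w W t * (q * Xf W t w / Rf W t w ^ 2))) =
          κ * rr κ * q * η * Mon (1 / 2) 0 q w W t * (1 - Sf W t w ^ 2) / Rf W t w ^ 2 := by
        have : (1 - Sf W t w ^ 2) = Xf W t w ^ 2 / Rf W t w ^ 2 := by rw [hX]; field_simp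
        rw [this]; ring
      rw [e3, e1, e2, fmv_mon, fmv_mon, Real.rpow_zero]
      refine le_of_eq_of_le ?_ (h1.trans_eq ?_)
      · rw [cX, cY]; ring
      · ring
    generalize Mon (1 / 2) 0 0 w W t * ((cX κ (1 / 2) 0 * (1 - Sf W t w ^ 2) +
          cY κ (1 / 2) 0 0 * Sf W t w ^ 2) / Rf W t w ^ 2) +
        η * (Mon (1 / 2) 0 q w W t * ((cX κ (1 / 2) q * (1 - Sf W t w ^ 2) +
          cY κ (1 / 2) 0 q * Sf W t w ^ 2) / Rf W t w ^ 2)) = D at hd ⊢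
    generalize Mon (1 / 2) 0 0 w W t * (0 * Xf W t w / Rf W t w ^ 2) +
          η * (Mon (1 / 2) 0 q w W t * (q * Xf W t w / Rf W t w ^ 2)) = E at hd ⊢
    generalize Mon (1 / 2) 0 0 w W t + η * Mon (1 / 2) 0 q w W t = f at *
    generalize rr κ * Xf W t w / Rf W t w ^ 2 = y at *
    generalize cut (Up W t w / ε) * MM κ w W t = A at *
    have hu : 0 ≤ V0⁻¹ * f := by positivity
    have m0 := le_max_right (1 - (V0⁻¹ * f + (k * t + -(k * a))) / 2) 0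
    have m1 : max (1 - (V0⁻¹ * f + (k * t + -(k * a))) / 2) 0 ≤ 1 :=
      max_le (by linarith) zero_le_one
    have m2 : max (1 - (V0⁻¹ * f + (k * t + -(k * a))) / 2) 0 ^ 2 *
        (V0⁻¹ * (D + κ * y * E) + k) ≤ 0 := by
      rcases le_total f (2 * V0) with h1 | h1
      · refine mul_nonpos_of_nonneg_of_nonpos (sq_nonneg _) ?_
        have := fmv_key hη hc hf0 hR hfl h1
        rw [← hk] at this
        exact (add_le_add_left (mul_le_mul_of_nonneg_left hd (by positivity)) k).trans this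
      · have : 2 ≤ V0⁻¹ * f := by rw [le_inv_mul_iff₀ hV0]; linarith
        rw [max_eq_right (by linarith)]; simp
    generalize max (1 - (V0⁻¹ * f + (k * t + -(k * a))) / 2) 0 = m at *
    have m3 : 0 ≤ 1 - m ^ 3 := sub_nonneg.2 (pow_le_one₀ m0 m1)
    refine ⟨mul_nonneg hA m3, ?_⟩
    have n1 := mul_nonpos_of_nonneg_of_nonpos hA m2
    have n2 := mul_nonneg m3 hcr
    have n3 : 0 ≤ A * (κ * m * (V0⁻¹ * E) ^ 2) := by positivity
    nlinarith
  · have e : V0⁻¹ * (Mon (1 / 2) 0 0 w V a + η * Mon (1 / 2) 0 q w V a) + (k * a + -(k * a)) =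
        1 / 6 := by
      have := (hf V a hY).ne'
      rw [hV]; field_simp; ring
    rw [e, max_eq_left (by norm_num)]
    have h1 := mul_le_of_le_one_left (hM V a hY) (cut_le_one (Up V a w / ε))
    have h2 := hM V a hY
    linarith
  · have hR := (hpos V a hY).1
    have h1 : V0 ^ 4 ≤ 6 ^ 4 * (1 + η * B) ^ 4 * Rf V a w ^ 2 := by
      have b1 : Sf V a w ^ q ≤ B := hB ▸ Real.rpow_le_rpow_of_nonpos (by norm_num) hS hq0
      have b2 : √(Yf V a w) ≤ √(Rf V a w) :=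
        Real.sqrt_le_sqrt ((le_abs_self _).trans (Yf_le_Rf V a w))
      have b3 : V0 ≤ 6 * (√(Rf V a w) * 1 + η * (√(Rf V a w) * B)) := by
        have := (hpos V a hY).2
        rw [hV, fmv_mon, fmv_mon, Real.rpow_zero]
        gcongr
      calc V0 ^ 4 ≤ (6 * (√(Rf V a w) * 1 + η * (√(Rf V a w) * B))) ^ 4 := by gcongr
        _ = 6 ^ 4 * (1 + η * B) ^ 4 * (√(Rf V a w) ^ 2) ^ 2 := by ring
        _ = _ := by rw [Real.sq_sqrt hR.le]
    have h2 : 2 ≤ k * (a + 16 * 6 ^ 4 * (1 + η * B) ^ 4 / (c * η ^ 4) * Rf V a w ^ 2) +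
        -(k * a) := by
      have e : k * (a + 16 * 6 ^ 4 * (1 + η * B) ^ 4 / (c * η ^ 4) * Rf V a w ^ 2) + -(k * a) =
          2 * (6 ^ 4 * (1 + η * B) ^ 4 * Rf V a w ^ 2) / V0 ^ 4 := by
        rw [hk]; field_simp; ring
      rw [e, le_div_iff₀ (by positivity)]
      linarith
    have h3 := mul_pos (inv_pos.2 hV0) (hf W _ h)
    rw [max_eq_right (by linarith)]
    simp

end Vale.Agent.P164
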