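import Vale.Agent.P164.Stm2

/-! P164: filling a ball with probability `exp (-C m ^ 2)`. -/

open Set MeasureTheory ProbabilityTheory Metric
open scoped ENNReal NNReal

namespace Vale.Agent.P164

/-- The first `j` steps of the strategy succeed. -/
def fill_A (κ s0 ε b C c s y : ℝ) (T : ℕ → ℝ) (V : Pth) (j : ℕ) : Set Pth :=
  {W | EqOn W V (Icc 0 s) ∧ ∀ i : ℕ, i < j → W ∈ StepOK κ s0 ε b C c (s + i * (b * y ^ 2)) y
    (T (i + 1) - (W (s + i * (b * y ^ 2)) - W s))}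

theorem fill_loc (hS : StepStmt) {κ s0 ε b C c s y : ℝ} {T : ℕ → ℝ} {V W W' : Pth} {j : ℕ}
    (hs : 0 ≤ s) (hb : 0 ≤ b) (h : W ∈ fill_A κ s0 ε b C c s y T V j)
    (e : EqOn W' W (Icc 0 (s + j * (b * y ^ 2)))) : W' ∈ fill_A κ s0 ε b C c s y T V j := by
  have h0 : 0 ≤ b * y ^ 2 := by positivity
  have h1 : s ≤ s + j * (b * y ^ 2) := le_add_of_nonneg_right (by positivity)
  refine ⟨fun u hu => (e ⟨hu.1, hu.2.trans h1⟩).trans (h.1 hu), fun i hi => ?_⟩
  have h2 : (i : ℝ) + 1 ≤ j := by exact_mod_cast hi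
  have h3 : s + i * (b * y ^ 2) + b * y ^ 2 ≤ s + j * (b * y ^ 2) := by nlinarith
  have h4 : 0 ≤ s + i * (b * y ^ 2) := by positivity
  rw [e ⟨h4, by linarith⟩, e ⟨hs, h1⟩]
  exact hS.loc _ _ _ _ _ _ _ _ _ W W' h4 hb (fun u hu => (e ⟨hu.1, hu.2.trans h3⟩).symm) (h.2 i hi)

theorem fill_x {κ s0 ε b C c s y : ℝ} {T : ℕ → ℝ} {V W : Pth} {j : ℕ} (hy : 0 < y) (hT0 : T 0 = 0)
    (hT : ∀ j, |T (j + 1) - T j| ≤ y) (h : W ∈ fill_A κ s0 ε b C c s y T V j) :
    |T (j + 1) - (W (s + j * (b * y ^ 2)) - W s)| ≤ 2 * y := by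
  have h1 := abs_le.1 (hT j)
  cases j with
  | zero =>
    rw [Nat.cast_zero, zero_mul, add_zero s, sub_self, sub_zero, abs_le]
    rw [hT0] at h1
    constructor <;> linarith [h1.1, h1.2]
  | succ i =>
    have h2 := abs_le.1 (h.2 i (Nat.lt_succ_self i)).2.1
    have e : s + ((i + 1 : ℕ) : ℝ) * (b * y ^ 2) = s + i * (b * y ^ 2) + b * y ^ 2 := by
      push_cast
      ring
    rw [e, abs_le]
    constructor <;> linarith [h1.1, h1.2, h2.1, h2.2]

theorem fill (hF : Fnd) (hA : ContAStmt) (hS : StepStmt) (hD : FillDetStmt) : FillStmt := by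
  intro κ μ hc s0 T0 hFM s1 a0 hs1 ha0
  obtain ⟨b, C1, c, hb, hC1, hc0, hc1, hP⟩ := hS.prob κ μ hc s0 T0 hFM
  obtain ⟨τ, C, c', m0, hτ, hτ1, hC, hc', hm0, hd⟩ :=
    hD κ hc.pos hc.lt s1 a0 b C1 c hs1 ha0 hb hC1 hc0
  have hl : Real.log c ≤ 0 := Real.log_nonpos hc0.le hc1
  refine ⟨τ, C - 2 * Real.log c, c', m0, hτ, hτ1, by linarith, hc', hm0,
    fun m ρ ε s V z hm hε hεc hs hS1 hU1 hU2 => ?_⟩
  have hR : 0 < Rf V s z := by
    refine lt_of_le_of_ne (Rf_nonneg V s z) fun h => ?_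
    rw [Sf, ← h, div_zero] at hS1
    linarith
  have hρ : 0 ≤ ρ := (Up_nonneg V s z).trans hU2
  obtain ⟨N, y, T, hy, hN, hN2, hT0, hT, hW⟩ := hd m (a0 * Rf V s z) hm (by positivity)
  have hb0 : 0 ≤ b := by linarith
  have h0 : 0 ≤ b * y ^ 2 := by positivity
  have key := hF.cat.lower κ μ hc.wie
    {W | W ∈ Stay s (s + τ * (a0 * Rf V s z) ^ 2) (3 * (a0 * Rf V s z)) ∧
      ENNReal.ofReal (c' * m ^ (2 - dd κ) * ρ ^ dd κ) ≤
        cm κ s0 ε s (s + τ * (a0 * Rf V s z) ^ 2) W (ball z ((C - 2 * Real.log c) * ρ))}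
    (fun j => s + j * (b * y ^ 2)) (fill_A κ s0 ε b C1 c s y T V) (ENNReal.ofReal c) N
    ((hF.cat.stay _ _ _).inter (measurableSet_le measurable_const
      ((hA.mball κ s0 ε _ _ _).comp (measurable_id.prodMk measurable_const))))
    (fun j _ => by
      push_cast
      linarith)
    (fun V' hV' W => by
      have h1 := fill_loc hS hs hb0 hV' (cat_eqOn _ V' W)
      set W' := cat (s + N * (b * y ^ 2)) V' W
      obtain ⟨-, h2⟩ := hF.flow.loc W' V s h1.1 s ⟨hs, le_rfl⟩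
      have e1 : Rf W' s z = Rf V s z := by rw [Rf, Rf, (h2 z).1]
      have e2 : Sf W' s z = Sf V s z := by rw [Sf, Sf, e1, Yf, Yf, (h2 z).1]
      have e3 : Up W' s z = Up V s z := (h2 z).2.1
      obtain ⟨h3, h4⟩ := hW W' s0 s z ρ ε hs hε (by rw [e1]) (by rwa [e2]) (by rwa [e3])
        (by rwa [e3]) hεc h1.2
      refine ⟨h3, h4.trans (measure_mono (ball_subset_ball ?_))⟩
      exact mul_le_mul_of_nonneg_right (by linarith) hρ)
    (fun j _ V' hV' => by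
      refine (hP (s + j * (b * y ^ 2)) V' y _ ε (by positivity) hy (fill_x hy hT0 hT hV') hε).trans
        (measure_mono fun W hW' => ?_)
      have e := cat_eqOn (s + j * (b * y ^ 2)) V' W
      have h1 := fill_loc hS hs hb0 hV' e
      refine ⟨h1.1, fun i hi => ?_⟩
      rcases (Nat.lt_succ_iff.1 hi).lt_or_eq with h | rfl
      · exact h1.2 i h
      · rw [e ⟨by positivity, le_rfl⟩, e ⟨hs, le_add_of_nonneg_right (by positivity)⟩]
        exact hW')
    V ⟨fun _ _ => rfl, fun i hi => absurd hi (Nat.not_lt_zero i)⟩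
  simp only [Nat.cast_zero, zero_mul, add_zero] at key
  refine le_trans ?_ key
  rw [← ENNReal.ofReal_pow hc0.le]
  refine ENNReal.ofReal_le_ofReal ?_
  rw [← Real.exp_log (pow_pos hc0 N), Real.log_pow]
  refine Real.exp_le_exp.2 ?_
  nlinarith [mul_le_mul_of_nonneg_right hN2 (neg_nonneg.2 hl), sq_nonneg m]

end Vale.Agent.P164
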