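import Vale.Agent.P164.Stm2

/-! The geometric part of the filling strategy. -/

open Set MeasureTheory ProbabilityTheory Metric
open scoped ENNReal NNReal

namespace Vale.Agent.P164

theorem fillA_osc {C P a y s t t' : ℝ} {W : Pth} (h : Osc C P a y s t W) (ht : t' ≤ t) :
    Osc C P a y s t' W :=
  ⟨fun u hu => h.o1 u ⟨hu.1, hu.2.trans ht⟩,
    fun u hu v hv => h.o2 u ⟨hu.1, hu.2.trans ht⟩ v ⟨hv.1, hv.2.trans ht⟩,
    fun u hu hu' => h.o3 u hu (hu'.trans ht)⟩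

theorem fillA_chain (f : ℕ → ℂ) (L : ℕ → ℝ) (Λ : ℕ) (hL : ∀ k, 0 ≤ L k)
    (h : ∀ k, k < Λ → ‖f (k + 1) - f k‖ ≤ L k) (i : ℕ) (hi : i ≤ Λ) :
    ‖f i - f 0‖ ≤ ∑ k ∈ Finset.range Λ, L k := by
  have h1 : dist (f 0) (f i) ≤ ∑ k ∈ Finset.range i, L k := by
    refine dist_le_range_sum_of_dist_le i ?_
    intro k hk
    rw [dist_comm, dist_eq_norm]
    exact h k (lt_of_lt_of_le hk hi)
  rw [dist_comm, dist_eq_norm] at h1
  refine h1.trans (Finset.sum_le_sum_of_subset_of_nonneg (Finset.range_mono hi) ?_)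
  intro k _ _
  exact hL k

theorem fillA (hF : Fnd) (hS : SweepStmt) (hD : DrvStmt) (hG : GeoStmt) : FillAStmt := by
  intro s1 a0 b C1 hs1 ha0 hb hC1
  obtain ⟨C, P, hC, hP, hD⟩ := hD b C1 hb hC1
  obtain ⟨τ0, c, hτ0, hτ1, hc, hS⟩ := hS C P hC hP
  obtain ⟨σ, hσ0, hσ1, hσ2, hσ3⟩ : ∃ σ : ℝ, 0 < σ ∧ σ ≤ τ0 ∧ σ ≤ 1 / 8 ∧ C * σ ≤ 1 := by
    refine ⟨min τ0 (1 / (8 * C)), lt_min hτ0 (by positivity), min_le_left _ _, ?_, ?_⟩
    · refine (min_le_right _ _).trans ?_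
      exact one_div_le_one_div_of_le (by norm_num) (by linarith)
    · have h1 : C * min τ0 (1 / (8 * C)) ≤ C * (1 / (8 * C)) :=
        mul_le_mul_of_nonneg_left (min_le_right _ _) (by linarith)
      have h2 : C * (1 / (8 * C)) = 1 / 8 := by field_simp
      linarith
  have hσσ : σ ^ 2 ≤ σ := by nlinarith
  obtain ⟨C2, hC2, hstep⟩ := hG.step b C1 (by linarith) (by linarith)
  obtain ⟨C3, c3, hC3, hc3, hnear⟩ := hG.near s1 a0 (c * σ ^ 2 / 2) hs1 ha0 (by positivity)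
  refine ⟨σ ^ 2, 2 * C3, c3 / (80 * C2), by positivity, by linarith, by positivity, by positivity, ?_⟩
  intro a y ha hy hya
  have hyσ : y ≤ σ * a := by
    have : y ^ 2 ≤ (σ * a) ^ 2 := by rw [mul_pow]; exact hya
    exact (pow_le_pow_iff_left₀ hy.le (by positivity) two_ne_zero).1 this
  have hy8 : y ≤ a / 8 := by
    have : σ * a ≤ 1 / 8 * a := mul_le_mul_of_nonneg_right hσ2 ha.le
    linarith
  have hCy : C * y ≤ a := by
    have h1 : C * y ≤ C * (σ * a) := mul_le_mul_of_nonneg_left hyσ (by linarith)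
    have h2 : C * σ * a ≤ 1 * a := mul_le_mul_of_nonneg_right hσ3 ha.le
    linarith [mul_assoc C σ a]
  obtain ⟨T, hT0, hT1, hT2, hosc⟩ := hD a y hy (by linarith)
  refine ⟨T, hT0, hT1, ?_⟩
  intro W s z ρ N hs hN haR hsz hρ1 hρ2 hW
  have hO := hosc W s N hW
  have hby : 0 < b * y ^ 2 := by positivity
  have hρ : 0 ≤ ρ := (Up_nonneg _ _ _).trans hρ2
  -- the state of the points above the tip
  have key : ∀ j : ℕ, N ≤ 2 * j → j ≤ N →
      0 < Yf W s (wt W (s + j * (b * y ^ 2)) y) ∧ Yf W s (wt W (s + j * (b * y ^ 2)) y) ≤ a ∧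
      |Xf W s (wt W (s + j * (b * y ^ 2)) y) - (W (s + j * (b * y ^ 2)) - W s)| ≤ a / 4 ∧
      ‖wt W (s + j * (b * y ^ 2)) y - z‖ ≤ C3 * ρ ∧
      c3 * ρ ≤ Up W s (wt W (s + j * (b * y ^ 2)) y) ∧
      Up W s (wt W (s + j * (b * y ^ 2)) y) ≤ C3 * ρ := by
    intro j hj1 hj2
    obtain ⟨t, ht⟩ : ∃ t, t = s + j * (b * y ^ 2) := ⟨_, rfl⟩
    rw [← ht]
    have hj0 : (0 : ℝ) ≤ j * (b * y ^ 2) := by positivity
    have hjN : (j : ℝ) * (b * y ^ 2) ≤ N * (b * y ^ 2) :=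
      mul_le_mul_of_nonneg_right (by exact_mod_cast hj2) hby.le
    have hNj : (N : ℝ) * (b * y ^ 2) ≤ (2 * j) * (b * y ^ 2) :=
      mul_le_mul_of_nonneg_right (by exact_mod_cast hj1) hby.le
    have hst : s ≤ t := by linarith
    have ht0 : 0 ≤ t := by linarith
    have hO' : Osc C P a y s t W := fillA_osc hO (by linarith)
    have hZ : Zf W t (wt W t y) = ⟨0, y⟩ := (hF.confB.right W t ⟨0, y⟩ ht0 hy).2
    have h1 : σ ^ 2 * a ^ 2 ≤ τ0 * a ^ 2 :=
      mul_le_mul_of_nonneg_right (hσσ.trans hσ1) (by positivity)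
    have h2 : σ * a ≤ τ0 * a := mul_le_mul_of_nonneg_right hσ1 ha.le
    obtain ⟨g1, g2, g3⟩ := hS W s t a y (wt W t y) hs hst hy (by linarith) (by linarith) hO' hZ
    have g4 : c * σ ^ 2 / 2 * a ≤ c * (t - s) / a := by
      rw [le_div_iff₀ ha]
      have : σ ^ 2 * a ^ 2 / 2 ≤ t - s := by linarith
      have := mul_le_mul_of_nonneg_left this hc.le
      linarith [show c * σ ^ 2 / 2 * a * a = c * (σ ^ 2 * a ^ 2 / 2) by ring]
    have g5 : |W t - W s| ≤ a + C * y := hO'.o1 t ⟨hst, le_rfl⟩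
    have g6 : Rf W s (wt W t y) ≤ 5 * a := by
      have e1 : Rf W s (wt W t y) ≤ |Xf W s (wt W t y)| + |Yf W s (wt W t y)| :=
        Complex.norm_le_abs_re_add_abs_im _
      rw [abs_of_nonneg (hF.flow.Y_nonneg _ _ _)] at e1
      have e2 : |Xf W s (wt W t y)| ≤ |Xf W s (wt W t y) - (W t - W s)| + |W t - W s| := by
        simpa using abs_add_le (Xf W s (wt W t y) - (W t - W s)) (W t - W s)
      linarith
    have g7 : 0 < c * σ ^ 2 / 2 * a := by positivity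
    obtain ⟨k1, k2, k3⟩ := hnear W s z (wt W t y) ρ hs hsz hρ1 hρ2
      (by rw [← haR]; linarith) (by rw [← haR]; exact g6)
    exact ⟨by linarith, g2, g3, k1, k2, k3⟩
  have htr : ∀ i : ℕ, i ≤ N → |W (s + i * (b * y ^ 2)) - W s - T i| ≤ y := by
    intro i hi
    rcases i with _ | i
    · simp [hT0, hy.le]
    · have := (hW i (by omega)).2
      have e : s + ((i + 1 : ℕ) : ℝ) * (b * y ^ 2) = s + i * (b * y ^ 2) + b * y ^ 2 := by
        push_cast; ring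
      rw [e]; exact this
  refine ⟨?_, ?_, ?_⟩
  · intro u hu
    have := hO.o1 u (by rw [hN]; exact hu)
    linarith
  · intro j hj1 hj2
    obtain ⟨-, -, -, k1, -, k3⟩ := key j hj1 hj2
    have hj0 : (0 : ℝ) ≤ j * (b * y ^ 2) := by positivity
    have hL : Lt W (s + j * (b * y ^ 2)) y ≤ C3 * ρ :=
      (hF.flow.Up_anti W _ (by linarith : s ≤ s + j * (b * y ^ 2))).trans k3
    refine ball_subset_ball' ?_
    rw [dist_eq_norm]
    linarith
  · intro j Λ hj hΛ hjΛ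
    obtain ⟨⟨i1, p1, p2, p3⟩, i2, q1, q2, q3⟩ := hT2 j
    have hi1 : i1 ≤ j + Λ := by
      have : (i1 : ℝ) ≤ ((j + Λ : ℕ) : ℝ) := by push_cast; linarith
      exact_mod_cast this
    have hi2 : i2 ≤ j + Λ := by
      have : (i2 : ℝ) ≤ ((j + Λ : ℕ) : ℝ) := by push_cast; linarith
      exact_mod_cast this
    obtain ⟨-, -, x1, -, -, -⟩ := key i1 (by omega) (by omega)
    obtain ⟨y0, y2, x2, -, u2, -⟩ := key i2 (by omega) (by omega)
    have t1 := htr i1 (by omega)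
    have t2 := htr i2 (by omega)
    have hch := fillA_chain (fun k => wt W (s + ((j + k : ℕ) : ℝ) * (b * y ^ 2)) y)
      (fun k => C2 * Lt W (s + ((j + k : ℕ) : ℝ) * (b * y ^ 2)) y) Λ
      (fun k => mul_nonneg hC2.le (Up_nonneg _ _ _)) (by
        intro k hk
        have e : s + ((j + (k + 1) : ℕ) : ℝ) * (b * y ^ 2) =
            s + ((j + k : ℕ) : ℝ) * (b * y ^ 2) + b * y ^ 2 := by push_cast; ring
        simp only [e]
        exact hstep W _ y (by positivity) hy (hW (j + k) (by omega)).1)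
    have c1 := hch (i1 - j) (by omega)
    have c2 := hch (i2 - j) (by omega)
    simp only [Nat.add_sub_cancel' p1, Nat.add_sub_cancel' q1] at c1 c2
    rw [← Finset.mul_sum] at c1 c2
    obtain ⟨w1, hw1⟩ : ∃ w, w = wt W (s + i1 * (b * y ^ 2)) y := ⟨_, rfl⟩
    obtain ⟨w2, hw2⟩ : ∃ w, w = wt W (s + i2 * (b * y ^ 2)) y := ⟨_, rfl⟩
    rw [← hw1] at x1 c1
    rw [← hw2] at y0 y2 x2 u2 c2
    have hfar : Up W s w2 / 40 ≤ ‖w1 - w2‖ := by
      by_contra hn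
      have hb' := (hF.koebe.ball W s w2 w1 hs ((hF.flow.alive W s w2 hs).2 y0) (not_le.1 hn)).2.1
      have e1 : |Xf W s w1 - Xf W s w2| ≤ ‖Zf W s w1 - Zf W s w2‖ := by
        have := Complex.abs_re_le_norm (Zf W s w1 - Zf W s w2)
        rwa [Complex.sub_re] at this
      have e2 := le_abs_self (Xf W s w1 - Xf W s w2)
      have := abs_le.1 x1
      have := abs_le.1 x2
      have := abs_le.1 t1
      have := abs_le.1 t2
      linarith
    obtain ⟨w0, hw0⟩ : ∃ w, w = wt W (s + ((j + 0 : ℕ) : ℝ) * (b * y ^ 2)) y := ⟨_, rfl⟩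
    obtain ⟨Sg, hSg⟩ : ∃ x, x = ∑ i ∈ Finset.range Λ, Lt W (s + ((j + i : ℕ) : ℝ) * (b * y ^ 2)) y :=
      ⟨_, rfl⟩
    rw [← hw0, ← hSg] at c1 c2
    rw [← hSg]
    have tri : ‖w1 - w2‖ ≤ ‖w1 - w0‖ + ‖w2 - w0‖ := by
      have := norm_sub_le (w1 - w0) (w2 - w0)
      rwa [sub_sub_sub_cancel_right] at this
    rw [div_mul_eq_mul_div, div_le_iff₀ (by positivity)]
    linarith

end Vale.Agent.P164
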