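import Vale.Agent.P164.Stm2

/-! P164: the deterministic part of the filling strategy. -/

open Set MeasureTheory Metric
open scoped ENNReal

namespace Vale.Agent.P164

theorem FillDet_tangent {L lam d : ℝ} (hL : 0 ≤ L) (hl : 0 < lam) (hd : 1 ≤ d) :
    lam ^ (d - 1) * (L - lam) ≤ L ^ d := by
  rcases le_total L lam with h | h
  · exact le_trans (mul_nonpos_of_nonneg_of_nonpos (by positivity) (by linarith)) (by positivity)
  · have h0 : 0 < L := lt_of_lt_of_le hl h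
    have h1 : lam ^ (d - 1) ≤ L ^ (d - 1) := Real.rpow_le_rpow hl.le h (by linarith)
    have h2 : L ^ d = L ^ (d - 1) * L := by
      rw [← Real.rpow_add_one h0.ne']
      congr 1
      ring
    rw [h2]
    exact mul_le_mul h1 (by linarith) (by linarith) (by positivity)

theorem FillDet_chain (hA : ContAStmt) (κ s0 ε : ℝ) (W : Pth) (B : Set ℂ) (t : ℕ → ℝ)
    (ht : Monotone t) (h : ℕ → ℝ) (n : ℕ)
    (hh : ∀ i, i < n → ENNReal.ofReal (h i) ≤ cm κ s0 ε (t i) (t (i + 1)) W B) :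
    ENNReal.ofReal (∑ i ∈ Finset.range n, h i) ≤ cm κ s0 ε (t 0) (t n) W B := by
  induction n with
  | zero => simp
  | succ n ih =>
    rw [Finset.sum_range_succ, hA.add κ s0 ε (t 0) (t n) (t (n + 1)) W (ht (Nat.zero_le n))
      (ht (Nat.le_succ n)), Measure.add_apply]
    exact ENNReal.ofReal_add_le.trans
      (add_le_add (ih fun i hi => hh i (Nat.lt_succ_of_lt hi)) (hh n (Nat.lt_succ_self n)))

theorem FillDet_blocks (L : ℕ → ℝ) (x : ℝ) (La nb : ℕ)
    (h : ∀ k, k < nb → x ≤ ∑ i ∈ Finset.range La, L (k * La + i)) :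
    nb * x ≤ ∑ i ∈ Finset.range (nb * La), L i := by
  induction nb with
  | zero => simp
  | succ n ih =>
    rw [Nat.succ_mul, Finset.sum_range_add]
    have h1 := ih fun k hk => h k (Nat.lt_succ_of_lt hk)
    have h2 := h n (Nat.lt_succ_self n)
    push_cast
    linarith

/-- The choice of the numbers of steps and of blocks. -/
theorem FillDet_num {τ b : ℝ} (hτ : 0 < τ) (hb : 1 ≤ b) : ∃ k1 : ℝ, 1 ≤ k1 ∧ ∀ m a : ℝ,
    8 * k1 ≤ m → 0 < a → ∃ (N J La nb : ℕ) (y : ℝ), 0 < y ∧ N * (b * y ^ 2) = τ * a ^ 2 ∧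
      (N : ℝ) ≤ 2 * m ^ 2 ∧ y ^ 2 ≤ τ * a ^ 2 ∧ N ≤ 2 * J ∧ J + nb * La ≤ N ∧ 4 * a / y ≤ La ∧
      (La : ℝ) ≤ k1 * m ∧ m / (8 * k1) ≤ nb := by
  have hb0 : 0 < b := by linarith
  have hk0 : 0 ≤ √(2 * b / τ) := Real.sqrt_nonneg _
  refine ⟨4 * √(2 * b / τ) + 1, by linarith, fun m a hm ha => ?_⟩
  generalize hk : √(2 * b / τ) = k0 at hk0 hm ⊢
  have hk2 : k0 ^ 2 = 2 * b / τ := by rw [← hk]; exact Real.sq_sqrt (by positivity)
  have hm8 : 8 ≤ m := by linarith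
  have hm0 : 0 < m := by linarith
  have hN1 : m ^ 2 ≤ (⌈m ^ 2⌉₊ : ℝ) := Nat.le_ceil _
  have hN2 : (⌈m ^ 2⌉₊ : ℝ) < m ^ 2 + 1 := Nat.ceil_lt_add_one (by positivity)
  generalize ⌈m ^ 2⌉₊ = N at hN1 hN2
  have hm2 : 64 ≤ m ^ 2 := by nlinarith
  have hN0 : (0 : ℝ) < N := by linarith
  have hy0 : 0 < a * √(τ / (b * N)) := by positivity
  have hy2 : (a * √(τ / (b * N))) ^ 2 = a ^ 2 * (τ / (b * N)) := by
    rw [mul_pow, Real.sq_sqrt (by positivity)]
  generalize a * √(τ / (b * N)) = y at hy0 hy2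
  have hNy : N * (b * y ^ 2) = τ * a ^ 2 := by
    rw [hy2]
    field_simp
  have hay : a / y ≤ k0 * m := by
    rw [div_le_iff₀ hy0]
    refine (sq_le_sq₀ ha.le (by positivity)).mp ?_
    have e1 : (k0 * m * y) ^ 2 = 2 * m ^ 2 * (b * y ^ 2) / τ := by
      rw [mul_pow, mul_pow, hk2]
      ring
    rw [e1, le_div_iff₀ hτ, mul_comm, ← hNy]
    exact mul_le_mul_of_nonneg_right (by linarith) (by positivity)
  have hL1 : 4 * a / y ≤ (⌈4 * a / y⌉₊ : ℝ) := Nat.le_ceil _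
  have hL2 : (⌈4 * a / y⌉₊ : ℝ) < 4 * a / y + 1 := Nat.ceil_lt_add_one (by positivity)
  generalize ⌈4 * a / y⌉₊ = La at hL1 hL2
  have hL3 : (La : ℝ) ≤ (4 * k0 + 1) * m := by
    have : 4 * a / y = 4 * (a / y) := by ring
    nlinarith
  have hk1 : 0 < 4 * k0 + 1 := by linarith
  have hn1 : (⌊m / (4 * (4 * k0 + 1))⌋₊ : ℝ) ≤ m / (4 * (4 * k0 + 1)) := Nat.floor_le (by positivity)
  have hn2 : m / (4 * (4 * k0 + 1)) < ⌊m / (4 * (4 * k0 + 1))⌋₊ + 1 := Nat.lt_floor_add_one _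
  generalize ⌊m / (4 * (4 * k0 + 1))⌋₊ = nb at hn1 hn2
  have hq : 1 ≤ m / (8 * (4 * k0 + 1)) := by
    rw [le_div_iff₀ (by positivity)]
    linarith
  have hq2 : m / (4 * (4 * k0 + 1)) = 2 * (m / (8 * (4 * k0 + 1))) := by
    field_simp
    ring
  have hp : (nb : ℝ) * La ≤ m ^ 2 / 4 := by
    refine (mul_le_mul hn1 hL3 (by positivity) (by positivity)).trans (le_of_eq ?_)
    field_simp
  have hp2 : 4 * (nb * La) ≤ N := by
    have : (4 : ℝ) * (nb * La) ≤ N := by linarith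
    exact_mod_cast this
  have hN3 : 64 ≤ N := by
    have : (64 : ℝ) ≤ N := by linarith
    exact_mod_cast this
  refine ⟨N, (N + 1) / 2, La, nb, y, hy0, hNy, by linarith, ?_, by omega, by omega, hL1, hL3,
    by linarith⟩
  rw [← hNy]
  have h1 : (1 : ℝ) * (1 * y ^ 2) ≤ N * (b * y ^ 2) :=
    mul_le_mul (by linarith) (mul_le_mul_of_nonneg_right hb (by positivity)) (by positivity) hN0.le
  linarith

theorem fillDet (_hF : Fnd) (hA : ContAStmt) (hFA : FillAStmt) : FillDetStmt := by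
  intro κ hκ hκ8 s1 a0 b C1 c hs1 ha0 hb hC1 hc
  obtain ⟨τ, C, cA, hτ, hτ1, hC, hcA, hfill⟩ := hFA s1 a0 b C1 hs1 ha0 hb hC1
  obtain ⟨k1, hk1, hnum⟩ := FillDet_num hτ hb
  have hd := one_lt_dd hκ
  have hk0 : 0 < k1 := by linarith
  refine ⟨τ, C, min (c * cA / (2 * k1)) (c * cA * (cA / (2 * k1)) ^ (dd κ - 1) / (16 * k1)),
    8 * k1, hτ, hτ1, hC, by positivity, by linarith, fun m a hm ha => ?_⟩
  obtain ⟨N, J, La, nb, y, hy, hNy, hN, hy2, hJ, hJN, hLa, hLa', hnb⟩ := hnum m a hm ha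
  obtain ⟨T, hT0, hT1, hW⟩ := hfill a y ha hy hy2
  refine ⟨N, y, T, hy, hNy, hN, hT0, hT1, ?_⟩
  intro W s0 s z ρ ε hs hε haR hS hU1 hU2 hερ hstep
  have hm0 : 0 < m := by linarith
  have hρ : 0 < ρ := by
    by_contra hn
    have h1 : min (c * cA / (2 * k1)) (c * cA * (cA / (2 * k1)) ^ (dd κ - 1) / (16 * k1)) * ρ / m
        ≤ 0 :=
      div_nonpos_of_nonpos_of_nonneg
        (mul_nonpos_of_nonneg_of_nonpos (by positivity) (not_lt.mp hn)) hm0.le
    linarith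
  obtain ⟨h1, h2, h3⟩ := hW W s z ρ N hs hNy haR hS hU1 hU2 fun j hj => by
    obtain ⟨e1, e2, -⟩ := hstep j hj
    refine ⟨e1, le_of_eq_of_le ?_ e2⟩
    congr 1
    ring
  refine ⟨h1, ?_⟩
  have hby : 0 < b * y ^ 2 := by positivity
  obtain ⟨lam, hlam⟩ : ∃ lam, lam = cA / (2 * k1) * ρ / m := ⟨_, rfl⟩
  have hl0 : 0 < lam := by rw [hlam]; positivity
  have hεl : ε ≤ c * lam := by
    refine hερ.trans ?_
    have : c * lam = c * cA / (2 * k1) * ρ / m := by rw [hlam]; ring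
    rw [this]
    exact div_le_div_of_nonneg_right (mul_le_mul_of_nonneg_right (min_le_left _ _) hρ.le) hm0.le
  have hmono : Monotone fun i : ℕ => s + ((J + i : ℕ) : ℝ) * (b * y ^ 2) := by
    intro i j hij
    have : ((J + i : ℕ) : ℝ) ≤ ((J + j : ℕ) : ℝ) := by exact_mod_cast Nat.add_le_add_left hij J
    exact add_le_add le_rfl (mul_le_mul_of_nonneg_right this hby.le)
  have hch := FillDet_chain hA κ s0 ε W (ball z (C * ρ)) _ hmono
    (fun i => c * (lam ^ (dd κ - 1) * (Lt W (s + ((J + i : ℕ) : ℝ) * (b * y ^ 2)) y - lam)))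
    (nb * La) fun i hi => by
      have hiN : J + i < N := by omega
      obtain ⟨-, -, e3⟩ := hstep (J + i) hiN
      have e4 := h2 (J + i) (by omega) hiN.le
      have e5 : s + ((J + (i + 1) : ℕ) : ℝ) * (b * y ^ 2) =
          s + ((J + i : ℕ) : ℝ) * (b * y ^ 2) + b * y ^ 2 := by
        push_cast
        ring
      rw [e5]
      by_cases hcase : ε ≤ c * Lt W (s + ((J + i : ℕ) : ℝ) * (b * y ^ 2)) y
      · refine le_trans (ENNReal.ofReal_le_ofReal ?_) ((e3 hcase).trans (measure_mono e4))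
        exact mul_le_mul_of_nonneg_left (FillDet_tangent (Up_nonneg _ _ _) hl0 hd.le) hc.le
      · have e6 : Lt W (s + ((J + i : ℕ) : ℝ) * (b * y ^ 2)) y ≤ lam :=
          le_of_mul_le_mul_left (by linarith) hc
        rw [ENNReal.ofReal_of_nonpos (mul_nonpos_of_nonneg_of_nonpos hc.le
          (mul_nonpos_of_nonneg_of_nonpos (by positivity) (by linarith)))]
        exact zero_le
  have hbl := FillDet_blocks (fun i => Lt W (s + ((J + i : ℕ) : ℝ) * (b * y ^ 2)) y) (cA * ρ) La nb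
    fun k hk => by
      have e1 : (k + 1) * La ≤ nb * La := Nat.mul_le_mul_right La hk
      have e2 : (k + 1) * La = k * La + La := Nat.succ_mul k La
      have := h3 (J + k * La) La (by omega) hLa (by omega)
      simpa only [Nat.add_assoc] using this
  have hend : s + ((J + nb * La : ℕ) : ℝ) * (b * y ^ 2) ≤ s + τ * a ^ 2 := by
    rw [← hNy]
    have : ((J + nb * La : ℕ) : ℝ) ≤ N := by exact_mod_cast hJN
    exact add_le_add le_rfl (mul_le_mul_of_nonneg_right this hby.le)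
  have hstart : s ≤ s + ((J + 0 : ℕ) : ℝ) * (b * y ^ 2) := le_add_of_nonneg_right (by positivity)
  refine le_trans (ENNReal.ofReal_le_ofReal ?_)
    (hch.trans ((hA.mono κ s0 ε _ _ s (s + τ * a ^ 2) W hstart hend).2 _))
  rw [← Finset.mul_sum, ← Finset.mul_sum, Finset.sum_sub_distrib, Finset.sum_const,
    Finset.card_range, nsmul_eq_mul]
  have hLl : (La : ℝ) * lam ≤ cA * ρ / 2 := by
    refine (mul_le_mul_of_nonneg_right hLa' hl0.le).trans (le_of_eq ?_)
    rw [hlam]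
    field_simp
  have hsum : m / (8 * k1) * (cA * ρ / 2) ≤
      ∑ i ∈ Finset.range (nb * La), Lt W (s + ((J + i : ℕ) : ℝ) * (b * y ^ 2)) y -
        ((nb * La : ℕ) : ℝ) * lam := by
    have e1 := mul_le_mul_of_nonneg_left hLl (Nat.cast_nonneg (α := ℝ) nb)
    have e2 := mul_le_mul_of_nonneg_right hnb (show 0 ≤ cA * ρ / 2 by positivity)
    have e3 : ((nb * La : ℕ) : ℝ) * lam = nb * (La * lam) := by
      push_cast
      ring
    linarith
  have hpow : lam ^ (dd κ - 1) * (m * ρ) =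
      (cA / (2 * k1)) ^ (dd κ - 1) * (m ^ (2 - dd κ) * ρ ^ dd κ) := by
    have e1 : ρ ^ dd κ = ρ ^ (dd κ - 1) * ρ := by
      rw [← Real.rpow_add_one hρ.ne']
      congr 1
      ring
    have e2 : m ^ (2 - dd κ) = m / m ^ (dd κ - 1) := by
      rw [show 2 - dd κ = 1 - (dd κ - 1) by ring, Real.rpow_sub hm0, Real.rpow_one]
    rw [hlam, Real.div_rpow (by positivity) hm0.le, Real.mul_rpow (by positivity) hρ.le, e1, e2]
    ring
  calc min (c * cA / (2 * k1)) (c * cA * (cA / (2 * k1)) ^ (dd κ - 1) / (16 * k1)) *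
        m ^ (2 - dd κ) * ρ ^ dd κ
      ≤ c * cA * (cA / (2 * k1)) ^ (dd κ - 1) / (16 * k1) * m ^ (2 - dd κ) * ρ ^ dd κ :=
        mul_le_mul_of_nonneg_right
          (mul_le_mul_of_nonneg_right (min_le_right _ _) (by positivity)) (by positivity)
    _ = c * cA / (16 * k1) * ((cA / (2 * k1)) ^ (dd κ - 1) * (m ^ (2 - dd κ) * ρ ^ dd κ)) := by
        ring
    _ = c * (lam ^ (dd κ - 1) * (m / (8 * k1) * (cA * ρ / 2))) := by
        rw [← hpow]
        ring
    _ ≤ _ := mul_le_mul_of_nonneg_left (mul_le_mul_of_nonneg_left hsum (by positivity)) hc.le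

end Vale.Agent.P164
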