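import Vale.Agent.P164.Stm2

open Set MeasureTheory ProbabilityTheory Metric
open scoped ENNReal NNReal

namespace Vale.Agent.P164

universe u

theorem fin_of (hW : WienStmt.{u}) (hG : GaugeStmt) (hC : CoverStmt) (hK : CurveStmt)
    (hU : UpperStmt) (hL : LowerStmt) :
    ∀ κ : ℝ, 0 < κ → κ < 8 →
      IsGauge (gauge κ) ∧
      (∀ r : ℝ, 0 < r → r ≤ 1 / 16 → gauge κ r =
        r ^ (1 + κ / 8) * Real.log (Real.log (1 / r)) ^ ((2 - (1 + κ / 8)) / 2)) ∧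
      ∀ (Ω : Type u) [MeasurableSpace Ω] (P : Measure Ω) (B : ℝ≥0 → Ω → ℝ), IsBrownianReal B P →
        ∀ᵐ ω ∂P, ∀ γ : ℝ → ℂ, Generates (fun t => √κ * B t.toNNReal ω) γ →
          ∀ s t : ℝ, 0 < s → s < t →
            0 < hausd (gauge κ) (γ '' Icc s t) ∧ hausd (gauge κ) (γ '' Icc s t) < ⊤ := by
  intro κ h0 h8
  refine ⟨hG.isGauge κ h0 h8, fun r _ hr => ?_, fun Ω _ P B hB => ?_⟩
  · unfold gauge
    rw [min_eq_left hr]
  obtain ⟨μ, hμ, htr⟩ := hW κ h0 Ω P B hB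
  have hc : Ctx κ μ := ⟨h0, h8, hμ⟩
  have hup : ∀ᵐ W ∂μ, ∀ n : ℕ × ℕ,
      hausd (gauge κ) (Tr W (n.1 : ℝ) ∩ ball 0 ((n.2 : ℝ) + 1)) < ⊤ :=
    ae_all_iff.2 fun n => hU κ μ hc _ _ (Nat.cast_nonneg _) (by positivity)
  have hall := htr _ (hup.and (hL κ μ hc))
  filter_upwards [hall] with ω hω
  obtain ⟨W, hWω, h1, h2⟩ := hω
  intro γ hγ s t hs hst
  have e : (fun t : ℝ => √κ * B t.toNNReal ω) = (W : ℝ → ℝ) := funext fun t => (hWω t).symm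
  rw [e] at hγ
  obtain ⟨k1, k2⟩ := hK W γ hγ
  have hcomp : ∀ a b : ℝ, 0 ≤ a → IsCompact (γ '' Icc a b) := fun a b ha =>
    isCompact_Icc.image_of_continuousOn (hγ.1.mono fun x hx => ha.trans hx.1)
  constructor
  · obtain ⟨a, b, hsa, hab, hbt, h⟩ := h2 s t hs.le hst
    have ha : 0 ≤ a := hs.le.trans hsa
    exact (h _ (hcomp a b ha) (k2 a b ha hab)).trans_le
      (hC.mono _ _ _ (image_mono (Icc_subset_Icc hsa hbt)))
  · obtain ⟨b, hb⟩ := exists_nat_ge t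
    obtain ⟨R, hR⟩ := (hcomp s t hs.le).isBounded.subset_ball (0 : ℂ)
    obtain ⟨n, hn⟩ := exists_nat_ge R
    refine lt_of_le_of_lt (hC.mono _ _ _ ?_) (h1 (b, n))
    refine subset_inter ?_ (hR.trans (ball_subset_ball (by simp only; linarith)))
    exact (image_mono (Icc_subset_Icc hs.le hb)).trans (k1 b (Nat.cast_nonneg _))

end Vale.Agent.P164
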