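import Vale.Agent.P164.Stm2

/-! P164: the expected area of the set that has to be covered by small balls. -/

open Set MeasureTheory ProbabilityTheory Metric
open scoped ENNReal NNReal

namespace Vale.Agent.P164

/-- A strip. -/
def finExp_S (R ρ : ℝ) : Set ℂ := {w : ℂ | ‖w‖ < R ∧ 0 < w.im ∧ w.im < ρ}

theorem finExp_Sm (R ρ : ℝ) : MeasurableSet (finExp_S R ρ) :=
  (measurableSet_lt measurable_norm measurable_const).inter
    ((measurableSet_lt measurable_const Complex.measurable_im).inter
      (measurableSet_lt Complex.measurable_im measurable_const))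

theorem finExp_strip (hF : Fnd) {a R ρ B e : ℝ} (ha : 0 ≤ a) (ha1 : a < 1) (hR : 0 < R)
    (hρ : 0 < ρ) (hB : 0 ≤ B) (he : 0 < e) :
    ∫⁻ w, (finExp_S R ρ).indicator (fun w => ENNReal.ofReal (B * (e / w.im) ^ a)) w ≤
      ENNReal.ofReal (B * e ^ a * (2 * R * ρ ^ (1 - a) / (1 - a))) := by
  rw [lintegral_indicator (finExp_Sm R ρ), ENNReal.ofReal_mul (by positivity)]
  refine le_trans (le_of_eq ?_) (mul_le_mul_right (hF.elem.strip a R ρ ha ha1 hR hρ) _)
  rw [← lintegral_const_mul' _ _ ENNReal.ofReal_ne_top]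
  refine setLIntegral_congr_fun (finExp_Sm R ρ) fun w hw => ?_
  rw [← ENNReal.ofReal_mul (by positivity), Real.div_rpow he.le hw.2.1.le,
    Real.rpow_neg hw.2.1.le, div_eq_mul_inv, mul_assoc]

theorem finExp_meas (hA : ContAStmt) (hO : OPStmt) (κ s0 ε T C c m ρ0 : ℝ) (K : ℕ) (e b : ℝ) :
    MeasurableSet {p : Pth × ℂ | p.2 ∈ Bd κ s0 ε T C c m ρ0 K e b p.1} := by
  have hi : Measurable fun p : Pth × ℂ => p.2.im := Complex.measurable_im.comp measurable_snd
  have h1 : MeasurableSet {p : Pth × ℂ | |p.2.im| ≤ 3 * e} :=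
    measurableSet_le hi.abs measurable_const
  have h2 : MeasurableSet {p : Pth × ℂ | p.1 ∈ Hit p.2 (81 * e) 0 b} :=
    measurable_swap (hO.meas (81 * e) 0 b)
  have h3 : MeasurableSet {p : Pth × ℂ | p.2.im < ρ0} := measurableSet_lt hi measurable_const
  have h4 : MeasurableSet {p : Pth × ℂ | p.1 ∈ Bad κ s0 ε T C c m ρ0 K p.2} := by
    simp only [Bad, mem_setOf_eq]
    rw [setOf_forall]
    refine MeasurableSet.iInter fun k => ?_
    rw [setOf_forall]
    exact MeasurableSet.iInter fun _ => measurableSet_lt (hA.mball _ _ _ _ _ _) measurable_const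
  exact h1.union (h2.inter (h3.union h4))

theorem finExp (hF : Fnd) (hA : ContAStmt) (hO : OPStmt) (hT : TrialStmt) : FinExpStmt := by
  intro κ μ hc s0 T0 hFM
  obtain ⟨C, c, c', A, m0, hC, hc0, hc', hc4, hA0, hm0, hT⟩ := hT κ μ hc s0 T0 hFM
  obtain ⟨A', hA', hab⟩ := hO.abs κ μ hc
  have hd1 := one_lt_dd hc.pos
  have hd2 := dd_lt_two hc.lt
  have hP := hc.wie.prob
  have ea : 1 - (2 - dd κ) = dd κ - 1 := by ring
  have hd3 : 0 < dd κ - 1 := by linarith
  refine ⟨C, c, c', m0, hC, hc0, hc', hc4, hm0, fun R hR => ?_⟩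
  set B1 := A' * 81 ^ (2 - dd κ) * (2 * R / (dd κ - 1)) with hB1
  set B2 := 81 * A * 81 ^ (2 - dd κ) * (2 * R * R ^ (dd κ - 1) / (dd κ - 1)) with hB2
  have hB10 : 0 ≤ B1 := by positivity
  have hB20 : 0 ≤ B2 := by positivity
  refine ⟨12 * R + B1 + B2, by positivity, fun m K ρ0 ε e b T hm hρ hε he hb hbT hεc heK => ?_⟩
  have hS := finExp_meas hA hO κ s0 ε T C c m ρ0 K e b
  have hS' := hS.inter (measurable_snd (measurableSet_ball (x := (0 : ℂ)) (ε := R)))
  refine ⟨fun W => measurable_prodMk_left hS, measurable_measure_prodMk_left hS', ?_⟩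
  have h1 := (Measure.prod_apply (μ := μ) (ν := volume) hS').symm.trans
    (Measure.prod_apply_symm hS')
  refine h1.trans_le ?_
  set q := (1 - c' * Real.exp (-(C * m ^ 2))) ^ K with hq
  have hq0 : 0 ≤ q := by
    have : Real.exp (-(C * m ^ 2)) ≤ 1 := Real.exp_le_one_iff.2 (neg_nonpos.2 (by positivity))
    exact pow_nonneg (by nlinarith) _
  set u := e / (ρ0 / 8 ^ K) with hu
  have hu0 : 0 ≤ u := by positivity
  have hm1 : MeasurableSet {w : ℂ | ‖w‖ < R ∧ |w.im| ≤ 3 * e} :=
    (measurableSet_lt measurable_norm measurable_const).inter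
      (measurableSet_le Complex.measurable_im.abs measurable_const)
  refine (lintegral_mono (g := fun w => {w : ℂ | ‖w‖ < R ∧ |w.im| ≤ 3 * e}.indicator 1 w +
    ((finExp_S R ρ0).indicator (fun w => ENNReal.ofReal (A' * (81 * e / w.im) ^ (2 - dd κ))) w +
    (finExp_S R R).indicator (fun w => ENNReal.ofReal
      (A * (q + 81 * u) * (81 * e / w.im) ^ (2 - dd κ))) w)) fun w => ?_).trans ?_
  · by_cases hw : ‖w‖ < R
    swap
    · refine le_trans (le_of_eq (measure_mono_null (fun W hW => ?_) measure_empty)) zero_le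
      exact hw (mem_ball_zero_iff.1 hW.2)
    by_cases h3 : |w.im| ≤ 3 * e
    · refine le_trans ?_ le_self_add
      rw [indicator_of_mem (show w ∈ {w : ℂ | ‖w‖ < R ∧ |w.im| ≤ 3 * e} from ⟨hw, h3⟩)]
      exact prob_le_one
    refine le_trans ?_ le_add_self
    by_cases h0 : 0 < w.im
    swap
    · refine le_trans (le_of_eq (measure_mono_null (fun W hW => ?_) measure_empty)) zero_le
      obtain ⟨t, ht, -, h4⟩ := (hW.1.resolve_left h3).1
      exact h0 ((hF.flow.alive W t w ht.1).2 h4).1
    have h5 : w.im < R := ((le_abs_self _).trans (Complex.abs_im_le_norm w)).trans_lt hw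
    by_cases h4 : w.im < ρ0
    · refine le_trans ?_ le_self_add
      rw [indicator_of_mem (show w ∈ finExp_S R ρ0 from ⟨hw, h0, h4⟩)]
      exact (measure_mono fun W hW => (hW.1.resolve_left h3).1).trans
        (hab w (81 * e) b (by positivity) h0)
    · refine le_trans ?_ le_add_self
      rw [indicator_of_mem (show w ∈ finExp_S R R from ⟨hw, h0, h5⟩)]
      refine (measure_mono fun W hW => ?_).trans ((hT m K ρ0 ε (81 * e) b T w hm hρ hε
        (by positivity) hb (by nlinarith) (not_lt.1 h4) hεc (by linarith)).trans (le_of_eq ?_))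
      · exact ⟨(hW.1.resolve_left h3).1, (hW.1.resolve_left h3).2.resolve_left h4⟩
      · congr 1
        rw [hu]
        ring
  · have hm2 : Measurable fun w : ℂ => ENNReal.ofReal (A' * (81 * e / w.im) ^ (2 - dd κ)) :=
      (measurable_const.mul ((measurable_const.div Complex.measurable_im).pow_const
        _)).ennreal_ofReal
    rw [lintegral_add_left (measurable_one.indicator hm1), lintegral_indicator_one hm1,
      lintegral_add_left (hm2.indicator (finExp_Sm R ρ0))]
    have h81 : 0 < 81 * e := by positivity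
    refine (add_le_add (hF.elem.strip0 R (3 * e) hR (by positivity)) (add_le_add
      (finExp_strip hF (by linarith) (by linarith) hR hρ (by linarith) h81)
      (finExp_strip hF (by linarith) (by linarith) hR hR (by positivity) h81))).trans ?_
    rw [ea, ← ENNReal.ofReal_add (by positivity) (by positivity),
      ← ENNReal.ofReal_add (by positivity) (by positivity)]
    refine ENNReal.ofReal_le_ofReal ?_
    rw [Real.mul_rpow (by norm_num) he.le]
    set x := e ^ (2 - dd κ) with hx
    set r := ρ0 ^ (dd κ - 1) with hr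
    have hx0 : 0 ≤ x := by positivity
    have hr0 : 0 ≤ r := by positivity
    have e1 : A' * (81 ^ (2 - dd κ) * x) * (2 * R * r / (dd κ - 1)) = B1 * (x * r) := by
      rw [hB1]
      ring
    have e2 : A * (q + 81 * u) * (81 ^ (2 - dd κ) * x) * (2 * R * R ^ (dd κ - 1) / (dd κ - 1)) =
        B2 * (x * (q / 81 + u)) := by
      rw [hB2]
      ring
    rw [e1, e2]
    have g0 : 0 ≤ x * r := by positivity
    have g1 : 0 ≤ x * q := by positivity
    have g2 : 0 ≤ x * u := by positivity
    have k0 : e ≤ e + x * (r + q + u) := by nlinarith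
    have k1 : x * r ≤ e + x * (r + q + u) := by nlinarith
    have k2 : x * (q / 81 + u) ≤ e + x * (r + q + u) := by nlinarith
    have l0 := mul_le_mul_of_nonneg_left k0 (show 0 ≤ 12 * R by positivity)
    have l1 := mul_le_mul_of_nonneg_left k1 hB10
    have l2 := mul_le_mul_of_nonneg_left k2 hB20
    linarith

end Vale.Agent.P164
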