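import Vale.Agent.P164.Stm2

/-! P164: numerical estimates for the upper bound. -/

open Set

namespace Vale.Agent.P164

theorem finNum_exp {a y : ℝ} (ha : 0 < a) : y * Real.exp (-(a * y)) ≤ 1 / a := by
  rw [Real.exp_neg, ← div_eq_mul_inv, div_le_div_iff₀ (Real.exp_pos _) ha]
  linarith [Real.add_one_le_exp (a * y)]

theorem finNum_LL (hG : GaugeStmt) {n : ℕ} (hn : 28 ≤ n) :
    LL (1 / 8 ^ (4 * n)) ≤ 2 * Real.log n := by
  have hn' : (28 : ℝ) ≤ n := by exact_mod_cast hn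
  have h1 : (16 : ℝ) ≤ 8 ^ (4 * n) :=
    le_trans (by norm_num) (pow_le_pow_right₀ (by norm_num : (1 : ℝ) ≤ 8) (by omega : 2 ≤ 4 * n))
  have h8 : Real.log 8 ≤ 7 := by linarith [Real.log_le_sub_one_of_pos (by norm_num : (0 : ℝ) < 8)]
  have h9 : 0 < Real.log 8 := Real.log_pos (by norm_num)
  rw [hG.LL_eq _ (one_div_le_one_div_of_le (by norm_num) h1), one_div_one_div, Real.log_pow,
    show 2 * Real.log n = Real.log (n ^ 2) by rw [Real.log_pow]; norm_num]
  refine Real.log_le_log (by positivity) ?_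
  push_cast
  nlinarith

theorem finNum_pow {a b : ℝ} (ha : 0 ≤ a) (hb : b ≤ 1) {n j : ℕ} (h : n ≤ j) :
    ((1 : ℝ) / 8 ^ j) ^ a ≤ Real.exp (-(a * Real.log 8 * n)) ∧
      (1 : ℝ) / 8 ^ j ≤ Real.exp (-(b * Real.log 8 * n)) := by
  have h9 : 0 < Real.log 8 := Real.log_pos (by norm_num)
  have hj : (n : ℝ) ≤ j := by exact_mod_cast h
  have e : (1 : ℝ) / 8 ^ j = Real.exp (-(Real.log 8 * j)) := by
    rw [Real.exp_neg, mul_comm, Real.exp_nat_mul, Real.exp_log (by norm_num), one_div]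
  have h1 : Real.log 8 * n ≤ Real.log 8 * j := by gcongr
  have h2 : 0 ≤ Real.log 8 * n := by positivity
  rw [e, ← Real.exp_mul]
  constructor <;> refine Real.exp_le_exp.2 ?_ <;> nlinarith

theorem finNum (hG : GaugeStmt) : FinNumStmt := by
  intro κ hκ hκ8 C c' m0 B hC hc hc4 hm0 hB
  have hd1 : 0 < dd κ - 1 := by unfold dd; linarith
  have hd2 : 0 < 2 - dd κ := by unfold dd; linarith
  have h9 : 0 < Real.log 8 := Real.log_pos (by norm_num)
  set a := (dd κ - 1) * Real.log 8 with ha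
  have ha0 : 0 < a := mul_pos hd1 h9
  have hg : ∀ r, gauge κ r = r ^ dd κ * LL r ^ ((2 - dd κ) / 2) := fun _ => rfl
  refine ⟨4 * (3 / a + 1 / c') + B ^ dd κ * (4 * C) ^ ((2 - dd κ) / 2),
    ⌈Real.exp (2 * C * m0 ^ 2)⌉₊ + 28, by positivity, fun n hn e ρ0 he hρ => ?_⟩
  have hn28 : 28 ≤ n := by omega
  have hn' : (28 : ℝ) ≤ n := by exact_mod_cast hn28
  have hn0 : (0 : ℝ) < n := by linarith
  have hlog : 2 * C * m0 ^ 2 ≤ Real.log n := by
    rw [Real.le_log_iff_exp_le hn0]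
    refine (Nat.le_ceil _).trans ?_
    exact_mod_cast (by omega : ⌈Real.exp (2 * C * m0 ^ 2)⌉₊ ≤ n)
  have hl0 : 0 ≤ Real.log n := le_trans (by positivity) hlog
  set m := Real.sqrt (Real.log n / (2 * C)) with hm
  have hm2 : m ^ 2 = Real.log n / (2 * C) := Real.sq_sqrt (by positivity)
  have hLL : LL e ≤ 2 * Real.log n := he ▸ finNum_LL hG hn28
  have he0 : 0 < e := by rw [he]; positivity
  have hρn : ρ0 / 8 ^ n = 1 / 8 ^ (2 * n) := by rw [hρ, div_div, ← pow_add, two_mul]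
  have hee : e / (ρ0 / 8 ^ n) = 1 / 8 ^ (2 * n) := by
    rw [hρn, he, show 4 * n = 2 * n + 2 * n by ring, pow_add]
    field_simp
  have hL1 := hG.one_le e he0
  refine ⟨m, Real.le_sqrt_of_sq_le ((le_div_iff₀ (by positivity)).2 (by linarith)), ?_, ?_,
    fun k hk => ?_⟩
  · rw [← le_div_iff₀ he0, ← inv_div, hee, one_div, inv_inv]
    exact le_trans (by norm_num)
      (pow_le_pow_right₀ (by norm_num : (1 : ℝ) ≤ 8) (by omega : 3 ≤ 2 * n))
  · set y := Real.sqrt n with hy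
    have hy0 : 0 < y := Real.sqrt_pos.2 hn0
    have hy2 : y ^ 2 = n := Real.sq_sqrt hn0.le
    have hy1 : 1 ≤ y := Real.le_sqrt_of_sq_le (by linarith)
    have hly : Real.log n = 2 * Real.log y := by rw [← hy2, Real.log_pow]; norm_num
    have h1 : Real.exp (-(C * m ^ 2)) = y⁻¹ := by
      rw [hm2, hly, show C * (2 * Real.log y / (2 * C)) = Real.log y by field_simp,
        Real.exp_neg, Real.exp_log hy0]
    have h2 : (1 - c' * y⁻¹) ^ n ≤ Real.exp (-(c' * y)) := by
      have h3 : c' * y⁻¹ ≤ 1 := mul_le_one₀ (by linarith) (by positivity) (inv_le_one_of_one_le₀ hy1)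
      calc _ ≤ Real.exp (-(c' * y⁻¹)) ^ n :=
            pow_le_pow_left₀ (by linarith) (by linarith [Real.add_one_le_exp (-(c' * y⁻¹))]) n
        _ = _ := by
            rw [← Real.exp_nat_mul, ← hy2]
            congr 1
            field_simp
    have h3 : LL e ^ ((2 - dd κ) / 2) ≤ 4 * y := by
      refine (Real.rpow_le_self_of_one_le hL1 (by linarith)).trans (hLL.trans ?_)
      linarith [Real.log_le_sub_one_of_pos hy0]
    have h4 : Real.exp (-(a * n)) ≤ Real.exp (-(a * y)) :=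
      Real.exp_le_exp.2 (neg_le_neg (mul_le_mul_of_nonneg_left (by nlinarith) ha0.le))
    have h5 := (finNum_pow hd1.le le_rfl (show n ≤ 4 * n by omega)).1.trans h4
    have h6 := (finNum_pow hd1.le le_rfl (le_refl n)).1.trans h4
    have h7 := (finNum_pow le_rfl (show dd κ - 1 ≤ 1 by linarith)
      (show n ≤ 2 * n by omega)).2.trans h4
    rw [← he] at h5
    rw [← hρ] at h6
    have e1 : e ^ dd κ / e ^ 2 * e ^ (2 - dd κ) = 1 := by
      rw [div_mul_eq_mul_div, ← Real.rpow_add he0, add_sub_cancel, Real.rpow_two,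
        div_self (by positivity)]
    have e2 : e ^ dd κ / e ^ 2 * e = e ^ (dd κ - 1) := by
      rw [Real.rpow_sub_one he0.ne']
      field_simp
    rw [h1, hee, hg]
    calc _ = LL e ^ ((2 - dd κ) / 2) * (e ^ dd κ / e ^ 2 * e + e ^ dd κ / e ^ 2 * e ^ (2 - dd κ) *
          (ρ0 ^ (dd κ - 1) + (1 - c' * y⁻¹) ^ n + 1 / 8 ^ (2 * n))) := by ring
      _ ≤ LL e ^ ((2 - dd κ) / 2) * (3 * Real.exp (-(a * y)) + Real.exp (-(c' * y))) := by
          rw [e1, e2]
          exact mul_le_mul_of_nonneg_left (by linarith) (by positivity)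
      _ ≤ 4 * y * (3 * Real.exp (-(a * y)) + Real.exp (-(c' * y))) := by gcongr
      _ ≤ 4 * (3 / a + 1 / c') := by
          have := finNum_exp (y := y) ha0
          have := finNum_exp (y := y) hc
          rw [show 3 / a = 3 * (1 / a) by ring]
          nlinarith
      _ ≤ _ := le_add_of_nonneg_right (by positivity)
  · have hr : e ≤ ρ0 / 8 ^ k := by
      rw [he, hρ, div_div, ← pow_add]
      exact one_div_le_one_div_of_le (by positivity)
        (pow_le_pow_right₀ (by norm_num) (by omega))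
    have hr0 : 0 < ρ0 / 8 ^ k := he0.trans_le hr
    have h1 : LL (ρ0 / 8 ^ k) ≤ 4 * C * m ^ 2 := by
      refine (hG.anti he0 hr0 hr).trans (hLL.trans (le_of_eq ?_))
      rw [hm2]
      field_simp
      ring
    have hm0' : 0 ≤ m := Real.sqrt_nonneg _
    have h2 : LL (ρ0 / 8 ^ k) ^ ((2 - dd κ) / 2) ≤
        (4 * C) ^ ((2 - dd κ) / 2) * m ^ (2 - dd κ) := by
      refine (Real.rpow_le_rpow (by linarith [hG.one_le _ hr0]) h1 (by positivity)).trans
        (le_of_eq ?_)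
      rw [Real.mul_rpow (by positivity) (by positivity), ← Real.rpow_two, ← Real.rpow_mul hm0']
      congr 2
      ring
    refine (hG.scale κ B _ hκ hκ8 hB hr0.le).trans ?_
    rw [hg]
    calc _ ≤ B ^ dd κ * ((ρ0 / 8 ^ k) ^ dd κ * ((4 * C) ^ ((2 - dd κ) / 2) * m ^ (2 - dd κ))) := by
          gcongr
      _ = B ^ dd κ * (4 * C) ^ ((2 - dd κ) / 2) * (m ^ (2 - dd κ) * (ρ0 / 8 ^ k) ^ dd κ) := by ring
      _ ≤ _ := mul_le_mul_of_nonneg_right (le_add_of_nonneg_left (by positivity)) (by positivity)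

end Vale.Agent.P164
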