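import Vale.Agent.P164.Stm2

/-! Second moment type lower bound for the content of a ball. -/

open Set MeasureTheory ProbabilityTheory Metric
open scoped ENNReal NNReal

namespace Vale.Agent.P164

theorem gain_pz {Ω : Type} [MeasurableSpace Ω] (μ : Measure Ω) [IsProbabilityMeasure μ]
    {X : Ω → ℝ≥0∞} (hX : Measurable X) (hb : ∀ x, Measurable (big x)) {c1 lam q : ℝ}
    (hc : 0 < c1) (hl : 0 < lam) (hq : 0 < q) (h1 : ENNReal.ofReal (c1 * q) ≤ ∫⁻ ω, X ω ∂μ)
    (h2 : ∫⁻ ω, big (lam * q) (X ω) ∂μ ≤ ENNReal.ofReal (c1 / 4 * q)) :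
    ENNReal.ofReal (c1 / (4 * lam)) ≤ μ {ω | ENNReal.ofReal (c1 / 2 * q) ≤ X ω} := by
  set E := {ω | ENNReal.ofReal (c1 / 2 * q) ≤ X ω} with hE
  have mE : MeasurableSet E := measurableSet_le measurable_const hX
  have pt : ∀ ω, X ω ≤ ENNReal.ofReal (c1 / 2 * q) +
      E.indicator (fun _ => ENNReal.ofReal (lam * q)) ω + big (lam * q) (X ω) := fun ω => by
    unfold big
    split_ifs with h
    · exact le_add_self
    · by_cases hω : ω ∈ E
      · rw [indicator_of_mem hω, add_zero]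
        exact (not_lt.1 h).trans le_add_self
      · exact (not_le.1 hω).le.trans (le_self_add.trans le_self_add)
  have h3 := h1.trans (lintegral_mono pt)
  have mb : Measurable fun ω => big (lam * q) (X ω) := (hb _).comp hX
  rw [lintegral_add_right _ mb, lintegral_add_left measurable_const,
    lintegral_indicator_const mE, lintegral_const, measure_univ, mul_one] at h3
  have h4 := h3.trans (add_le_add_right h2 _)
  have p0 : 0 ≤ (μ E).toReal := ENNReal.toReal_nonneg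
  rw [← ENNReal.ofReal_toReal (measure_ne_top μ E)] at h4 ⊢
  rw [← ENNReal.ofReal_mul (by positivity), ← ENNReal.ofReal_add (by positivity) (by positivity),
    ← ENNReal.ofReal_add (by positivity) (by positivity),
    ENNReal.ofReal_le_ofReal_iff (by positivity)] at h4
  refine ENNReal.ofReal_le_ofReal ?_
  rw [div_le_iff₀ (by positivity)]
  refine le_of_mul_le_mul_right ?_ hq
  linarith

theorem gain_lam {θ C c1 : ℝ} (hθ : 0 < θ) (hC : 0 < C) (hc : 0 < c1) :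
    ∃ lam : ℝ, 0 < lam ∧ C * (lam + 1) * Real.exp (C * 1 ^ 2 - θ * lam) ≤ c1 / 4 := by
  set K := 16 * C * Real.exp C / (θ ^ 2 * c1) with hK
  have K0 : 0 < K := by positivity
  refine ⟨K + 1, by positivity, ?_⟩
  have h1 := Real.quadratic_le_exp_of_nonneg (x := θ * (K + 1)) (by positivity)
  have e : 16 * C * Real.exp C = K * (θ ^ 2 * c1) := by rw [hK]; field_simp
  rw [one_pow, mul_one, Real.exp_sub, mul_div_assoc', div_le_iff₀ (Real.exp_pos _)]
  have h2 : (θ * (K + 1)) ^ 2 / 2 ≤ Real.exp (θ * (K + 1)) := by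
    have : 0 ≤ θ * (K + 1) := by positivity
    linarith
  have h3 : K * (K + 2) ≤ 2 * (K + 1) ^ 2 := by nlinarith
  calc C * (K + 1 + 1) * Real.exp C = K * (K + 2) * (θ ^ 2 * c1 / 16) := by
        linear_combination (K + 2) / 16 * e
    _ ≤ 2 * (K + 1) ^ 2 * (θ ^ 2 * c1 / 16) := by gcongr
    _ = c1 / 4 * ((θ * (K + 1)) ^ 2 / 2) := by ring
    _ ≤ _ := by gcongr

theorem gain_near (hF : Fnd) {V : Pth} {a : ℝ} {w w' : ℂ} (ha : 0 ≤ a) (hS : 3 / 4 ≤ Sf V a w)
    (hw : w ∈ dom V a) (h : ‖w' - w‖ < Up V a w / 40) :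
    1 / 2 ≤ Sf V a w' ∧ Rf V a w' ≤ 2 * Rf V a w ∧ Up V a w / 2 ≤ Up V a w' ∧
      Up V a w' ≤ 2 * Up V a w := by
  obtain ⟨h0, h1, h2, h3⟩ := hF.koebe.ball V a w w' ha hw h
  have y0 := (hF.flow.alive V a w ha).1 hw
  have y1 := (hF.flow.alive V a w' ha).1 h0
  have r0 := (le_abs_self _).trans (Yf_le_Rf V a w)
  have r1 := (le_abs_self _).trans (Yf_le_Rf V a w')
  have r2 : Rf V a w' ≤ Rf V a w + Yf V a w / 8 := by
    have := norm_sub_norm_le (Zf V a w') (Zf V a w)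
    unfold Rf
    linarith
  have r3 : Yf V a w - Yf V a w / 8 ≤ Yf V a w' := by
    have := (abs_le.1 ((Complex.abs_im_le_norm _).trans h1)).1
    rw [Complex.sub_im] at this
    unfold Yf at *
    linarith
  unfold Sf at hS ⊢
  rw [le_div_iff₀ (by linarith)] at hS ⊢
  exact ⟨by linarith, by linarith, h2, h3⟩

theorem gain_pt (hA : ContAStmt) {κ : ℝ} {μ : Measure Pth} (hc : Ctx κ μ) {s0 T0 : ℝ}
    (hM : FMP κ μ s0 T0) {V : Pth} {a ρ ε R : ℝ} {w' : ℂ} (ha : 0 ≤ a) (hε : 0 < ε) (ρ0 : 0 < ρ)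
    (n1 : 1 / 2 ≤ Sf V a w') (n2 : Rf V a w' ≤ 2 * R) (n3 : 2 * ε ≤ Up V a w')
    (n4 : Up V a w' ≤ 400 * ρ) :
    ENNReal.ofReal (400 ^ (dd κ - 2) * (1 / 2) ^ rr κ / 4 * ρ ^ (dd κ - 2)) ≤
      ∫⁻ W, den κ s0 ε a (a + 4 * T0 * R ^ 2) (cat a V W) w' ∂μ := by
  have T0p := hM.2.1
  have h1 : a + T0 * Rf V a w' ^ 2 ≤ a + 4 * T0 * R ^ 2 := by
    have : Rf V a w' ^ 2 ≤ (2 * R) ^ 2 := pow_le_pow_left₀ (Rf_nonneg _ _ _) n2 2
    nlinarith
  have h2 := hM.2.2 ε a V w' hε ha n1 n3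
  unfold CE at h2
  refine le_trans (ENNReal.ofReal_le_ofReal ?_)
    (h2.trans (lintegral_mono fun W => (hA.mono κ s0 ε a _ a _ _ le_rfl h1).1 w'))
  have e1 : (400 * ρ) ^ (dd κ - 2) ≤ Up V a w' ^ (dd κ - 2) :=
    Real.rpow_le_rpow_of_nonpos (by linarith) n4 (by linarith [dd_lt_two hc.lt])
  have e2 : (1 / 2) ^ rr κ ≤ Sf V a w' ^ rr κ :=
    Real.rpow_le_rpow (by norm_num) n1 (rr_pos hc.pos hc.lt).le
  have e3 := mul_le_mul e1 e2 (by positivity) (Real.rpow_nonneg (Up_nonneg _ _ _) _)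
  rw [Real.mul_rpow (by norm_num) ρ0.le] at e3
  unfold MM
  linarith

theorem gain_lo (hA : ContAStmt) {κ : ℝ} {μ : Measure Pth} [IsProbabilityMeasure μ]
    {s0 ε a b ρ K : ℝ} {V : Pth} {w : ℂ} (ρ0 : 0 < ρ) (hK : 0 ≤ K)
    (pt : ∀ w' ∈ ball w ρ, ENNReal.ofReal (K * ρ ^ (dd κ - 2)) ≤
      ∫⁻ W, den κ s0 ε a b (cat a V W) w' ∂μ) :
    ENNReal.ofReal (Real.pi * K * ρ ^ dd κ) ≤ ∫⁻ W, cm κ s0 ε a b (cat a V W) (ball w ρ) ∂μ := by
  have m1 : Measurable fun p : Pth × ℂ => (cat a V p.1, p.2) :=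
    ((measurable_cat_right a V).comp measurable_fst).prodMk measurable_snd
  have md := (hA.meas κ s0 ε a b).comp m1
  simp only [cm, withDensity_apply _ measurableSet_ball]
  generalize den κ s0 ε a b = D at md pt ⊢
  rw [lintegral_lintegral_swap (f := fun W z => D (cat a V W) z) md.aemeasurable]
  refine le_trans (le_of_eq ?_) (setLIntegral_mono' measurableSet_ball pt)
  have pi : (NNReal.pi : ℝ≥0∞) = ENNReal.ofReal Real.pi := by
    rw [← NNReal.coe_real_pi, ENNReal.ofReal_coe_nnreal]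
  rw [setLIntegral_const, Complex.volume_ball, pi, ← ENNReal.ofReal_pow ρ0.le,
    ← ENNReal.ofReal_mul (by positivity), ← ENNReal.ofReal_mul (by positivity),
    Real.rpow_sub ρ0, Real.rpow_two]
  congr 1
  field_simp

theorem gainS (hF : Fnd) (hA : ContAStmt) (hB : BigStmt) : GainStmt := by
  intro κ μ hc s0 T0 hM
  have := hc.wie.prob
  obtain ⟨θ, C, hθ, hC, h0⟩ := hB.tail κ μ hc
  obtain ⟨c0, hc0, hc1, hT⟩ := h0 s0 hM.1
  have K0 : 0 < 400 ^ (dd κ - 2) * (1 / 2 : ℝ) ^ rr κ / 4 := by positivity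
  have gp := @gain_pt hA κ μ hc s0 T0 hM
  generalize 400 ^ (dd κ - 2) * (1 / 2 : ℝ) ^ rr κ / 4 = K at K0 gp
  have c1pos : 0 < Real.pi * K := by positivity
  obtain ⟨lam, hl, hlam⟩ := gain_lam hθ hC c1pos
  refine ⟨min c0 (min (Real.pi * K / 2) (Real.pi * K / (4 * lam))), by positivity,
    (min_le_left _ _).trans (by linarith), fun a V w ρ ε ha hS h1 h2 hε hεc => ?_⟩
  have hw : w ∈ dom V a := by
    refine (hF.flow.alive V a w ha).2 ?_
    have : 0 < Yf V a w / Rf V a w := lt_of_lt_of_le (by norm_num) hS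
    rcases div_pos_iff.1 this with h | h
    · exact h.1
    · exact absurd h.2 (not_lt.2 (Rf_nonneg V a w))
  have L0 := Up_pos ha hw
  have ρ0 : 0 < ρ := by linarith
  have hε0 : ε ≤ c0 * ρ := hεc.trans (mul_le_mul_of_nonneg_right (min_le_left _ _) ρ0.le)
  have hε1 : ε ≤ ρ := hε0.trans (mul_le_of_le_one_left ρ0.le (by linarith))
  have nr := fun w' (h : w' ∈ ball w ρ) =>
    gain_near hF ha hS hw (w' := w') (lt_of_lt_of_le (mem_ball_iff_norm.1 h) h2)
  have T0p := hM.2.1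
  have lo := gain_lo hA ρ0 K0.le fun w' h => gp ha hε ρ0 (nr w' h).1 (nr w' h).2.1
    (by linarith [(nr w' h).2.2.1]) (by linarith [(nr w' h).2.2.2])
  have hab : a ≤ a + 4 * T0 * Rf V a w ^ 2 := le_add_of_nonneg_right (by positivity)
  generalize a + 4 * T0 * Rf V a w ^ 2 = b at hab lo ⊢
  have q0 : 0 < ρ ^ dd κ := by positivity
  have m1 : Measurable fun W : Pth => (cat a V W, w) :=
    (measurable_cat_right a V).prodMk measurable_const
  have mX := (hA.mball κ s0 ε a b ρ).comp m1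
  have up := hT ρ ε w 1 a b V lam ρ0 hε hε0 le_rfl ha hab hl.le fun w' h => by
    rw [one_mul] at h
    linarith [(nr w' h).2.2.1]
  rw [one_mul] at up
  unfold CE at up
  have key := gain_pz μ (X := fun W => cm κ s0 ε a b (cat a V W) (ball w ρ)) mX hB.meas c1pos hl
    q0 lo (up.trans (ENNReal.ofReal_le_ofReal (by
      rw [mul_right_comm]
      exact mul_le_mul_of_nonneg_right hlam q0.le)))
  unfold CP
  refine (ENNReal.ofReal_le_ofReal ((min_le_right _ _).trans (min_le_right _ _))).trans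
    (key.trans (measure_mono fun W hW => ?_))
  rw [mem_ofPred_eq] at hW
  rw [mem_ofPred_eq, mem_ofPred_eq]
  refine le_trans (ENNReal.ofReal_le_ofReal ?_) hW
  exact mul_le_mul_of_nonneg_right ((min_le_right _ _).trans (min_le_left _ _)) q0.le

end Vale.Agent.P164
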