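import Vale.Agent.P164.Stm2

/-! Geometric comparison of nearby points through the Koebe estimates. -/

open Set MeasureTheory ProbabilityTheory Metric
open scoped ENNReal NNReal

namespace Vale.Agent.P164

theorem geo_cmp (hF : Fnd) {W : Pth} {t y K : ℝ} {z w : ℂ} (ht : 0 ≤ t) (hy : 0 < y)
    (hz : y ≤ Yf W t z) (hw : y ≤ Yf W t w) (hK : ‖Zf W t w - Zf W t z‖ ≤ K * y) :
    ‖w - z‖ ≤ Up W t z * K * Real.exp (4 * K) ∧ Up W t w ≤ Up W t z * Real.exp (4 * K) ∧
      Up W t z ≤ Up W t w * Real.exp (4 * K) := by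
  have ez := hF.confB.left W t z ht ((hF.flow.alive W t z ht).2 (hy.trans_le hz))
  have ew := hF.confB.left W t w ht ((hF.flow.alive W t w ht).2 (hy.trans_le hw))
  have h1 := hF.koebe.disp W t (Zf W t z) (Zf W t w) y ht hy hz hw
  have h2 := hF.koebe.ratio W t (Zf W t z) (Zf W t w) y ht hy hz hw
  have h3 := hF.koebe.ratio W t (Zf W t w) (Zf W t z) y ht hy hw hz
  rw [ez, ew] at h1 h2 h3
  rw [norm_sub_rev] at h3
  have h4 : ‖Zf W t w - Zf W t z‖ / y ≤ K := (div_le_iff₀ hy).2 hK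
  have h5 : Real.exp (4 * ‖Zf W t w - Zf W t z‖ / y) ≤ Real.exp (4 * K) := by
    rw [mul_div_assoc]
    exact Real.exp_le_exp.2 (by linarith)
  have h6 : 0 ≤ K := le_trans (by positivity) h4
  have uz := Up_nonneg W t z
  have uw := Up_nonneg W t w
  exact ⟨h1.trans (mul_le_mul (mul_le_mul_of_nonneg_left h4 uz) h5 (Real.exp_pos _).le
    (mul_nonneg uz h6)), h2.trans (mul_le_mul_of_nonneg_left h5 uz),
    h3.trans (mul_le_mul_of_nonneg_left h5 uw)⟩

theorem geo (hF : Fnd) : GeoStmt := by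
  constructor
  · intro b C1 hb hC1
    refine ⟨(2 * b + C1) * Real.exp (4 * (2 * b + C1)) + 1, by positivity, ?_⟩
    intro W t y ht hy hW
    have ht' : t ≤ t + b * y ^ 2 := le_add_of_nonneg_right (by positivity)
    obtain ⟨d0, z0⟩ := hF.confB.right W t ⟨0, y⟩ ht hy
    obtain ⟨d1, z1⟩ := hF.confB.right W (t + b * y ^ 2) ⟨0, y⟩ (ht.trans ht') hy
    have y0 : Yf W t (wt W t y) = y := congrArg Complex.im z0
    have y1 : Yf W (t + b * y ^ 2) (wt W (t + b * y ^ 2) y) = y := congrArg Complex.im z1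
    have h1 := hF.flow.move W _ t _ ht ht' d1
    have h2 := hF.flow.Y_anti W (wt W (t + b * y ^ 2) y) ht'
    simp only [y1] at h2
    have h3 := hW _ ⟨ht', le_rfl⟩
    have h4 : ‖Zf W t (wt W (t + b * y ^ 2) y) - Zf W t (wt W t y)‖ ≤ (2 * b + C1) * y := by
      have e1 : 2 * (t + b * y ^ 2 - t) / y = 2 * b * y := by field_simp; ring
      have e2 : Zf W t (wt W (t + b * y ^ 2) y) - Zf W t (wt W t y) =
          ((W (t + b * y ^ 2) - W t : ℝ) : ℂ) -
            (Zf W (t + b * y ^ 2) (wt W (t + b * y ^ 2) y) + (W (t + b * y ^ 2) : ℂ) -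
              (Zf W t (wt W (t + b * y ^ 2) y) + (W t : ℂ))) := by
        unfold wt
        rw [z0, z1]
        push_cast
        ring
      unfold wt at y1
      rw [y1, e1] at h1
      rw [e2]
      refine (norm_sub_le _ _).trans ?_
      rw [Complex.norm_real, Real.norm_eq_abs]
      unfold wt
      linarith
    have h5 := (geo_cmp hF ht hy y0.ge h2 h4).1
    have h6 := Up_nonneg W t (wt W t y)
    unfold Lt
    linarith
  · intro s1 a0 c hs ha hc
    obtain ⟨m, hm⟩ : ∃ m, m = min s1 (c * a0) := ⟨_, rfl⟩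
    have hm0 : 0 < m := by rw [hm]; positivity
    obtain ⟨K, hK⟩ : ∃ K, K = (5 * a0 + 1) / m := ⟨_, rfl⟩
    have hK0 : 0 < K := by rw [hK]; positivity
    refine ⟨(K + 1) * Real.exp (4 * K), 1 / (2 * Real.exp (4 * K)), by positivity, by positivity, ?_⟩
    intro W s z w ρ hs0 hS h1 h2 h3 h4
    have hR : 0 < Rf W s z := by
      refine lt_of_le_of_ne (Rf_nonneg W s z) fun h => ?_
      unfold Sf at hS
      rw [← h, div_zero] at hS
      linarith
    have hz : m * Rf W s z ≤ Yf W s z :=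
      (mul_le_mul_of_nonneg_right (hm.le.trans (min_le_left _ _)) hR.le).trans
        ((le_div_iff₀ hR).1 hS)
    have hw : m * Rf W s z ≤ Yf W s w :=
      (mul_le_mul_of_nonneg_right (hm.le.trans (min_le_right _ _)) hR.le).trans
        (by rwa [mul_assoc])
    have h5 : ‖Zf W s w - Zf W s z‖ ≤ K * (m * Rf W s z) := by
      have e : K * (m * Rf W s z) = 5 * (a0 * Rf W s z) + Rf W s z := by
        rw [hK]; field_simp
      rw [e]
      exact (norm_sub_le _ _).trans (add_le_add h4 le_rfl)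
    obtain ⟨h6, h7, h8⟩ := geo_cmp hF hs0 (by positivity) hz hw h5
    have uz := Up_nonneg W s z
    have hρ : 0 ≤ ρ := uz.trans h2
    have hE := Real.exp_pos (4 * K)
    have h9 := mul_le_mul_of_nonneg_right h2 hE.le
    have h10 := mul_le_mul_of_nonneg_left h9 hK0.le
    have h11 : 0 ≤ ρ * Real.exp (4 * K) := by positivity
    have h12 : 0 ≤ K * (ρ * Real.exp (4 * K)) := by positivity
    refine ⟨by linarith, ?_, by linarith⟩
    rw [div_mul_eq_mul_div, div_le_iff₀ (by positivity)]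
    linarith

end Vale.Agent.P164
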