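import Vale.Agent.P164.Stm2

open Set MeasureTheory ProbabilityTheory Metric Filter Topology
open scoped ENNReal NNReal

namespace Vale.Agent.P164

theorem goodM_cm (hA : ContAStmt) {α : Type} [MeasurableSpace α] {f : α → Pth} {g : α → ℂ}
    (hf : Measurable f) (hg : Measurable g) (κ s0 ε a b ρ : ℝ) :
    Measurable fun p => cm κ s0 ε a b (f p) (ball (g p) ρ) :=
  ((hA.mball κ s0 ε a b ρ).comp (hf.prodMk hg) :)

theorem goodM (hF : Fnd) (hA : ContAStmt) (hB : BigStmt) : GoodMStmt := by
  have mb : ∀ κ s0 ε a b C1 w ρ k0, Measurable (badm κ s0 ε a b C1 w ρ k0) :=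
    fun κ s0 ε a b C1 w ρ k0 => Measurable.tsum fun k =>
      (Measurable.lintegral_prod_right' ((hB.meas _).comp (hA.mball κ s0 ε a b _))).const_mul _
  refine ⟨mb, fun κ s0 C1 a b => ?_, fun κ s0 C1 a b V W ha hab h hV => ?_⟩
  · refine measurableSet_setOfPred.2 (.exists fun x => .exists fun y => .exists fun ρ => .exists fun c =>
      .exists fun k0 => measurable_const.and (measurable_const.and (measurable_const.and
        (.and ?_ (.forall fun n0 => .exists fun n => measurable_const.and ?_)))))
    · exact measurableSet_setOfPred.1 (measurableSet_le measurable_const (hF.meas.Up_meas.comp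
        (measurable_const.prodMk (measurable_id.prodMk measurable_const))))
    · exact measurableSet_setOfPred.1 (measurableSet_le ((mb _ _ _ _ _ _ _ _ _).const_add _)
        (goodM_cm hA measurable_id measurable_const κ s0 _ a b _))
  · obtain ⟨x, y, ρ, c, k0, h1, h2, h3, h4, h5⟩ := hV
    have e : ∀ ε, cm κ s0 ε a b V = cm κ s0 ε a b W := fun ε => (hA.loc κ s0 ε a b V W ha h).2.1
    refine ⟨x, y, ρ, c, k0, h1, h2, h3, ?_, ?_⟩
    · rwa [← ((hF.flow.loc V W b h a ⟨ha, hab⟩).2 _).2.1]
    · simpa only [badm, e] using h5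

end Vale.Agent.P164
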