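import Vale.Agent.P164.Stm2

/-! The gradient estimate for the tail functional (P164). -/

open Set MeasureTheory ProbabilityTheory Metric
open scoped ENNReal NNReal

namespace Vale.Agent.P164

namespace Grad

theorem M_eq {l U S e p r : ℝ} (hl : 0 < l) (hU : 0 < U) (hS : 0 < S) (hr : r = p + e) :
    l ^ e * (U ^ (-e) * S ^ r) = S ^ p * (l / U * S) ^ e := by
  rw [hr, Real.rpow_add hS, Real.mul_rpow (by positivity) hS.le, Real.div_rpow hl.le hU.le,
    Real.rpow_neg hU.le]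
  ring

theorem big {σ x e : ℝ} (h0 : 0 ≤ σ) (h1 : σ ≤ 1) (hx : 0 < x) (he : 0 ≤ e) (he2 : e ≤ 2) :
    σ * x ^ e ≤ σ + x ^ 2 := by
  rcases le_total x 1 with h | h
  · have h2 := Real.rpow_le_one hx.le h he
    nlinarith [sq_nonneg x]
  · have h2 : x ^ e ≤ x ^ 2 := by
      have := Real.rpow_le_rpow_of_exponent_le h he2
      rwa [Real.rpow_two] at this
    have h3 := Real.rpow_nonneg hx.le e
    nlinarith

theorem small {q x ρ e g : ℝ} (h0 : 0 ≤ q) (h1 : q ≤ 1) (hx : 0 < x) (hρ : 0 < ρ) (hg : 0 ≤ g)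
    (he : e * g = 2 - e) : q * x ^ e ≤ q / ρ + x ^ 2 * ρ ^ g := by
  have h2 := Real.rpow_nonneg hx.le e
  have h3 : 0 ≤ x ^ 2 * ρ ^ g := by positivity
  have h4 : 0 ≤ q / ρ := by positivity
  rcases le_total (ρ * x ^ e) 1 with h | h
  · have h5 : q * x ^ e ≤ q / ρ := by
      rw [le_div_iff₀ hρ]
      nlinarith
    linarith
  · have h5 : 1 ≤ (ρ * x ^ e) ^ g := Real.one_le_rpow h hg
    rw [Real.mul_rpow hρ.le h2, ← Real.rpow_mul hx.le, he] at h5
    have h6 : x ^ 2 = x ^ e * x ^ (2 - e) := by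
      rw [← Real.rpow_add hx, add_sub_cancel, Real.rpow_two]
    have h7 := mul_le_mul_of_nonneg_left h5 h2
    rw [h6] at h3 ⊢
    nlinarith

/-- The weight in the image plane. -/
noncomputable def wg (c g R0 : ℝ) (ζ : ℂ) : ℝ≥0∞ :=
  if R0 ≤ ‖ζ‖ then ENNReal.ofReal (c / ‖ζ‖) else ENNReal.ofReal (‖ζ‖ ^ g / R0 ^ (g + 1))

theorem wg_meas (c g R0 : ℝ) : Measurable (wg c g R0) :=
  Measurable.ite (measurableSet_le measurable_const measurable_norm)
    (by fun_prop) (by fun_prop)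

theorem wg_int (hI : IntStmt) {g : ℝ} (hg : 0 < g) {c : ℝ} (hc : 0 < c) : ∃ C : ℝ, 0 < C ∧
    ∀ R0, 0 < R0 → ∫⁻ ζ in HP, ENNReal.ofReal (1 / ‖ζ‖ ^ 2) * wg c g R0 ζ ≤
      ENNReal.ofReal (C / R0) := by
  obtain ⟨Cs, hCs, hs⟩ := hI.small g hg
  obtain ⟨Cl, hCl, hl⟩ := hI.large
  refine ⟨Cs + c * Cl, by positivity, fun R0 hR0 => ?_⟩
  have hsub : HP ⊆ (ball (0 : ℂ) R0 \ {0}) ∪ {ζ : ℂ | R0 ≤ ‖ζ‖} := by
    intro ζ hζ
    rcases lt_or_ge ‖ζ‖ R0 with h | h
    · refine Or.inl ⟨mem_ball_zero_iff.2 h, ?_⟩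
      rintro rfl
      exact lt_irrefl _ (show (0 : ℝ) < (0 : ℂ).im from hζ)
    · exact Or.inr h
  refine (lintegral_mono_set hsub).trans ((lintegral_union_le _ _ _).trans ?_)
  have h1 : ∫⁻ ζ in ball (0 : ℂ) R0 \ {0}, ENNReal.ofReal (1 / ‖ζ‖ ^ 2) * wg c g R0 ζ ≤
      ENNReal.ofReal (Cs / R0) := by
    calc _ ≤ ∫⁻ ζ in ball (0 : ℂ) R0 \ {0},
          ENNReal.ofReal (1 / R0 ^ (g + 1)) * ENNReal.ofReal (‖ζ‖ ^ (g - 2)) := by
          refine setLIntegral_mono' (measurableSet_ball.diff (measurableSet_singleton _))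
            fun ζ hζ => le_of_eq ?_
          have h2 : ‖ζ‖ < R0 := mem_ball_zero_iff.1 hζ.1
          have h3 : 0 < ‖ζ‖ := norm_pos_iff.2 hζ.2
          rw [wg, if_neg (not_le.2 h2), ← ENNReal.ofReal_mul (by positivity),
            ← ENNReal.ofReal_mul (by positivity), Real.rpow_sub h3, Real.rpow_two]
          congr 1
          ring
      _ ≤ ENNReal.ofReal (1 / R0 ^ (g + 1)) * ENNReal.ofReal (Cs * R0 ^ g) := by
          rw [lintegral_const_mul' _ _ ENNReal.ofReal_ne_top]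
          exact mul_le_mul_right ((lintegral_mono_set sdiff_subset).trans (hs R0 hR0)) _
      _ = _ := by
          rw [← ENNReal.ofReal_mul (by positivity), Real.rpow_add hR0, Real.rpow_one]
          congr 1
          have := Real.rpow_pos_of_pos hR0 g
          field_simp
  have h2 : ∫⁻ ζ in {ζ : ℂ | R0 ≤ ‖ζ‖}, ENNReal.ofReal (1 / ‖ζ‖ ^ 2) * wg c g R0 ζ ≤
      ENNReal.ofReal (c * Cl / R0) := by
    calc _ ≤ ∫⁻ ζ in {ζ : ℂ | R0 ≤ ‖ζ‖}, ENNReal.ofReal c * ENNReal.ofReal (1 / ‖ζ‖ ^ 3) := by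
          refine setLIntegral_mono' (measurableSet_le measurable_const measurable_norm)
            fun ζ hζ => le_of_eq ?_
          have h2 : R0 ≤ ‖ζ‖ := hζ
          have h3 : 0 < ‖ζ‖ := hR0.trans_le h2
          rw [wg, if_pos h2, ← ENNReal.ofReal_mul (by positivity), ← ENNReal.ofReal_mul hc.le]
          congr 1
          field_simp
      _ ≤ ENNReal.ofReal c * ENNReal.ofReal (Cl / R0) := by
          rw [lintegral_const_mul' _ _ ENNReal.ofReal_ne_top]
          exact mul_le_mul_right (hl R0 hR0) _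
      _ = _ := by rw [← ENNReal.ofReal_mul hc.le, mul_div_assoc]
  refine (add_le_add h1 h2).trans (le_of_eq ?_)
  rw [← ENNReal.ofReal_add (by positivity) (by positivity), add_div]

theorem annuli {ν : Measure ℂ} {L : Set ℂ} {R f : ℂ → ℝ} {C R0 : ℝ} (hL : MeasurableSet L)
    (hR : Measurable R) (hf : ∀ w, 0 ≤ f w) (hC : 0 < C) (hR0 : 0 < R0)
    (h : ∀ R1, 0 < R1 → ∫⁻ w in L ∩ {w | R1 ≤ R w ∧ R w ≤ 4 * R1}, ENNReal.ofReal (f w) ∂ν ≤
      ENNReal.ofReal C) :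
    ∫⁻ w in L ∩ {w | R0 ≤ R w}, ENNReal.ofReal (f w / R w) ∂ν ≤ ENNReal.ofReal (2 * C / R0) := by
  have hsub : L ∩ {w | R0 ≤ R w} ⊆
      ⋃ k : ℕ, L ∩ {w | 4 ^ k * R0 ≤ R w ∧ R w ≤ 4 * (4 ^ k * R0)} := by
    rintro w ⟨h1, h2⟩
    obtain ⟨k, h3, h4⟩ := exists_nat_pow_near ((one_le_div hR0).2 h2) (by norm_num : (1 : ℝ) < 4)
    rw [le_div_iff₀ hR0] at h3
    rw [div_lt_iff₀ hR0, pow_succ] at h4
    exact mem_iUnion.2 ⟨k, h1, h3, by linarith⟩
  refine (lintegral_mono_set hsub).trans ((lintegral_iUnion_le _ _).trans ?_)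
  have h1 : ∀ k : ℕ, ∫⁻ w in L ∩ {w | 4 ^ k * R0 ≤ R w ∧ R w ≤ 4 * (4 ^ k * R0)},
      ENNReal.ofReal (f w / R w) ∂ν ≤ ENNReal.ofReal (C / R0 * (1 / 2) ^ k) := by
    intro k
    have hk : (0 : ℝ) < 4 ^ k * R0 := by positivity
    calc _ ≤ ∫⁻ w in L ∩ {w | 4 ^ k * R0 ≤ R w ∧ R w ≤ 4 * (4 ^ k * R0)},
          ENNReal.ofReal (1 / (4 ^ k * R0)) * ENNReal.ofReal (f w) ∂ν := by
          refine setLIntegral_mono' (hL.inter ((measurableSet_le measurable_const hR).inter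
            (measurableSet_le hR measurable_const))) fun w hw => ?_
          rw [← ENNReal.ofReal_mul (by positivity), one_div_mul_eq_div]
          exact ENNReal.ofReal_le_ofReal (div_le_div_of_nonneg_left (hf w) hk hw.2.1)
      _ ≤ ENNReal.ofReal (1 / (4 ^ k * R0)) * ENNReal.ofReal C := by
          rw [lintegral_const_mul' _ _ ENNReal.ofReal_ne_top]
          exact mul_le_mul_right (h _ hk) _
      _ ≤ _ := by
          rw [← ENNReal.ofReal_mul (by positivity)]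
          refine ENNReal.ofReal_le_ofReal ?_
          have h2 : (1 / 4 : ℝ) ^ k ≤ (1 / 2) ^ k := by gcongr; norm_num
          calc 1 / (4 ^ k * R0) * C = C / R0 * (1 / 4) ^ k := by
                rw [one_div_pow]
                field_simp
            _ ≤ _ := by gcongr
  refine (ENNReal.tsum_le_tsum h1).trans (le_of_eq ?_)
  rw [← ENNReal.ofReal_tsum_of_nonneg (fun k => by positivity)
    (summable_geometric_two.mul_left _), tsum_mul_left, tsum_geometric_two]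
  congr 1
  ring

theorem nn_ge {κ : ℝ} (h0 : 0 < κ) (h8 : κ < 8) : 2 ≤ nn κ := by
  have h1 := one_lt_dd h0
  have h2 := dd_lt_two h8
  have h3 : ((2 : ℕ) : ℝ) ≤ 4 / (2 - dd κ) := by
    rw [le_div_iff₀ (by linarith)]
    push_cast
    linarith
  exact_mod_cast h3.trans (Nat.le_ceil _)

/-- The pointwise bound in real variables, far part. -/
theorem far {u a σ x e R C1 : ℝ} {n k : ℕ} {G : ℝ≥0∞} (hu0 : 0 ≤ u) (hu1 : u ≤ 1) (ha0 : 0 ≤ a)
    (ha1 : a ≤ 1) (hσ0 : 0 ≤ σ) (hσ1 : σ ≤ 1) (hx : 0 < x) (he : 0 ≤ e) (he2 : e ≤ 2)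
    (hR : 0 < R) (hC : 0 < C1) (hG : G ≤ ENNReal.ofReal (C1 / R)) :
    ENNReal.ofReal (u ^ n * (a * (σ * x ^ e + σ)) / R) +
      ENNReal.ofReal (u ^ k * (a * (σ * x ^ e + σ))) * G ≤
      ENNReal.ofReal (2 * (1 + C1)) * ENNReal.ofReal (σ / R) +
        ENNReal.ofReal (x ^ 2) * ENNReal.ofReal ((1 + C1) / R) := by
  have h1 := big hσ0 hσ1 hx he he2
  have h2 : 0 ≤ σ * x ^ e + σ := by positivity
  have h3 : ∀ j : ℕ, u ^ j * (a * (σ * x ^ e + σ)) ≤ 2 * σ + x ^ 2 := fun j => by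
    have h4 := pow_le_one₀ hu0 hu1 (n := j)
    have h5 : a * (σ * x ^ e + σ) ≤ σ * x ^ e + σ := mul_le_of_le_one_left h2 ha1
    have h6 : u ^ j * (a * (σ * x ^ e + σ)) ≤ a * (σ * x ^ e + σ) :=
      mul_le_of_le_one_left (by positivity) h4
    linarith
  calc _ ≤ ENNReal.ofReal ((2 * σ + x ^ 2) / R) +
        ENNReal.ofReal (2 * σ + x ^ 2) * ENNReal.ofReal (C1 / R) :=
        add_le_add (ENNReal.ofReal_le_ofReal (div_le_div_of_nonneg_right (h3 n) hR.le))
          (mul_le_mul' (ENNReal.ofReal_le_ofReal (h3 k)) hG)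
    _ = _ := by
        rw [← ENNReal.ofReal_mul (by positivity), ← ENNReal.ofReal_mul (by positivity),
          ← ENNReal.ofReal_mul (by positivity), ← ENNReal.ofReal_add (by positivity)
          (by positivity), ← ENNReal.ofReal_add (by positivity) (by positivity)]
        congr 1
        ring

/-- The pointwise bound in real variables, near part. -/
theorem near {u a σ x e g R R0 C1 : ℝ} {n : ℕ} {G H : ℝ≥0∞} (hu0 : 0 ≤ u) (hu1 : u ≤ 1)
    (ha0 : 0 ≤ a) (ha1 : a ≤ 1) (hσ0 : 0 ≤ σ) (hσ1 : σ ≤ 1) (hx : 0 < x) (hg : 0 ≤ g)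
    (he : e * (g + 1) = 2 - e) (hR : 0 < R) (hR0 : R < R0) (hC : 0 < C1)
    (hG : G ≤ ENNReal.ofReal (C1 * R) * H) :
    ENNReal.ofReal (u ^ n * (a * (σ * x ^ e + σ)) / R) +
      ENNReal.ofReal (u ^ (n - 1) * (a * (σ * x ^ e + σ))) * G ≤
      ENNReal.ofReal (x ^ 2) * ENNReal.ofReal (R ^ g / R0 ^ (g + 1)) +
        (ENNReal.ofReal (2 * R0) * ENNReal.ofReal (u ^ n * a * σ / R ^ 2) +
        ENNReal.ofReal (C1 * R0) * (ENNReal.ofReal (u ^ (n - 2) * (a * (σ * x ^ e + σ))) * H)) := by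
  have hR1 : 0 < R0 := hR.trans hR0
  have hq0 : 0 ≤ u ^ n * a * σ := by positivity
  have hq1 : u ^ n * a * σ ≤ 1 :=
    mul_le_one₀ (mul_le_one₀ (pow_le_one₀ hu0 hu1) ha0 ha1) hσ0 hσ1
  have h1 := small hq0 hq1 hx (div_pos hR hR1) (by linarith) he
  rw [Real.div_rpow hR.le hR1.le, Real.rpow_add hR, Real.rpow_one] at h1
  have h2 : u ^ n * a * σ ≤ u ^ n * a * σ / (R / R0) := by
    rw [le_div_iff₀ (div_pos hR hR1)]
    exact mul_le_of_le_one_right hq0 ((div_le_one hR1).2 hR0.le)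
  have h3 : u ^ n * (a * (σ * x ^ e + σ)) / R ≤
      x ^ 2 * (R ^ g / R0 ^ (g + 1)) + 2 * R0 * (u ^ n * a * σ / R ^ 2) := by
    rw [div_le_iff₀ hR]
    have h4 : (x ^ 2 * (R ^ g / R0 ^ (g + 1)) + 2 * R0 * (u ^ n * a * σ / R ^ 2)) * R =
        x ^ 2 * (R ^ g * R / R0 ^ (g + 1)) + 2 * (u ^ n * a * σ / (R / R0)) := by
      field_simp
    rw [h4]
    nlinarith
  rw [← add_assoc]
  refine add_le_add ?_ ?_
  · rw [← ENNReal.ofReal_mul (by positivity), ← ENNReal.ofReal_mul (by positivity),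
      ← ENNReal.ofReal_add (by positivity) (by positivity)]
    exact ENNReal.ofReal_le_ofReal h3
  · rw [mul_left_comm (ENNReal.ofReal (C1 * R0))]
    refine mul_le_mul' (ENNReal.ofReal_le_ofReal ?_) (hG.trans (mul_le_mul_left
      (ENNReal.ofReal_le_ofReal (by gcongr)) _))
    exact mul_le_mul_of_nonneg_right (pow_le_pow_of_le_one hu0 hu1 (by omega)) (by positivity)

/-- The far majorant. -/
noncomputable def T1 (κ l δ : ℝ) (z0 : ℂ) (m : ℝ) (W : Pth) (t R0 : ℝ) : ℂ → ℝ≥0∞ :=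
  (Lin l δ z0 m W t ∩ {w | R0 ≤ Rf W t w}).indicator
    fun w => ENNReal.ofReal (Sf W t w ^ pp κ / Rf W t w)

/-- The majorant that is integrated in the image plane. -/
noncomputable def T2 (l c g : ℝ) (W : Pth) (t R0 : ℝ) : ℂ → ℝ≥0∞ :=
  (dom W t).indicator fun w =>
    ENNReal.ofReal ((l / Up W t w) ^ 2 * Sf W t w ^ 2) * wg c g R0 (Zf W t w)

theorem key (hF : FlowAStmt) {κ l δ m t R0 C1 g : ℝ} {z0 w : ℂ} {W : Pth} (h0 : 0 < κ)
    (h8 : κ < 8) (hl : 0 < l) (hδ : 0 < δ) (ht : 0 ≤ t) (hC1 : 0 < C1) (hg : 0 < g)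
    (heg : (2 - dd κ) * (g + 1) = 2 - (2 - dd κ)) (hN0 : 0 ≤ NN l δ z0 m w W t)
    (hB : 0 < Yf W t w → GG l z0 m w W t ≤ ENNReal.ofReal (C1 / Rf W t w) ∧
      GG l z0 m w W t ≤ ENNReal.ofReal (C1 * Rf W t w) * HH l z0 m w W t)
    (hwb : w ∈ ball z0 (m * l)) :
    ENNReal.ofReal (uu l δ z0 m w W t ^ nn κ * vv κ l δ w W t / Rf W t w) +
      ENNReal.ofReal (uu l δ z0 m w W t ^ (nn κ - 1) * vv κ l δ w W t) * GG l z0 m w W t ≤
    ENNReal.ofReal (2 * (1 + C1)) * T1 κ l δ z0 m W t R0 w + (T2 l (1 + C1) g W t R0 w +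
      (ENNReal.ofReal (2 * R0) * ENNReal.ofReal (ee κ l δ z0 m w W t) +
      ENNReal.ofReal (C1 * R0) * (ENNReal.ofReal
        (uu l δ z0 m w W t ^ (nn κ - 2) * vv κ l δ w W t) * HH l z0 m w W t))) := by
  have hd1 := one_lt_dd h0
  have hd2 := dd_lt_two h8
  have hp := pp_pos h0 h8
  have hn := nn_ge h0 h8
  by_cases hu : uu l δ z0 m w W t = 0
  · rw [hu, zero_pow (by omega), zero_pow (by omega), zero_mul, zero_div, ENNReal.ofReal_zero,
      zero_mul, add_zero]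
    exact zero_le
  by_cases ha : aa l δ w W t = 0
  · rw [vv, ha, zero_mul, mul_zero, mul_zero, zero_div, ENNReal.ofReal_zero, zero_mul, add_zero]
    exact zero_le
  have hu0 : 0 ≤ uu l δ z0 m w W t := le_max_right _ _
  have hu1 : uu l δ z0 m w W t ≤ 1 := max_le (by linarith) zero_le_one
  have ha0 : 0 ≤ aa l δ w W t := mul_nonneg (cut_nonneg _) (sub_nonneg.2 (cut_le_one _))
  have ha1 : aa l δ w W t ≤ 1 :=
    mul_le_one₀ (cut_le_one _) (sub_nonneg.2 (cut_le_one _)) (sub_le_self _ (cut_nonneg _))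
  have hY : δ ≤ Yf W t w := by
    by_contra h
    exact ha (by rw [aa, cy, cut_zero ((div_le_one hδ).2 (not_le.1 h).le), zero_mul])
  have hU2 : Up W t w ≤ 2 * l := by
    by_contra h
    exact ha (by rw [aa, cut_one ((le_div_iff₀ hl).2 (not_le.1 h).le), sub_self, mul_zero])
  have hNN : NN l δ z0 m w W t < 1 / 100 := by
    by_contra h
    exact hu (max_eq_right (by linarith [not_lt.1 h]))
  have hY0 : 0 < Yf W t w := hδ.trans_le hY
  have hdom : w ∈ dom W t := (hF.alive W t w ht).2 hY0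
  have hU0 : 0 < Up W t w := Up_pos ht hdom
  have hR : 0 < Rf W t w := hY0.trans_le ((le_abs_self _).trans (Yf_le_Rf W t w))
  have hS : 0 < Sf W t w := div_pos hY0 hR
  have hσ0 : 0 ≤ Sf W t w ^ pp κ := Real.rpow_nonneg hS.le _
  have hσ1 : Sf W t w ^ pp κ ≤ 1 := Real.rpow_le_one hS.le (Sf_le_one W t w) hp.le
  have hx : 0 < l / Up W t w * Sf W t w := by positivity
  have hvv : vv κ l δ w W t = aa l δ w W t *
      (Sf W t w ^ pp κ * (l / Up W t w * Sf W t w) ^ (2 - dd κ) + Sf W t w ^ pp κ) := by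
    rw [vv, MM, ← M_eq (r := rr κ) hl hU0 hS (by rw [pp]; ring), neg_sub]
  obtain ⟨hG1, hG2⟩ := hB hY0
  rw [hvv, T2, indicator_of_mem hdom, ← mul_pow, wg]
  rcases le_or_gt R0 (Rf W t w) with h | h
  · rw [T1, indicator_of_mem (show w ∈ Lin l δ z0 m W t ∩ {w | R0 ≤ Rf W t w} from
      ⟨⟨hwb, hNN, hY, hU2⟩, h⟩), if_pos (show R0 ≤ ‖Zf W t w‖ from h), ← add_assoc]
    exact le_add_right (far hu0 hu1 ha0 ha1 hσ0 hσ1 hx (by linarith) (by linarith) hR hC1 hG1)
  · rw [if_neg (show ¬ R0 ≤ ‖Zf W t w‖ from not_le.2 h)]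
    exact le_add_left (near hu0 hu1 ha0 ha1 hσ0 hσ1 hx hg.le heg hR h hC1 hG2)

theorem fin {C1 CA Cw Cc R0 : ℝ} {D D' a b c : ℝ≥0∞} (hC1 : 0 < C1) (hCA : 0 < CA) (hCw : 0 < Cw)
    (hCc : 0 < Cc) (hR0 : 0 < R0) (b1 : a ≤ ENNReal.ofReal (2 * CA / R0))
    (b2 : b ≤ ENNReal.ofReal (Cw / R0)) (b3 : c ≤ ENNReal.ofReal 1 * D + ENNReal.ofReal Cc * D') :
    ENNReal.ofReal (2 * (1 + C1)) * a + (b + (ENNReal.ofReal (2 * R0) * D +
      ENNReal.ofReal (C1 * R0) * c)) ≤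
    ENNReal.ofReal ((2 * (1 + C1) * (2 * CA) + Cw + (2 + C1 + C1 * Cc)) * R0) * (D + D') +
      ENNReal.ofReal ((2 * (1 + C1) * (2 * CA) + Cw + (2 + C1 + C1 * Cc)) / R0) := by
  rw [ENNReal.ofReal_one, one_mul] at b3
  have p1 : 0 ≤ C1 * Cc := by positivity
  have p2 : 0 ≤ 2 * (1 + C1) * (2 * CA) := by positivity
  have e1 : ENNReal.ofReal (2 * (1 + C1)) * ENNReal.ofReal (2 * CA / R0) +
      ENNReal.ofReal (Cw / R0) ≤
      ENNReal.ofReal ((2 * (1 + C1) * (2 * CA) + Cw + (2 + C1 + C1 * Cc)) / R0) := by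
    rw [← ENNReal.ofReal_mul (by positivity), ← ENNReal.ofReal_add (by positivity) (by positivity),
      ← mul_div_assoc, ← add_div]
    exact ENNReal.ofReal_le_ofReal (div_le_div_of_nonneg_right (by linarith) hR0.le)
  have e2 : ENNReal.ofReal (2 * R0) + ENNReal.ofReal (C1 * R0) ≤
      ENNReal.ofReal ((2 * (1 + C1) * (2 * CA) + Cw + (2 + C1 + C1 * Cc)) * R0) := by
    rw [← ENNReal.ofReal_add (by positivity) (by positivity), ← add_mul]
    exact ENNReal.ofReal_le_ofReal (mul_le_mul_of_nonneg_right (by linarith) hR0.le)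
  have e3 : ENNReal.ofReal (C1 * R0) * ENNReal.ofReal Cc ≤
      ENNReal.ofReal ((2 * (1 + C1) * (2 * CA) + Cw + (2 + C1 + C1 * Cc)) * R0) := by
    rw [← ENNReal.ofReal_mul (by positivity), mul_right_comm]
    exact ENNReal.ofReal_le_ofReal (mul_le_mul_of_nonneg_right (by linarith) hR0.le)
  calc _ ≤ ENNReal.ofReal (2 * (1 + C1)) * ENNReal.ofReal (2 * CA / R0) +
        (ENNReal.ofReal (Cw / R0) + (ENNReal.ofReal (2 * R0) * D +
        ENNReal.ofReal (C1 * R0) * (D + ENNReal.ofReal Cc * D'))) :=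
        add_le_add (mul_le_mul_right b1 _) (add_le_add b2 (add_le_add le_rfl
          (mul_le_mul_right b3 _)))
    _ = ((ENNReal.ofReal (2 * R0) + ENNReal.ofReal (C1 * R0)) * D +
          ENNReal.ofReal (C1 * R0) * ENNReal.ofReal Cc * D') +
        (ENNReal.ofReal (2 * (1 + C1)) * ENNReal.ofReal (2 * CA / R0) +
          ENNReal.ofReal (Cw / R0)) := by ring
    _ ≤ _ := by
        rw [mul_add (ENNReal.ofReal _) D D']
        exact add_le_add (add_le_add (mul_le_mul_left e2 _) (mul_le_mul_left e3 _)) e1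

theorem meas (hM : FlowMStmt) {κ l δ m t : ℝ} {z0 : ℂ} {W : Pth} (ht : 0 ≤ t)
    (mN : Measurable fun w => NN l δ z0 m w W t) (c g R0 : ℝ) :
    MeasurableSet (Lin l δ z0 m W t) ∧ (Measurable fun w => Rf W t w) ∧
      Measurable (T1 κ l δ z0 m W t R0) ∧ Measurable (T2 l c g W t R0) ∧
      Measurable fun w => ENNReal.ofReal (ee κ l δ z0 m w W t) := by
  have hpm : Measurable fun w : ℂ => (w, W, t) := measurable_id.prodMk measurable_const
  have mZ : Measurable fun w => Zf W t w := by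
    have := hM.Z_meas.comp hpm
    exact this
  have mU : Measurable fun w => Up W t w := by
    have := hM.Up_meas.comp hpm
    exact this
  have mY : Measurable fun w => Yf W t w := by
    have := hM.Y_meas.comp hpm
    exact this
  have mR : Measurable fun w => Rf W t w := by
    have := hM.R_meas.comp hpm
    exact this
  have mS : Measurable fun w => Sf W t w := by
    have := hM.S_meas.comp hpm
    exact this
  have mL : MeasurableSet (Lin l δ z0 m W t) :=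
    measurableSet_ball.inter ((measurableSet_lt mN measurable_const).inter
      ((measurableSet_le measurable_const mY).inter (measurableSet_le mU measurable_const)))
  have mD : MeasurableSet (dom W t) := (hM.dom_open W t ht).measurableSet
  have mc : Measurable cut := continuous_cut.measurable
  refine ⟨mL, mR, Measurable.indicator ((mS.pow_const _).div mR).ennreal_ofReal
    (mL.inter (measurableSet_le measurable_const mR)), Measurable.indicator (Measurable.mul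
      (((measurable_const.div mU).pow_const _).mul (mS.pow_const _)).ennreal_ofReal
      ((wg_meas _ _ _).comp mZ)) mD, Measurable.ennreal_ofReal ?_⟩
  exact ((((((measurable_const.sub (mN.const_mul _)).max measurable_const).pow_const _).mul
    ((mc.comp (mY.div_const _)).mul (measurable_const.sub (mc.comp (mU.div_const _))))).mul
    (mS.pow_const _)).div (mR.pow_const _))

end Grad

open Grad in
theorem grad (hF : Fnd) (hN : NStmt) (hT : TentStmt) (hAB : ABStmt) (hC : CostStmt) :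
    GradStmt := by
  intro κ h0 h8
  have hd1 := one_lt_dd h0
  have hd2 := dd_lt_two h8
  obtain ⟨CN, -, hN⟩ := hN κ h0
  obtain ⟨C1, hC1, hB⟩ := hT.bound 1 one_pos
  obtain ⟨CA, hCA, hAB⟩ := hAB κ h0 h8
  obtain ⟨Cc, hCc, hC⟩ := hC κ h0 h8 1 one_pos
  have hg : 0 < 2 * (dd κ - 1) / (2 - dd κ) := div_pos (by linarith) (by linarith)
  have heg : (2 - dd κ) * (2 * (dd κ - 1) / (2 - dd κ) + 1) = 2 - (2 - dd κ) := by
    have : 2 - dd κ ≠ 0 := by linarith
    field_simp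
    ring
  generalize 2 * (dd κ - 1) / (2 - dd κ) = g at hg heg
  obtain ⟨Cw, hCw, hw⟩ := wg_int hF.elem hg (by linarith : 0 < 1 + C1)
  refine ⟨2 * (1 + C1) * (2 * CA) + Cw + (2 + C1 + C1 * Cc), by positivity, ?_⟩
  intro l δ z0 m W t R0 hl hδ ht hR0
  obtain ⟨dN, gN, hSm, hN0⟩ := hN l δ z0 m hl hδ
  have mN : Measurable fun w => NN l δ z0 m w W t := by
    have := ((hF.int.tame κ ℂ _ _ _ hSm).1.meas' t ht).comp
      (measurable_id.prodMk measurable_const : Measurable fun w : ℂ => (w, W))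
    exact this
  obtain ⟨mL, mR, m1, m2, mE⟩ := meas (κ := κ) hF.meas ht mN (1 + C1) g R0
  have hS0 : ∀ w, 0 ≤ Sf W t w := fun w => div_nonneg (hF.flow.Y_nonneg W t w) (Rf_nonneg W t w)
  refine (setLIntegral_mono' measurableSet_ball fun w hw => key (R0 := R0) hF.flow h0 h8 hl hδ ht
    hC1 hg heg (hN0 w W t ht).1 (fun h => ⟨(hB l z0 m w W t hl ht h).1,
      (hB l z0 m w W t hl ht h).2.1⟩) hw).trans ?_
  rw [lintegral_add_left (m1.const_mul _), lintegral_add_left m2,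
    lintegral_add_left (mE.const_mul _), lintegral_const_mul' _ _ ENNReal.ofReal_ne_top,
    lintegral_const_mul' _ _ ENNReal.ofReal_ne_top, lintegral_const_mul' _ _ ENNReal.ofReal_ne_top]
  refine fin hC1 hCA hCw hCc hR0 ?_ ?_ (hC l δ z0 m W t hl hδ ht)
  · exact (setLIntegral_le_lintegral _ _).trans ((lintegral_indicator_le _ _).trans
      (annuli mL mR (fun w => Real.rpow_nonneg (hS0 w) _) hCA hR0
        fun R1 hR1 => hAB l δ z0 m W t R1 hl hδ ht hR1))
  · exact (setLIntegral_le_lintegral _ _).trans ((lintegral_indicator_le _ _).trans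
      ((hT.push l W t _ hl ht).trans_le (hw R0 hR0)))

end Vale.Agent.P164
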