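import Vale.Agent.P164.Stm2

/-! The two-point kernel is a smooth functional. -/

open Set MeasureTheory

namespace Vale.Agent.P164

noncomputable def kernE (ℓ : ℝ) (w : ℂ) (W : Pth) (t : ℝ) : ℝ :=
  cut (Up W t w / ℓ) - cut (Up W t w / (3 * ℓ))

noncomputable def kernDE (ℓ : ℝ) (w : ℂ) (W : Pth) (t : ℝ) : ℝ :=
  (cut1 (Up W t w / (3 * ℓ)) * (Up W t w / (3 * ℓ)) - cut1 (Up W t w / ℓ) * (Up W t w / ℓ)) *
    (4 * Sf W t w ^ 2 / Rf W t w ^ 2)

noncomputable def kernG (w : ℂ) (W : Pth) (t : ℝ) : ℝ := Sf W t w * (Xf W t w / Rf W t w ^ 2)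

noncomputable def kernDH (κ : ℝ) (w : ℂ) (W : Pth) (t : ℝ) : ℝ :=
  -(8 * cut1 (8 * Sf W t w)) * (Sf W t w *
    ((cX κ 0 1 * (1 - Sf W t w ^ 2) + cY κ 0 0 1 * Sf W t w ^ 2) / Rf W t w ^ 2)) +
    κ / 2 * -(64 * cut2 (8 * Sf W t w)) * kernG w W t ^ 2

noncomputable def kernF (ℓ : ℝ) (w : ℂ) (W : Pth) (t : ℝ) : ℝ :=
  kernE ℓ w W t * (1 - cut (8 * Sf W t w))

noncomputable def kernDF (κ ℓ : ℝ) (w : ℂ) (W : Pth) (t : ℝ) : ℝ :=
  kernE ℓ w W t * kernDH κ w W t + (1 - cut (8 * Sf W t w)) * kernDE ℓ w W t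

noncomputable def kernGF (ℓ : ℝ) (w : ℂ) (W : Pth) (t : ℝ) : ℝ :=
  kernE ℓ w W t * (-(8 * cut1 (8 * Sf W t w)) * kernG w W t)

theorem kern_ls (hF : Fnd) {κ ℓ : ℝ} (hκ : 0 < κ) (hℓ : 0 < ℓ) :
    LS κ (kernF ℓ) (kernDF κ ℓ) (kernGF ℓ) := by
  have h1 := hF.ls.add κ _ _ _ _ _ _ (hF.mon.cutUp κ ℓ hκ hℓ)
    (hF.ls.smul κ _ _ _ (-1) (hF.mon.cutUp κ (3 * ℓ) hκ (by positivity)))
  have h2 := hF.ls.comp κ _ _ _ (fun x => 1 - cut (8 * x)) (fun x => -(8 * cut1 (8 * x)))
    (fun x => -(64 * cut2 (8 * x)))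
    (fun x => by
      have := ((hasDerivAt_cut (8 * x)).comp x ((hasDerivAt_id x).const_mul 8)).const_sub 1
      simpa [mul_comm] using this)
    (fun x => by
      have := (((hasDerivAt_cut1 (8 * x)).comp x ((hasDerivAt_id x).const_mul 8)).const_mul 8).neg
      exact this.congr_deriv (by ring))
    ((continuous_const.mul (continuous_cut2.comp (continuous_const.mul continuous_id))).neg)
    (hF.mon.mon κ 0 0 1 hκ)
  refine hF.ls.congr κ _ _ _ _ _ _ (hF.ls.mul κ _ _ _ _ _ _ h1 h2) fun w W t _ _ => ?_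
  simp only [kernF, kernDF, kernGF, kernE, kernDE, kernDH, kernG, Mon, Real.rpow_zero,
    Real.rpow_one, one_mul]
  refine ⟨by ring, by ring, by ring⟩

theorem kernE_mem {ℓ : ℝ} (hℓ : 0 < ℓ) (w : ℂ) (W : Pth) (t : ℝ) :
    0 ≤ kernE ℓ w W t ∧ kernE ℓ w W t ≤ 1 := by
  have := cut_mono (div_le_div_of_nonneg_left (Up_nonneg W t w) hℓ (by linarith : ℓ ≤ 3 * ℓ))
  unfold kernE
  constructor <;> linarith [cut_le_one (Up W t w / ℓ), cut_nonneg (Up W t w / (3 * ℓ))]

theorem kern_cut1 {K : ℝ} (hK : ∀ x, cut1 x ≤ K) (x : ℝ) : 0 ≤ cut1 x * x ∧ cut1 x * x ≤ 2 * K := by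
  have h0 := cut1_nonneg x
  have h1 := (cut1_nonneg x).trans (hK x)
  rcases le_total x 1 with h | h
  · rw [cut1_zero_left h]; constructor <;> linarith
  rcases le_total 2 x with h' | h'
  · rw [cut1_zero_right h']; constructor <;> linarith
  exact ⟨by positivity, by nlinarith [hK x]⟩

theorem kern_bd {κ ℓ K : ℝ} (hκ : 0 < κ) (hℓ : 0 < ℓ) (hK : ∀ x, cut1 x ≤ K)
    (hK' : ∀ x, |cut2 x| ≤ K) {w : ℂ} {W : Pth} {t : ℝ} (hY : 0 < Yf W t w)
    (hS : Sf W t w ≤ 1 / 4) :
    |kernF ℓ w W t| ≤ 1 ∧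
    |kernDF κ ℓ w W t| ≤ K * (8 * (|cX κ 0 1| + |cY κ 0 0 1|) + 32 * κ + 2) *
      (Sf W t w / Rf W t w ^ 2) ∧ |kernGF ℓ w W t| ≤ 8 * K * (1 / Rf W t w) := by
  have hR : 0 < Rf W t w := hY.trans_le ((le_abs_self _).trans (Yf_le_Rf W t w))
  have hS0 : 0 < Sf W t w := div_pos hY hR
  have hK0 := (cut1_nonneg 0).trans (hK 0)
  have e : |kernE ℓ w W t| ≤ 1 := by
    rw [abs_of_nonneg (kernE_mem hℓ w W t).1]; exact (kernE_mem hℓ w W t).2
  have h : |1 - cut (8 * Sf W t w)| ≤ 1 := by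
    rw [abs_le]; constructor <;> linarith [cut_le_one (8 * Sf W t w), cut_nonneg (8 * Sf W t w)]
  have c1 : |-(8 * cut1 (8 * Sf W t w))| ≤ 8 * K := by
    rw [abs_neg, abs_of_nonneg (by have := cut1_nonneg (8 * Sf W t w); positivity)]
    linarith [hK (8 * Sf W t w)]
  have g : |kernG w W t| ≤ Sf W t w / Rf W t w := by
    rw [kernG, abs_mul, abs_div, abs_of_pos hS0, abs_of_pos (pow_pos hR 2),
      div_eq_mul_one_div (Sf W t w)]
    refine mul_le_mul_of_nonneg_left ?_ hS0.le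
    rw [div_le_div_iff₀ (pow_pos hR 2) hR]
    nlinarith [Xf_le_Rf W t w]
  have mm : ∀ {x y a b : ℝ}, |x| ≤ a → |y| ≤ b → |x * y| ≤ a * b := fun h1 h2 => by
    rw [abs_mul]; exact mul_le_mul h1 h2 (abs_nonneg _) ((abs_nonneg _).trans h1)
  refine ⟨(mm e h).trans_eq (one_mul 1), ?_, ?_⟩
  · have d1 : |Sf W t w * ((cX κ 0 1 * (1 - Sf W t w ^ 2) + cY κ 0 0 1 * Sf W t w ^ 2) /
        Rf W t w ^ 2)| ≤ (|cX κ 0 1| + |cY κ 0 0 1|) * (Sf W t w / Rf W t w ^ 2) := by
      rw [← mul_div_assoc, mul_comm, mul_div_assoc]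
      refine mm ((abs_add_le _ _).trans (add_le_add ?_ ?_)) (abs_of_pos (by positivity)).le
      · simpa using mm (le_refl |cX κ 0 1|) (show |1 - Sf W t w ^ 2| ≤ 1 by
          rw [abs_le]; constructor <;> nlinarith)
      · simpa using mm (le_refl |cY κ 0 0 1|) (show |Sf W t w ^ 2| ≤ 1 by
          rw [abs_le]; constructor <;> nlinarith)
    have d2 : |kernG w W t ^ 2| ≤ Sf W t w / Rf W t w ^ 2 := by
      rw [abs_pow]
      refine (pow_le_pow_left₀ (abs_nonneg _) g 2).trans ?_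
      rw [div_pow]
      gcongr
      nlinarith
    have d3 : |κ / 2 * -(64 * cut2 (8 * Sf W t w))| ≤ κ / 2 * (64 * K) :=
      mm (abs_of_pos (by positivity)).le (by
        rw [abs_neg]; exact mm (abs_of_pos (by norm_num)).le (hK' _))
    have d4 : |kernDE ℓ w W t| ≤ 2 * K * (Sf W t w / Rf W t w ^ 2) := by
      refine mm ?_ ?_
      · have a := kern_cut1 hK (Up W t w / (3 * ℓ))
        have b := kern_cut1 hK (Up W t w / ℓ)
        rw [abs_le]; constructor <;> linarith [a.1, a.2, b.1, b.2]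
      · rw [abs_of_pos (by positivity)]
        gcongr
        nlinarith
    have d5 := (abs_add_le _ _).trans (add_le_add (mm c1 d1) (mm d3 d2))
    exact ((abs_add_le _ _).trans (add_le_add (mm e d5) (mm h d4))).trans (le_of_eq (by ring))
  · refine (mm e (mm c1 g)).trans ?_
    rw [one_mul]
    gcongr
    linarith

theorem kernS (hF : Fnd) (hQ : QStmt) : KernStmt := by
  intro κ hκ
  obtain ⟨C, hC, hQ⟩ := hQ κ hκ
  obtain ⟨K, hK1, hK, hK'⟩ := cut_bounds
  refine ⟨K * (8 * (|cX κ 0 1| + |cY κ 0 0 1|) + 32 * κ + 8 + C), by positivity,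
    fun ℓ δ hℓ hδ => ?_⟩
  obtain ⟨dQ, sQ, bQ⟩ := hQ (δ / 4) (δ / 12) (by positivity) (by positivity)
  have sA := hF.alg.pull κ ℂ (ℂ × ℂ) _ _ _ Prod.fst measurable_fst
    (fun n => ⟨n, fun b hb => (norm_fst_le b).trans hb⟩) (hF.base.one κ (δ / 2) (by positivity))
  have sB := hF.alg.pull κ ℂ (ℂ × ℂ) _ _ _ Prod.snd measurable_snd
    (fun n => ⟨n, fun b hb => (norm_snd_le b).trans hb⟩) (kern_ls hF hκ hℓ (δ / 6) (by positivity))
  have sE := hF.alg.comp κ _ _ _ _ (fun x => 1 - cut (x / 2)) (fun x => -(cut1 (x / 2) / 2))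
    (fun x => -(cut2 (x / 2) / 4))
    (fun x => by
      have := ((hasDerivAt_cut (x / 2)).comp x ((hasDerivAt_id x).div_const 2)).const_sub 1
      exact this.congr_deriv (by ring))
    (fun x => by
      have := (((hasDerivAt_cut1 (x / 2)).comp x ((hasDerivAt_id x).div_const 2)).div_const 2).neg
      exact this.congr_deriv (by ring))
    ((continuous_cut2.comp (continuous_id.div_const 2)).div_const 4).neg sQ
  have one : ∀ {x a b : ℝ}, 0 < a → 2 * a ≤ b → b ≤ x → 2 ≤ x / a := fun ha h1 h2 => by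
    rw [le_div_iff₀ ha]; linarith
  have zer : ∀ {x a : ℝ}, 0 < a → x ≤ a → x / a ≤ 1 := fun ha h => (div_le_one ha).2 h
  refine ⟨_, _, hF.alg.congr κ _ _ _ _ _ _ _
    (hF.alg.mul κ _ _ _ _ _ _ _ (hF.alg.mul κ _ _ _ _ _ _ _ sA sB) sE)
    fun p W t _ => ⟨?_, rfl, rfl⟩, fun w w' W t ht => ⟨?_, fun hY => ?_⟩⟩
  · simp only [kern, kernF, kernE]
    rcases le_total (Yf W t p.1) (δ / 2) with h | h
    · simp [cy, cut_zero (zer (by positivity) h)]
    rcases le_total (Yf W t p.2) (δ / 6) with h' | h'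
    · simp [cy, cut_zero (zer (by positivity) h')]
    have e1 : cy (δ / 4) p.1 W t = 1 := cut_one (one (by positivity) (by linarith) h)
    have e2 : cy (δ / 12) p.2 W t = 1 := cut_one (one (by positivity) (by linarith) h')
    rw [e1, e2]
    ring
  · exact mul_nonneg (mul_nonneg (mul_nonneg (mul_nonneg (cut_nonneg _) (cut_nonneg _))
      (kernE_mem hℓ w' W t).1) (sub_nonneg.2 (cut_le_one _))) (sub_nonneg.2 (cut_le_one _))
  have e1 : cy (δ / 2) w W t = 1 := cut_one (one (by positivity) (by linarith) hY)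
  have e2 : cyd (δ / 2) w W t = 0 := by
    rw [cyd, cut1_zero_right (one (by positivity) (by linarith) hY)]; ring
  have e3 : cy (δ / 4) w W t = 1 := cut_one (one (by positivity) (by linarith) hY)
  simp only [e1, e2, e3, one_mul, mul_one, mul_zero, zero_mul, add_zero, sub_zero, zero_add,
    ne_eq, OfNat.ofNat_ne_zero, not_false_eq_true, zero_pow]
  refine ⟨fun hs => ?_, fun hs => ?_, fun h => by
    simp [kernGF, cut1_zero_left (show 8 * Sf W t w' ≤ 1 by linarith)]⟩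
  · have hY' : δ / 3 ≤ Yf W t w' := by
      have := (le_abs_self _).trans ((Complex.abs_im_le_norm _).trans hs.2.2.1)
      rw [Complex.sub_im] at this
      unfold Yf at *
      linarith
    have e4 : cy (δ / 6) w' W t = 1 := cut_one (one (by positivity) (by linarith) hY')
    have e5 : cyd (δ / 6) w' W t = 0 := by
      rw [cyd, cut1_zero_right (one (by positivity) (by linarith) hY')]; ring
    have hY0 : 0 < Yf W t w' := by linarith
    obtain ⟨b1, b2, b3⟩ := kern_bd hκ hℓ hK hK' hY0 hs.2.2.2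
    have b4 := bQ w w' W t ht (by linarith) (by linarith) hs.2.2.1 hs.2.2.2
    have hR : 0 < Rf W t w' := hY0.trans_le ((le_abs_self _).trans (Yf_le_Rf W t w'))
    have hS0 : 0 < Sf W t w' := div_pos hY0 hR
    have mm : ∀ {x y a b : ℝ}, |x| ≤ a → |y| ≤ b → |x * y| ≤ a * b := fun h1 h2 => by
      rw [abs_mul]; exact mul_le_mul h1 h2 (abs_nonneg _) ((abs_nonneg _).trans h1)
    have h : ∀ x, |1 - cut x| ≤ 1 := fun x => by
      rw [abs_le]; constructor <;> linarith [cut_le_one x, cut_nonneg x]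
    have h' : ∀ x, |-(cut1 x / 2)| ≤ K := fun x => by
      rw [abs_le]; constructor <;> linarith [cut1_nonneg x, hK x]
    simp only [e4, e5, one_mul, zero_mul, sub_zero]
    constructor
    · refine ((abs_add_le _ _).trans (add_le_add (mm b1 (mm (h' _) b4)) (mm (h _) b2))).trans ?_
      have : 0 ≤ K * (Sf W t w' / Rf W t w' ^ 2) := by positivity
      linarith
    · refine (mm (h _) b3).trans ?_
      have : 0 ≤ K * (8 * (|cX κ 0 1| + |cY κ 0 0 1|) + 32 * κ + C) * (1 / Rf W t w') := by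
        positivity
      linarith
  · simp only [sc, not_and_or, not_le] at hs
    rcases hs with h | h | h | h
    · have a := zer hℓ h.le
      have b := zer (by positivity : 0 < 3 * ℓ) (by linarith : Up W t w' ≤ 3 * ℓ)
      simp [kernF, kernDF, kernGF, kernE, kernDE, cut_zero a, cut_zero b, cut1_zero_left a,
        cut1_zero_left b]
    · have a := one hℓ (by linarith) h.le
      have b := one (by positivity : 0 < 3 * ℓ) (by linarith) h.le
      simp [kernF, kernDF, kernGF, kernE, kernDE, cut_one a, cut_one b, cut1_zero_right a,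
        cut1_zero_right b]
    · rcases le_total (Yf W t w') (δ / 6) with h' | h'
      · have a := zer (by positivity) h'
        simp [cy, cyd, cut_zero a, cut1_zero_left a]
      have e6 : cy (δ / 12) w' W t = 1 := cut_one (one (by positivity) (by linarith) h')
      have hY0 : 0 < Yf W t w' := by linarith
      have a : 2 ≤ Qf w w' W t / 2 := by
        rw [le_div_iff₀ two_pos, Qf, le_div_iff₀ (by positivity)]
        nlinarith
      simp [e6, cut_one a, cut1_zero_right a]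
    · have a : 2 ≤ 8 * Sf W t w' := by linarith
      simp [kernF, kernDF, kernGF, kernDH, cut_one a, cut1_zero_right a, cut2_zero_right a]

end Vale.Agent.P164
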