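import Vale.Agent.P164.Stm2

/-! P164: almost sure positivity on every time window. -/

open Set MeasureTheory ProbabilityTheory Metric Filter Topology
open scoped ENNReal NNReal

namespace Vale.Agent.P164

theorem lower_window (hF : Fnd) (hG : GoodMStmt) {κ : ℝ} {μ : Measure Pth} (hc : Ctx κ μ)
    {s0 C1 p : ℝ} (hp : 0 < p)
    (hP : ∀ a b V, 0 ≤ a → a < b → ENNReal.ofReal p ≤ CP μ a V (GoodE κ s0 C1 a b))
    (s t : ℝ) (hs : 0 ≤ s) (hst : s < t) :
    ∀ᵐ W ∂μ, ∃ a b, s ≤ a ∧ a ≤ b ∧ b ≤ t ∧ W ∈ GoodE κ s0 C1 a b := by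
  rw [ae_iff]
  have key : ∀ N : ℕ, 0 < N →
      μ {W | ¬∃ a b, s ≤ a ∧ a ≤ b ∧ b ≤ t ∧ W ∈ GoodE κ s0 C1 a b} ≤
        (1 - ENNReal.ofReal p) ^ N := by
    intro N hN
    have hNr : (0 : ℝ) < N := by exact_mod_cast hN
    set h : ℝ := (t - s) / N with hh
    have hpos : 0 < h := div_pos (by linarith) hNr
    have hNh : (N : ℝ) * h = t - s := by rw [hh]; field_simp
    let tt : ℕ → ℝ := fun j => s + j * h
    have hlt : ∀ j : ℕ, tt j < tt (j + 1) := by
      intro j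
      simp only [tt]
      push_cast
      linarith
    have hge : ∀ j : ℕ, s ≤ tt j := by
      intro j
      simp only [tt]
      have : 0 ≤ (j : ℝ) * h := by positivity
      linarith
    have hle : ∀ j : ℕ, j < N → tt (j + 1) ≤ t := by
      intro j hj
      simp only [tt]
      have h1 : ((j + 1 : ℕ) : ℝ) ≤ N := by exact_mod_cast hj
      have := mul_le_mul_of_nonneg_right h1 hpos.le
      linarith
    have hu := hF.cat.upper κ μ hc.wie tt (fun j => GoodE κ s0 C1 (tt j) (tt (j + 1)))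
      (ENNReal.ofReal p) N (hs.trans (hge 0)) (fun j _ => (hlt j).le)
      (fun j _ => hG.meas _ _ _ _ _)
      (fun j _ V W hVW hV => hG.loc _ _ _ _ _ V W (hs.trans (hge j)) (hlt j).le hVW hV)
      (fun j _ V => hP _ _ V (hs.trans (hge j)) (hlt j))
    refine le_trans (measure_mono ?_) hu
    intro W hW j hj hm
    exact hW ⟨tt j, tt (j + 1), hge j, (hlt j).le, hle j hj, hm⟩
  have hlt1 : 1 - ENNReal.ofReal p < 1 :=
    ENNReal.sub_lt_self ENNReal.one_ne_top one_ne_zero (by simpa using hp)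
  have ht : Tendsto (fun N : ℕ => (1 - ENNReal.ofReal p) ^ N) atTop (𝓝 0) :=
    ENNReal.tendsto_pow_atTop_nhds_zero_of_lt_one hlt1
  refine le_antisymm (ge_of_tendsto ht ?_) zero_le
  filter_upwards [eventually_gt_atTop 0] with N hN using key N hN

theorem lower (hF : Fnd) (hM : FMStmt) (hG : GoodMStmt) (hD : PosDetStmt) (hP : PosProbStmt) :
    LowerStmt := by
  intro κ μ hc
  obtain ⟨s0, T0, hFM⟩ := hM κ μ hc
  obtain ⟨C1, p, hC1, hp, hP'⟩ := hP κ μ hc s0 T0 hFM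
  have h1 : ∀ q : ℚ × ℚ, ∀ᵐ W ∂μ, (0 : ℝ) ≤ q.1 → (q.1 : ℝ) < q.2 →
      ∃ a b, (q.1 : ℝ) ≤ a ∧ a ≤ b ∧ b ≤ q.2 ∧ W ∈ GoodE κ s0 C1 a b := by
    intro q
    by_cases h0 : (0 : ℝ) ≤ q.1
    · by_cases h2 : (q.1 : ℝ) < q.2
      · filter_upwards [lower_window hF hG hc hp hP' q.1 q.2 h0 h2] with W hW _ _ using hW
      · exact Eventually.of_forall fun W _ h => absurd h h2
    · exact Eventually.of_forall fun W h => absurd h h0
  filter_upwards [ae_all_iff.2 h1] with W hW s t hs hst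
  obtain ⟨q1, hq1, hq1'⟩ := exists_rat_btwn hst
  obtain ⟨q2, hq2, hq2'⟩ := exists_rat_btwn hq1'
  obtain ⟨a, b, ha, hab, hb, hm⟩ := hW (q1, q2) (hs.trans hq1.le) hq2
  have ha' : s ≤ a := hq1.le.trans ha
  exact ⟨a, b, ha', hab, hb.trans hq2'.le,
    hD κ hc.pos hc.lt s0 C1 a b W hC1 (hs.trans ha') hab hm⟩

end Vale.Agent.P164
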