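import Vale.Agent.P164.Stm2

/-! A Lyapunov function for small angles. -/

open Set MeasureTheory ProbabilityTheory Metric
open scoped ENNReal NNReal

namespace Vale.Agent.P164

theorem ly_num {α β p : ℝ} (hα : 0 < α) (hβ : 0 < β) (hp : 0 ≤ p) : ∃ C : ℝ, 0 < C ∧
    ∀ S : ℝ, 0 < S → -α * (1 - S ^ 2) + β * S ^ 2 ≤ 2 * C * S ^ p * S ^ 2 := by
  have h0 : 0 < α / (α + β) := by positivity
  have h1 : 0 < √(α / (α + β)) ^ p := Real.rpow_pos_of_pos (Real.sqrt_pos.2 h0) p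
  refine ⟨β / (2 * √(α / (α + β)) ^ p) + α / (2 * √(α / (α + β)) ^ p), by positivity,
    fun S hS => ?_⟩
  have h2 : 0 < S ^ p := Real.rpow_pos_of_pos hS p
  by_cases h : S ≤ √(α / (α + β))
  · have h3 : S ^ 2 ≤ α / (α + β) := by
      rw [← Real.sq_sqrt h0.le]
      exact pow_le_pow_left₀ hS.le h 2
    rw [le_div_iff₀ (by positivity)] at h3
    refine le_trans (b := 0) (by linarith) (by positivity)
  · have h3 : √(α / (α + β)) ^ p ≤ S ^ p :=
      Real.rpow_le_rpow (Real.sqrt_nonneg _) (not_le.1 h).le hp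
    have h4 : β + α ≤ 2 * (β / (2 * √(α / (α + β)) ^ p) + α / (2 * √(α / (α + β)) ^ p)) * S ^ p := by
      calc β + α = 2 * (β / (2 * √(α / (α + β)) ^ p) + α / (2 * √(α / (α + β)) ^ p)) *
            √(α / (α + β)) ^ p := by field_simp
        _ ≤ _ := by gcongr
    nlinarith [mul_le_mul_of_nonneg_right h4 (sq_nonneg S)]

theorem ly_pos (hF : Fnd) {W : Pth} {t : ℝ} {w : ℂ} (ht : 0 ≤ t) (hY : 0 < Yf W t w) :
    0 < Up W t w ∧ 0 < Rf W t w ∧ 0 < Sf W t w := by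
  have hR : 0 < Rf W t w := hY.trans_le ((le_abs_self _).trans (Yf_le_Rf W t w))
  exact ⟨Up_pos ht ((hF.flow.alive W t w ht).2 hY), hR, div_pos hY hR⟩

theorem ly_sqrt {e U : ℝ} (he : 0 ≤ e) (hU : 0 < U) (b : ℝ) :
    √e * U ^ (b - 5 / 2) = U ^ (b - 2) * √(e / U) := by
  rw [Real.sqrt_div he, show b - 5 / 2 = (b - 2) - 1 / 2 by ring, Real.rpow_sub hU,
    ← Real.sqrt_eq_rpow]
  ring

theorem ly_half {S : ℝ} (hS : 0 < S) (r : ℝ) : S ^ (r / 2) = S ^ r * S ^ (-(r / 2)) := by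
  rw [← Real.rpow_add hS]
  congr 1
  ring

theorem ly_half' {S : ℝ} (hS : 0 < S) (r : ℝ) : S ^ r = S ^ (r / 2) * S ^ (r / 2) := by
  rw [← Real.rpow_add hS]
  congr 1
  ring

theorem ly_x {ε U : ℝ} (hε : 0 < ε) (hU : 0 < U) :
    (1 ≤ U / ε → √(4 * ε / U) ≤ 2) ∧ (U ≤ 4 * ε → 1 ≤ √(4 * ε / U)) := by
  constructor
  · intro h
    rw [le_div_iff₀ hε] at h
    refine Real.sqrt_le_iff.2 ⟨by norm_num, ?_⟩
    rw [div_le_iff₀ hU]
    linarith
  · intro h
    refine Real.le_sqrt_of_sq_le ?_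
    rw [le_div_iff₀ hU]
    linarith

theorem ly (hF : Fnd) : LyStmt := by
  intro κ hκ h8
  have hr := rr_pos hκ h8
  have hkr := kappa_rr hκ
  obtain ⟨C, hC, hnum⟩ := ly_num (α := κ * rr κ ^ 2 / 8) (β := 4 - κ / 4) (p := rr κ / 2)
    (by positivity) (by linarith) (by positivity)
  refine ⟨3 * C, by positivity, fun ε hε => ?_⟩
  have hH := hF.ls.add κ _ _ _ _ _ _ (hF.ls.add κ _ _ _ _ _ _
    (hF.ls.smul κ _ _ _ √(4 * ε) (hF.mon.mon κ 0 (dd κ - 5 / 2) (rr κ / 2) hκ))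
    (hF.ls.smul κ _ _ _ (3 * C) (hF.mon.mon κ 0 (dd κ - 2) (rr κ) hκ)))
    (hF.ls.smul κ _ _ _ (-(C * √(4 * ε))) (hF.mon.mon κ 0 (dd κ - 5 / 2) (rr κ) hκ))
  refine ⟨_, _, _, hF.ls.mul κ _ _ _ _ _ _ (hF.mon.cutUp κ ε hκ hε) hH, fun w W t ht hY => ?_⟩
  obtain ⟨hU, hR, hS⟩ := ly_pos hF ht hY
  set U := Up W t w with hUd
  set S := Sf W t w with hSd
  set R := Rf W t w with hRd
  set x := √(4 * ε / U) with hx
  set σ := S ^ (-(rr κ / 2)) with hσ
  have hσ0 : 0 < σ := Real.rpow_pos_of_pos hS _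
  have hx0 : 0 ≤ x := Real.sqrt_nonneg _
  have hM : MM κ w W t = U ^ (dd κ - 2) * S ^ rr κ := rfl
  have hM0 : 0 < MM κ w W t := by rw [hM]; positivity
  have e1 : √(4 * ε) * Mon 0 (dd κ - 5 / 2) (rr κ / 2) w W t = MM κ w W t * (x * σ) := by
    rw [Mon, Real.rpow_zero, one_mul, ← mul_assoc, ly_sqrt (by positivity) hU, ly_half hS, hM]
    ring
  have e2 : Mon 0 (dd κ - 2) (rr κ) w W t = MM κ w W t := (MM_eq κ w W t).symm
  have e3 : √(4 * ε) * Mon 0 (dd κ - 5 / 2) (rr κ) w W t = MM κ w W t * x := by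
    rw [Mon, Real.rpow_zero, one_mul, ← mul_assoc, ly_sqrt (by positivity) hU, hM]
    ring
  have eH : √(4 * ε) * Mon 0 (dd κ - 5 / 2) (rr κ / 2) w W t +
      3 * C * Mon 0 (dd κ - 2) (rr κ) w W t +
      -(C * √(4 * ε)) * Mon 0 (dd κ - 5 / 2) (rr κ) w W t =
      MM κ w W t * (x * σ + C * (3 - x)) := by
    linear_combination e1 + 3 * C * e2 - C * e3
  have hB : 1 ≤ U / ε → x * σ ≤ x * σ + C * (3 - x) := fun h =>
    le_add_of_nonneg_right (mul_nonneg hC.le (by linarith [(ly_x hε hU).1 h]))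
  have hc0 := cut_nonneg (U / ε)
  have hc1 := cut_le_one (U / ε)
  simp only [eH]
  refine ⟨?_, ?_, fun h2 h4 => ?_, ?_⟩
  · rcases le_total (U / ε) 1 with h | h
    · rw [cut_zero h, zero_mul]
    · exact mul_nonneg hc0 (mul_nonneg hM0.le ((mul_nonneg hx0 hσ0.le).trans (hB h)))
  · have c1 : cX κ 0 (rr κ / 2) = -(κ * rr κ ^ 2 / 8) := by unfold cX; ring
    have c2 : cY κ 0 (dd κ - 5 / 2) (rr κ / 2) = 4 - κ / 4 := by
      unfold cY dd; linear_combination (-1 / 4 : ℝ) * hkr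
    have c3 : cX κ 0 (rr κ) = 0 := by unfold cX; ring
    have c4 : cY κ 0 (dd κ - 2) (rr κ) = 0 := by
      unfold cY dd; linear_combination (-1 / 2 : ℝ) * hkr
    have c5 : cY κ 0 (dd κ - 5 / 2) (rr κ) = 2 := by
      unfold cY dd; linear_combination (-1 / 2 : ℝ) * hkr
    have hσS : σ * S ^ (rr κ / 2) = 1 := by
      rw [hσ, ← Real.rpow_add hS]
      simp
    have hd : √(4 * ε) * (Mon 0 (dd κ - 5 / 2) (rr κ / 2) w W t *
          ((cX κ 0 (rr κ / 2) * (1 - S ^ 2) + cY κ 0 (dd κ - 5 / 2) (rr κ / 2) * S ^ 2) / R ^ 2)) +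
        3 * C * (Mon 0 (dd κ - 2) (rr κ) w W t *
          ((cX κ 0 (rr κ) * (1 - S ^ 2) + cY κ 0 (dd κ - 2) (rr κ) * S ^ 2) / R ^ 2)) +
        -(C * √(4 * ε)) * (Mon 0 (dd κ - 5 / 2) (rr κ) w W t *
          ((cX κ 0 (rr κ) * (1 - S ^ 2) + cY κ 0 (dd κ - 5 / 2) (rr κ) * S ^ 2) / R ^ 2)) ≤ 0 := by
      rw [c1, c2, c3, c4, c5]
      have h1 : σ * (-(κ * rr κ ^ 2 / 8) * (1 - S ^ 2) + (4 - κ / 4) * S ^ 2) ≤ 2 * C * S ^ 2 := by
        calc _ ≤ σ * (2 * C * S ^ (rr κ / 2) * S ^ 2) :=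
              mul_le_mul_of_nonneg_left (hnum S hS) hσ0.le
          _ = 2 * C * S ^ 2 * (σ * S ^ (rr κ / 2)) := by ring
          _ = _ := by rw [hσS, mul_one]
      have h2 := mul_le_mul_of_nonneg_left h1
        (show 0 ≤ MM κ w W t * x / R ^ 2 by positivity)
      refine le_trans (le_of_eq ?_) (sub_nonpos.2 h2)
      linear_combination ((-(κ * rr κ ^ 2 / 8) * (1 - S ^ 2) + (4 - κ / 4) * S ^ 2) / R ^ 2) * e1 -
        (C * (2 * S ^ 2 / R ^ 2)) * e3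
    have hK : crf κ ε w W t * σ ≤ MM κ w W t * (x * σ + C * (3 - x)) *
        (cut1 (U / ε) * (U / ε) * (4 * S ^ 2 / R ^ 2)) := by
      have hcrf : crf κ ε w W t = MM κ w W t * (cut1 (U / ε) * (U / ε) * (4 * S ^ 2 / R ^ 2)) := rfl
      rw [hcrf]
      rcases le_total (U / ε) 1 with h | h
      · simp [cut1_zero_left h]
      rcases le_total 2 (U / ε) with h' | h'
      · simp [cut1_zero_right h']
      have h1 : 1 ≤ x := (ly_x hε hU).2 (by rw [div_le_iff₀ hε] at h'; linarith)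
      have h2 : σ ≤ x * σ + C * (3 - x) := le_trans (le_mul_of_one_le_left hσ0.le h1) (hB h)
      have h3 := cut1_nonneg (U / ε)
      calc _ = MM κ w W t * σ * (cut1 (U / ε) * (U / ε) * (4 * S ^ 2 / R ^ 2)) := by ring
        _ ≤ _ := by gcongr
    have h9 := mul_nonpos_of_nonneg_of_nonpos hc0 hd
    rw [zero_mul, mul_zero, add_zero, mul_neg]
    exact (add_le_add h9 (neg_le_neg hK)).trans (le_of_eq (zero_add _))
  · have h : 2 ≤ U / ε := by rw [le_div_iff₀ hε]; linarith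
    have h1 : 1 ≤ x := (ly_x hε hU).2 h4
    rw [cut_one h, one_mul]
    exact mul_le_mul_of_nonneg_left
      (le_trans (le_mul_of_one_le_left hσ0.le h1) (hB (by linarith))) hM0.le
  · calc _ ≤ cut (U / ε) * (MM κ w W t * (x * σ + 3 * C)) :=
          mul_le_mul_of_nonneg_left (mul_le_mul_of_nonneg_left
            (by linarith [mul_nonneg hC.le hx0]) hM0.le) hc0
      _ ≤ 1 * (MM κ w W t * (x * σ + 3 * C)) := by gcongr
      _ = _ := one_mul _

theorem lyp (hF : Fnd) (hL : LyStmt) : LypStmt := by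
  intro κ μ hc
  obtain ⟨C, hC, h⟩ := hL κ hc.pos hc.lt
  refine ⟨C, hC, fun z ρ δ η hρ hδ hη => ?_⟩
  have hε : 0 < ρ / 4 := by positivity
  obtain ⟨v, d, g, hv, hp⟩ := h (ρ / 4) hε
  have hLS := hF.ls.add κ _ _ _ _ _ _ (hF.mon.cutM κ (ρ / 4) hc.pos hε) (hF.ls.smul κ _ _ _ η hv)
  have hM : ∀ W t, 0 ≤ t → 0 < Yf W t z → 0 < MM κ z W t := fun W t ht hY => by
    obtain ⟨hU, -, hS⟩ := ly_pos hF ht hY
    unfold MM
    positivity
  refine ⟨_, hF.lsup κ μ hc.pos hc.wie _ _ _ hLS z (δ / 2) (by positivity) fun W t ht hY => ?_,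
    fun t V ht => ?_, fun t V ht hY hU => ?_⟩
  · obtain ⟨h1, h2, -, -⟩ := hp z W t ht hY
    obtain ⟨hU, hR, hS⟩ := ly_pos hF ht hY
    have h3 : 0 ≤ crf κ (ρ / 4) z W t := by
      have := cut1_nonneg (Up W t z / (ρ / 4))
      have := hM W t ht hY
      unfold crf
      positivity
    have h4 : 0 ≤ crf κ (ρ / 4) z W t * Sf W t z ^ (-(rr κ / 2)) := by positivity
    refine ⟨add_nonneg (mul_nonneg (cut_nonneg _) (hM W t ht hY).le) (mul_nonneg hη h1), ?_⟩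
    nlinarith [mul_nonneg hη (neg_nonneg.2 (h2.trans (neg_nonpos.2 h4)))]
  · rcases le_or_gt (Yf V t z) 0 with hY | hY
    · have : cy (δ / 2) z V t = 0 :=
        cut_zero ((div_nonpos_of_nonpos_of_nonneg hY (by positivity)).trans zero_le_one)
      simp [this]
    obtain ⟨h1, -, -, h4⟩ := hp z V t ht hY
    rw [show 4 * (ρ / 4) = ρ by ring] at h4
    have h5 := hM V t ht hY
    refine ENNReal.ofReal_le_ofReal ?_
    have h6 : 0 ≤ cut (Up V t z / (ρ / 4)) * MM κ z V t + η * v z V t :=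
      add_nonneg (mul_nonneg (cut_nonneg _) h5.le) (mul_nonneg hη h1)
    calc _ ≤ 1 * (cut (Up V t z / (ρ / 4)) * MM κ z V t + η * v z V t) :=
          mul_le_mul_of_nonneg_right (cut_le_one _) h6
      _ ≤ 1 * (1 * MM κ z V t + η * (MM κ z V t *
          (√(ρ / Up V t z) * Sf V t z ^ (-(rr κ / 2)) + C))) := by
          gcongr
          exact cut_le_one _
      _ = _ := by ring
  · have hY0 : 0 < Yf V t z := hδ.trans_le hY
    obtain ⟨h1, -, h3, -⟩ := hp z V t ht hY0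
    have e1 : cy (δ / 2) z V t = 1 := cut_one (by rw [le_div_iff₀ (by positivity)]; linarith)
    have e2 : cut (Up V t z / (ρ / 4)) = 1 := cut_one (by rw [le_div_iff₀ hε]; linarith)
    simp only [e1, e2, one_mul]
    refine ⟨ENNReal.ofReal_le_ofReal (le_add_of_nonneg_right (mul_nonneg hη h1)), fun hU' => ?_⟩
    refine ENNReal.ofReal_le_ofReal ?_
    have h5 := mul_le_mul_of_nonneg_left (h3 (by linarith) (by linarith)) hη
    unfold PP
    linarith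

end Vale.Agent.P164
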