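import Vale.Agent.P164.Stm2

/-! The amount of cells above a point is a smooth functional (see PLAN.md, paragraph N). -/

open Set MeasureTheory ProbabilityTheory Metric
open scoped ENNReal NNReal

namespace Vale.Agent.P164

theorem n_point (W : Pth) (t : ℝ) : Measurable fun w' : ℂ => ((w', W, t) : ℂ × Pth × ℝ) :=
  measurable_id.prodMk measurable_const

theorem n_S_meas (hF : Fnd) (W : Pth) (t : ℝ) : Measurable fun w' => Sf W t w' :=
  hF.meas.S_meas.comp (n_point W t)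

theorem n_sc_meas (hF : Fnd) (ℓ : ℝ) (w : ℂ) (W : Pth) (t : ℝ) :
    MeasurableSet {w' | sc ℓ w w' W t} := by
  have hZ : Measurable fun w' => Zf W t w' := hF.meas.Z_meas.comp (n_point W t)
  have hU : Measurable fun w' => Up W t w' := hF.meas.Up_meas.comp (n_point W t)
  have hY : Measurable fun w' => Yf W t w' := hF.meas.Y_meas.comp (n_point W t)
  have hS := n_S_meas hF W t
  have h1 : MeasurableSet {w' | ℓ ≤ Up W t w'} := measurableSet_le measurable_const hU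
  have h2 : MeasurableSet {w' | Up W t w' ≤ 6 * ℓ} := measurableSet_le hU measurable_const
  have h3 : MeasurableSet {w' | ‖Zf W t w - Zf W t w'‖ ≤ 2 * Yf W t w'} :=
    measurableSet_le (measurable_const.sub hZ).norm (hY.const_mul 2)
  have h4 : MeasurableSet {w' | Sf W t w' ≤ 1 / 4} := measurableSet_le hS measurable_const
  exact h1.inter (h2.inter (h3.inter h4))

theorem n_bound (ν : Measure ℂ) (B A : Set ℂ) (hA : MeasurableSet A) (f h : ℂ → ℝ) (C : ℝ)
    (hC : 0 ≤ C) (h1 : ∀ w ∈ A, |f w| ≤ C * h w) (h2 : ∀ w, w ∉ A → f w = 0) :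
    ENNReal.ofReal |∫ w in B, f w ∂ν| ≤
      ENNReal.ofReal C * ∫⁻ w in A ∩ B, ENNReal.ofReal (h w) ∂ν := by
  have e1 : ENNReal.ofReal |∫ w in B, f w ∂ν| = ‖∫ w in B, f w ∂ν‖ₑ := by
    rw [← Real.norm_eq_abs, ofReal_norm]
  rw [e1, ← lintegral_const_mul' _ _ ENNReal.ofReal_ne_top, ← Measure.restrict_restrict hA,
    ← lintegral_indicator hA]
  refine (enorm_integral_le_lintegral_enorm _).trans (lintegral_mono fun w => ?_)
  by_cases hw : w ∈ A
  · rw [indicator_of_mem hw, ← ofReal_norm, Real.norm_eq_abs, ← ENNReal.ofReal_mul hC]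
    exact ENNReal.ofReal_le_ofReal (h1 w hw)
  · simp only [h2 w hw, enorm_zero]
    exact zero_le

theorem n_finite (ℓ : ℝ) (z0 : ℂ) (m : ℝ) : IsFiniteMeasure ((ar ℓ).restrict (Bp z0 m ℓ)) := by
  refine isFiniteMeasure_restrict.2 ?_
  unfold ar Bp
  rw [Measure.smul_apply, smul_eq_mul]
  exact ENNReal.mul_ne_top ENNReal.ofReal_ne_top measure_ball_lt_top.ne

theorem n_ae (ℓ : ℝ) (z0 : ℂ) (m : ℝ) :
    ∀ᵐ w ∂((ar ℓ).restrict (Bp z0 m ℓ)), ‖w‖ ≤ ‖z0‖ + (2 * m + 1) * ℓ := by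
  have hB : MeasurableSet (Bp z0 m ℓ) := measurableSet_ball
  filter_upwards [ae_restrict_mem hB] with w hw
  have h1 : ‖w - z0‖ < (2 * m + 1) * ℓ := by
    have := mem_ball.1 hw
    rwa [dist_eq_norm] at this
  have h2 : ‖w‖ ≤ ‖z0‖ + ‖w - z0‖ := by
    have := norm_add_le z0 (w - z0)
    rwa [add_sub_cancel] at this
  linarith

theorem nS (hF : Fnd) (hK : KernStmt) : NStmt := by
  intro κ hκ
  obtain ⟨C, hC, H⟩ := hK κ hκ
  refine ⟨C, hC, fun ℓ δ z0 m hℓ hδ => ?_⟩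
  obtain ⟨d, g, hS, hb⟩ := H ℓ δ hℓ hδ
  have := n_finite ℓ z0 m
  have hI := hF.int.int κ ℂ _ d g ((ar ℓ).restrict (Bp z0 m ℓ)) _ (n_ae ℓ z0 m) hS
  refine ⟨_, _, hI, fun w W t ht => ⟨?_, fun hY => ⟨?_, ?_⟩⟩⟩
  · exact integral_nonneg fun w' => (hb w w' W t ht).1
  · have h := n_bound (ar ℓ) (Bp z0 m ℓ) {w' | sc ℓ w w' W t} (n_sc_meas hF ℓ w W t)
      (fun w' => d (w, w') W t) (fun w' => Sf W t w' / Rf W t w' ^ 2) C hC.le
      (fun w' hw => (((hb w w' W t ht).2 hY).1 hw).1)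
      (fun w' hw => (((hb w w' W t ht).2 hY).2.1 hw).1)
    have e : {w' | sc ℓ w w' W t} ∩ Bp z0 m ℓ = supp ℓ z0 m w W t := by
      ext w'
      simp only [supp, mem_inter_iff, mem_ofPred_eq]
      exact and_comm
    rw [e] at h
    exact h
  · have hA : MeasurableSet ({w' | sc ℓ w w' W t} ∩ {w' | 1 / 8 ≤ Sf W t w'}) :=
      (n_sc_meas hF ℓ w W t).inter (measurableSet_le measurable_const (n_S_meas hF W t))
    have h := n_bound (ar ℓ) (Bp z0 m ℓ) _ hA
      (fun w' => g (w, w') W t) (fun w' => 1 / Rf W t w') C hC.le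
      (fun w' hw => (((hb w w' W t ht).2 hY).1 hw.1).2)
      (fun w' hw => by
        by_cases h1 : sc ℓ w w' W t
        · refine ((hb w w' W t ht).2 hY).2.2 (lt_of_not_ge fun h2 => hw ⟨h1, h2⟩)
        · exact (((hb w w' W t ht).2 hY).2.1 h1).2)
    have e : ({w' | sc ℓ w w' W t} ∩ {w' | 1 / 8 ≤ Sf W t w'}) ∩ Bp z0 m ℓ =
        supp ℓ z0 m w W t ∩ {w' | 1 / 8 ≤ Sf W t w'} := by
      ext w'
      simp only [supp, mem_inter_iff, mem_ofPred_eq]
      tauto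
    rw [e] at h
    exact h

end Vale.Agent.P164
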