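import Vale.Agent.P164.Stm2

open Set MeasureTheory Metric
open scoped ENNReal

namespace Vale.Agent.P164

theorem NLow_fac (ℓ : ℝ) (hℓ : 0 < ℓ) (u : ℝ) (hu : 0 ≤ u) :
    0 ≤ cut (u / ℓ) - cut (u / (3 * ℓ)) ∧ cut (u / ℓ) - cut (u / (3 * ℓ)) ≤ 1 := by
  have h : u / (3 * ℓ) ≤ u / ℓ := div_le_div_of_nonneg_left hu hℓ (by linarith)
  exact ⟨sub_nonneg.2 (cut_mono h), by linarith [cut_le_one (u / ℓ), cut_nonneg (u / (3 * ℓ))]⟩

theorem NLow_range {ℓ : ℝ} (hℓ : 0 < ℓ) (δ : ℝ) (w w' : ℂ) (W : Pth) (t : ℝ) :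
    0 ≤ kern ℓ δ w w' W t ∧ kern ℓ δ w w' W t ≤ 1 := by
  obtain ⟨h1, h2⟩ := NLow_fac ℓ hℓ _ (Up_nonneg W t w')
  have a : ∀ x, 0 ≤ 1 - cut x := fun x => sub_nonneg.2 (cut_le_one x)
  have b : ∀ x, 1 - cut x ≤ 1 := fun x => by linarith [cut_nonneg x]
  unfold kern cy
  refine ⟨mul_nonneg (mul_nonneg (mul_nonneg (mul_nonneg (cut_nonneg _) (cut_nonneg _)) h1) (a _))
    (a _), ?_⟩
  exact mul_le_one₀ (mul_le_one₀ (mul_le_one₀ (mul_le_one₀ (cut_le_one _) (cut_nonneg _)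
    (cut_le_one _)) h1 h2) (a _) (b _)) (a _) (b _)

theorem NLow_meas (hF : Fnd) (ℓ δ : ℝ) (w : ℂ) (W : Pth) (t : ℝ) :
    Measurable fun w' => kern ℓ δ w w' W t := by
  have e : Measurable fun w' : ℂ => (w', W, t) := measurable_id.prodMk measurable_const
  have hZ : Measurable fun w' => Zf W t w' := hF.meas.Z_meas.comp e
  have hY : Measurable fun w' => Yf W t w' := hF.meas.Y_meas.comp e
  have hU : Measurable fun w' => Up W t w' := hF.meas.Up_meas.comp e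
  have hS : Measurable fun w' => Sf W t w' := hF.meas.S_meas.comp e
  have hc : Measurable cut := continuous_cut.measurable
  unfold kern cy Qf
  fun_prop

theorem NLow_exp : Real.exp (4 / 29) ≤ 29 / 25 := by
  have h := Real.exp_bound_div_one_sub_of_interval (x := 4 / 29) (by norm_num) (by norm_num)
  norm_num at h ⊢
  exact h

/-- On the small ball the kernel is one and the scale is comparable with `ℓ`. -/
theorem NLow_one (hF : Fnd) {ℓ δ : ℝ} {w : ℂ} {W : Pth} {t y : ℝ} (hℓ : 0 < ℓ) (hδ : 0 < δ)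
    (ht : 0 ≤ t) (h1 : δ ≤ Yf W t w) (h2 : Yf W t w ≤ y) (h3 : y ≤ Rf W t w / 10)
    (h4 : Up W t (fi W t ⟨Xf W t w, y⟩) = 5 / 2 * ℓ) {ζ : ℂ}
    (hζ : ζ ∈ ball (⟨Xf W t w, y⟩ : ℂ) (y / 30)) :
    0 < ζ.im ∧ ζ.im ≤ 31 / 30 * y ∧ 2 * ℓ ≤ Up W t (fi W t ζ) ∧
      kern ℓ δ w (fi W t ζ) W t = 1 := by
  have hy : 0 < y := by linarith
  rw [mem_ball, dist_eq_norm] at hζ
  have him := abs_lt.1 ((Complex.abs_im_le_norm (ζ - ⟨Xf W t w, y⟩)).trans_lt hζ)
  simp only [Complex.sub_im] at him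
  have hp : 0 < ζ.im := by linarith [him.1]
  have hZ := (hF.confB.right W t ζ ht hp).2
  have hx : 4 * ‖ζ - ⟨Xf W t w, y⟩‖ / (29 / 30 * y) ≤ 4 / 29 := by
    rw [div_le_iff₀ (by positivity)]
    linarith
  have hex := (Real.exp_le_exp.2 hx).trans NLow_exp
  have r1 := hF.koebe.ratio W t ⟨Xf W t w, y⟩ ζ (29 / 30 * y) ht (by positivity)
    (by show _ ≤ y; linarith) (by linarith [him.1])
  have r2 := hF.koebe.ratio W t ζ ⟨Xf W t w, y⟩ (29 / 30 * y) ht (by positivity)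
    (by linarith [him.1]) (by show _ ≤ y; linarith)
  rw [norm_sub_rev] at r2
  rw [h4] at r1 r2
  have u0 := Up_nonneg W t (fi W t ζ)
  have u1 : Up W t (fi W t ζ) ≤ 3 * ℓ := by nlinarith
  have u2 : 2 * ℓ ≤ Up W t (fi W t ζ) := by nlinarith
  refine ⟨hp, by linarith [him.2], u2, ?_⟩
  have k1 : cy (δ / 2) w W t = 1 := cut_one (by rw [le_div_iff₀ (by positivity)]; linarith)
  have eY : Yf W t (fi W t ζ) = ζ.im := by rw [Yf, hZ]
  have k2 : cy (δ / 6) (fi W t ζ) W t = 1 :=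
    cut_one (by rw [eY, le_div_iff₀ (by positivity)]; linarith [him.1])
  have k3 : cut (Up W t (fi W t ζ) / ℓ) = 1 := cut_one (by rw [le_div_iff₀ hℓ]; exact u2)
  have k4 : cut (Up W t (fi W t ζ) / (3 * ℓ)) = 0 :=
    cut_zero (by rw [div_le_one (by positivity)]; exact u1)
  have k5 : cut (Qf w (fi W t ζ) W t / 2) = 0 := by
    refine cut_zero ?_
    have d1 : ‖Zf W t w - ⟨Xf W t w, y⟩‖ ≤ y := by
      refine (Complex.norm_le_abs_re_add_abs_im _).trans ?_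
      have e1 : (Zf W t w - ⟨Xf W t w, y⟩).re = 0 := by simp [Xf]
      have e2 : (Zf W t w - ⟨Xf W t w, y⟩).im = Yf W t w - y := by simp [Yf]
      rw [e1, e2, abs_zero, zero_add, abs_le]
      constructor <;> linarith
    have d2 : ‖Zf W t w - ζ‖ ≤ 31 / 30 * y := by
      have := norm_sub_le_norm_sub_add_norm_sub (Zf W t w) ⟨Xf W t w, y⟩ ζ
      rw [norm_sub_rev (⟨Xf W t w, y⟩ : ℂ)] at this
      linarith
    have d3 := pow_le_pow_left₀ (norm_nonneg _) d2 2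
    have d4 : (29 / 30 * y) ^ 2 ≤ ζ.im ^ 2 := pow_le_pow_left₀ (by positivity) (by linarith [him.1]) 2
    unfold Qf
    rw [hZ, eY, div_div, div_le_one (by positivity)]
    nlinarith
  have k6 : cut (8 * Sf W t (fi W t ζ)) = 0 := by
    refine cut_zero ?_
    have d1 : Rf W t w ≤ ‖(⟨Xf W t w, y⟩ : ℂ)‖ := by
      refine abs_le_of_sq_le_sq' ?_ (norm_nonneg _) |>.2
      rw [Rf_sq, Complex.sq_norm, Complex.normSq_mk]
      nlinarith
    have d2 : ‖(⟨Xf W t w, y⟩ : ℂ)‖ ≤ ‖ζ‖ + ‖ζ - ⟨Xf W t w, y⟩‖ := by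
      have := norm_sub_le ζ (ζ - ⟨Xf W t w, y⟩)
      rwa [sub_sub_cancel] at this
    have d3 : 0 < ‖ζ‖ := by linarith
    unfold Sf
    rw [eY, Rf, hZ, ← mul_div_assoc, div_le_one d3]
    linarith [him.2]
  unfold kern
  rw [k1, k2, k3, k4, k5, k6]
  norm_num

theorem NLow_low (hF : Fnd) {ℓ δ : ℝ} {z0 : ℂ} {m : ℝ} {w : ℂ} {W : Pth} {t y : ℝ} (hℓ : 0 < ℓ)
    (hδ : 0 < δ) (ht : 0 ≤ t) (h1 : δ ≤ Yf W t w) (h2 : Yf W t w ≤ y) (h3 : y ≤ Rf W t w / 10)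
    (h4 : Up W t (fi W t ⟨Xf W t w, y⟩) = 5 / 2 * ℓ)
    (h5 : ∀ ζ ∈ ball (⟨Xf W t w, y⟩ : ℂ) (y / 30), fi W t ζ ∈ Bp z0 m ℓ) :
    1 / 100 ≤ NN ℓ δ z0 m w W t := by
  have hy : 0 < y := by linarith
  have hm := NLow_meas hF ℓ δ w W t
  have hB : MeasurableSet (Bp z0 m ℓ) := measurableSet_ball
  have hfin : ∫⁻ w' in Bp z0 m ℓ, ENNReal.ofReal (kern ℓ δ w w' W t) ∂ar ℓ ≠ ⊤ := by
    refine ne_top_of_le_ne_top (b := ∫⁻ _ in Bp z0 m ℓ, 1 ∂ar ℓ) ?_
      (lintegral_mono fun w' => ENNReal.ofReal_le_one.2 (NLow_range hℓ δ w w' W t).2)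
    rw [setLIntegral_one, ar, Measure.smul_apply, smul_eq_mul]
    exact ENNReal.mul_ne_top ENNReal.ofReal_ne_top measure_ball_lt_top.ne
  rw [NN, integral_eq_lintegral_of_nonneg_ae
    (Filter.Eventually.of_forall fun w' => (NLow_range hℓ δ w w' W t).1) hm.aestronglyMeasurable,
    ← ENNReal.ofReal_le_iff_le_toReal hfin, ar, Measure.restrict_smul, lintegral_smul_measure,
    ← lintegral_indicator hB]
  have a1 : ∫⁻ w' in dom W t, (Bp z0 m ℓ).indicator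
      (fun w' => ENNReal.ofReal (kern ℓ δ w w' W t)) w' ≤
      ∫⁻ w', (Bp z0 m ℓ).indicator (fun w' => ENNReal.ofReal (kern ℓ δ w w' W t)) w' :=
    setLIntegral_le_lintegral _ _
  rw [hF.confB.cov W t _ ht] at a1
  have hsub : ball (⟨Xf W t w, y⟩ : ℂ) (y / 30) ⊆ HP := fun ζ hζ =>
    (NLow_one hF hℓ hδ ht h1 h2 h3 h4 hζ).1
  have a2 : ∫⁻ _ in ball (⟨Xf W t w, y⟩ : ℂ) (y / 30),
      ENNReal.ofReal ((2 * ℓ / (31 / 30 * y)) ^ 2) ≤
      ∫⁻ ζ in HP, ENNReal.ofReal ((Up W t (fi W t ζ) / ζ.im) ^ 2) * (Bp z0 m ℓ).indicator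
        (fun w' => ENNReal.ofReal (kern ℓ δ w w' W t)) (fi W t ζ) := by
    refine le_trans (setLIntegral_mono' measurableSet_ball fun ζ hζ => ?_)
      (lintegral_mono_set hsub)
    obtain ⟨b1, b2, b3, b4⟩ := NLow_one hF hℓ hδ ht h1 h2 h3 h4 hζ
    rw [indicator_of_mem (h5 ζ hζ), b4, ENNReal.ofReal_one, mul_one]
    refine ENNReal.ofReal_le_ofReal (pow_le_pow_left₀ (by positivity) ?_ 2)
    exact div_le_div₀ (Up_nonneg _ _ _) b3 b1 b2
  rw [setLIntegral_const, Complex.volume_ball] at a2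
  refine le_trans ?_ (mul_le_mul_right (a2.trans a1) _)
  rw [← ENNReal.ofReal_pow (by positivity), ← ENNReal.ofReal_coe_nnreal, NNReal.coe_real_pi,
    ← ENNReal.ofReal_mul (by positivity), ← ENNReal.ofReal_mul (by positivity),
    ← ENNReal.ofReal_mul (by positivity)]
  refine ENNReal.ofReal_le_ofReal ?_
  have e : 1 / ℓ ^ 2 * ((2 * ℓ / (31 / 30 * y)) ^ 2 * ((y / 30) ^ 2 * Real.pi)) =
      4 / 961 * Real.pi := by
    field_simp
    norm_num
  rw [e]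
  linarith [Real.pi_gt_three]

theorem NLow_zero (hF : Fnd) {s0 ℓ δ : ℝ} {w w' : ℂ} {W : Pth} {t : ℝ} (hs : 0 < s0) (hℓ : 0 < ℓ)
    (hδ : 0 < δ) (ht : 0 ≤ t) (h1 : s0 ≤ Sf W t w)
    (h2 : Up W t w ≤ Real.exp (-(12 / s0)) * ℓ) : kern ℓ δ w w' W t = 0 := by
  by_contra hk
  unfold kern at hk
  simp only [mul_eq_zero, not_or] at hk
  obtain ⟨⟨⟨⟨k1, k2⟩, k3⟩, k4⟩, k5⟩ := hk
  have y1 : 0 < Yf W t w := by
    by_contra h
    refine k1 (cut_zero ?_)
    rw [div_le_one (by positivity)]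
    linarith
  have y2 : 0 < Yf W t w' := by
    by_contra h
    refine k2 (cut_zero ?_)
    rw [div_le_one (by positivity)]
    linarith
  have u1 : ℓ < Up W t w' := by
    by_contra h
    refine k3 ?_
    rw [cut_zero, cut_zero, sub_zero]
    · rw [div_le_one (by positivity)]; linarith
    · rw [div_le_one hℓ]; linarith
  have q1 : ‖Zf W t w - Zf W t w'‖ < 2 * Yf W t w' := by
    by_contra h
    refine k4 ?_
    rw [cut_one, sub_self]
    have := pow_le_pow_left₀ (by positivity) (not_lt.1 h) 2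
    unfold Qf
    rw [div_div, le_div_iff₀ (by positivity)]
    nlinarith
  have r2 : 0 < Rf W t w' := y2.trans_le ((le_abs_self _).trans (Yf_le_Rf W t w'))
  have r1 : 0 < Rf W t w := y1.trans_le ((le_abs_self _).trans (Yf_le_Rf W t w))
  have s1 : 4 * Yf W t w' < Rf W t w' := by
    by_contra h
    refine k5 ?_
    rw [cut_one, sub_self]
    unfold Sf
    rw [← mul_div_assoc, le_div_iff₀ r2]
    linarith
  have d1 : Rf W t w' ≤ Rf W t w + ‖Zf W t w - Zf W t w'‖ := by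
    have := norm_sub_le (Zf W t w) (Zf W t w - Zf W t w')
    rwa [sub_sub_cancel] at this
  have d2 : Yf W t w ≤ 3 * Yf W t w' := by
    have := (abs_le.1 (Complex.abs_im_le_norm (Zf W t w - Zf W t w'))).2
    rw [Complex.sub_im] at this
    unfold Yf at q1 ⊢
    linarith
  have d3 : s0 * Rf W t w ≤ Yf W t w := by
    unfold Sf at h1
    rwa [le_div_iff₀ r1] at h1
  have hr := hF.koebe.ratio W t (Zf W t w) (Zf W t w') (Yf W t w / 3) ht (by positivity)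
    (by show _ ≤ Yf W t w; linarith) (by show _ ≤ Yf W t w'; linarith)
  rw [hF.confB.left W t w ht ((hF.flow.alive W t w ht).2 y1),
    hF.confB.left W t w' ht ((hF.flow.alive W t w' ht).2 y2), norm_sub_rev] at hr
  have hx : 4 * ‖Zf W t w - Zf W t w'‖ / (Yf W t w / 3) ≤ 12 / s0 := by
    rw [div_le_div_iff₀ (by positivity) hs]
    have : ‖Zf W t w - Zf W t w'‖ ≤ Rf W t w := by linarith
    nlinarith
  have h3 : Up W t w * Real.exp (4 * ‖Zf W t w - Zf W t w'‖ / (Yf W t w / 3)) ≤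
      Real.exp (-(12 / s0)) * ℓ * Real.exp (12 / s0) :=
    mul_le_mul h2 (Real.exp_le_exp.2 hx) (Real.exp_pos _).le (by positivity)
  rw [mul_right_comm, ← Real.exp_add, neg_add_cancel, Real.exp_zero, one_mul] at h3
  linarith

theorem nlow (hF : Fnd) : NLowStmt where
  low := fun _ _ _ _ _ _ _ _ hℓ hδ ht h1 h2 h3 h4 h5 => NLow_low hF hℓ hδ ht h1 h2 h3 h4 h5
  zero := fun s0 hs => by
    refine ⟨Real.exp (-(12 / s0)) / 2, by positivity, ?_, ?_⟩
    · have : Real.exp (-(12 / s0)) ≤ 1 := Real.exp_le_one_iff.2 (neg_nonpos.2 (by positivity))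
      linarith
    · intro ℓ δ z0 m w W t hℓ hδ ht h1 h2
      have h3 : ∀ w', kern ℓ δ w w' W t = 0 := fun w' =>
        NLow_zero hF hs hℓ hδ ht h1 (by linarith)
      simp only [NN, h3, integral_zero]

end Vale.Agent.P164
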