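import Vale.Agent.P164.Stm2

/-! The one-point estimate. -/

open Set MeasureTheory ProbabilityTheory Metric Filter Topology
open scoped ENNReal NNReal

namespace Vale.Agent.P164

theorem OP_iff (hA : FlowAStmt) (z : ℂ) (ε δ b : ℝ) (W : Pth) : W ∈ Hit z ε δ b ↔
    ∃ q : ℚ, 0 ≤ min (q : ℝ) b ∧ Up W (min q b) z < ε ∧ δ < Yf W (min q b) z := by
  refine ⟨fun ⟨t, ht, h1, h2⟩ => ?_, fun ⟨q, h0, h1, h2⟩ => ⟨_, ⟨h0, min_le_right _ _⟩, h1, h2⟩⟩
  have hc : Continuous fun u : ℝ => Yf W (min u b) z :=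
    (hA.Y_cont W z).comp (continuous_id.min continuous_const)
  have h3 : ∀ᶠ u in 𝓝 t, δ < Yf W (min u b) z :=
    hc.continuousAt.eventually (lt_mem_nhds (by simpa only [min_eq_left ht.2] using h2))
  obtain ⟨η, hη, h4⟩ := Metric.eventually_nhds_iff.1 h3
  obtain ⟨q, hq1, hq2⟩ := exists_rat_btwn (show t < t + η by linarith)
  have h5 : t ≤ min (q : ℝ) b := le_min hq1.le ht.2
  refine ⟨q, ht.1.trans h5, (hA.Up_anti W z h5).trans_lt h1, h4 ?_⟩
  rw [Real.dist_eq, abs_of_pos (by linarith)]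
  linarith

theorem OP_meas (hF : Fnd) (ε δ b : ℝ) : MeasurableSet {p : ℂ × Pth | p.2 ∈ Hit p.1 ε δ b} := by
  simp only [OP_iff hF.flow, ofPred_exists]
  refine MeasurableSet.iUnion fun q => ?_
  have hm : Measurable fun p : ℂ × Pth => (p.1, p.2, min (q : ℝ) b) :=
    measurable_fst.prodMk (measurable_snd.prodMk measurable_const)
  exact (MeasurableSet.const _).inter
    ((measurableSet_lt (hF.meas.Up_meas.comp hm) measurable_const).inter
      (measurableSet_lt measurable_const (hF.meas.Y_meas.comp hm)))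

theorem OP_meas' (hF : Fnd) (z : ℂ) (ε δ b : ℝ) : MeasurableSet (Hit z ε δ b) :=
  (measurable_const.prodMk measurable_id : Measurable fun W : Pth => (z, W)) (OP_meas hF ε δ b)

theorem OP_zero (hA : FlowAStmt) (z : ℂ) (ε δ b t : ℝ) (V W : Pth) (ht : 0 ≤ t)
    (h1 : ε ≤ Up V t z) (h2 : Yf V t z ≤ δ ∨ b ≤ t) : cat t V W ∉ Hit z ε δ b := by
  rintro ⟨u, hu, h3, h4⟩
  obtain ⟨e1, e2, -⟩ := (hA.loc _ _ t (cat_eqOn t V W) t ⟨ht, le_rfl⟩).2 z
  rcases le_or_gt u t with h | h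
  · have := hA.Up_anti (cat t V W) z h
    simp only at this
    linarith
  · have h5 := hA.Y_anti (cat t V W) z h.le
    have e3 : Yf (cat t V W) t z = Yf V t z := congrArg Complex.im e1
    simp only at h5
    rcases h2 with h2 | h2
    · linarith
    · linarith [hu.2]

theorem OP_union (z : ℂ) (ε b : ℝ) : Hit z ε 0 b = ⋃ n : ℕ, Hit z ε (1 / (n + 1)) b := by
  ext W
  rw [mem_iUnion]
  refine ⟨fun ⟨t, ht, h1, h2⟩ => ?_, fun ⟨n, t, ht, h1, h2⟩ =>
    ⟨t, ht, h1, Nat.one_div_pos_of_nat.trans h2⟩⟩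
  obtain ⟨n, hn⟩ := exists_nat_one_div_lt h2
  exact ⟨n, t, ht, h1, hn⟩

theorem OP_mono (z : ℂ) (ε b : ℝ) : Monotone fun n : ℕ => Hit z ε (1 / (n + 1)) b :=
  fun _ _ h _ ⟨t, ht, h1, h2⟩ => ⟨t, ht, h1, (Nat.one_div_le_one_div h).trans_lt h2⟩

theorem OP_cond (hF : Fnd) (hU : UStmt) (κ : ℝ) (μ : Measure Pth) (hc : Ctx κ μ) :
    ∃ A : ℝ, 1 ≤ A ∧ ∀ z ε δ b a V, 0 < ε → 0 ≤ δ → 0 ≤ a →
      ε ≤ Up V a z → CP μ a V (Hit z ε δ b) ≤ ENNReal.ofReal (A * ob κ ε z V a) := by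
  obtain ⟨A, hA, H⟩ := hU κ μ hc
  have := hc.wie.prob
  have key : ∀ z ε δ b a V, 0 < ε → 0 < δ → 0 ≤ a →
      ε ≤ Up V a z → CP μ a V (Hit z ε δ b) ≤ ENNReal.ofReal (A * ob κ ε z V a) := by
    intro z ε δ b a V hε hδ ha hV
    obtain ⟨N, hN, h1, h2⟩ := H z ε δ hε hδ
    have hm := OP_meas' hF z ε δ b
    rw [hF.cat.cp μ a V _ hm]
    refine le_trans (hF.hit κ μ hc.wie N _ z (2 * ε) δ a (max a b) V hN
      (measurable_one.indicator hm) (by linarith) hδ ha (le_max_left _ _)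
      (fun t ht V' _ h3 h4 => ?_) (by linarith)) (h2 a V ha)
    have ht0 : 0 ≤ t := ha.trans ht.1
    have h5 : ε ≤ Up V' t z := by linarith
    rw [← hF.cat.cp μ t V' _ hm]
    by_cases h6 : Yf V' t z ≤ δ ∨ b ≤ t
    · have e : {W | cat t V' W ∈ Hit z ε δ b} = ∅ :=
        eq_empty_of_forall_notMem fun W => OP_zero hF.flow z ε δ b t V' W ht0 h5 h6
      rw [CP, e, measure_empty]
      exact zero_le
    · push Not at h6
      have h7 : Up V' t z ≤ 2 * ε := by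
        rcases h4 with h4 | h4 | h4
        · exact h4
        · exact absurd h4 (not_le.2 h6.1)
        · exact absurd (h4 ▸ le_max_right a b) (not_le.2 h6.2)
      exact prob_le_one.trans (h1 t V' ht0 h5 h7 h6.1.le)
  refine ⟨A, hA, fun z ε δ b a V hε hδ ha hV => ?_⟩
  rcases hδ.eq_or_lt with rfl | hδ
  · have e : {W | cat a V W ∈ Hit z ε 0 b} =
        ⋃ n : ℕ, {W | cat a V W ∈ Hit z ε (1 / (n + 1)) b} := by
      rw [OP_union]
      ext W
      simp only [mem_iUnion, mem_ofPred_eq]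
    have hm : Monotone fun n : ℕ => {W | cat a V W ∈ Hit z ε (1 / (n + 1)) b} :=
      fun _ _ h _ hW => OP_mono z ε b h hW
    rw [CP, e, hm.measure_iUnion]
    exact iSup_le fun n => key z ε _ b a V hε Nat.one_div_pos_of_nat ha hV
  · exact key z ε δ b a V hε hδ ha hV

theorem OP_abs (hF : Fnd) (hU : UStmt) (κ : ℝ) (μ : Measure Pth) (hc : Ctx κ μ) :
    ∃ A : ℝ, 1 ≤ A ∧ ∀ (z : ℂ) ε b, 0 < ε → 0 < z.im →
      μ (Hit z ε 0 b) ≤ ENNReal.ofReal (A * (ε / z.im) ^ (2 - dd κ)) := by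
  obtain ⟨A, hA, H⟩ := OP_cond hF hU κ μ hc
  have := hc.wie.prob
  have hd := dd_lt_two hc.lt
  refine ⟨2 * A, by linarith, fun z ε b hε hz => ?_⟩
  rcases le_total ε z.im with h | h
  · rw [hF.cat.total' κ μ hc.wie 0 _ le_rfl (OP_meas' hF z ε 0 b)]
    refine (lintegral_mono fun V => ?_).trans
      (lintegral_const (ENNReal.ofReal (2 * A * (ε / z.im) ^ (2 - dd κ)))).le |>.trans (by simp)
    have e : Up V 0 z = z.im := (hF.flow.init V z hz).2.2.1
    refine (H z ε 0 b 0 V hε le_rfl le_rfl (e ▸ h)).trans (ENNReal.ofReal_le_ofReal ?_)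
    have x0 : 0 < ε / z.im := div_pos hε hz
    have s0 : 0 ≤ Sf V 0 z := div_nonneg (hF.flow.Y_nonneg V 0 z) (Rf_nonneg V 0 z)
    have h1 : (ε / z.im) ^ (2 - dd κ) * Sf V 0 z ^ rr κ ≤ (ε / z.im) ^ (2 - dd κ) :=
      mul_le_of_le_one_right (Real.rpow_nonneg x0.le _)
        (Real.rpow_le_one s0 (Sf_le_one V 0 z) (rr_pos hc.pos hc.lt).le)
    have h2 : (ε / z.im) ^ (3 - dd κ) ≤ (ε / z.im) ^ (2 - dd κ) :=
      Real.rpow_le_rpow_of_exponent_ge x0 ((div_le_one hz).2 h) (by linarith)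
    rw [ob, e]
    linarith [mul_le_mul_of_nonneg_left (add_le_add h1 h2) (zero_le_one.trans hA)]
  · refine prob_le_one.trans (ENNReal.one_le_ofReal.2 ?_)
    exact one_le_mul_of_one_le_of_one_le (by linarith)
      (Real.one_le_rpow ((one_le_div hz).2 h) (by linarith))

theorem opS (hF : Fnd) (hU : UStmt) : OPStmt :=
  ⟨OP_meas hF, OP_meas' hF, OP_zero hF.flow, OP_union, OP_mono, OP_cond hF hU, OP_abs hF hU⟩

end Vale.Agent.P164
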