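import Vale.Agent.P164.Stm2

/-! The first-moment bound for the large values of the content of a ball. -/

open Set MeasureTheory ProbabilityTheory Metric
open scoped ENNReal NNReal

namespace Vale.Agent.P164

theorem p2_big_zero (x : ℝ) : big x 0 = 0 := by
  unfold big; split_ifs <;> rfl

theorem p2_big_le {x : ℝ} {y : ℝ≥0∞} (h : y ≤ ENNReal.ofReal x) : big x y = 0 := by
  unfold big; rw [if_neg (not_lt.2 h)]

/-- Points of the small ball are comparable with the centre. -/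
theorem p2_near (hF : Fnd) {V : Pth} {t ρ : ℝ} {z w : ℂ} (ht : 0 ≤ t) (hρ : 0 < ρ)
    (h : 40 * ρ ≤ Up V t z) (hw : w ∈ ball z ρ) :
    20 * ρ ≤ Up V t w ∧ Yf V t w ≤ 9 / 8 * Yf V t z := by
  have hz : z ∈ dom V t := mem_dom_of_Up_pos ht (by linarith)
  have hn : ‖w - z‖ < Up V t z / 40 := by
    rw [mem_ball, dist_eq_norm] at hw; linarith
  obtain ⟨_, h2, h3, _⟩ := hF.koebe.ball V t z w ht hz hn
  refine ⟨by linarith, ?_⟩
  have h4 : (Zf V t w - Zf V t z).im ≤ ‖Zf V t w - Zf V t z‖ :=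
    (le_abs_self _).trans (Complex.abs_im_le_norm _)
  rw [Complex.sub_im] at h4
  have e1 : Yf V t w = (Zf V t w).im := rfl
  have e2 : Yf V t z = (Zf V t z).im := rfl
  linarith

theorem p2_cmd (κ s0 ε δ a b : ℝ) (W : Pth) (z : ℂ) (ρ : ℝ) :
    cmd κ s0 ε δ a b W (ball z ρ) = ∫⁻ w in ball z ρ, dend κ s0 ε δ a b W w := by
  unfold cmd
  exact withDensity_apply _ measurableSet_ball

/-- No content is collected before the conformal radius has dropped. -/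
theorem p2_split (hF : Fnd) (hA : ContAStmt) (κ s0 : ℝ) {ε δ a b t ρ : ℝ} {z : ℂ} {V : Pth}
    (W : Pth) (hε : 0 < ε) (hρ : 0 < ρ) (hερ : ε ≤ ρ) (ha : 0 ≤ a) (hat : a ≤ t) (htb : t ≤ b)
    (h : 40 * ρ ≤ Up V t z) :
    cmd κ s0 ε δ a b (cat t V W) (ball z ρ) = cmd κ s0 ε δ t b (cat t V W) (ball z ρ) := by
  have ht : 0 ≤ t := ha.trans hat
  rw [p2_cmd, p2_cmd]
  refine setLIntegral_congr_fun measurableSet_ball fun w hw => ?_
  have h1 := (p2_near hF ht hρ h hw).1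
  have h2 : Up (cat t V W) t w = Up V t w :=
    ((hF.flow.loc _ _ t (cat_eqOn t V W) t ⟨ht, le_rfl⟩).2 w).2.1
  have h3 : den κ s0 ε a t (cat t V W) w = 0 := hA.zero κ s0 ε a t _ w hε (by rw [h2]; linarith)
  have h4 : dend κ s0 ε δ a t (cat t V W) w = 0 :=
    le_antisymm (h3 ▸ (hA.le κ s0 ε δ a t _ hε).1 w) bot_le
  show dend κ s0 ε δ a b (cat t V W) w = dend κ s0 ε δ t b (cat t V W) w
  rw [hA.addd κ s0 ε δ a t b _ w hat htb, h4, zero_add]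

theorem p2_low (hF : Fnd) (hA : ContAStmt) (κ s0 : ℝ) {ε δ b t ρ : ℝ} {z : ℂ} {V : Pth}
    (W : Pth) (hδ : 0 < δ) (hρ : 0 < ρ) (ht : 0 ≤ t)
    (h : 40 * ρ ≤ Up V t z) (hY : Yf V t z ≤ δ / 2) :
    cmd κ s0 ε δ t b (cat t V W) (ball z ρ) = 0 := by
  rw [p2_cmd]
  refine (setLIntegral_congr_fun (g := fun _ => 0) measurableSet_ball fun w hw => ?_).trans
    (by simp)
  have h1 := (p2_near hF ht hρ h hw).2
  have h2 : Zf (cat t V W) t w = Zf V t w :=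
    ((hF.flow.loc _ _ t (cat_eqOn t V W) t ⟨ht, le_rfl⟩).2 w).1
  have h3 : Yf (cat t V W) t w = Yf V t w := by unfold Yf; rw [h2]
  exact hA.zerod κ s0 ε δ t b _ w hδ (by rw [h3]; linarith)

theorem p2_end (κ s0 ε δ b ρ : ℝ) (z : ℂ) (W : Pth) :
    cmd κ s0 ε δ b b W (ball z ρ) = 0 := by
  rw [p2_cmd]
  simp [dend]

theorem p2_ob (hF : Fnd) {κ ε : ℝ} (h0 : 0 < κ) (h8 : κ < 8) (hε : 0 < ε) {z : ℂ} {V : Pth}
    {a : ℝ} (h : ε ≤ Up V a z) : ob κ ε z V a ≤ 2 * (ε / Up V a z) ^ (2 - dd κ) := by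
  have hU : 0 < Up V a z := by linarith
  have hq : 0 < ε / Up V a z := div_pos hε hU
  have hq1 : ε / Up V a z ≤ 1 := (div_le_one hU).2 h
  have hS0 : 0 ≤ Sf V a z := div_nonneg (hF.flow.Y_nonneg V a z) (Rf_nonneg V a z)
  have hS : Sf V a z ^ rr κ ≤ 1 := Real.rpow_le_one hS0 (Sf_le_one V a z) (rr_pos h0 h8).le
  have h1 : (ε / Up V a z) ^ (3 - dd κ) ≤ (ε / Up V a z) ^ (2 - dd κ) :=
    Real.rpow_le_rpow_of_exponent_ge hq hq1 (by linarith)
  have h2 : 0 ≤ (ε / Up V a z) ^ (2 - dd κ) := Real.rpow_nonneg hq.le _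
  have h3 := mul_le_mul_of_nonneg_left hS h2
  unfold ob
  linarith

theorem p2_meas (hA : ContAStmt) (hB : BigStmt) (κ s0 ε δ a b ρ x : ℝ) (z : ℂ) :
    Measurable fun W : Pth => big x (cmd κ s0 ε δ a b W (ball z ρ)) := by
  have h1 := hA.mballd κ s0 ε δ a b ρ
  have h2 : Measurable fun W : Pth => (W, z) := measurable_id.prodMk measurable_const
  have h3 := h1.comp h2
  have h4 := (hB.meas x).comp h3
  simpa only [Function.comp_def] using h4

/-- The dynamic-programming step with a fixed height cutoff. -/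
theorem p2_dp (hF : Fnd) (hA : ContAStmt) (hB : BigStmt) {κ : ℝ} {μ : Measure Pth}
    (hc : Ctx κ μ) (s0 : ℝ) {A ε δ ρ a b x K : ℝ} {z : ℂ} {V0 : Pth} {N : ℝ → Pth → ℝ≥0∞}
    (hε : 0 < ε) (hδ : 0 < δ) (hρ : 0 < ρ) (hερ : ε ≤ ρ) (ha : 0 ≤ a) (hab : a ≤ b)
    (hA0 : 0 ≤ A) (hK : 0 ≤ K) (hN : Sup μ N)
    (hN1 : ∀ t W, 0 ≤ t → 40 * ρ ≤ Up W t z → Up W t z ≤ 2 * (40 * ρ) → δ / 2 ≤ Yf W t z →
      1 ≤ N t W)
    (hN2 : ∀ t W, 0 ≤ t → N t W ≤ ENNReal.ofReal (A * ob κ (40 * ρ) z W t))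
    (hT : ∀ t ∈ Icc a b, ∀ V, 40 * ρ ≤ Up V t z →
      CE μ t V (fun W => big x (cm κ s0 ε t b W (ball z ρ))) ≤ ENNReal.ofReal K)
    (h : 40 * ρ ≤ Up V0 a z) :
    CE μ a V0 (fun W => big x (cmd κ s0 ε δ a b W (ball z ρ))) ≤
      ENNReal.ofReal (K * (A * (2 * (40 * ρ / Up V0 a z) ^ (2 - dd κ)))) := by
  have hm := p2_meas hA hB κ s0 ε δ a b ρ x z
  have hS : Sup μ fun t W => ENNReal.ofReal K * N t W := hF.cat.supMul μ N _ hN
  have key := hF.hit κ μ hc.wie _ _ z (80 * ρ) (δ / 2) a b V0 hS hm (by linarith) (by linarith)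
    ha hab ?_ (by linarith)
  · refine key.trans ?_
    rw [ENNReal.ofReal_mul hK]
    refine mul_le_mul_right ((hN2 a V0 ha).trans (ENNReal.ofReal_le_ofReal ?_)) _
    exact mul_le_mul_of_nonneg_left (p2_ob hF hc.pos hc.lt (by linarith) h) hA0
  · intro t ht V _ hU hcase
    have ht0 : 0 ≤ t := ha.trans ht.1
    have hU' : 40 * ρ ≤ Up V t z := by linarith
    have hsp : CE μ t V (fun W => big x (cmd κ s0 ε δ a b W (ball z ρ))) =
        CE μ t V (fun W => big x (cmd κ s0 ε δ t b W (ball z ρ))) := by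
      unfold CE
      refine lintegral_congr fun W => ?_
      simp only
      rw [p2_split hF hA κ s0 W hε hρ hερ ha ht.1 ht.2 hU']
    rw [hsp]
    by_cases hY : Yf V t z ≤ δ / 2
    · have : CE μ t V (fun W => big x (cmd κ s0 ε δ t b W (ball z ρ))) = 0 := by
        unfold CE
        refine (lintegral_congr (g := fun _ => 0) fun W => ?_).trans (by simp)
        simp only
        rw [p2_low hF hA κ s0 W hδ hρ ht0 hU' hY, p2_big_zero]
      rw [this]; exact bot_le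
    by_cases hb : t = b
    · have : CE μ t V (fun W => big x (cmd κ s0 ε δ t b W (ball z ρ))) = 0 := by
        unfold CE
        refine (lintegral_congr (g := fun _ => 0) fun W => ?_).trans (by simp)
        simp only
        rw [hb, p2_end, p2_big_zero]
      rw [this]; exact bot_le
    have hU2 : Up V t z ≤ 80 * ρ := by
      rcases hcase with h1 | h1 | h1
      · exact h1
      · exact absurd h1 hY
      · exact absurd h1 hb
    have h1 : 1 ≤ N t V := hN1 t V ht0 hU' (by linarith) (not_le.1 hY).le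
    calc CE μ t V (fun W => big x (cmd κ s0 ε δ t b W (ball z ρ)))
        ≤ CE μ t V (fun W => big x (cm κ s0 ε t b W (ball z ρ))) := by
          unfold CE
          exact lintegral_mono fun W => hB.mono x ((hA.le κ s0 ε δ t b _ hε).2 _)
      _ ≤ ENNReal.ofReal K := hT t ht V hU'
      _ = ENNReal.ofReal K * 1 := (mul_one _).symm
      _ ≤ ENNReal.ofReal K * N t V := mul_le_mul_right h1 _

theorem p2_thr {d ρ m : ℝ} (C1 : ℝ) (hρ : 0 < ρ) (hm : 1 ≤ m) :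
    C1 * m ^ (2 - d) * ρ ^ d = C1 * m ^ 2 * (ρ / m) ^ d := by
  have hm0 : 0 < m := by linarith
  rw [Real.div_rpow hρ.le hm0.le, Real.rpow_sub hm0, Real.rpow_two]
  ring

theorem p2_num {θ C C1 ρ m d : ℝ} (hC : 0 < C) (hC1 : 0 < C1) (hθ : C + 3 ≤ θ * C1) (hρ : 0 < ρ)
    (hm : 1 ≤ m) (hd : 0 ≤ d) :
    C * (C1 * m ^ 2 + 1) * (ρ / m) ^ d * Real.exp (C * m ^ 2 - θ * (C1 * m ^ 2)) ≤
      C * (C1 + 1) * ρ ^ d * Real.exp (-(2 * m ^ 2)) := by
  have hm0 : 0 < m := by linarith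
  have hm2 : 1 ≤ m ^ 2 := one_le_pow₀ hm
  have h1 : (ρ / m) ^ d ≤ ρ ^ d :=
    Real.rpow_le_rpow (div_pos hρ hm0).le (div_le_self hρ.le hm) hd
  have h2 : m ^ 2 ≤ Real.exp (m ^ 2) := by linarith [Real.add_one_le_exp (m ^ 2)]
  have h3 : C1 * m ^ 2 + 1 ≤ (C1 + 1) * Real.exp (m ^ 2) := by nlinarith
  have h4 : Real.exp (C * m ^ 2 - θ * (C1 * m ^ 2)) ≤ Real.exp (-(3 * m ^ 2)) := by
    refine Real.exp_le_exp.2 ?_
    nlinarith
  have h5 : Real.exp (m ^ 2) * Real.exp (-(3 * m ^ 2)) = Real.exp (-(2 * m ^ 2)) := by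
    rw [← Real.exp_add]; congr 1; ring
  have h6 : 0 ≤ (ρ / m) ^ d := Real.rpow_nonneg (div_pos hρ hm0).le _
  calc C * (C1 * m ^ 2 + 1) * (ρ / m) ^ d * Real.exp (C * m ^ 2 - θ * (C1 * m ^ 2))
      ≤ C * ((C1 + 1) * Real.exp (m ^ 2)) * ρ ^ d * Real.exp (-(3 * m ^ 2)) := by
        gcongr
    _ = C * (C1 + 1) * ρ ^ d * (Real.exp (m ^ 2) * Real.exp (-(3 * m ^ 2))) := by ring
    _ = _ := by rw [h5]

theorem p2_coarse {c0 ε ρ m d C1 : ℝ} (hc0 : 0 < c0) (hρ : 0 < ρ) (hm : 1 ≤ m) (hd : d < 2)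
    (h : c0 * (ρ / m) < ε) (hC1 : Real.pi * c0 ^ (d - 2) ≤ C1) :
    ε ^ (d - 2) * (Real.pi * ρ ^ 2) ≤ C1 * m ^ (2 - d) * ρ ^ d := by
  have hm0 : 0 < m := by linarith
  have hl : 0 < c0 * (ρ / m) := mul_pos hc0 (div_pos hρ hm0)
  have h1 : ε ^ (d - 2) ≤ (c0 * (ρ / m)) ^ (d - 2) :=
    Real.rpow_le_rpow_of_nonpos hl h.le (by linarith)
  have h2 : (c0 * (ρ / m)) ^ (d - 2) * ρ ^ 2 = c0 ^ (d - 2) * (m ^ (2 - d) * ρ ^ d) := by
    rw [Real.mul_rpow hc0.le (div_pos hρ hm0).le, Real.div_rpow hρ.le hm0.le,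
      Real.rpow_sub hρ, Real.rpow_two, show 2 - d = -(d - 2) by ring, Real.rpow_neg hm0.le]
    field_simp
  have h3 : 0 ≤ m ^ (2 - d) * ρ ^ d :=
    mul_nonneg (Real.rpow_nonneg hm0.le _) (Real.rpow_nonneg hρ.le _)
  calc ε ^ (d - 2) * (Real.pi * ρ ^ 2) ≤ (c0 * (ρ / m)) ^ (d - 2) * (Real.pi * ρ ^ 2) :=
        mul_le_mul_of_nonneg_right h1 (by positivity)
    _ = Real.pi * ((c0 * (ρ / m)) ^ (d - 2) * ρ ^ 2) := by ring
    _ = Real.pi * c0 ^ (d - 2) * (m ^ (2 - d) * ρ ^ d) := by rw [h2]; ring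
    _ ≤ C1 * (m ^ (2 - d) * ρ ^ d) := mul_le_mul_of_nonneg_right hC1 h3
    _ = _ := by ring

theorem p2 (hF : Fnd) (hA : ContAStmt) (hC : ContBStmt) (hU : UStmt) (hB : BigStmt) : P2Stmt := by
  intro κ μ hc s0 hs0
  obtain ⟨θ, C, hθ, hC0, hT⟩ := hB.tail κ μ hc
  obtain ⟨c0, hc0, hc1, hT⟩ := hT s0 hs0
  obtain ⟨A, hA1, hU⟩ := hU κ μ hc
  have hd1 := one_lt_dd hc.pos
  have hd2 := dd_lt_two hc.lt
  have hp : 0 < Real.pi * c0 ^ (dd κ - 2) := mul_pos Real.pi_pos (Real.rpow_pos_of_pos hc0 _)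
  have hq : 0 < (C + 3) / θ := by positivity
  obtain ⟨C1, hC1⟩ : ∃ C1, C1 = Real.pi * c0 ^ (dd κ - 2) + (C + 3) / θ := ⟨_, rfl⟩
  have hC1p : 0 < C1 := by rw [hC1]; linarith
  have hC1a : Real.pi * c0 ^ (dd κ - 2) ≤ C1 := by rw [hC1]; linarith
  have hC1b : C + 3 ≤ θ * C1 := by
    have : (C + 3) / θ ≤ C1 := by rw [hC1]; linarith
    rw [div_le_iff₀ hθ] at this; linarith
  have h40 : 0 < (40 : ℝ) ^ (2 - dd κ) := Real.rpow_pos_of_pos (by norm_num) _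
  refine ⟨C1, C * (C1 + 1) * (A * (2 * 40 ^ (2 - dd κ))), hC1p, by positivity, ?_⟩
  intro ε ρ m a b V z hε hρ hm ha hab hUp
  have hm0 : 0 < m := by linarith
  have hl : 0 < ρ / m := div_pos hρ hm0
  have hlρ : ρ / m ≤ ρ := div_le_self hρ.le hm
  by_cases hcase : c0 * (ρ / m) < ε
  · have : CE μ a V (fun W => big (C1 * m ^ (2 - dd κ) * ρ ^ dd κ)
        (cm κ s0 ε a b W (ball z ρ))) = 0 := by
      unfold CE
      refine (lintegral_congr (g := fun _ => 0) fun W => ?_).trans (by simp)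
      exact p2_big_le ((hC.ballb κ s0 ε a b _ z ρ hc.pos hc.lt hε ha).trans
        (ENNReal.ofReal_le_ofReal (p2_coarse hc0 hρ hm hd2 hcase hC1a)))
    rw [this]; exact bot_le
  have hεl : ε ≤ c0 * (ρ / m) := not_lt.1 hcase
  have hερ : ε ≤ ρ := by nlinarith
  have hml : m * (ρ / m) = ρ := by field_simp
  obtain ⟨x, hx⟩ : ∃ x, x = C1 * m ^ (2 - dd κ) * ρ ^ dd κ := ⟨_, rfl⟩
  obtain ⟨K, hK⟩ : ∃ K, K = C * (C1 + 1) * ρ ^ dd κ * Real.exp (-(2 * m ^ 2)) := ⟨_, rfl⟩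
  have hK0 : 0 ≤ K := by rw [hK]; positivity
  have hTail : ∀ t ∈ Icc a b, ∀ V, 40 * ρ ≤ Up V t z →
      CE μ t V (fun W => big x (cm κ s0 ε t b W (ball z ρ))) ≤ ENNReal.ofReal K := by
    intro t ht V' hV'
    have ht0 : 0 ≤ t := ha.trans ht.1
    have h1 := hT (ρ / m) ε z m t b V' (C1 * m ^ 2) hl hε hεl hm ht0 ht.2 (by positivity) (by
      intro w hw
      rw [hml] at hw
      have := (p2_near hF ht0 hρ hV' hw).1
      linarith)
    rw [hml] at h1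
    rw [hx, p2_thr C1 hρ hm, hK]
    exact h1.trans (ENNReal.ofReal_le_ofReal (p2_num hC0 hC1p hC1b hρ hm (by linarith)))
  have hfin : K * (A * (2 * (40 * ρ / Up V a z) ^ (2 - dd κ))) =
      C * (C1 + 1) * (A * (2 * 40 ^ (2 - dd κ))) * (ρ / Up V a z) ^ (2 - dd κ) * ρ ^ dd κ *
        Real.exp (-(2 * m ^ 2)) := by
    have hU0 : 0 < Up V a z := by linarith
    rw [mul_div_assoc, Real.mul_rpow (by norm_num) (div_pos hρ hU0).le, hK]
    ring
  rw [← hx, ← hfin]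
  have hn : ∀ n : ℕ, CE μ a V (fun W => big x (cmd κ s0 ε (1 / (n + 1)) a b W (ball z ρ))) ≤
      ENNReal.ofReal (K * (A * (2 * (40 * ρ / Up V a z) ^ (2 - dd κ)))) := by
    intro n
    have hδ : (0 : ℝ) < 1 / (n + 1) := by positivity
    obtain ⟨N, hN, hN1, hN2⟩ := hU z (40 * ρ) (1 / (n + 1) / 2) (by linarith) (by linarith)
    exact p2_dp hF hA hB hc s0 hε hδ hρ hερ ha hab (by linarith) hK0 hN hN1 hN2 hTail hUp
  have hmeas : ∀ n : ℕ, Measurable fun W : Pth =>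
      big x (cmd κ s0 ε (1 / (n + 1)) a b (cat a V W) (ball z ρ)) := by
    intro n
    have h1 := (p2_meas hA hB κ s0 ε (1 / (n + 1)) a b ρ x z).comp (measurable_cat_right a V)
    simpa only [Function.comp_def] using h1
  have hmono : Monotone fun (n : ℕ) (W : Pth) =>
      big x (cmd κ s0 ε (1 / (n + 1)) a b (cat a V W) (ball z ρ)) := fun i j hij W =>
    hB.mono x (((hA.sup κ s0 ε a b (cat a V W) hε).2 _ measurableSet_ball).1 hij)
  have hsup := lintegral_iSup (μ := μ) hmeas hmono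
  have heq : CE μ a V (fun W => big x (cm κ s0 ε a b W (ball z ρ))) =
      ∫⁻ W, ⨆ n : ℕ, big x (cmd κ s0 ε (1 / (n + 1)) a b (cat a V W) (ball z ρ)) ∂μ := by
    unfold CE
    refine lintegral_congr fun W => ?_
    obtain ⟨h1, h2⟩ := (hA.sup κ s0 ε a b (cat a V W) hε).2 _ (measurableSet_ball (x := z) (ε := ρ))
    simp only
    rw [h2, hB.sup x _ h1]
  rw [heq, hsup]
  exact iSup_le hn

end Vale.Agent.P164
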