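import Vale.Agent.P164.Stm2

/-! P164: a path in the good event has a trace of positive Hausdorff measure. -/

open Set MeasureTheory ProbabilityTheory Metric
open scoped ENNReal NNReal

namespace Vale.Agent.P164

/-- averaging over balls -/
theorem PosDet_avg (ν : Measure ℂ) [SFinite ν] (B : Set ℂ) (hB : MeasurableSet B) (r : ℝ)
    (hr : 0 < r) :
    ν B * ENNReal.ofReal (Real.pi * r ^ 2) = ∫⁻ z, ν (B ∩ ball z r) := by
  have hm : MeasurableSet {p : ℂ × ℂ | p.1 ∈ B ∧ dist p.1 p.2 < r} :=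
    (measurable_fst hB).inter (measurableSet_lt (measurable_fst.dist measurable_snd)
      measurable_const)
  have hf : Measurable (Function.uncurry fun (u z : ℂ) =>
      {p : ℂ × ℂ | p.1 ∈ B ∧ dist p.1 p.2 < r}.indicator (fun _ => (1 : ℝ≥0∞)) (u, z)) :=
    measurable_const.indicator hm
  have hv : ∀ u : ℂ, volume (ball u r) = ENNReal.ofReal (Real.pi * r ^ 2) := by
    intro u
    rw [Complex.volume_ball, ENNReal.ofReal_mul Real.pi_pos.le, ENNReal.ofReal_pow hr.le, mul_comm]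
    congr 1
    rw [← NNReal.coe_real_pi, ENNReal.ofReal_coe_nnreal]
  have h1 : ∀ u : ℂ, ∫⁻ z, {p : ℂ × ℂ | p.1 ∈ B ∧ dist p.1 p.2 < r}.indicator
      (fun _ => (1 : ℝ≥0∞)) (u, z) =
      B.indicator (fun _ => ENNReal.ofReal (Real.pi * r ^ 2)) u := by
    intro u
    by_cases hu : u ∈ B
    · rw [indicator_of_mem hu, ← hv u, ← lintegral_indicator_one measurableSet_ball]
      refine lintegral_congr fun z => ?_
      by_cases hz : z ∈ ball u r
      · rw [indicator_of_mem hz, indicator_of_mem]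
        · rfl
        · exact ⟨hu, by rw [dist_comm]; exact hz⟩
      · rw [indicator_of_notMem hz, indicator_of_notMem]
        exact fun h => hz (by rw [mem_ball, dist_comm]; exact h.2)
    · rw [indicator_of_notMem hu]
      have : ∀ z : ℂ, {p : ℂ × ℂ | p.1 ∈ B ∧ dist p.1 p.2 < r}.indicator
          (fun _ => (1 : ℝ≥0∞)) (u, z) = 0 := fun z => indicator_of_notMem (fun h => hu h.1) _
      simp only [this, lintegral_zero]
  have h2 : ∀ z : ℂ, ∫⁻ u, {p : ℂ × ℂ | p.1 ∈ B ∧ dist p.1 p.2 < r}.indicator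
      (fun _ => (1 : ℝ≥0∞)) (u, z) ∂ν = ν (B ∩ ball z r) := by
    intro z
    rw [← lintegral_indicator_one (hB.inter measurableSet_ball)]
    refine lintegral_congr fun u => ?_
    by_cases hu : u ∈ B ∩ ball z r
    · rw [indicator_of_mem hu, indicator_of_mem]
      · rfl
      · exact ⟨hu.1, hu.2⟩
    · rw [indicator_of_notMem hu, indicator_of_notMem]
      exact fun h => hu ⟨h.1, h.2⟩
  have h3 := lintegral_lintegral_swap (μ := ν) (ν := volume) hf.aemeasurable
  simp only [h1, h2] at h3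
  rw [← h3, lintegral_indicator_const hB, mul_comm]

/-- the measure of the points with a heavy ball -/
theorem PosDet_heavy (ν : Measure ℂ) [SFinite ν] (w : ℂ) (ρ r x : ℝ) (hr : 0 < r) (hρ : r ≤ ρ)
    (hm : Measurable fun z => ν (ball z r)) :
    ν {z | z ∈ ball w ρ ∧ ENNReal.ofReal x < ν (ball z r)} ≤
      ENNReal.ofReal (1 / (Real.pi * r ^ 2)) * ∫⁻ z in ball w (2 * ρ), big x (ν (ball z (2 * r))) := by
  set B : Set ℂ := {z | z ∈ ball w ρ ∧ ENNReal.ofReal x < ν (ball z r)} with hBd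
  have hB : MeasurableSet B := measurableSet_ball.inter (measurableSet_lt measurable_const hm)
  have hp : 0 < Real.pi * r ^ 2 := by have := Real.pi_pos; positivity
  have h1 : ∫⁻ z, ν (B ∩ ball z r) ≤ ∫⁻ z in ball w (2 * ρ), big x (ν (ball z (2 * r))) := by
    rw [← lintegral_indicator measurableSet_ball]
    refine lintegral_mono fun z => ?_
    rcases (B ∩ ball z r).eq_empty_or_nonempty with h | ⟨u, hu, huz⟩
    · simp only [h, measure_empty, zero_le]
    · have hz : z ∈ ball w (2 * ρ) := by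
        have a1 := mem_ball.1 hu.1
        have a2 := mem_ball.1 huz
        have a3 := dist_triangle_left z w u
        rw [mem_ball]
        linarith
      have hs : ball u r ⊆ ball z (2 * r) := by
        intro p hp
        have a1 := mem_ball.1 hp
        have a2 := mem_ball.1 huz
        have a3 := dist_triangle p u z
        rw [mem_ball]
        linarith
      have hlt : ENNReal.ofReal x < ν (ball z (2 * r)) := hu.2.trans_le (measure_mono hs)
      simp only [indicator_of_mem hz]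
      unfold big
      rw [if_pos hlt]
      exact measure_mono (inter_subset_right.trans (ball_subset_ball (by linarith)))
  rw [← PosDet_avg ν B hB r hr] at h1
  calc ν B = ENNReal.ofReal (1 / (Real.pi * r ^ 2)) * (ν B * ENNReal.ofReal (Real.pi * r ^ 2)) := by
        rw [mul_comm (ν B), ← mul_assoc, ← ENNReal.ofReal_mul (by positivity),
          one_div_mul_cancel hp.ne', ENNReal.ofReal_one, one_mul]
    _ ≤ _ := by gcongr

/-- a ball that meets an open set and its complement meets its frontier -/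
theorem PosDet_front {D : Set ℂ} (hD : IsOpen D) {z : ℂ} {r : ℝ} (hr : 0 < r) (hz : z ∈ D)
    (h : ¬ ball z r ⊆ D) : ∃ q ∈ ball z r, q ∈ frontier D := by
  by_contra hn
  refine h ((convex_ball z r).isPreconnected.subset_of_closure_inter_subset hD
    ⟨z, mem_ball_self hr, hz⟩ fun q hq => ?_)
  by_contra hqD
  exact hn ⟨q, hq.2, hq.1, by rwa [hD.interior_eq]⟩

theorem PosDet_sec {f : Pth × ℂ → ℝ≥0∞} (hf : Measurable f) (W : Pth) :
    Measurable fun z => f (W, z) := hf.comp (measurable_const.prodMk measurable_id)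

theorem posDet (hF : Fnd) (hA : ContAStmt) (hC : ContBStmt) (_hB : BigStmt) : PosDetStmt := by
  intro κ hκ hκ8 s0 C1 a b W hC1 ha hab hW Γ hΓ hFr
  obtain ⟨x, y, ρ, c, k0, hρ, hc, hk0, hUp, hn⟩ := hW
  set w : ℂ := ⟨x, y⟩ with hw
  have hd1 := one_lt_dd hκ
  have hd2 := dd_lt_two hκ8
  refine hF.mass κ hκ hκ8 Γ c (C1 * 4 ^ dd κ) (1 / 2 ^ k0) hΓ hc (by positivity) (by positivity)
    fun η hη => ?_
  obtain ⟨n0, hn0⟩ := exists_nat_one_div_lt (show 0 < min η ρ / 5 by positivity)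
  obtain ⟨n, hnn, hle⟩ := hn n0
  set ε : ℝ := 1 / (n + 1) with hε
  have hε0 : 0 < ε := by positivity
  have hεs : 5 * ε ≤ min η ρ := by
    have : ε ≤ 1 / ((n0 : ℝ) + 1) := Nat.one_div_le_one_div hnn
    linarith
  have hεη : 5 * ε ≤ η := hεs.trans (min_le_left _ _)
  have hερ : 5 * ε ≤ ρ := hεs.trans (min_le_right _ _)
  have hmb : ∀ r, Measurable fun z => cm κ s0 ε a b W (ball z r) := fun r =>
    PosDet_sec (hA.mball κ s0 ε a b r) W
  have hden : Measurable fun z => den κ s0 ε a b W z := PosDet_sec (hA.meas κ s0 ε a b) W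
  set ν : Measure ℂ := cm κ s0 ε a b W with hν
  have : SFinite ν := by rw [hν]; unfold cm; infer_instance
  let G : Set ℂ := {z | z ∈ ball w ρ ∧ den κ s0 ε a b W z ≠ 0 ∧
    ∀ k : ℕ, ν (ball z (1 / 2 ^ (k + k0))) ≤ ENNReal.ofReal (thr κ C1 (k + k0))}
  refine ⟨ν, G, ?_, ?_, ?_⟩
  · rintro z ⟨hz, hz0, -⟩
    obtain ⟨t, ht, hzd, hzU⟩ := hA.supp κ s0 ε a b W z hε0 ha hz0
    have ht0 : 0 ≤ t := ha.trans ht.1
    have hns : ¬ ball z (5 * ε) ⊆ dom W t := fun h => by
      have := hF.schwarz.schwarz W t z (5 * ε) ht0 hzd h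
      linarith
    obtain ⟨q, hq, hqf⟩ := PosDet_front (hF.meas.dom_open W t ht0) (by positivity) hzd hns
    have hwd : w ∈ dom W a := mem_dom_of_Up_pos ha (by linarith)
    have hqw : ‖q - w‖ < Up W a w / 40 := by
      have a1 := mem_ball.1 hz
      have a2 := mem_ball.1 hq
      have a3 := dist_triangle q z w
      rw [← dist_eq_norm]
      linarith
    have hqd := (hF.koebe.ball W a w q ha hwd hqw).1
    refine mem_thickening_iff.2 ⟨q, hFr ⟨hqd, t, ht, hqf⟩, ?_⟩
    have a2 := mem_ball.1 hq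
    rw [dist_comm]
    linarith
  · let B : ℕ → Set ℂ := fun k => {z | z ∈ ball w ρ ∧
      ENNReal.ofReal (thr κ C1 (k + k0)) < ν (ball z (1 / 2 ^ (k + k0)))}
    have hsub : ball w ρ ⊆ (G ∪ ⋃ k, B k) ∪ {z | den κ s0 ε a b W z = 0} := by
      intro z hz
      by_cases h0 : den κ s0 ε a b W z = 0
      · exact Or.inr h0
      by_cases h1 : ∀ k : ℕ, ν (ball z (1 / 2 ^ (k + k0))) ≤ ENNReal.ofReal (thr κ C1 (k + k0))
      · exact Or.inl (Or.inl ⟨hz, h0, h1⟩)
      · obtain ⟨k, hk⟩ := not_forall.1 h1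
        exact Or.inl (Or.inr (mem_iUnion.2 ⟨k, hz, not_le.1 hk⟩))
    have hz : ν {z | den κ s0 ε a b W z = 0} = 0 := by
      have hm : MeasurableSet {z | den κ s0 ε a b W z = 0} := hden (measurableSet_singleton 0)
      rw [hν]
      unfold cm
      rw [withDensity_apply _ hm]
      rw [setLIntegral_congr_fun hm (g := fun _ => 0) fun z hz => hz]
      exact lintegral_zero
    have hBk : ν (⋃ k, B k) ≤ badm κ s0 ε a b C1 w ρ k0 W := by
      refine (measure_iUnion_le B).trans (ENNReal.tsum_le_tsum fun k => ?_)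
      refine PosDet_heavy ν w ρ _ _ (by positivity) (le_trans ?_ hk0) (hmb _)
      exact one_div_le_one_div_of_le (by positivity)
        (pow_le_pow_right₀ (by norm_num) (Nat.le_add_left _ _))
    have h1 : ν (ball w ρ) ≤ ν G + badm κ s0 ε a b C1 w ρ k0 W := by
      refine (measure_mono hsub).trans ((measure_union_le _ _).trans ?_)
      rw [hz, add_zero]
      exact (measure_union_le _ _).trans (by gcongr)
    have hfin : ν (ball w ρ) ≠ ⊤ :=
      ne_top_of_le_ne_top ENNReal.ofReal_ne_top (hC.ballb κ s0 ε a b W w ρ hκ hκ8 hε0 ha)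
    have hbf : badm κ s0 ε a b C1 w ρ k0 W ≠ ⊤ :=
      ne_top_of_le_ne_top hfin (le_add_self.trans hle)
    exact (ENNReal.add_le_add_iff_right hbf).1 (hle.trans h1)
  · rintro z ⟨-, -, hz⟩ r hr hr0
    have h2 : (0 : ℝ) < 2 ^ k0 := by positivity
    obtain ⟨k, hk1, hk2⟩ := exists_nat_pow_near_of_lt_one (x := r * 2 ^ k0) (y := (1 / 2 : ℝ))
      (by positivity) ((le_div_iff₀ h2).1 hr0) (by norm_num) (by norm_num)
    have e1 : (1 / 2 ^ (k + k0) : ℝ) = (1 / 2) ^ k / 2 ^ k0 := by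
      rw [pow_add, one_div_pow, div_div]
    have hr1 : r ≤ 1 / 2 ^ (k + k0) := by rw [e1, le_div_iff₀ h2]; exact hk2
    have hr2 : 2 * (1 / 2 ^ (k + k0) : ℝ) ≤ 4 * r := by
      have : (1 / 2 ^ (k + k0) : ℝ) ≤ 2 * r := by
        rw [e1, div_le_iff₀ h2]
        rw [pow_succ] at hk1
        linarith
      linarith
    refine (measure_mono (ball_subset_ball hr1)).trans ((hz k).trans (ENNReal.ofReal_le_ofReal ?_))
    have hrk : (0 : ℝ) < 1 / 2 ^ (k + k0) := by positivity
    have l1 : LL (1 / 2 ^ (k + k0)) ≤ LL r := hF.gauge.anti hr hrk hr1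
    have l0 : 0 ≤ LL (1 / 2 ^ (k + k0)) := zero_le_one.trans (hF.gauge.one_le _ hrk)
    have l2 : LL (1 / 2 ^ (k + k0)) ^ ((2 - dd κ) / 2) ≤ LL r ^ ((2 - dd κ) / 2) :=
      Real.rpow_le_rpow l0 l1 (by linarith)
    have l3 : (2 * (1 / 2 ^ (k + k0) : ℝ)) ^ dd κ ≤ 4 ^ dd κ * r ^ dd κ := by
      rw [← Real.mul_rpow (by norm_num) hr.le]
      exact Real.rpow_le_rpow (by positivity) hr2 (by linarith)
    have l4 : 0 ≤ LL r ^ ((2 - dd κ) / 2) := Real.rpow_nonneg (l0.trans l1) _
    rw [gauge_eq]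
    unfold thr
    calc C1 * LL (1 / 2 ^ (k + k0)) ^ ((2 - dd κ) / 2) * (2 * (1 / 2 ^ (k + k0))) ^ dd κ
        ≤ C1 * LL r ^ ((2 - dd κ) / 2) * (4 ^ dd κ * r ^ dd κ) := by gcongr
      _ = _ := by ring

end Vale.Agent.P164
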