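import Vale.Agent.P164.Stm2

open Set MeasureTheory ProbabilityTheory Metric Filter Topology
open scoped ENNReal NNReal

namespace Vale.Agent.P164

theorem posProb_pt (hF : Fnd) (V : Pth) {a y : ℝ} (ha : 0 ≤ a) (hy : 0 < y) : ∃ p q : ℚ,
    0 < Up V a ⟨p, q⟩ ∧ 3 / 4 ≤ Sf V a ⟨p, q⟩ ∧ Rf V a ⟨p, q⟩ ≤ 2 * y := by
  obtain ⟨h1, h2⟩ := hF.confB.right V a ⟨0, y⟩ ha hy
  generalize fi V a ⟨0, y⟩ = w at h1 h2
  have L0 := Up_pos ha h1
  obtain ⟨p, p1, p2⟩ := exists_rat_btwn (show w.re < w.re + Up V a w / 80 by linarith)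
  obtain ⟨q, q1, q2⟩ := exists_rat_btwn (show w.im < w.im + Up V a w / 80 by linarith)
  obtain ⟨-, k2, k3, -⟩ := hF.koebe.ball V a w ⟨p, q⟩ ha h1 (by
    refine (Complex.norm_le_abs_re_add_abs_im _).trans_lt ?_
    simp only [Complex.sub_re, Complex.sub_im]
    rw [abs_of_pos (sub_pos.2 p1), abs_of_pos (sub_pos.2 q1)]
    linarith)
  rw [Yf, h2] at k2
  have n1 : ‖(⟨0, y⟩ : ℂ)‖ ≤ y := (Complex.norm_le_abs_re_add_abs_im _).trans_eq (by
    simp [abs_of_pos hy])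
  have r1 : Rf V a ⟨p, q⟩ ≤ 9 / 8 * y := by
    have := norm_add_le (Zf V a ⟨p, q⟩ - ⟨0, y⟩) ⟨0, y⟩
    rw [sub_add_cancel] at this
    rw [Rf]
    linarith
  have y1 : 7 / 8 * y ≤ Yf V a ⟨p, q⟩ := by
    have := (abs_le.1 ((Complex.abs_im_le_norm _).trans k2)).1
    rw [Complex.sub_im] at this
    rw [Yf]
    linarith
  have r0 : 0 < Rf V a ⟨p, q⟩ :=
    lt_of_lt_of_le (by linarith) ((le_abs_self _).trans (Yf_le_Rf V a ⟨p, q⟩))
  exact ⟨p, q, by linarith, (le_div_iff₀ r0).2 (by linarith), by linarith⟩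

theorem posProb_cm (hA : ContAStmt) {α : Type} [MeasurableSpace α] {f : α → Pth} {g : α → ℂ}
    (hf : Measurable f) (hg : Measurable g) (κ s0 ε a b ρ : ℝ) :
    Measurable fun p => cm κ s0 ε a b (f p) (ball (g p) ρ) :=
  ((hA.mball κ s0 ε a b ρ).comp (hf.prodMk hg) :)

theorem posProb (hF : Fnd) (hA : ContAStmt) (hG : GainStmt) (hE : BadEStmt) (hM : GoodMStmt) :
    PosProbStmt := by
  intro κ μ hc s0 T0 hT
  obtain ⟨c, c0, -, hg⟩ := hG κ μ hc s0 T0 hT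
  obtain ⟨C1, hC1, he⟩ := hE κ μ hc s0 hT.1
  refine ⟨C1, c / 2, hC1, half_pos c0, fun a b V ha hab => ?_⟩
  have := hc.wie.prob
  have T1 := hT.2.1
  have b0 : 0 < (b - a) / (16 * T0) := div_pos (sub_pos.2 hab) (by positivity)
  obtain ⟨x, y, u0, u1, u2⟩ := posProb_pt hF V ha (Real.sqrt_pos.2 b0)
  have u3 : a + 4 * T0 * Rf V a ⟨x, y⟩ ^ 2 ≤ b := by
    have h1 := pow_le_pow_left₀ (Rf_nonneg _ _ _) u2 2
    rw [mul_pow, Real.sq_sqrt b0.le] at h1
    have h2 := mul_le_mul_of_nonneg_left h1 (show 0 ≤ 4 * T0 by positivity)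
    have h3 : 4 * T0 * (2 ^ 2 * ((b - a) / (16 * T0))) = b - a := by
      field_simp
      ring
    linarith
  obtain ⟨ρ, ρ1, ρ2⟩ := exists_rat_btwn (show Up V a ⟨x, y⟩ / 200 < Up V a ⟨x, y⟩ / 80 by linarith)
  have ρ0 : (0 : ℝ) < ρ := lt_trans (by positivity) ρ1
  obtain ⟨c', c1, c2⟩ := exists_rat_btwn (show 0 < c * (ρ : ℝ) ^ dd κ / 2 by positivity)
  obtain ⟨k0, k1, k2⟩ := he a b V ⟨x, y⟩ ρ (c' * (c / 2)) ha hab.le ρ0 (by linarith) (by positivity)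
  set E : ℕ → Set Pth := fun n => {W | ENNReal.ofReal c' +
    badm κ s0 (1 / (n + 1)) a b C1 ⟨x, y⟩ ρ k0 (cat a V W) ≤
      cm κ s0 (1 / (n + 1)) a b (cat a V W) (ball ⟨x, y⟩ ρ)} with hE
  have mb : ∀ ε, Measurable fun W => badm κ s0 ε a b C1 ⟨x, y⟩ ρ k0 (cat a V W) :=
    fun ε => (hM.mbad κ s0 ε a b C1 _ ρ k0).comp (measurable_cat_right a V)
  have mE : ∀ n, MeasurableSet (E n) := fun n => measurableSet_le ((mb _).const_add _)
    (posProb_cm hA (measurable_cat_right a V) measurable_const κ s0 _ a b ρ)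
  have pE : ∀ᶠ n : ℕ in atTop, ENNReal.ofReal (c / 2) ≤ μ (E n) := by
    filter_upwards [tendsto_one_div_add_atTop_nhds_zero_nat.eventually_lt_const (mul_pos c0 ρ0)]
      with n hn
    have e0 : (0 : ℝ) < 1 / (n + 1) := by positivity
    have g1 := hg a V ⟨x, y⟩ ρ _ ha u1 ρ1.le (by linarith) e0 hn.le
    have g2 := (mul_meas_ge_le_lintegral₀ (mb _).aemeasurable (ENNReal.ofReal c')).trans (k2 _ e0)
    rw [ENNReal.ofReal_mul c1.le, ENNReal.mul_le_mul_iff_right (ENNReal.ofReal_pos.2 c1).ne'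
      ENNReal.ofReal_ne_top] at g2
    have g3 := g1.trans ((measure_mono (t := E n ∪ {W | ENNReal.ofReal c' ≤
      badm κ s0 (1 / (n + 1)) a b C1 ⟨x, y⟩ ρ k0 (cat a V W)}) fun W hW => by
        refine or_iff_not_imp_right.2 fun h => ?_
        rw [mem_ofPred_eq, not_le] at h
        refine (add_le_add_right h.le _).trans ?_
        rw [← ENNReal.ofReal_add c1.le c1.le]
        exact (ENNReal.ofReal_le_ofReal (by linarith)).trans
          (le_trans hW ((hA.mono κ s0 _ a _ a b _ le_rfl u3).2 _))).trans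
      ((measure_union_le _ _).trans (add_le_add_right g2 _)))
    refine (ENNReal.add_le_add_iff_right ENNReal.ofReal_ne_top).1 (le_of_eq_of_le ?_ g3)
    rw [← ENNReal.ofReal_add (half_pos c0).le (half_pos c0).le, add_halves]
  have an : Antitone fun n0 : ℕ => ⋃ n ∈ Ici n0, E n :=
    fun i j hij => biUnion_subset_biUnion_left (Ici_subset_Ici.2 hij)
  refine le_trans ?_ (measure_mono (s := ⋂ n0 : ℕ, ⋃ n ∈ Ici n0, E n) fun W hW =>
    ⟨x, y, ρ, c', k0, ρ0, c1, k1, ?_, fun n0 => ?_⟩)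
  · rw [an.measure_iInter (fun n0 => (MeasurableSet.biUnion (to_countable _)
      fun n _ => mE n).nullMeasurableSet) ⟨0, measure_ne_top _ _⟩]
    refine le_iInf fun n0 => ?_
    obtain ⟨n, n1, n2⟩ := (pE.and (eventually_ge_atTop n0)).exists
    exact n1.trans (measure_mono (subset_biUnion_of_mem (u := E) n2))
  · rw [((hF.flow.loc _ V a (cat_eqOn a V W) a ⟨ha, le_rfl⟩).2 _).2.1]
    linarith
  · obtain ⟨n, n1, n2⟩ := mem_iUnion₂.1 (mem_iInter.1 hW n0)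
    exact ⟨n, n1, n2⟩

end Vale.Agent.P164
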