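import Vale.Agent.P164.Stm2

open Set MeasureTheory

namespace Vale.Agent.P164

theorem q_tens (hF : Fnd) {κ δ1 δ2 : ℝ} (h1 : 0 < δ1) (h2 : 0 < δ2)
    {a da ga b db gb : ℂ → Pth → ℝ → ℝ} (ha : LS κ a da ga) (hb : LS κ b db gb) :
    Sm κ (fun (p : ℂ × ℂ) W t => cy δ1 p.1 W t * a p.1 W t * (cy δ2 p.2 W t * b p.2 W t))
      (fun p W t => cy δ1 p.1 W t * a p.1 W t *
          (cy δ2 p.2 W t * db p.2 W t - cyd δ2 p.2 W t * b p.2 W t) +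
        cy δ2 p.2 W t * b p.2 W t * (cy δ1 p.1 W t * da p.1 W t - cyd δ1 p.1 W t * a p.1 W t) +
        κ * (cy δ1 p.1 W t * ga p.1 W t * (cy δ2 p.2 W t * gb p.2 W t)))
      (fun p W t => cy δ1 p.1 W t * a p.1 W t * (cy δ2 p.2 W t * gb p.2 W t) +
        cy δ2 p.2 W t * b p.2 W t * (cy δ1 p.1 W t * ga p.1 W t)) :=
  hF.alg.mul κ _ _ _ _ _ _ _
    (hF.alg.pull κ ℂ (ℂ × ℂ) _ _ _ Prod.fst measurable_fst
      (fun n => ⟨n, fun p hp => (norm_fst_le p).trans hp⟩) (ha δ1 h1))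
    (hF.alg.pull κ ℂ (ℂ × ℂ) _ _ _ Prod.snd measurable_snd
      (fun n => ⟨n, fun p hp => (norm_snd_le p).trans hp⟩) (hb δ2 h2))

theorem q_inv (hF : Fnd) {κ : ℝ} (hκ : 0 < κ) :
    LS κ (fun w W t => (Yf W t w ^ 2)⁻¹) (fun w W t => (Yf W t w ^ 2)⁻¹ * (4 / Rf W t w ^ 2))
      (fun _ _ _ => 0) := by
  refine hF.ls.congr κ _ _ _ _ _ _ (hF.mon.mon κ (-2) 0 0 hκ) fun w W t _ hY => ?_
  have e : Mon (-2) 0 0 w W t = (Yf W t w ^ 2)⁻¹ := by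
    rw [Mon, Real.rpow_zero, Real.rpow_zero, mul_one, mul_one, Real.rpow_neg hY.le, Real.rpow_two]
  rw [e]
  refine ⟨rfl, ?_, by simp⟩
  unfold cX cY
  ring

theorem q_num {X Y X' Y' R R' D : ℝ} (hY : 0 < Y') (hX : |X| ≤ R) (hY1 : |Y| ≤ R)
    (h1 : |X - X'| ≤ 2 * Y') (h2 : |Y - Y'| ≤ 2 * Y') (hD0 : 0 ≤ D) (hD : D ≤ 2 * Y')
    (h3 : R' ≤ R + D) (h4 : 4 * Y' ≤ R') :
    |4 * (D ^ 2 / Y' ^ 2) * ((X * (X - X') + Y * (Y + Y')) / (R ^ 2 * R' ^ 2))| ≤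
      192 * (Y' / R' / R' ^ 2) := by
  have hR' : 0 < R' := by linarith
  have hR : 0 < R := by linarith
  have k1 : D ^ 2 / Y' ^ 2 ≤ 4 := by
    rw [div_le_iff₀ (by positivity)]
    nlinarith
  have k2 : |X * (X - X') + Y * (Y + Y')| ≤ R * (2 * Y') + R * (4 * Y') := by
    refine (abs_add_le _ _).trans ?_
    rw [abs_mul, abs_mul]
    have : |Y + Y'| ≤ 4 * Y' := abs_le.2 ⟨by linarith [(abs_le.1 h2).1], by linarith [(abs_le.1 h2).2]⟩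
    gcongr
  rw [abs_mul, abs_div, abs_of_nonneg (by positivity : 0 ≤ 4 * (D ^ 2 / Y' ^ 2)),
    abs_of_pos (by positivity : 0 < R ^ 2 * R' ^ 2)]
  calc _ ≤ 4 * 4 * ((R * (2 * Y') + R * (4 * Y')) / (R ^ 2 * R' ^ 2)) := by gcongr
    _ = 192 * (Y' / (2 * R) / R' ^ 2) := by field_simp; ring
    _ ≤ _ := by gcongr; linarith

theorem qS (hF : Fnd) : QStmt := by
  intro κ hκ
  refine ⟨192, by norm_num, fun δ1 δ2 h1 h2 => ?_⟩
  have hX := hF.base.X κ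
  have hY := hF.base.Y κ
  have hI := q_inv hF hκ
  have hR := hF.ls.add κ _ _ _ _ _ _ (hF.ls.mul κ _ _ _ _ _ _ hX hX) (hF.ls.mul κ _ _ _ _ _ _ hY hY)
  have h := hF.alg.add κ _ _ _ _ _ _ _
    (hF.alg.add κ _ _ _ _ _ _ _ (q_tens hF h1 h2 hR hI)
      (q_tens hF h1 h2 (hF.base.one κ) (hF.ls.mul κ _ _ _ _ _ _ hR hI)))
    (hF.alg.smul κ _ _ _ _ (-2) (hF.alg.add κ _ _ _ _ _ _ _
      (q_tens hF h1 h2 hX (hF.ls.mul κ _ _ _ _ _ _ hX hI))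
      (q_tens hF h1 h2 hY (hF.ls.mul κ _ _ _ _ _ _ hY hI))))
  have e : ∀ w w' W t, ‖Zf W t w - Zf W t w'‖ ^ 2 =
      (Xf W t w - Xf W t w') ^ 2 + (Yf W t w - Yf W t w') ^ 2 := by
    intro w w' W t
    rw [Complex.sq_norm, Complex.normSq_apply, Complex.sub_re, Complex.sub_im, Xf, Xf, Yf, Yf]
    ring
  refine ⟨_, hF.alg.congr κ _ _ _ _ _ _ _ h fun p W t _ => ⟨?_, rfl, by ring⟩,
    fun w w' W t _ k1 k2 k3 k4 => ?_⟩
  · rw [Qf, e]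
    ring
  · have a1 : 2 ≤ Yf W t w / δ1 := (le_div_iff₀ h1).2 k1
    have a2 : 2 ≤ Yf W t w' / δ2 := (le_div_iff₀ h2).2 k2
    have y1 : 0 < Yf W t w := by linarith
    have y2 : 0 < Yf W t w' := by linarith
    have r1 : 0 < Rf W t w := y1.trans_le ((le_abs_self _).trans (Yf_le_Rf W t w))
    have r2 : 0 < Rf W t w' := y2.trans_le ((le_abs_self _).trans (Yf_le_Rf W t w'))
    have k5 : 4 * Yf W t w' ≤ Rf W t w' := by
      rw [Sf, div_le_iff₀ r2] at k4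
      linarith
    have k6 : Rf W t w' ≤ Rf W t w + ‖Zf W t w - Zf W t w'‖ := by
      rw [norm_sub_rev]
      exact norm_le_insert' _ _
    refine le_trans (le_of_eq (congrArg abs ?_)) (q_num (X' := Xf W t w') y2 (Xf_le_Rf W t w) (Yf_le_Rf W t w)
      ((Complex.abs_re_le_norm (Zf W t w - Zf W t w')).trans k3)
      ((Complex.abs_im_le_norm (Zf W t w - Zf W t w')).trans k3) (norm_nonneg _) k3 k6 k5)
    have s1 := pow_pos r1 2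
    have s2 := pow_pos r2 2
    simp only [cy, cyd, cut_one a1, cut_one a2, cut1_zero_right a1, cut1_zero_right a2, e,
      Rf_sq] at s1 s2 ⊢
    field_simp
    ring

end Vale.Agent.P164
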