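import Vale.Agent.P164.Stm2

/-! One stage of the trial. -/

open Set MeasureTheory ProbabilityTheory Metric
open scoped ENNReal NNReal

namespace Vale.Agent.P164

theorem stage_loc (hF : Fnd) (κ : ℝ) {V W : Pth} {t : ℝ} (ht : 0 ≤ t) (h : EqOn V W (Icc 0 t))
    (z : ℂ) : Yf V t z = Yf W t z ∧ Rf V t z = Rf W t z ∧ Sf V t z = Sf W t z ∧
      Up V t z = Up W t z ∧ MM κ z V t = MM κ z W t := by
  obtain ⟨h1, h2, -⟩ := (hF.flow.loc V W t h t ⟨ht, le_rfl⟩).2 z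
  simp only [MM, Sf, Yf, Rf, h1, h2, and_self]

theorem stage_time (hF : Fnd) {V : Pth} {t τ a0 s1 : ℝ} {z : ℂ} (ht : 0 ≤ t) (hY : 0 < Yf V t z)
    (hτ1 : τ ≤ 1) (ha0 : 0 < a0) (ha : a0 ≤ s1) (hS : s1 ≤ Sf V t z) :
    τ * (a0 * Rf V t z) ^ 2 ≤ z.im ^ 2 := by
  have hz : 0 < z.im := ((hF.flow.alive V t z ht).2 hY).1
  have h1 : Yf V t z ≤ z.im := by
    refine (hF.flow.Y_anti V z ht).trans (le_of_eq ?_)
    simp only [Yf, (hF.flow.init V z hz).2.1, Complex.sub_im, Complex.ofReal_im, sub_zero]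
  have hR : 0 < Rf V t z := hY.trans_le ((le_abs_self _).trans (Yf_le_Rf V t z))
  have h2 : a0 * Rf V t z ≤ Yf V t z := by
    rw [← le_div_iff₀ hR]; exact ha.trans hS
  calc τ * (a0 * Rf V t z) ^ 2 ≤ 1 * (a0 * Rf V t z) ^ 2 := by gcongr
    _ = (a0 * Rf V t z) ^ 2 := one_mul _
    _ ≤ z.im ^ 2 := by gcongr; exact h2.trans h1

/-- The filling event is paid by the supermartingale. -/
theorem stage_fill (hF : Fnd) (hA : ContAStmt) {κ : ℝ} {μ : Measure Pth} (hμ : Wie κ μ)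
    {N : ℝ → Pth → ℝ≥0∞} {F : Pth → ℝ≥0∞} {z : ℂ} {ρ δ Q s0 ε t t2 x y ℓ : ℝ} {V : Pth}
    (hN : Sup μ N) (hm : Measurable F) (hρ : 0 < ρ) (hδ : 0 < δ) (hQ : 0 ≤ Q) (ht : 0 ≤ t)
    (ht2 : t ≤ t2) (hU : ρ / 2 ≤ Up V t z) (hY : δ < Yf V t z)
    (h1 : ∀ t V, 0 ≤ t → ρ / 8 / 2 ≤ Up V t z → CE μ t V F ≤ N t V)
    (h2 : ∀ t V, 0 ≤ t → δ / 2 ≤ Yf V t z → ρ / 8 / 2 ≤ Up V t z →
      ENNReal.ofReal (Q * MM κ z V t) ≤ N t V)
    (h3 : ∀ W, ENNReal.ofReal y ≤ cm κ s0 ε t t2 W (ball z ℓ) → F W = 0)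
    (h4 : ∀ W : Pth, EqOn W V (Icc 0 t) → W ∈ Stay t t2 x →
      Yf W t z / 2 ≤ Yf W t2 z ∧ Up W t z / 2 ≤ Up W t2 z ∧ MM κ z W t / 2 ≤ MM κ z W t2) :
    CE μ t V F + ENNReal.ofReal (Q * (MM κ z V t / 2)) *
      CP μ t V {W | W ∈ Stay t t2 x ∧ ENNReal.ofReal y ≤ cm κ s0 ε t t2 W (ball z ℓ)} ≤ N t V := by
  have := hμ.prob
  obtain ⟨E, hE⟩ : ∃ E : Set Pth,
      E = {W | W ∈ Stay t t2 x ∧ ENNReal.ofReal y ≤ cm κ s0 ε t t2 W (ball z ℓ)} := ⟨_, rfl⟩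
  have mE : MeasurableSet E := by
    rw [hE]
    exact (hF.cat.stay t t2 x).inter (measurableSet_le measurable_const
      ((hA.mball κ s0 ε t t2 ℓ).comp (measurable_id.prodMk measurable_const)))
  rw [← hE]
  obtain ⟨k, hk⟩ : ∃ k, k = ENNReal.ofReal (Q * (MM κ z V t / 2)) := ⟨_, rfl⟩
  rw [← hk]
  have mI : Measurable (E.indicator (1 : Pth → ℝ≥0∞)) := measurable_one.indicator mE
  have e : CE μ t V F + k * CP μ t V E = CE μ t V fun W => F W + k * E.indicator 1 W := by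
    rw [hF.cat.cp μ t V E mE]
    exact ((lintegral_add_left (hm.comp (measurable_cat_right t V)) _).trans (congrArg _
      (lintegral_const_mul _ (mI.comp (measurable_cat_right t V))))).symm
  rw [e]
  refine hF.hit κ μ hμ N _ z (ρ / 8) (δ / 2) t t2 V hN (hm.add (mI.const_mul k)) (by positivity)
    (by positivity) ht ht2 (fun t' ht' V' hV' hU' hc => ?_) (by linarith)
  have ht0 : 0 ≤ t' := ht.trans ht'.1
  by_cases hex : ∃ W, cat t' V' W ∈ E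
  swap
  · push Not at hex
    refine le_trans (le_of_eq ?_) (h1 t' V' ht0 hU')
    unfold CE
    refine lintegral_congr fun W => ?_
    simp only [indicator_of_notMem (hex W), mul_zero, add_zero]
  obtain ⟨W0, hW0⟩ := hex
  rw [hE] at hW0
  have e0 : EqOn (cat t' V' W0) V (Icc 0 t) :=
    ((cat_eqOn t' V' W0).mono (Icc_subset_Icc_right ht'.1)).trans hV'
  obtain ⟨a1, a2, a3⟩ := h4 _ e0 hW0.1
  obtain ⟨b1, -, -, b2, b3⟩ := stage_loc hF κ ht e0 z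
  obtain ⟨c1, -, -, c2, c3⟩ := stage_loc hF κ ht0 (cat_eqOn t' V' W0) z
  have d1 : Yf (cat t' V' W0) t2 z ≤ Yf (cat t' V' W0) t' z := hF.flow.Y_anti _ z ht'.2
  have d2 : Up (cat t' V' W0) t2 z ≤ Up (cat t' V' W0) t' z := hF.flow.Up_anti _ z ht'.2
  have ht' : t' = t2 := by
    rcases hc with hc | hc | hc
    · linarith
    · linarith
    · exact hc
  subst ht'
  have hz : ∀ W, F (cat t' V' W) = 0 := fun W => by
    refine h3 _ (hW0.2.trans (le_of_eq ?_))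
    rw [(hA.loc κ s0 ε t t' _ _ ht ((cat_eqOn t' V' W0).trans (cat_eqOn t' V' W).symm)).2.1]
  calc CE μ t' V' (fun W => F W + k * E.indicator 1 W) ≤ ∫⁻ _, k ∂μ := by
        refine lintegral_mono fun W => ?_
        simp only [hz, zero_add]
        exact mul_le_of_le_one_right' (indicator_le_self' (fun _ _ => zero_le) _)
    _ = k := by rw [lintegral_const, measure_univ, mul_one]
    _ ≤ ENNReal.ofReal (Q * MM κ z V' t') := by
        rw [hk]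
        exact ENNReal.ofReal_le_ofReal (mul_le_mul_of_nonneg_left (by linarith) hQ)
    _ ≤ N t' V' := h2 t' V' ht0 (by linarith) hU'

theorem stage_n1 {B η σ : ℝ} (hB : 0 < B) (h0 : 0 < η) (h1 : η ≤ 1 / 4) (h : 4 * (B + 1) ≤ σ) :
    1 + η * (σ / 2 + B) ≤ (1 - η) * (1 + η * σ) := by
  have h2 : η * σ ≤ 1 / 4 * σ := by gcongr; linarith
  have h3 : σ / 2 + B ≤ σ - 1 - η * σ := by linarith
  nlinarith

theorem stage_n2 {B η σ x : ℝ} (hB : 0 < B) (h0 : 0 < η) (h1 : η ≤ 1 / 4) (h : 0 ≤ σ)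
    (hx : 0 ≤ x) : x * (1 + η * (σ / 2 + B)) ≤
      x * ((1 - η) * (1 + η * σ)) + x / 2 * (4 * (B + 1) * η) := by
  have h2 : η * σ ≤ 1 / 4 * σ := by gcongr
  have h3 : σ / 2 + B ≤ σ - 1 - η * σ + 2 * (B + 1) := by linarith
  have h4 : 1 + η * (σ / 2 + B) ≤ (1 - η) * (1 + η * σ) + 4 * (B + 1) * η / 2 := by nlinarith
  linarith [mul_le_mul_of_nonneg_left h4 hx]

theorem stage_n3 {ρ U σ η B : ℝ} (hρ : 0 < ρ) (hU : ρ / 2 ≤ U) (hσ : 0 ≤ σ) (hη : 0 ≤ η) :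
    1 + η * (√(ρ / 8 / U) * σ + B) ≤ 1 + η * (σ / 2 + B) := by
  have : √(ρ / 8 / U) ≤ 1 / 2 := by
    rw [Real.sqrt_le_left (by norm_num), div_le_iff₀ (by linarith)]
    linarith
  have := mul_le_mul_of_nonneg_right this hσ
  gcongr
  linarith

theorem stage_cancel {a b : ℝ≥0∞} {x y z : ℝ} (h : a + ENNReal.ofReal y ≤ ENNReal.ofReal z + b)
    (hz : z ≤ x + y) : a ≤ ENNReal.ofReal x + b := by
  refine ENNReal.le_of_add_le_add_right ENNReal.ofReal_ne_top (h.trans ?_)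
  rw [add_right_comm]
  exact add_le_add_left ((ENNReal.ofReal_le_ofReal hz).trans ENNReal.ofReal_add_le) _

theorem stage (hF : Fnd) (hA : ContAStmt) (hL : LypStmt) (hW : WinStmt) (hFi : FillStmt) :
    StageStmt := by
  intro κ μ hκ s0 T0 hP
  obtain ⟨B, hB, hL⟩ := hL κ μ hκ
  have hr := rr_pos hκ.pos hκ.lt
  obtain ⟨s1, hs1, hs1'⟩ : ∃ s1 : ℝ, 0 < s1 ∧ s1 ^ (-(rr κ / 2)) = 4 * (B + 1) := by
    refine ⟨(4 * (B + 1)) ^ (-(rr κ / 2))⁻¹, by positivity, Real.rpow_inv_rpow (by positivity) ?_⟩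
    exact neg_ne_zero.2 (by positivity)
  obtain ⟨a0, ha0, ha, hW⟩ := hW κ hκ.pos hκ.lt s1 hs1
  obtain ⟨τ, C, c, m0, hτ, hτ1, hC, hc, hm0, hFi⟩ := hFi κ μ hκ s0 T0 hP s1 a0 hs1 ha0
  have hc' : 1 / (4 * (B + 1)) ≤ 1 / 4 := one_div_le_one_div_of_le (by norm_num) (by linarith)
  refine ⟨C, c, 1 / (4 * (B + 1)), m0, hC, hc, by positivity, hc', hm0, ?_⟩
  intro m η F z ρ δ ε Q b N0 hm hη hmF hN0 hρ hδ hε hεm hQ H1 H2 H3 t V ht hU hU'
  obtain ⟨q, hq⟩ : ∃ q, q = Real.exp (-(C * m ^ 2)) := ⟨_, rfl⟩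
  rw [← hq] at hη
  have hq0 : 0 < q := hq ▸ Real.exp_pos _
  have hq1 : q ≤ 1 := hq ▸ Real.exp_le_one_iff.2 (neg_nonpos.2 (by positivity))
  have hη0 : 0 < η := by rw [hη]; positivity
  have hη1 : η ≤ 1 / 4 := by
    rw [hη]; exact (mul_le_of_le_one_right (by positivity) hq1).trans hc'
  have hηq : q = 4 * (B + 1) * η := by rw [hη]; field_simp
  obtain ⟨N, hN, hN1, hN2⟩ := hL z (ρ / 8) (δ / 2) η (by positivity) (by positivity) hη0.le
  have hS := hF.cat.supAdd μ _ _ (hF.cat.supMul μ N (ENNReal.ofReal Q) hN) hN0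
  have LA : ∀ t V, 0 ≤ t → ρ / 8 / 2 ≤ Up V t z →
      CE μ t V F ≤ ENNReal.ofReal Q * N t V + N0 t V := by
    intro t V ht hU
    refine hF.hit κ μ hκ.wie _ F z (ρ / 8) δ t (max t b) V hS hmF (by positivity) hδ ht
      (le_max_left _ _) (fun t' ht' V' _ hU' hc => ?_) hU
    have ht0 : 0 ≤ t' := ht.trans ht'.1
    by_cases h : Yf V' t' z ≤ δ ∨ b ≤ t'
    · rw [H2 t' V' ht0 (by linarith) h]; exact zero_le
    push Not at h
    have h' : Up V' t' z ≤ ρ / 8 := by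
      rcases hc with hc | hc | hc
      · exact hc
      · linarith [h.1]
      · linarith [h.2, le_max_right t b]
    refine (H1 t' V' ht0 (by linarith) h').trans (add_le_add_left ?_ _)
    rw [ENNReal.ofReal_mul hQ]
    exact mul_le_mul_right ((hN2 t' V' ht0 (by linarith [h.1]) hU').2 h') _
  by_cases h : Yf V t z ≤ δ ∨ b ≤ t
  · rw [H2 t V ht (by linarith) h]; exact zero_le
  push Not at h
  obtain ⟨hY, hb⟩ := h
  have hY0 : 0 < Yf V t z := hδ.trans hY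
  have hS0 : 0 < Sf V t z :=
    div_pos hY0 (hY0.trans_le ((le_abs_self _).trans (Yf_le_Rf V t z)))
  have hM : 0 ≤ MM κ z V t :=
    mul_nonneg (Real.rpow_nonneg (Up_nonneg _ _ _) _) (Real.rpow_nonneg hS0.le _)
  obtain ⟨σ, hσ⟩ : ∃ σ, σ = Sf V t z ^ (-(rr κ / 2)) := ⟨_, rfl⟩
  have hσ0 : 0 ≤ σ := hσ ▸ Real.rpow_nonneg hS0.le _
  have hQM := mul_nonneg hQ hM
  have hup : ENNReal.ofReal Q * N t V ≤
      ENNReal.ofReal (Q * MM κ z V t * (1 + η * (σ / 2 + B))) := by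
    refine (mul_le_mul_right (hN1 t V ht) _).trans ?_
    rw [← ENNReal.ofReal_mul hQ, ← hσ, ← mul_assoc]
    exact ENNReal.ofReal_le_ofReal (mul_le_mul_of_nonneg_left (stage_n3 hρ hU hσ0 hη0.le) hQM)
  have eP : (1 - η) * Q * PP κ η z V t = Q * MM κ z V t * ((1 - η) * (1 + η * σ)) := by
    rw [PP, ← hσ]; ring
  rw [eP]
  rcases lt_or_ge (Sf V t z) s1 with hlt | hge
  · refine (LA t V ht (by linarith)).trans (add_le_add_left (hup.trans
      (ENNReal.ofReal_le_ofReal (mul_le_mul_of_nonneg_left ?_ hQM))) _)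
    refine stage_n1 hB hη0 hη1 ?_
    rw [← hs1', hσ]
    exact Real.rpow_le_rpow_of_nonpos hS0 hlt.le (neg_nonpos.2 (by positivity))
  have hT := stage_time hF ht hY0 hτ1 ha0 ha hge
  have hT0 : 0 ≤ τ * (a0 * Rf V t z) ^ 2 := by positivity
  have key := stage_fill hF hA hκ.wie (Q := Q) (s0 := s0) (ε := ε)
    (t2 := t + τ * (a0 * Rf V t z) ^ 2) (x := 3 * (a0 * Rf V t z))
    (y := c * m ^ (2 - dd κ) * ρ ^ dd κ) (ℓ := C * ρ) hS hmF hρ hδ hQ ht (by linarith) hU hY LA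
    (fun t V ht hY hU => by
      rw [ENNReal.ofReal_mul hQ]
      exact le_add_right (mul_le_mul_right (hN2 t V ht hY hU).1 _))
    (fun W hW => H3 W t _ ht hb.le (by linarith) hW)
    (fun W e hs => by
      obtain ⟨-, b1, b2, -, -⟩ := stage_loc hF κ ht e z
      refine hW W z t _ ht (by linarith) (b2 ▸ hge) ?_ (b1 ▸ hs)
      rw [b1, add_sub_cancel_left]
      exact mul_le_of_le_one_left (sq_nonneg _) hτ1)
  have k2 := hFi m ρ ε t V z hm hε hεm ht hge hU hU'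
  rw [← hq] at k2
  have k3 := (add_le_add_right (mul_le_mul_right k2 _) _).trans (key.trans (add_le_add_left hup _))
  rw [← ENNReal.ofReal_mul (by positivity)] at k3
  refine stage_cancel k3 ?_
  rw [hηq, ← mul_div_assoc]
  exact stage_n2 hB hη0 hη1 hσ0 hQM

end Vale.Agent.P164
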