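import Vale.Agent.P164.Stm2

/-! One step of the filling strategy. -/

open Set MeasureTheory ProbabilityTheory Metric
open scoped ENNReal NNReal

namespace Vale.Agent.P164

/-- The step event with frozen centre and scale. -/
def stepFz (κ s0 ε C c t u y x L : ℝ) (w : ℂ) : Set Pth :=
  {W | W ∈ Stay t u (C * y) ∧ |W u - W t - x| ≤ y ∧
    (ε ≤ c * L → ENNReal.ofReal (c * L ^ dd κ) ≤ cm κ s0 ε t u W (ball w L))}

theorem stepFz_loc (hA : ContAStmt) {κ s0 ε C c t u y x L : ℝ} {w : ℂ} {V W : Pth} (ht : 0 ≤ t)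
    (hu : t ≤ u) (h : EqOn V W (Icc 0 u)) (hV : V ∈ stepFz κ s0 ε C c t u y x L w) :
    W ∈ stepFz κ s0 ε C c t u y x L w := by
  have e1 := h ⟨ht, hu⟩
  refine ⟨fun v hv => ?_, ?_, ?_⟩
  · rw [← e1, ← h ⟨ht.trans hv.1, hv.2⟩]
    exact hV.1 v hv
  · rw [← e1, ← h ⟨ht.trans hu, le_rfl⟩]
    exact hV.2.1
  · rw [← (hA.loc κ s0 ε t u V W ht h).2.1]
    exact hV.2.2

theorem stepFz_meas (hF : Fnd) (hA : ContAStmt) (κ s0 ε C c t u y x L : ℝ) (w : ℂ) :
    MeasurableSet (stepFz κ s0 ε C c t u y x L w) := by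
  have h1 : MeasurableSet {W : Pth | |W u - W t - x| ≤ y} := measurableSet_le
    (((measurable_ev u).sub (measurable_ev t)).sub_const x).abs measurable_const
  have h2 : Measurable fun W : Pth => (W, w) := measurable_id.prodMk measurable_const
  have h3 := (hA.mball κ s0 ε t u L).comp h2
  have h4 : MeasurableSet {W : Pth | ε ≤ c * L →
      ENNReal.ofReal (c * L ^ dd κ) ≤ cm κ s0 ε t u W (ball w L)} := by
    by_cases h : ε ≤ c * L
    · simp only [h, true_imp_iff]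
      exact measurableSet_le measurable_const h3
    · simp only [h, false_imp_iff]
      exact MeasurableSet.univ
  exact (hF.cat.stay t u (C * y)).inter (h1.inter h4)

theorem step_wt (hF : Fnd) {V W : Pth} {t : ℝ} (ht : 0 ≤ t) (h : EqOn V W (Icc 0 t)) (y : ℝ) :
    wt V t y = wt W t y ∧ Lt V t y = Lt W t y := by
  have h1 := (hF.flow.loc V W t h t ⟨ht, le_rfl⟩).2
  have h2 : wt V t y = wt W t y := (h1 _).2.2.2
  exact ⟨h2, by rw [Lt, Lt, h2, (h1 _).2.1]⟩

theorem step_inter {μ : Measure Pth} {t c : ℝ} {V : Pth} {G S : Set Pth} (hc : 0 < c)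
    (hG : ENNReal.ofReal c ≤ CP μ t V G) (hS : CP μ t V Sᶜ ≤ ENNReal.ofReal (c / 2)) :
    ENNReal.ofReal (c / 2) ≤ CP μ t V (S ∩ G) := by
  have h1 : CP μ t V G ≤ CP μ t V (S ∩ G) + CP μ t V Sᶜ :=
    (measure_mono fun W hW => by
      by_cases h : cat t V W ∈ S
      exacts [Or.inl ⟨h, hW⟩, Or.inr h]).trans (measure_union_le _ _)
  have h2 : ENNReal.ofReal c = ENNReal.ofReal (c / 2) + ENNReal.ofReal (c / 2) := by
    rw [← ENNReal.ofReal_add (by linarith) (by linarith), add_halves]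
  exact (ENNReal.add_le_add_iff_right ENNReal.ofReal_ne_top).1
    (h2 ▸ hG.trans (h1.trans (add_le_add_right hS _)))

theorem step (hF : Fnd) (hA : ContAStmt) (hG : GainStmt) : StepStmt := by
  refine ⟨fun κ s0 ε b C c t y x V W ht hb h hV => ?_, fun κ μ hc s0 T0 hP => ?_⟩
  · have hu : t ≤ t + b * y ^ 2 := le_add_of_nonneg_right (by positivity)
    obtain ⟨e1, e2⟩ := step_wt hF ht (h.mono (Icc_subset_Icc_right hu)) y
    have h1 := stepFz_loc hA ht hu h (L := Lt V t y) (w := wt V t y) hV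
    rw [e1, e2] at h1
    exact h1
  obtain ⟨g, hg, hg1, hG⟩ := hG κ μ hc s0 T0 hP
  have hκ := hc.pos
  have hT := hP.2.1
  haveI := hc.wie.prob
  obtain ⟨C1, hC1, hC1'⟩ : ∃ C1 : ℝ, 1 ≤ C1 ∧ κ * (4 * T0) / C1 ^ 2 ≤ g / 2 :=
    ⟨1 + 8 * κ * T0 / g, le_add_of_nonneg_right (by positivity), by
      have h1 : 0 ≤ 8 * κ * T0 / g := by positivity
      have h2 : 8 * κ * T0 / g * g = 8 * κ * T0 := div_mul_cancel₀ _ hg.ne'
      rw [div_le_iff₀ (by positivity)]
      nlinarith [mul_nonneg (mul_nonneg h1 h1) hg.le]⟩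
  obtain ⟨C2, p, hC2, hp, hS⟩ := hF.max.steer κ μ hκ hc.wie (2 + C1) (by linarith)
  obtain ⟨q, hq, hq1, hq2⟩ : ∃ q : ℝ, 0 < q ∧ q ≤ g / 2 ∧ q ≤ p :=
    ⟨min (g / 2) p, by positivity, min_le_left _ _, min_le_right _ _⟩
  obtain ⟨c, hc0, hc1, hc2⟩ : ∃ c : ℝ, 0 < c ∧ c ≤ q ^ 2 ∧ c ≤ g / 1600 :=
    ⟨min (q ^ 2) (g / 1600), by positivity, min_le_left _ _, min_le_right _ _⟩
  refine ⟨4 * T0 + 1, C1 + C2, c, by linarith, by linarith, hc0, by linarith,
    fun t V y x ε ht hy hx hε => ?_⟩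
  obtain ⟨hd, hZ⟩ := hF.confB.right V t ⟨0, y⟩ ht hy
  have hR : Rf V t (wt V t y) = y := by
    rw [Rf, wt, hZ, Complex.norm_eq_sqrt_sq_add_sq]
    simp [hy.le]
  have hS1 : Sf V t (wt V t y) = 1 := by
    rw [Sf, hR, Yf, wt, hZ]
    exact div_self hy.ne'
  obtain ⟨L, hL⟩ : ∃ L, L = Lt V t y := ⟨_, rfl⟩
  have hL0 : 0 < L := hL ▸ Up_pos ht hd
  obtain ⟨t1, ht1⟩ : ∃ t1, t1 = t + 4 * T0 * y ^ 2 := ⟨_, rfl⟩
  have h01 : t ≤ t1 := ht1 ▸ le_add_of_nonneg_right (by positivity)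
  have h12 : t1 ≤ t1 + y ^ 2 := le_add_of_nonneg_right (by positivity)
  have e2 : t + (4 * T0 + 1) * y ^ 2 = t1 + y ^ 2 := by rw [ht1]; ring
  have key := hF.cat.lower κ μ hc.wie _ (fun j => if j = 0 then t else if j = 1 then t1 else
    t1 + y ^ 2) (fun j => if j = 0 then {V} else if j = 1 then Stay t t1 (C1 * y) ∩
      {W | ε ≤ c * L → ENNReal.ofReal (g * (L / 40) ^ dd κ) ≤
        cm κ s0 ε t t1 W (ball (wt V t y) (L / 40))}
      else stepFz κ s0 ε (C1 + C2) c t (t1 + y ^ 2) y x L (wt V t y)) (ENNReal.ofReal q) 2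
    (stepFz_meas hF hA κ s0 ε (C1 + C2) c t (t1 + y ^ 2) y x L (wt V t y))
    (fun j hj => by interval_cases j; exacts [h01, h12]) (fun V' hV' W =>
      stepFz_loc hA ht (h01.trans h12) (cat_eqOn _ V' W).symm hV') (fun j hj V' hV' => ?_) V rfl
  · refine ((ENNReal.ofReal_le_ofReal hc1).trans_eq (ENNReal.ofReal_pow hq.le 2)).trans
      (key.trans (measure_mono fun W hW => ?_))
    obtain ⟨e3, e4⟩ := step_wt hF ht (cat_eqOn t V W) y
    change cat t V W ∈ stepFz κ s0 ε (C1 + C2) c t _ y x (Lt _ t y) (wt _ t y)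
    rw [e3, e4, e2, ← hL]
    exact hW
  interval_cases j
  · obtain rfl : V' = V := hV'
    refine (ENNReal.ofReal_le_ofReal hq1).trans (step_inter hg ?_ ?_)
    · by_cases h : ε ≤ c * L
      · have h1 := hG t V' (wt V' t y) (L / 40) ε ht (by rw [hS1]; norm_num)
          (by rw [← Lt, ← hL]; linarith) (by rw [hL, Lt]) hε (by nlinarith)
        rw [hR, ← ht1] at h1
        exact h1.trans (measure_mono fun W hW _ => hW)
      · exact (ENNReal.ofReal_le_one.2 hg1).trans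
          (measure_univ.ge.trans (measure_mono fun W _ h' => (h h').elim))
    · have h1 := hF.max.max κ μ hκ hc.wie t (4 * T0 * y ^ 2) (C1 * y) V' (by positivity)
        (by positivity)
      rw [← ht1] at h1
      refine h1.trans (ENNReal.ofReal_le_ofReal (le_trans (le_of_eq ?_) hC1'))
      field_simp
  · obtain ⟨h1, h2⟩ := hV'
    have h3 := h1 t1 ⟨h01, le_rfl⟩
    refine (ENNReal.ofReal_le_ofReal hq2).trans ((hS t1 y (x - (V' t1 - V' t)) V' hy
      ((abs_sub _ _).trans (by linarith))).trans (measure_mono fun W hW => ?_))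
    obtain ⟨h4, h5⟩ := hW
    have e3 : cat t1 V' W t = V' t := cat_of_le V' W h01
    have e4 : cat t1 V' W t1 = V' t1 := cat_of_le V' W le_rfl
    change cat t1 V' W ∈ stepFz κ s0 ε (C1 + C2) c t (t1 + y ^ 2) y x L (wt V t y)
    refine ⟨fun u hu => ?_, ?_, fun h => ?_⟩
    · have h6 := mul_pos hC2 hy
      rcases le_total u t1 with h7 | h7
      · rw [e3, cat_of_le V' W h7]
        linarith [h1 u ⟨hu.1, h7⟩]
      · have h8 := h4 u ⟨h7, hu.2⟩
        rw [e4] at h8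
        rw [e3]
        linarith [abs_sub_le (cat t1 V' W u) (V' t1) (V' t)]
    · rw [e4] at h5
      rw [e3]
      exact le_of_eq_of_le (congrArg _ (by ring)) h5
    · have h6 := h2 h
      rw [(hA.loc κ s0 ε t t1 V' _ ht (cat_eqOn t1 V' W).symm).2.1] at h6
      refine (ENNReal.ofReal_le_ofReal ?_).trans (h6.trans (((hA.mono κ s0 ε t t1 t (t1 + y ^ 2) _
        le_rfl h12).2 _).trans (measure_mono (ball_subset_ball (by linarith)))))
      have h7 : (40 : ℝ) ^ dd κ ≤ 40 ^ (2 : ℝ) :=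
        Real.rpow_le_rpow_of_exponent_le (by norm_num) (dd_lt_two hc.lt).le
      rw [Real.rpow_two] at h7
      rw [Real.div_rpow hL0.le (by norm_num), ← mul_div_assoc, le_div_iff₀ (by positivity)]
      have h8 := Real.rpow_pos_of_pos hL0 (dd κ)
      nlinarith [mul_le_mul_of_nonneg_left h7 (mul_pos hc0 h8).le]

end Vale.Agent.P164
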