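import Vale.Agent.P164.Stm2

/-! The backward sweep of a point above the tip. -/

open Set MeasureTheory ProbabilityTheory Metric
open scoped ENNReal NNReal

namespace Vale.Agent.P164

theorem sweep_move (hF : Fnd) {W : Pth} {s t a c σ : ℝ} {w : ℂ} (hs : 0 ≤ s) (hst : s ≤ t)
    (ha : 0 < a) (hc : 0 < c) (hw : w ∈ dom W t) (hσ : |σ| ≤ 1)
    (h : ∀ u ∈ Icc s t, c * (t - u) / a ≤ Yf W u w) :
    σ * (Xf W t w + W t) ≤ σ * (Xf W s w + W s) + (√(a * Yf W s w) + 2 * √((t - s) / c)) := by
  have hd : ∀ u ∈ Icc s t, w ∈ dom W u := fun u hu =>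
    hF.flow.dom_anti W u t (hs.trans hu.1) hu.2 hw
  have key : AntitoneOn (fun u => σ * (Xf W u w + W u) + (√(a * Yf W u w) + 2 * √((t - u) / c)))
      (Icc s t) := by
    refine antitoneOn_of_hasDerivWithinAt_nonpos (convex_Icc s t)
      (f' := fun u => σ * (2 * Xf W u w / Rf W u w ^ 2) +
        (a * -(2 * Yf W u w / Rf W u w ^ 2) / (2 * √(a * Yf W u w)) +
          2 * (-1 / c / (2 * √((t - u) / c))))) (fun u hu => ?_) (fun u hu => ?_) fun u hu => ?_
    · have h1 : ContinuousAt (fun u => Xf W u w) u :=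
        Complex.continuous_re.continuousAt.comp (hF.flow.cont W u w (hs.trans hu.1) (hd u hu)).1
      have h2 := hF.flow.Y_cont W w
      have h3 := W.continuous
      refine ContinuousAt.continuousWithinAt ?_
      fun_prop
    · rw [interior_Icc] at hu
      have hu' := Ioo_subset_Icc_self hu
      obtain ⟨-, d1, d2, -⟩ := hF.flow.der W u w (hs.trans_lt hu.1) (hd u hu')
      have y0 := (hF.flow.alive W u w (hs.trans hu'.1)).1 (hd u hu')
      have d3 : HasDerivAt (fun u => (t - u) / c) (-1 / c) u :=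
        ((hasDerivAt_id u).const_sub t).div_const c
      exact ((d1.const_mul σ).add (((d2.const_mul a).sqrt (by positivity)).add
        ((d3.sqrt (div_pos (sub_pos.2 hu.2) hc).ne').const_mul 2))).hasDerivWithinAt
    · rw [interior_Icc] at hu
      have hu' := Ioo_subset_Icc_self hu
      have y0 := (hF.flow.alive W u w (hs.trans hu'.1)).1 (hd u hu')
      have r0 : 0 < Rf W u w := y0.trans_le ((le_abs_self _).trans (Yf_le_Rf W u w))
      have x0 := Xf_le_Rf W u w
      have q0 : 0 < (t - u) / c := div_pos (sub_pos.2 hu.2) hc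
      have p2 : √(a * Yf W u w) ^ 2 = a * Yf W u w := Real.sq_sqrt (by positivity)
      have q2 : √((t - u) / c) ^ 2 = (t - u) / c := Real.sq_sqrt q0.le
      have p0 : 0 < √(a * Yf W u w) := by positivity
      have q1 : 0 < √((t - u) / c) := by positivity
      have pq : c * √((t - u) / c) ≤ √(a * Yf W u w) := by
        refine Real.le_sqrt_of_sq_le ?_
        have := h u hu'
        rw [div_le_iff₀ ha] at this
        rw [mul_pow, q2]
        calc c ^ 2 * ((t - u) / c) = c * (t - u) := by field_simp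
          _ ≤ _ := by linarith
      generalize √(a * Yf W u w) = p at *
      generalize √((t - u) / c) = q at *
      have e1 : a * -(2 * Yf W u w / Rf W u w ^ 2) / (2 * p) = -(p / Rf W u w ^ 2) := by
        field_simp
        linarith
      have e2 : 2 * (-1 / c / (2 * q)) = -(1 / (c * q)) := by field_simp
      have e3 : 1 / p ≤ 1 / (c * q) := one_div_le_one_div_of_le (by positivity) pq
      have e4 : σ * Xf W u w ≤ Rf W u w := by
        refine (le_abs_self _).trans ?_
        rw [abs_mul]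
        exact (mul_le_of_le_one_left (abs_nonneg _) hσ).trans x0
      have e5 : σ * (2 * Xf W u w / Rf W u w ^ 2) ≤ p / Rf W u w ^ 2 + 1 / p := by
        rw [div_add_div _ _ (by positivity) p0.ne', ← mul_div_assoc,
          div_le_div_iff₀ (by positivity) (by positivity)]
        have : 2 * (σ * Xf W u w) * p ≤ p * p + Rf W u w ^ 2 := by
          nlinarith [sq_nonneg (p - Rf W u w), mul_le_mul_of_nonneg_right e4 p0.le]
        nlinarith [mul_le_mul_of_nonneg_right this (sq_nonneg (Rf W u w))]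
      rw [e1, e2]
      linarith
  have := key ⟨le_rfl, hst⟩ ⟨hst, le_rfl⟩ hst
  have p0 := Real.sqrt_nonneg (a * Yf W t w)
  have q0 := Real.sqrt_nonneg ((t - t) / c)
  simp only at this
  linarith

theorem sweep (hF : Fnd) (h1 : Sweep1Stmt) : SweepStmt := by
  intro C P hC hP
  obtain ⟨c, hc, H⟩ := h1 C P hC hP
  refine ⟨min (1 / 20480) (c / 256), c, by positivity, (min_le_left _ _).trans (by norm_num), hc,
    fun W s t a y w hs hst hy hya hta hO hZ => ?_⟩
  have t1 := min_le_left (1 / 20480 : ℝ) (c / 256)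
  have t2 := min_le_right (1 / 20480 : ℝ) (c / 256)
  have t0 : 0 < min (1 / 20480 : ℝ) (c / 256) := by positivity
  generalize min (1 / 20480 : ℝ) (c / 256) = τ at *
  have ha : 0 < a := (mul_pos_iff_of_pos_left t0).1 (hy.trans_le hya)
  have a2 : 0 < a ^ 2 := by positivity
  have hY : Yf W t w = y := by rw [Yf, hZ]
  have hX : Xf W t w = 0 := by rw [Xf, hZ]
  have h2 : y ^ 2 ≤ τ * a ^ 2 := by
    calc y ^ 2 ≤ (τ * a) ^ 2 := by gcongr
      _ = τ * (τ * a ^ 2) := by ring
      _ ≤ 1 * (τ * a ^ 2) := by gcongr; linarith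
      _ = _ := one_mul _
  have h3 : y ^ 2 + 4 * (t - s) ≤ (a / 64) ^ 2 := by nlinarith
  have h4 := H W s t a y w hs hst ha hy (by nlinarith) hO hZ
  have h5 : Yf W s w ≤ a / 64 := by
    have := hF.flow.Y_sq W w s t hs hst
    rw [hY] at this
    exact le_of_sq_le_sq (this.trans h3) (by positivity)
  have hw : w ∈ dom W t := (hF.flow.alive W t w (hs.trans hst)).2 (hY ▸ hy)
  have h6 : √(a * Yf W s w) ≤ a / 8 := Real.sqrt_le_iff.2 ⟨by positivity, by nlinarith⟩
  have h7 : √((t - s) / c) ≤ a / 16 := Real.sqrt_le_iff.2 ⟨by positivity, by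
    rw [div_le_iff₀ hc]
    nlinarith⟩
  have h8 := sweep_move hF hs hst ha hc hw (σ := 1) (by simp) h4
  have h9 := sweep_move hF hs hst ha hc hw (σ := -1) (by simp) h4
  rw [hX] at h8 h9
  exact ⟨h4 s ⟨le_rfl, hst⟩, by linarith, abs_le.2 ⟨by linarith, by linarith⟩⟩

end Vale.Agent.P164
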