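import Vale.Agent.P164.Stm2

/-! P164: the height of a swept point grows linearly backwards in time. -/

open Set MeasureTheory ProbabilityTheory Metric
open scoped ENNReal NNReal

namespace Vale.Agent.P164

theorem sweep1_bar {h d : ℝ → ℝ} {u t B : ℝ} (hut : u ≤ t) (hc : ContinuousOn h (Icc u t))
    (hd : ∀ x ∈ Ico u t, HasDerivAt h (d x) x) (hp : ∀ x ∈ Ico u t, B < h x → 0 < d x)
    (ht : h t ≤ B) : h u ≤ B := by
  by_contra hu
  have := image_le_of_deriv_right_lt_deriv_boundary (f := fun x => -h x) (f' := fun x => -d x)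
    (a := u) (b := t) hc.neg (fun x hx => (hd x hx).neg.hasDerivWithinAt)
    (B := fun _ => -h u) (B' := fun _ => 0) le_rfl (fun x => hasDerivAt_const x _)
    (fun x hx e => by
      have := hp x hx (by linarith [not_le.1 hu, neg_injective e])
      linarith) (right_mem_Icc.2 hut)
  exact hu (by linarith)

section
variable (hA : FlowAStmt) {C P : ℝ} {W : Pth} {s t a y : ℝ} {w : ℂ}
include hA

theorem sweep1_contX {u : ℝ} (hu : 0 ≤ u) (hw : w ∈ dom W t) :
    ContinuousOn (fun x => Xf W x w) (Icc u t) := fun x hx =>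
  (Complex.continuous_re.continuousAt.comp (f := fun x => Zf W x w)
    (hA.cont W x w (hu.trans hx.1)
      (hA.dom_anti W x t (hu.trans hx.1) hx.2 hw)).1).continuousWithinAt

theorem sweep1_R {u : ℝ} (hu : 0 ≤ u) (hw : w ∈ dom W u) : 0 < Rf W u w ^ 2 := by
  have := (hA.alive W u w hu).1 hw
  rw [Rf_sq]
  positivity

theorem sweep1_h (hw : w ∈ dom W t) (hX : Xf W t w = 0) {B : ℝ}
    (hS : W ∈ Stay s t B) {u : ℝ} (hu : 0 < u) (hsu : s ≤ u) (hut : u ≤ t) :
    |Xf W u w + W u - W s| ≤ B := by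
  have hc : ContinuousOn (fun x => Xf W x w + W x - W s) (Icc u t) :=
    ((sweep1_contX hA hu.le hw).add W.continuous.continuousOn).sub continuousOn_const
  have hdom : ∀ x ∈ Ico u t, w ∈ dom W x := fun x hx =>
    hA.dom_anti W x t (hu.le.trans hx.1) hx.2.le hw
  have hd : ∀ x ∈ Ico u t, HasDerivAt (fun x => Xf W x w + W x - W s)
      (2 * Xf W x w / Rf W x w ^ 2) x := fun x hx =>
    (hA.der W x w (hu.trans_le hx.1) (hdom x hx)).2.1.sub_const _
  have ht := abs_le.1 (hS t ⟨hsu.trans hut, le_rfl⟩)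
  refine abs_le.2 ⟨?_, ?_⟩
  · have := sweep1_bar (h := fun x => -(Xf W x w + W x - W s)) (B := B) hut hc.neg
      (fun x hx => (hd x hx).neg) (fun x hx h => ?_) (by rw [hX]; linarith [ht.1])
    · linarith
    · have h1 := abs_le.1 (hS x ⟨hsu.trans hx.1, hx.2.le⟩)
      have h2 := sweep1_R hA (hu.le.trans hx.1) (hdom x hx)
      exact neg_pos.2 (div_neg_of_neg_of_pos (by linarith [h1.1]) h2)
  · refine sweep1_bar (h := fun x => Xf W x w + W x - W s) hut hc hd (fun x hx h => ?_)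
      (by rw [hX]; linarith [ht.2])
    have h1 := abs_le.1 (hS x ⟨hsu.trans hx.1, hx.2.le⟩)
    exact div_pos (by linarith [h1.2]) (sweep1_R hA (hu.le.trans hx.1) (hdom x hx))

theorem sweep1_win (hw : w ∈ dom W t) (hX : Xf W t w = 0) (hCy : 0 ≤ C * y)
    (hO : Osc C P a y s t W) {u : ℝ} (hu : 0 < u) (hsu : s ≤ u) (hut : u + P * a * y ≤ t) :
    ∃ v ∈ Icc u (u + P * a * y), |Xf W v w| ≤ 2 * (C * y) := by
  obtain ⟨⟨v1, h1, e1⟩, v2, h2, e2⟩ := hO.o3 u hsu hut
  have b1 := abs_le.1 (sweep1_h hA hw hX hO.o1 (hu.trans_le h1.1) (hsu.trans h1.1)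
    (h1.2.trans hut))
  have b2 := abs_le.1 (sweep1_h hA hw hX hO.o1 (hu.trans_le h2.1) (hsu.trans h2.1)
    (h2.2.trans hut))
  rcases le_total 0 (Xf W v1 w) with c1 | c1
  · exact ⟨v1, h1, abs_le.2 ⟨by linarith, by linarith [b1.2]⟩⟩
  rcases le_total (Xf W v2 w) 0 with c2 | c2
  · exact ⟨v2, h2, abs_le.2 ⟨by linarith [b2.1], by linarith⟩⟩
  obtain ⟨v, hv, e⟩ := isPreconnected_Icc.intermediate_value h1 h2
    ((sweep1_contX hA hu.le hw).mono (Icc_subset_Icc_right hut)) ⟨c1, c2⟩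
  exact ⟨v, hv, by rw [show Xf W v w = 0 from e, abs_zero]; linarith⟩

theorem sweep1_drop (hC : 1 ≤ C) (hs : 0 ≤ s) (hy : 0 < y) (hO : Osc C P a y s t W) {v : ℝ}
    (hw : w ∈ dom W v) (hvt : v ≤ t) (hyv : y ≤ Yf W v w) (hsv : s ≤ v - Yf W v w * y)
    (hX : |Xf W v w| ≤ 2 * (C * y)) :
    Yf W v w + 2 / ((4 * C + 2) ^ 2 + 5) * y ≤ Yf W (v - Yf W v w * y) w := by
  obtain ⟨Y0, hY0⟩ : ∃ Y0, Y0 = Yf W v w := ⟨_, rfl⟩
  rw [← hY0] at hyv hsv ⊢
  have hY : 0 < Y0 := hy.trans_le hyv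
  have hp : 0 < Y0 * y := mul_pos hY hy
  have hK : 0 < (4 * C + 2) ^ 2 + 5 := by positivity
  have key : ∀ x ∈ interior (Icc (v - Y0 * y) v), HasDerivAt (fun u => Yf W u w)
      (-(2 * Yf W x w / Rf W x w ^ 2)) x ∧
      -(2 * Yf W x w / Rf W x w ^ 2) ≤ -(2 / (((4 * C + 2) ^ 2 + 5) * Y0)) := by
    intro x hx
    rw [interior_Icc] at hx
    have hx0 : 0 < x := by linarith [hx.1]
    have hdx := hA.dom_anti W x v hx0.le hx.2.le hw
    refine ⟨(hA.der W x w hx0 hdx).2.2.1, neg_le_neg ?_⟩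
    have a1 : Y0 ≤ Yf W x w := hY0 ▸ hA.Y_anti W w hx.2.le
    have a2 : Yf W x w ^ 2 ≤ 5 * Y0 ^ 2 := by
      have := hA.Y_sq W w x v hx0.le hx.2.le
      rw [← hY0] at this
      nlinarith [hx.1]
    have a3 : |Xf W v w + W v - (Xf W x w + W x)| ≤ 2 * y := by
      have h1 := hA.move W w x v hx0.le hx.2.le hw
      have h2 := (Complex.abs_re_le_norm _).trans h1
      simp only [Complex.sub_re, Complex.add_re, Complex.ofReal_re] at h2
      refine h2.trans ?_
      rw [← hY0, div_le_iff₀ hY]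
      linarith [hx.1]
    have a4 : |W x - W v| ≤ C * (y + Y0) := by
      refine (hO.o2 x ⟨by linarith [hx.1], hx.2.le.trans hvt⟩ v ⟨by linarith, hvt⟩).trans ?_
      refine mul_le_mul_of_nonneg_left (add_le_add le_rfl ?_) (by linarith)
      rw [div_le_iff₀ hy, abs_le]
      constructor <;> linarith [hx.1, hx.2]
    have a5 : |Xf W x w| ≤ (4 * C + 2) * Y0 := by
      have h1 := mul_le_mul_of_nonneg_left hyv (show 0 ≤ C by linarith)
      rw [abs_le] at a3 a4 hX ⊢
      constructor <;> linarith [a3.1, a3.2, a4.1, a4.2, hX.1, hX.2]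
    have a6 : Rf W x w ^ 2 ≤ ((4 * C + 2) ^ 2 + 5) * Y0 ^ 2 := by
      have h1 := sq_le_sq' (abs_le.1 a5).1 (abs_le.1 a5).2
      rw [Rf_sq]
      linarith
    rw [div_le_div_iff₀ (by positivity) (sweep1_R hA hx0.le hdx)]
    have := mul_le_mul_of_nonneg_right a1 (mul_pos hK hY).le
    linarith
  have := (convex_Icc (v - Y0 * y) v).image_sub_le_mul_sub_of_deriv_le
    (f := fun u => Yf W u w) (hA.Y_cont W w).continuousOn
    (fun x hx => (key x hx).1.differentiableAt.differentiableWithinAt)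
    (fun x hx => (key x hx).1.deriv ▸ (key x hx).2) (v - Y0 * y) ⟨le_rfl, by linarith⟩ v
    ⟨by linarith, le_rfl⟩ (by linarith)
  have e : -(2 / (((4 * C + 2) ^ 2 + 5) * Y0)) * (v - (v - Y0 * y)) =
      -(2 / ((4 * C + 2) ^ 2 + 5) * y) := by field_simp; ring
  rw [e, ← hY0] at this
  linarith

end

theorem sweep1 (hF : Fnd) : Sweep1Stmt := by
  have hA := hF.flow
  intro C P hC hP
  have hK : 0 < (4 * C + 2) ^ 2 + 5 := by positivity
  obtain ⟨c0, hc0⟩ : ∃ c0, c0 = 2 / ((4 * C + 2) ^ 2 + 5) := ⟨_, rfl⟩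
  have hc : 0 < c0 := by rw [hc0]; positivity
  have hc1 : c0 ≤ 1 := by rw [hc0, div_le_one hK]; nlinarith [sq_nonneg (4 * C + 2)]
  have hP0 : 0 < P := by linarith
  refine ⟨c0 / (2 * P), by positivity, fun W s t a y w hs hst ha hy hya hO hZ => ?_⟩
  have hX : Xf W t w = 0 := by unfold Xf; rw [hZ]
  have hY : Yf W t w = y := by unfold Yf; rw [hZ]
  have hw : w ∈ dom W t := (hA.alive W t w (hs.trans hst)).2 (hY ▸ hy)
  have hL : 0 < P * a * y := by positivity
  have hlo : ∀ u, u ≤ t → y ≤ Yf W u w := fun u hu => hY ▸ hA.Y_anti W w hu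
  have hhi : ∀ u, s ≤ u → u ≤ t → Yf W u w ≤ a := fun u h1 h2 => by
    have := hA.Y_sq W w u t (hs.trans h1) h2
    rw [hY] at this
    exact le_of_sq_le_sq (by linarith) ha.le
  have step : ∀ u, s ≤ u → u + 2 * (P * a * y) ≤ t →
      Yf W (u + 2 * (P * a * y)) w + c0 * y ≤ Yf W u w := by
    intro u h1 h2
    obtain ⟨v, hv, hXv⟩ := sweep1_win hA hw hX (by positivity) hO (u := u + P * a * y)
      (by linarith) (by linarith) (by linarith)
    have hvt : v ≤ t := by linarith [hv.2]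
    have hsv : s ≤ v := by linarith [hv.1]
    have b1 : Yf W v w * y ≤ P * a * y :=
      mul_le_mul_of_nonneg_right ((hhi v hsv hvt).trans (le_mul_of_one_le_left ha.le hP)) hy.le
    have b2 := sweep1_drop hA hC hs hy hO (hA.dom_anti W v t (hs.trans hsv) hvt hw) hvt
      (hlo v hvt) (by linarith [hv.1]) hXv
    have b3 : Yf W (v - Yf W v w * y) w ≤ Yf W u w := hA.Y_anti W w (by linarith [hv.1])
    have b4 : Yf W (u + 2 * (P * a * y)) w ≤ Yf W v w := hA.Y_anti W w (by linarith [hv.2])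
    rw [← hc0] at b2
    linarith
  have ind : ∀ k : ℕ, ∀ u, s ≤ u → u + k * (2 * (P * a * y)) ≤ t →
      y + k * (c0 * y) ≤ Yf W u w := by
    intro k
    induction k with
    | zero => intro u _ h; simpa using hlo u (by simpa using h)
    | succ k ih =>
      intro u h1 h2
      have h3 : 0 ≤ (k : ℝ) * (2 * (P * a * y)) := by positivity
      push_cast at h2 ⊢
      have := ih (u + 2 * (P * a * y)) (by linarith) (by linarith)
      have := step u h1 (by linarith)
      linarith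
  intro u hu
  have h0 : 0 ≤ (t - u) / (2 * (P * a * y)) := div_nonneg (by linarith [hu.2]) (by positivity)
  have h1 := Nat.floor_le h0
  have h2 := (Nat.lt_floor_add_one ((t - u) / (2 * (P * a * y)))).le
  rw [le_div_iff₀ (by positivity)] at h1
  have h3 := ind _ u hu.1 (by linarith)
  have h4 := mul_le_mul_of_nonneg_right h2 (mul_pos hc hy).le
  have h5 := mul_le_of_le_one_left hy.le hc1
  have e : c0 / (2 * P) * (t - u) / a = (t - u) / (2 * (P * a * y)) * (c0 * y) := by field_simp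
  rw [e]
  linarith

end Vale.Agent.P164
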