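import Vale.Agent.P164.Stm2

/-! The exponential tail of the content of a ball. -/

open Set MeasureTheory ProbabilityTheory Metric
open scoped ENNReal NNReal

namespace Vale.Agent.P164

theorem tail_cmd (hF : Fnd) (hA : ContAStmt) {κ s0 ε δ ℓ m a b : ℝ} (z0 : ℂ) (W : Pth)
    (hκ : 0 < κ) (hε : 0 < ε) (hδ : 0 < δ) (hl : 0 < ℓ) (ha : 0 ≤ a) (hab : a ≤ b) :
    cmd κ s0 ε δ a b W (ball z0 (m * ℓ)) =
      ENNReal.ofReal (ℓ ^ dd κ * (GN κ s0 ε δ ℓ z0 m W b - GN κ s0 ε δ ℓ z0 m W a)) := by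
  have hT := (hF.int.tame κ ℂ _ _ _ (hA.sm κ s0 ε δ hκ hδ)).1
  haveI : IsFiniteMeasure (volume.restrict (ball z0 (m * ℓ))) :=
    isFiniteMeasure_restrict.2 measure_ball_lt_top.ne
  have hR : ∀ᵐ w ∂volume.restrict (ball z0 (m * ℓ)), ‖w‖ ≤ ‖z0‖ + m * ℓ :=
    (ae_restrict_mem measurableSet_ball).mono fun w hw => by
      have h1 := mem_ball_iff_norm.1 hw
      have h2 := norm_add_le z0 (w - z0)
      rw [add_sub_cancel] at h2
      linarith
  have i1 := hF.int.intg _ hT _ _ hR W a ha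
  have i2 := hF.int.intg _ hT _ _ hR W b (ha.trans hab)
  have hp : (0 : ℝ) < ℓ ^ dd κ := by positivity
  rw [cmd, withDensity_apply _ measurableSet_ball, GN, GN, ← sub_div, mul_div_cancel₀ _ hp.ne',
    ← integral_sub i2 i1, ofReal_integral_eq_lintegral_ofReal
      (f := fun w => gain κ s0 ε δ w W b - gain κ s0 ε δ w W a) (i2.sub i1)
      (Filter.Eventually.of_forall fun w =>
        sub_nonneg.2 (hA.real κ s0 ε δ a b W w hκ hε hδ ha hab).2.1)]
  exact lintegral_congr fun w => (hA.real κ s0 ε δ a b W w hκ hε hδ ha hab).2.2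

theorem tail (hF : Fnd) (hA : ContAStmt) (hD : TailDrStmt) : TailStmt := by
  intro κ μ hc
  obtain ⟨θ, C, hθ, hC, h⟩ := hD κ hc.pos hc.lt
  refine ⟨θ, C, hθ, hC, fun s0 hs0 => ?_⟩
  obtain ⟨c0, h0, h1, h⟩ := h s0 hs0
  refine ⟨c0, h0, h1, fun ℓ ε z0 m a b V lam hl hε hεl hm ha hab hlam hV => ?_⟩
  have key : ∀ δ, 0 < δ → μ {W | ENNReal.ofReal (lam * ℓ ^ dd κ) <
      cmd κ s0 ε δ a b (cat a V W) (ball z0 (m * ℓ))} ≤
        ENNReal.ofReal (Real.exp (C * m ^ 2 - θ * lam)) := by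
    intro δ hδ
    obtain ⟨v, d, g, hS, hv⟩ := h ℓ δ ε z0 m hl hδ hε hεl hm
    have hE := hF.alg.comp κ Unit v d g Real.exp Real.exp Real.exp Real.hasDerivAt_exp
      Real.hasDerivAt_exp Real.continuous_exp hS
    have hI := hF.ito κ μ hc.pos hc.wie Unit _ _ _ hE () a b V ha hab fun W u hu => by
      refine ⟨(Real.exp_pos _).le, ?_⟩
      have h2 := mul_nonpos_of_nonneg_of_nonpos (Real.exp_pos (v () (cat a V W) u)).le
        (hv (cat a V W) u (ha.trans hu.1)).1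
      linarith
    have hm' : Measurable fun W => ENNReal.ofReal (Real.exp (v () (cat a V W) b)) :=
      (((hF.int.tame κ Unit _ _ _ hE).1.meas' b (ha.trans hab)).comp
        (measurable_const.prodMk (measurable_cat_right a V))).ennreal_ofReal
    have hM := mul_meas_ge_le_lintegral₀ (μ := μ) hm'.aemeasurable
      (ENNReal.ofReal (Real.exp (θ * (lam + GN κ s0 ε δ ℓ z0 m V a))))
    have hsub : {W | ENNReal.ofReal (lam * ℓ ^ dd κ) <
        cmd κ s0 ε δ a b (cat a V W) (ball z0 (m * ℓ))} ⊆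
        {W | ENNReal.ofReal (Real.exp (θ * (lam + GN κ s0 ε δ ℓ z0 m V a))) ≤
          ENNReal.ofReal (Real.exp (v () (cat a V W) b))} := by
      intro W hW
      have hp : (0 : ℝ) < ℓ ^ dd κ := by positivity
      have h2 : GN κ s0 ε δ ℓ z0 m (cat a V W) a = GN κ s0 ε δ ℓ z0 m V a := by
        simp only [GN, fun w => hF.int.loc κ ℂ _ _ _ (hA.sm κ s0 ε δ hc.pos hδ) w _ _ a ha
          (cat_eqOn a V W)]
      rw [mem_ofPred_eq, tail_cmd hF hA z0 _ hc.pos hε hδ hl ha hab, h2,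
        ENNReal.ofReal_lt_ofReal_iff_of_nonneg (by positivity), mul_comm,
        mul_lt_mul_iff_right₀ hp] at hW
      refine ENNReal.ofReal_le_ofReal (Real.exp_le_exp.2
        (le_trans ?_ (hv (cat a V W) b (ha.trans hab)).2.1))
      exact mul_le_mul_of_nonneg_left (by linarith) hθ.le
    have h3 : ENNReal.ofReal (Real.exp (v () V a)) ≤
        ENNReal.ofReal (Real.exp (θ * (lam + GN κ s0 ε δ ℓ z0 m V a))) *
          ENNReal.ofReal (Real.exp (C * m ^ 2 - θ * lam)) := by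
      rw [← ENNReal.ofReal_mul (Real.exp_pos _).le, ← Real.exp_add]
      refine ENNReal.ofReal_le_ofReal (Real.exp_le_exp.2 ?_)
      linarith [(hv V a ha).2.2 hV]
    refine (measure_mono hsub).trans ?_
    exact (ENNReal.mul_le_mul_iff_right (ENNReal.ofReal_pos.2 (Real.exp_pos _)).ne'
      ENNReal.ofReal_ne_top).1 (hM.trans (hI.trans h3))
  have hU : {W | cat a V W ∈ {W | ENNReal.ofReal (lam * ℓ ^ dd κ) <
      cm κ s0 ε a b W (ball z0 (m * ℓ))}} = ⋃ n : ℕ, {W | ENNReal.ofReal (lam * ℓ ^ dd κ) <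
        cmd κ s0 ε (1 / (n + 1)) a b (cat a V W) (ball z0 (m * ℓ))} := by
    ext W
    simp only [mem_ofPred_eq, mem_iUnion]
    rw [((hA.sup κ s0 ε a b (cat a V W) hε).2 _ measurableSet_ball).2, lt_iSup_iff]
  have hmono : Monotone fun n : ℕ => {W | ENNReal.ofReal (lam * ℓ ^ dd κ) <
      cmd κ s0 ε (1 / (n + 1)) a b (cat a V W) (ball z0 (m * ℓ))} := fun n n' hn W hW =>
    lt_of_lt_of_le hW (((hA.sup κ s0 ε a b (cat a V W) hε).2 _ measurableSet_ball).1 hn)
  rw [CP, hU, hmono.measure_iUnion]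
  exact iSup_le fun n => key _ (by positivity)

end Vale.Agent.P164
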