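import Vale.Agent.P164.Stm2

open Set MeasureTheory ProbabilityTheory Metric
open scoped ENNReal NNReal

namespace Vale.Agent.P164

theorem tailDr_core {α : Type} [MeasurableSpace α] {μ : Measure α} {f e : α → ℝ}
    {X : α → ℝ≥0∞} {B E : ℝ} (hf : Integrable f μ) (he : ∀ a, 0 ≤ e a)
    (h : ∀ a, ENNReal.ofReal (f a + e a) ≤ X a) (hB : 0 ≤ B) (hE : 0 ≤ E)
    (h1 : ∫⁻ a, X a ∂μ ≤ ENNReal.ofReal B)
    (h2 : ∫⁻ a, ENNReal.ofReal (e a) ∂μ = ENNReal.ofReal E) : ∫ a, f a ∂μ + E ≤ B := by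
  have h3 : ∫⁻ a, ENNReal.ofReal (f a) ∂μ + ENNReal.ofReal E ≤
      ∫⁻ a, ENNReal.ofReal (-f a) ∂μ + ENNReal.ofReal B := by
    rw [← h2]
    refine (le_lintegral_add _ _).trans (le_trans (lintegral_mono fun a => ?_)
      ((lintegral_add_left' hf.1.aemeasurable.neg.ennreal_ofReal X).trans_le
        (add_le_add_right h1 _)))
    refine le_trans ?_ (add_le_add_right (h a) _)
    rcases le_total 0 (f a) with h0 | h0
    · rw [← ENNReal.ofReal_add h0 (he a)]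
      exact le_add_self
    · rw [ENNReal.ofReal_of_nonpos h0, zero_add]
      exact (ENNReal.ofReal_le_ofReal (by simp)).trans ENNReal.ofReal_add_le
  have h4 := ENNReal.toReal_mono (ENNReal.add_ne_top.2
    ⟨hf.neg.lintegral_lt_top.ne, ENNReal.ofReal_ne_top⟩) h3
  rw [ENNReal.toReal_add hf.lintegral_lt_top.ne ENNReal.ofReal_ne_top,
    ENNReal.toReal_add hf.neg.lintegral_lt_top.ne ENNReal.ofReal_ne_top,
    ENNReal.toReal_ofReal hB, ENNReal.toReal_ofReal hE] at h4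
  rw [integral_eq_lintegral_pos_part_sub_lintegral_neg_part hf]
  exact sub_add_eq_add_sub (α := ℝ) _ _ _ ▸ sub_le_iff_le_add'.2 h4

theorem tailDr_sq {x s K : ℝ} (hK : 0 < K) (hs : 0 ≤ s)
    (h : ∀ R, 0 < R → |x| ≤ K * (R * s + 1 / R)) : x ^ 2 ≤ 4 * K ^ 2 * s := by
  rcases (abs_nonneg x).eq_or_lt with h0 | h0
  · rw [← sq_abs, ← h0, zero_pow two_ne_zero]
    positivity
  have h1 := mul_le_mul_of_nonneg_right (h (2 * K / |x|) (by positivity)) h0.le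
  rw [show K * (2 * K / |x| * s + 1 / (2 * K / |x|)) * |x| = 2 * K ^ 2 * s + |x| ^ 2 / 2 by
    field_simp, ← sq, sq_abs] at h1
  linarith

theorem tailDr_ar {ℓ r : ℝ} (hr : 0 ≤ r) (z : ℂ) :
    ar ℓ (ball z r) ≤ ENNReal.ofReal (4 * (r / ℓ) ^ 2) := by
  rw [ar, Measure.smul_apply, Complex.volume_ball, smul_eq_mul, ← ENNReal.ofReal_pow hr,
    ← ENNReal.ofReal_coe_nnreal, ← ENNReal.ofReal_mul (by positivity),
    ← ENNReal.ofReal_mul (by positivity), NNReal.coe_real_pi]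
  refine ENNReal.ofReal_le_ofReal ?_
  rw [← mul_assoc, mul_comm, div_pow, one_div, mul_comm _ (r ^ 2), ← div_eq_mul_inv]
  exact mul_le_mul_of_nonneg_right Real.pi_le_four (by positivity)

theorem tailDr_fin {ℓ r : ℝ} (hr : 0 ≤ r) (z : ℂ) :
    IsFiniteMeasure ((ar ℓ).restrict (ball z r)) :=
  isFiniteMeasure_restrict.2 ((tailDr_ar hr z).trans_lt ENNReal.ofReal_lt_top).ne

theorem tailDr_ae (ℓ r : ℝ) (z : ℂ) : ∀ᵐ w ∂(ar ℓ).restrict (ball z r), ‖w‖ ≤ ‖z‖ + r :=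
  ae_restrict_of_forall_mem measurableSet_ball fun _ hw =>
    (norm_lt_of_mem_ball hw).le

theorem tailDr_ee (hF : Fnd) {κ ℓ δ m t : ℝ} {z0 w : ℂ} {W : Pth} (hκ : 0 < κ) (h8 : κ < 8)
    (hδ : 0 < δ) (hN : 0 ≤ NN ℓ δ z0 m w W t) :
    0 ≤ ee κ ℓ δ z0 m w W t ∧ ee κ ℓ δ z0 m w W t ≤ 1 / δ ^ 2 := by
  have u0 : 0 ≤ uu ℓ δ z0 m w W t := le_max_right _ _
  have u1 : uu ℓ δ z0 m w W t ≤ 1 := max_le (by linarith) zero_le_one
  have a0 : 0 ≤ aa ℓ δ w W t := mul_nonneg (cut_nonneg _) (sub_nonneg.2 (cut_le_one _))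
  have a1 : aa ℓ δ w W t ≤ 1 := mul_le_one₀ (cut_le_one _) (sub_nonneg.2 (cut_le_one _))
    (sub_le_self _ (cut_nonneg _))
  have s0 : 0 ≤ Sf W t w := div_nonneg (hF.flow.Y_nonneg _ _ _) (Rf_nonneg _ _ _)
  refine ⟨by unfold ee; positivity, ?_⟩
  rcases le_or_gt (Yf W t w) δ with h | h
  · simp [ee, aa, cy, cut_zero ((div_le_one hδ).2 h), sq_nonneg]
  exact div_le_div₀ zero_le_one (mul_le_one₀ (mul_le_one₀ (pow_le_one₀ u0 u1) a0 a1)
    (by positivity) (Real.rpow_le_one s0 (Sf_le_one _ _ _) (pp_pos hκ h8).le)) (by positivity)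
    (pow_le_pow_left₀ hδ.le (h.le.trans ((le_abs_self _).trans (Yf_le_Rf _ _ _))) 2)

theorem tailDr_GN (κ s0 ε δ : ℝ) {ℓ : ℝ} (hℓ : 0 < ℓ) (z0 : ℂ) (m : ℝ) (W : Pth) (t : ℝ) :
    ∫ w in ball z0 (m * ℓ), ℓ ^ (2 - dd κ) * gain κ s0 ε δ w W t ∂ar ℓ =
      GN κ s0 ε δ ℓ z0 m W t := by
  rw [integral_const_mul, ar, Measure.restrict_smul, integral_smul_measure,
    ENNReal.toReal_ofReal (by positivity), GN, Real.rpow_sub hℓ, Real.rpow_two, smul_eq_mul]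
  field_simp

theorem tailDr (hF : Fnd) (hA : ContAStmt) (hN : NStmt) (hV : VStmt) (hP : TailPtStmt)
    (hC : CostStmt) (hG : GradStmt) : TailDrStmt := by
  intro κ hκ h8
  obtain ⟨C1, c, hC1, hc, hP⟩ := hP κ hκ h8
  obtain ⟨C2, hC2, hC⟩ := hC κ hκ h8 (c / (2 * C1)) (by positivity)
  obtain ⟨C3, hC3, hG⟩ := hG κ hκ h8
  obtain ⟨_, -, hN⟩ := hN κ hκ
  obtain ⟨θ, hθ, eθ⟩ : ∃ θ : ℝ, 0 < θ ∧ θ * (4 * κ * (C1 * C3) ^ 2) = c :=
    ⟨c / (4 * κ * (C1 * C3) ^ 2), by positivity, by field_simp⟩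
  obtain ⟨β, hβ, eβ⟩ : ∃ β : ℝ, 0 < β ∧ β = 5 * (θ * (C1 * (1 + C2)) + θ * c / 2) :=
    ⟨_, by positivity, rfl⟩
  refine ⟨θ, β * 36, hθ, by positivity, fun s0 hs0 => ?_⟩
  obtain ⟨c0, h1, h2, hP⟩ := hP s0 hs0
  refine ⟨c0, h1, h2, fun ℓ δ ε z0 m hℓ hδ hε hε' hm => ?_⟩
  obtain ⟨v, d, g, hS, hP⟩ := hP ℓ δ ε z0 m hℓ hδ hε hε'
  obtain ⟨φ, dφ, hφ, hV⟩ := hV.phi κ hκ ℓ δ hℓ hδ
  obtain ⟨_, _, -, hN⟩ := hN ℓ δ z0 m hℓ hδ
  have r1 : 0 ≤ m * ℓ := by positivity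
  have r2 : 0 ≤ (2 * m + 1) * ℓ := by positivity
  have f1 := tailDr_fin (ℓ := ℓ) r1 z0
  have f2 := tailDr_fin (ℓ := ℓ) r2 z0
  have S1 := hF.alg.smul κ _ _ _ _ (ℓ ^ (2 - dd κ)) (hA.sm κ s0 ε δ hκ hδ)
  have S2 := hF.alg.add κ _ _ _ _ _ _ _ hS S1
  refine ⟨_, _, _, hF.alg.add κ _ _ _ _ _ _ _
    (hF.alg.smul κ _ _ _ _ θ (hF.int.int0 κ _ _ _ _ _ (tailDr_ae ℓ (m * ℓ) z0) S2))
    (hF.alg.smul κ _ _ _ _ β (hF.int.int0 κ _ _ _ _ _ (tailDr_ae ℓ ((2 * m + 1) * ℓ) z0) hφ)),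
    fun W t ht => ?_⟩
  have i1 := fun v hv => hF.int.intg v hv _ _ (tailDr_ae ℓ (m * ℓ) z0) W t ht
  have i2 := fun v hv => hF.int.intg v hv _ _ (tailDr_ae ℓ ((2 * m + 1) * ℓ) z0) W t ht
  simp only [mul_zero, add_zero, integral_zero]
  rw [integral_add (i1 _ (hF.int.tame κ _ _ _ _ hS).1) (i1 _ (hF.int.tame κ _ _ _ _ S1).1),
    tailDr_GN κ s0 ε δ hℓ]
  refine ⟨?_, ?_, fun h => ?_⟩
  · have e0 := fun w => tailDr_ee hF hκ h8 hδ (hN w W t ht).1
    obtain ⟨D, D0, eD⟩ : ∃ D, 0 ≤ D ∧ DD κ ℓ δ z0 m W t = ENNReal.ofReal D :=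
      ⟨_, ENNReal.toReal_nonneg, (ENNReal.ofReal_toReal (ne_top_of_le_ne_top
        (ENNReal.mul_ne_top ENNReal.ofReal_ne_top (measure_ne_top _ _)) ((lintegral_mono fun w =>
          ENNReal.ofReal_le_ofReal (e0 w).2).trans_eq (lintegral_const _)))).symm⟩
    have j2 := (i2 _ (hF.int.tame κ _ _ _ _ hφ).2.1).const_mul (-5)
    have p0 : ∀ w, src ℓ δ w W t ≤ -5 * dφ w W t := fun w => by linarith [(hV w W t ht).2.2]
    have p1 : ∀ w, 0 ≤ -5 * dφ w W t := fun w => le_trans (by unfold src; positivity) (p0 w)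
    have p2 := ofReal_integral_eq_lintegral_ofReal j2 (ae_of_all _ p1)
    have p3 : 0 ≤ ∫ w in ball z0 ((2 * m + 1) * ℓ), -5 * dφ w W t ∂ar ℓ := integral_nonneg p1
    rw [integral_const_mul] at p2 p3
    have p4 : DS ℓ δ z0 m W t ≤ _ :=
      (lintegral_mono fun w => ENNReal.ofReal_le_ofReal (p0 w)).trans p2.ge
    generalize ∫ w in ball z0 ((2 * m + 1) * ℓ), dφ w W t ∂ar ℓ = P at *
    have hsub : ball z0 (m * ℓ) ⊆ ball z0 ((2 * m + 1) * ℓ) := ball_subset_ball (by nlinarith)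
    have q1 := tailDr_core (i1 _ (hF.int.tame κ _ _ _ _ S2).2.1)
      (fun w => mul_nonneg hc.le (e0 w).1) (fun w => (hP w W t ht).2.2.1)
      (B := C1 * (-5 * P + (c / (2 * C1) * D + C2 * (-5 * P)))) (E := c * D) (by positivity)
      (by positivity) (by
        rw [lintegral_const_mul' _ _ ENNReal.ofReal_ne_top, ENNReal.ofReal_mul hC1.le,
          ENNReal.ofReal_add p3 (by positivity), ENNReal.ofReal_add (by positivity) (by positivity),
          ENNReal.ofReal_mul (q := D) (by positivity), ENNReal.ofReal_mul hC2.le, ← eD]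
        refine mul_le_mul_right ((lintegral_mono fun w =>
          add_le_add_left (ENNReal.ofReal_le_ofReal (p0 w)) _).trans ?_) _
        rw [lintegral_add_left' (j2.1.aemeasurable.ennreal_ofReal.mono_measure
          (Measure.restrict_mono hsub le_rfl))]
        exact add_le_add ((lintegral_mono_set hsub).trans p2.ge)
          ((hC ℓ δ z0 m W t hℓ hδ ht).trans (add_le_add_right (mul_le_mul_right p4 _) _))) (by
        simp only [ENNReal.ofReal_mul hc.le]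
        rw [lintegral_const_mul' _ _ ENNReal.ofReal_ne_top, ← eD, DD])
    have q2 := tailDr_sq (x := ∫ w in ball z0 (m * ℓ), g w W t ∂ar ℓ) (mul_pos hC1 hC3)
      (add_nonneg D0 p3) fun R hR => by
        rw [← ENNReal.ofReal_le_ofReal_iff (by positivity), ← Real.enorm_eq_ofReal_abs,
          show C1 * C3 * (R * (D + -5 * P) + 1 / R) = C1 * (C3 * R * (D + -5 * P) + C3 / R) by ring,
          ENNReal.ofReal_mul hC1.le, ENNReal.ofReal_add (by positivity) (by positivity),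
          ENNReal.ofReal_mul (by positivity), ENNReal.ofReal_add D0 p3, ← eD]
        refine (enorm_integral_le_lintegral_enorm _).trans ((lintegral_mono fun w =>
          (Real.enorm_eq_ofReal_abs _).trans_le (hP w W t ht).2.2.2).trans ?_)
        rw [lintegral_const_mul' _ _ ENNReal.ofReal_ne_top]
        exact mul_le_mul_right ((hG ℓ δ z0 m W t R hℓ hδ ht hR).trans
          (add_le_add_left (mul_le_mul_right (add_le_add_right p4 _) _) _)) _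
    rw [show C1 * (-5 * P + (c / (2 * C1) * D + C2 * (-5 * P))) =
      c / 2 * D + C1 * (1 + C2) * (-5 * P) by field_simp; ring] at q1
    have q3 := mul_le_mul_of_nonneg_left q1 hθ.le
    have q4 := mul_le_mul_of_nonneg_left q2 (show 0 ≤ κ / 2 * θ ^ 2 by positivity)
    have q5 : κ / 2 * θ ^ 2 * (4 * (C1 * C3) ^ 2 * (D + -5 * P)) = θ * c / 2 * (D + -5 * P) := by
      rw [← eθ]
      ring
    rw [eβ]
    linarith
  · have q1 : 0 ≤ ∫ w in ball z0 (m * ℓ), v w W t ∂ar ℓ := integral_nonneg fun w => (hP w W t ht).1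
    have q2 : 0 ≤ ∫ w in ball z0 ((2 * m + 1) * ℓ), φ w W t ∂ar ℓ :=
      integral_nonneg fun w => (hV w W t ht).1
    linarith [mul_nonneg hθ.le q1, mul_nonneg hβ.le q2]
  · have q1 := integral_mono (i2 _ (hF.int.tame κ _ _ _ _ hφ).1) (integrable_const 1)
      fun w => (hV w W t ht).2.1
    have q2 := ENNReal.toReal_le_of_le_ofReal (by positivity) (tailDr_ar (ℓ := ℓ) r2 z0)
    rw [mul_div_cancel_right₀ _ hℓ.ne'] at q2
    rw [integral_const, smul_eq_mul, mul_one, measureReal_restrict_apply_univ] at q1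
    rw [setIntegral_eq_zero_of_forall_eq_zero fun w hw => (hP w W t ht).2.1 (h w hw)]
    have q3 := mul_le_mul_of_nonneg_left
      ((q1.trans q2).trans (show _ ≤ 36 * m ^ 2 by nlinarith)) hβ.le
    linarith

end Vale.Agent.P164
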