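import Vale.Agent.P164.Stm2

open Set MeasureTheory ProbabilityTheory Metric
open scoped ENNReal NNReal

namespace Vale.Agent.P164

theorem tailPt_der (k : ℕ) (y : ℝ) :
    HasDerivAt (fun y : ℝ => max y 0 ^ (k + 2)) (((k : ℝ) + 2) * max y 0 ^ (k + 1)) y := by
  have h1 : ∀ y : ℝ, HasDerivAt (fun y : ℝ => y ^ (k + 2)) (((k : ℝ) + 2) * y ^ (k + 1)) y := by
    intro y
    simpa using hasDerivAt_pow (k + 2) y
  rcases lt_trichotomy y 0 with h | h | h
  · rw [max_eq_right h.le, zero_pow (by omega), mul_zero]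
    refine (hasDerivAt_const y (0 : ℝ)).congr_of_eventuallyEq ?_
    filter_upwards [Iio_mem_nhds h] with z hz
    rw [max_eq_right (le_of_lt hz), zero_pow (by omega)]
  · subst h
    rw [← hasDerivWithinAt_univ, ← Iic_union_Ici (a := (0 : ℝ)), max_self]
    refine HasDerivWithinAt.union ?_ ?_
    · rw [zero_pow (by omega), mul_zero]
      refine (hasDerivWithinAt_const (0 : ℝ) _ (0 : ℝ)).congr (fun z hz => ?_) (by simp)
      rw [max_eq_right hz, zero_pow (by omega)]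
    · exact (h1 0).hasDerivWithinAt.congr (fun z hz => by rw [max_eq_left hz]) (by simp)
  · rw [max_eq_left h.le]
    refine (h1 y).congr_of_eventuallyEq ?_
    filter_upwards [Ioi_mem_nhds h] with z hz
    rw [max_eq_left (le_of_lt hz)]

theorem tailPt_der' (k : ℕ) (x : ℝ) :
    HasDerivAt (fun x : ℝ => max (1 - 100 * x) 0 ^ (k + 2))
      (-(100 * ((k : ℝ) + 2) * max (1 - 100 * x) 0 ^ (k + 1))) x := by
  have h1 : HasDerivAt (fun x : ℝ => 1 - 100 * x) (-100) x := by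
    simpa using ((hasDerivAt_id x).const_mul 100).const_sub 1
  have h2 := (tailPt_der k (1 - 100 * x)).comp x h1
  exact h2.congr_deriv (by ring)

theorem tailPt_nn {κ : ℝ} (h : 0 < κ) (h8 : κ < 8) : ∃ k, nn κ = k + 3 := by
  have h1 := one_lt_dd h
  have h2 := dd_lt_two h8
  have : 3 ≤ nn κ := by
    have h3 : ((2 : ℕ) : ℝ) < 4 / (2 - dd κ) := by
      rw [lt_div_iff₀ (by linarith)]
      push_cast
      linarith
    exact Nat.lt_ceil.2 h3
  exact ⟨nn κ - 3, by omega⟩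

theorem tailPt_rem {κ a b u p V v0 g0 dN gN h γ R CN CT CV : ℝ} (hκ : 0 < κ) (ha : 0 ≤ a)
    (hb : 0 ≤ b) (hu0 : 0 ≤ u) (hu1 : u ≤ 1) (hp : 0 ≤ p) (hv0 : 0 ≤ v0) (hv : v0 ≤ V)
    (hR : 0 < R) (hh : 0 ≤ h) (hCN : 0 ≤ CN) (hCT : 0 ≤ CT)
    (hg0 : |g0| ≤ CV * (V / R)) (h1 : |dN| ≤ CN * h) (h2 : |gN| ≤ CN * γ) (h3 : γ ≤ CT / R)
    (h4 : γ ≤ CT * R * h) :
    v0 * (-(a * (p * u)) * dN + κ / 2 * (b * p) * gN ^ 2) + κ * (-(a * (p * u)) * gN * g0) ≤
      (a * CN + κ / 2 * b * (CN * CT) ^ 2 + κ * a * (CN * CT * CV)) * (p * V * h) := by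
  have hV : 0 ≤ V := hv0.trans hv
  have hpu : p * u ≤ p := mul_le_of_le_one_right hp hu1
  have e1 : -(a * (p * u)) * dN ≤ a * p * (CN * h) := by
    refine (le_abs_self _).trans ?_
    rw [abs_mul, abs_neg, abs_of_nonneg (by positivity)]
    gcongr
  have e2 : gN ^ 2 ≤ (CN * CT) ^ 2 * h := by
    calc gN ^ 2 = |gN| * |gN| := by rw [abs_mul_abs_self, sq]
      _ ≤ (CN * (CT / R)) * (CN * (CT * R * h)) := by
        have h5 : |gN| ≤ CN * (CT / R) := h2.trans (by gcongr)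
        have h6 : |gN| ≤ CN * (CT * R * h) := h2.trans (by gcongr)
        gcongr
      _ = (CN * CT) ^ 2 * h := by field_simp
  have e3 : -(a * (p * u)) * gN * g0 ≤ a * p * (CN * CT * CV * V * h) := by
    refine (le_abs_self _).trans ?_
    rw [abs_mul, abs_mul, abs_neg, abs_of_nonneg (by positivity)]
    have h6 : |gN| ≤ CN * (CT * R * h) := h2.trans (by gcongr)
    calc a * (p * u) * |gN| * |g0| ≤ a * p * (CN * (CT * R * h)) * (CV * (V / R)) := by gcongr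
      _ = _ := by field_simp
  have e4 : v0 * (-(a * (p * u)) * dN + κ / 2 * (b * p) * gN ^ 2) ≤
      V * (a * p * (CN * h) + κ / 2 * (b * p) * ((CN * CT) ^ 2 * h)) := by
    refine (mul_le_mul_of_nonneg_left (add_le_add e1 (mul_le_mul_of_nonneg_left e2
      (by positivity))) hv0).trans (mul_le_mul_of_nonneg_right hv (by positivity))
  have e5 := mul_le_mul_of_nonneg_left e3 hκ.le
  linarith

theorem tailPt_fin {x y C : ℝ} {a b H : ℝ≥0∞} {h : ℝ} (hC : 0 ≤ C) (hx : 0 ≤ x) (hy : 0 ≤ y)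
    (hh : 0 ≤ h) (hH : ENNReal.ofReal h ≤ H) {z : ℝ} (hz : z ≤ C * (x + y * h))
    (ha : a = ENNReal.ofReal x) (hb : b = ENNReal.ofReal y) :
    ENNReal.ofReal z ≤ ENNReal.ofReal C * (a + b * H) := by
  subst ha hb
  refine (ENNReal.ofReal_le_ofReal hz).trans ?_
  rw [ENNReal.ofReal_mul hC, ENNReal.ofReal_add hx (by positivity), ENNReal.ofReal_mul hy]
  gcongr

theorem tailPt (hF : Fnd) (hA : ContAStmt) (hN : NStmt) (hT : TentStmt) (hL : NLowStmt)
    (hV : VStmt) : TailPtStmt := by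
  intro κ hκ h8
  obtain ⟨k, hk⟩ := tailPt_nn hκ h8
  obtain ⟨CN, hCN, hN⟩ := hN κ hκ
  obtain ⟨CT, hCT, hT⟩ := hT.bound 1 one_pos
  obtain ⟨CV, c, hCV, hc, hV⟩ := hV.v κ hκ h8
  set a : ℝ := 100 * ((k : ℝ) + 3) with ha
  set b : ℝ := a * (100 * ((k : ℝ) + 2)) with hb
  have ha0 : 0 ≤ a := by positivity
  have hb0 : 0 ≤ b := by positivity
  set C1 : ℝ := a * CN + κ / 2 * b * (CN * CT) ^ 2 + κ * a * (CN * CT * CV) with hC1
  have hC10 : a * CN ≤ C1 := by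
    have : 0 ≤ κ / 2 * b * (CN * CT) ^ 2 + κ * a * (CN * CT * CV) := by positivity
    linarith
  have hC11 : 0 ≤ C1 := le_trans (by positivity) hC10
  refine ⟨CV + C1, c, by positivity, hc, fun s0 hs0 => ?_⟩
  obtain ⟨c0, hc0, hc0', hL⟩ := hL.zero s0 hs0
  refine ⟨c0, hc0, hc0', fun ℓ δ ε z0 m hℓ hδ hε hεℓ => ?_⟩
  obtain ⟨dN, gN, sN, hN⟩ := hN ℓ δ z0 m hℓ hδ
  obtain ⟨v0, d0, g0, s0', hV⟩ := hV ℓ δ ε hℓ hδ hε
  have D1 : ∀ x : ℝ, HasDerivAt (fun x : ℝ => max (1 - 100 * x) 0 ^ (k + 3))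
      (-(a * (max (1 - 100 * x) 0 ^ (k + 1) * max (1 - 100 * x) 0))) x := by
    intro x
    refine (tailPt_der' (k + 1) x).congr_deriv ?_
    push_cast
    rw [ha]
    ring
  have D2 : ∀ x : ℝ, HasDerivAt
      (fun x : ℝ => -(a * (max (1 - 100 * x) 0 ^ (k + 1) * max (1 - 100 * x) 0)))
      (b * max (1 - 100 * x) 0 ^ (k + 1)) x := by
    intro x
    have := ((tailPt_der' k x).const_mul a).fun_neg
    simp only [← pow_succ]
    refine this.congr_deriv ?_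
    rw [hb]
    ring
  have sφ := hF.alg.comp κ ℂ _ _ _ _ _ _ D1 D2 (by fun_prop) sN
  refine ⟨_, _, _, hF.alg.mul κ ℂ _ _ _ _ _ _ sφ s0', fun w W t ht => ?_⟩
  obtain ⟨hv0, hv, hg0, hd0⟩ := hV w W t ht
  obtain ⟨hN0, hNb⟩ := hN w W t ht
  have hu : max (1 - 100 * NN ℓ δ z0 m w W t) 0 = uu ℓ δ z0 m w W t := rfl
  simp only [hu, ee, hk, show k + 3 - 2 = k + 1 from rfl, show k + 3 - 1 = k + 2 from rfl]
  have hu0 : 0 ≤ uu ℓ δ z0 m w W t := le_max_right _ _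
  have hu1 : uu ℓ δ z0 m w W t ≤ 1 := max_le (by linarith) zero_le_one
  have hV0 : 0 ≤ vv κ ℓ δ w W t := hv0.trans hv
  have hR0 := Rf_nonneg W t w
  have hsrc : 0 ≤ src ℓ δ w W t := by
    unfold src
    split_ifs
    · positivity
    · exact le_rfl
  have haa : 0 ≤ aa ℓ δ w W t := mul_nonneg (cut_nonneg _) (sub_nonneg.2 (cut_le_one _))
  obtain ⟨hcr0, hcr⟩ := hA.nonneg κ s0 ε w W t hε
  have hl0 : 0 ≤ ℓ ^ (2 - dd κ) := by positivity
  have hpay : ℓ ^ (2 - dd κ) * (cy δ w W t * cr κ s0 ε w W t) ≤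
      uu ℓ δ z0 m w W t ^ (k + 3) * (aa ℓ δ w W t * (ℓ ^ (2 - dd κ) * crf κ ε w W t)) := by
    by_cases h0 : cr κ s0 ε w W t = 0
    · rw [h0, mul_zero, mul_zero]
      have := hcr0.trans hcr
      positivity
    · have h1 : s0 ≤ Sf W t w := by
        by_contra h
        refine h0 ?_
        rw [cr, cut_zero (by rw [div_le_one hs0]; linarith), zero_mul]
      have h2 : Up W t w ≤ 2 * c0 * ℓ := by
        by_contra h
        refine h0 ?_
        rw [cr, crf, cut1_zero_right (by rw [le_div_iff₀ hε]; linarith)]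
        ring
      have h3 : uu ℓ δ z0 m w W t = 1 := by
        rw [uu, hL ℓ δ z0 m w W t hℓ hδ ht h1 h2]
        norm_num
      have h4 : aa ℓ δ w W t = cy δ w W t := by
        rw [aa, cut_zero (by rw [div_le_one hℓ]; nlinarith)]
        ring
      rw [h3, h4, one_pow, one_mul, mul_left_comm]
      have : 0 ≤ cy δ w W t := cut_nonneg _
      gcongr
  obtain ⟨h, γ, hh, hγ, hH, hG, hyp⟩ : ∃ h γ : ℝ, 0 ≤ h ∧ 0 ≤ γ ∧
      ENNReal.ofReal h ≤ HH ℓ z0 m w W t ∧ ENNReal.ofReal γ ≤ GG ℓ z0 m w W t ∧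
      (vv κ ℓ δ w W t = 0 ∨ (0 < Rf W t w ∧ |dN w W t| ≤ CN * h ∧ |gN w W t| ≤ CN * γ ∧
        γ ≤ CT / Rf W t w ∧ γ ≤ CT * Rf W t w * h)) := by
    by_cases hY : δ ≤ Yf W t w
    · have hY0 : 0 < Yf W t w := hδ.trans_le hY
      have hR : 0 < Rf W t w := hY0.trans_le ((le_abs_self _).trans (Yf_le_Rf W t w))
      obtain ⟨t1, t2, t3, -⟩ := hT ℓ z0 m w W t hℓ ht hY0
      obtain ⟨n1, n2⟩ := hNb hY
      have f1 : HH ℓ z0 m w W t ≠ ⊤ := ne_top_of_le_ne_top ENNReal.ofReal_ne_top t3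
      have f2 : GG ℓ z0 m w W t ≠ ⊤ := ne_top_of_le_ne_top ENNReal.ofReal_ne_top t1
      have e1 := (ENNReal.ofReal_toReal f1).symm
      have e2 := (ENNReal.ofReal_toReal f2).symm
      have p1 : 0 ≤ (HH ℓ z0 m w W t).toReal := ENNReal.toReal_nonneg
      have p2 : 0 ≤ (GG ℓ z0 m w W t).toReal := ENNReal.toReal_nonneg
      generalize (HH ℓ z0 m w W t).toReal = h at e1 p1
      generalize (GG ℓ z0 m w W t).toReal = γ at e2 p2
      rw [e1, ← ENNReal.ofReal_mul (by positivity)] at n1 t2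
      rw [e2] at t1 t2 n2
      rw [← ENNReal.ofReal_mul (by positivity)] at n2
      rw [ENNReal.ofReal_le_ofReal_iff (by positivity)] at n1 n2 t1 t2
      exact ⟨h, γ, p1, p2, e1.ge, e2.ge, Or.inr ⟨hR, n1, n2, t1, t2⟩⟩
    · refine ⟨0, 0, le_rfl, le_rfl, by simp, by simp, Or.inl ?_⟩
      rw [vv, aa, cy, cut_zero (by rw [div_le_one hδ]; linarith)]
      ring
  generalize uu ℓ δ z0 m w W t = u at *
  have hp : 0 ≤ u ^ (k + 1) := by positivity
  have hp3 : 0 ≤ u ^ (k + 3) := by positivity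
  refine ⟨by positivity, fun h2 => ?_, ?_, ?_⟩
  · have : vv κ ℓ δ w W t = 0 := by
      rw [vv, aa, cut_one (x := Up W t w / ℓ) (by rw [le_div_iff₀ hℓ]; exact h2)]
      ring
    rw [le_antisymm (hv.trans this.le) hv0, mul_zero]
  · refine tailPt_fin (by positivity) hsrc (by positivity) hh hH ?_ rfl rfl
    have hrem : v0 w W t * (-(a * (u ^ (k + 1) * u)) * dN w W t +
        κ / 2 * (b * u ^ (k + 1)) * gN w W t ^ 2) +
        κ * (-(a * (u ^ (k + 1) * u)) * gN w W t * g0 w W t) ≤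
        C1 * (u ^ (k + 1) * vv κ ℓ δ w W t * h) := by
      rcases hyp with h0 | ⟨hR, n1, n2, t1, t2⟩
      · rw [h0] at hv hg0 ⊢
        rw [zero_div, mul_zero, abs_nonpos_iff] at hg0
        rw [le_antisymm hv hv0, hg0]
        simp
      · exact tailPt_rem hκ ha0 hb0 hu0 hu1 hp hv0 hv hR hh hCN.le hCT.le hg0 n1 n2 t1 t2
    have h5 := mul_le_mul_of_nonneg_left hd0 hp3
    have h6 : u ^ (k + 3) * (CV * src ℓ δ w W t) ≤ CV * src ℓ δ w W t :=
      mul_le_of_le_one_left (by positivity) (pow_le_one₀ hu0 hu1)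
    have h7 : 0 ≤ C1 * src ℓ δ w W t := by positivity
    have h8 : 0 ≤ CV * (u ^ (k + 1) * vv κ ℓ δ w W t * h) := by positivity
    have h9 : u ^ (k + 3) * aa ℓ δ w W t * Sf W t w ^ pp κ / Rf W t w ^ 2 =
        u ^ (k + 3) * (aa ℓ δ w W t * Sf W t w ^ pp κ / Rf W t w ^ 2) := by ring
    rw [h9]
    linarith
  · refine tailPt_fin (by positivity) (by positivity) (by positivity) hγ hG ?_ rfl rfl
    have h5 : |v0 w W t * (-(a * (u ^ (k + 1) * u)) * gN w W t)| ≤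
        C1 * (u ^ (k + 2) * vv κ ℓ δ w W t * γ) := by
      rcases hyp with h0 | ⟨hR, n1, n2, t1, t2⟩
      · rw [h0] at hv ⊢
        rw [le_antisymm hv hv0]
        simp
      · rw [abs_mul, abs_mul, abs_neg, abs_of_nonneg hv0, abs_of_nonneg (by positivity)]
        calc v0 w W t * (a * (u ^ (k + 1) * u) * |gN w W t|)
            ≤ vv κ ℓ δ w W t * (a * (u ^ (k + 1) * u) * (CN * γ)) := by gcongr
          _ = a * CN * (u ^ (k + 2) * vv κ ℓ δ w W t * γ) := by ring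
          _ ≤ _ := by gcongr
    have h6 : |u ^ (k + 3) * g0 w W t| ≤ CV * (u ^ (k + 3) * vv κ ℓ δ w W t / Rf W t w) := by
      rw [abs_mul, abs_of_nonneg hp3]
      refine (mul_le_mul_of_nonneg_left hg0 hp3).trans (le_of_eq ?_)
      ring
    have h7 : 0 ≤ C1 * (u ^ (k + 3) * vv κ ℓ δ w W t / Rf W t w) := by positivity
    have h8 : 0 ≤ CV * (u ^ (k + 2) * vv κ ℓ δ w W t * γ) := by positivity
    refine (abs_add_le _ _).trans ?_
    linarith

end Vale.Agent.P164
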