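import Vale.Agent.P164.Stm2

/-! Area of the cells above a point. -/

open Set MeasureTheory ProbabilityTheory Metric
open scoped ENNReal NNReal

namespace Vale.Agent.P164

namespace Tent

variable {ℓ m t : ℝ} {z0 w w' : ℂ} {W : Pth}

theorem Y_le (h : sc ℓ w w' W t) : Yf W t w' ≤ Rf W t w' / 4 := by
  rcases (Rf_nonneg W t w').eq_or_lt with h0 | h0
  · linarith [le_abs_self (Yf W t w'), Yf_le_Rf W t w']
  · have := (div_le_iff₀ h0).1 h.2.2.2
    linarith

theorem geo (h : sc ℓ w w' W t) :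
    Rf W t w' / 2 ≤ Rf W t w ∧ Rf W t w ≤ 3 / 2 * Rf W t w' ∧ Yf W t w ≤ 3 * Yf W t w' := by
  have h1 := Y_le h
  have h2 := h.2.2.1
  have h3 := abs_le.1 (abs_norm_sub_norm_le (Zf W t w) (Zf W t w'))
  have h4 := (le_abs_self _).trans (Complex.abs_im_le_norm (Zf W t w - Zf W t w'))
  rw [Complex.sub_im] at h4
  unfold Rf Yf at *
  exact ⟨by linarith, by linarith, by linarith⟩

theorem sec {β : Type} [MeasurableSpace β] {f : Pth → ℝ → ℂ → β}
    (h : Measurable fun p : ℂ × Pth × ℝ => f p.2.1 p.2.2 p.1) (W : Pth) (t : ℝ) :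
    Measurable (f W t) := by
  have := h.comp (measurable_id.prodMk (measurable_const (a := (W, t))))
  simpa only [Function.comp_def, id] using this

theorem meas (hF : Fnd) (ℓ : ℝ) (z0 : ℂ) (m : ℝ) (W : Pth) (t : ℝ) :
    MeasurableSet {p : ℂ × ℂ | p.2 ∈ supp ℓ z0 m p.1 W t} := by
  have hZ := sec hF.meas.Z_meas W t
  have hU : Measurable fun p : ℂ × ℂ => Up W t p.2 :=
    (sec hF.meas.Up_meas W t).comp measurable_snd
  have hY : Measurable fun p : ℂ × ℂ => Yf W t p.2 :=
    (sec hF.meas.Y_meas W t).comp measurable_snd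
  have hS : Measurable fun p : ℂ × ℂ => Sf W t p.2 :=
    (sec hF.meas.S_meas W t).comp measurable_snd
  exact (measurable_snd measurableSet_ball).inter ((measurableSet_le measurable_const hU).inter
    ((measurableSet_le hU measurable_const).inter ((measurableSet_le
      ((hZ.comp measurable_fst).sub (hZ.comp measurable_snd)).norm (hY.const_mul 2)).inter
      (measurableSet_le hS measurable_const))))

theorem meas1 (hF : Fnd) (ℓ : ℝ) (z0 : ℂ) (m : ℝ) (w : ℂ) (W : Pth) (t : ℝ) :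
    MeasurableSet (supp ℓ z0 m w W t) :=
  measurable_prodMk_left (x := w) (meas hF ℓ z0 m W t)

theorem ar_int (ℓ : ℝ) (S : Set ℂ) (F : ℂ → ℝ≥0∞) :
    ∫⁻ w in S, F w ∂ar ℓ = ∫⁻ w in S, ENNReal.ofReal (1 / ℓ ^ 2) * F w := by
  rw [ar, Measure.restrict_smul, lintegral_smul_measure, smul_eq_mul,
    lintegral_const_mul' _ _ ENNReal.ofReal_ne_top]

theorem alive (hF : Fnd) (hℓ : 0 < ℓ) (ht : 0 ≤ t) (h : sc ℓ w w' W t) :
    w' ∈ dom W t ∧ 0 < Yf W t w' ∧ 0 < Rf W t w' := by
  have h1 := mem_dom_of_Up_pos ht (hℓ.trans_le h.1)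
  have h2 := (hF.flow.alive W t w' ht).1 h1
  exact ⟨h1, h2, by linarith [Y_le h]⟩

theorem key (hF : Fnd) (hℓ : 0 < ℓ) (ht : 0 ≤ t) (hR : 0 < Rf W t w) {β c : ℝ} (hβ : 0 < β)
    (hc : 0 ≤ c) {S : Set ℂ} (hS : MeasurableSet S) (hsub : ∀ w' ∈ S, sc ℓ w w' W t)
    {F : ℂ → ℝ} (hb : ∀ w' ∈ S, F w' ≤ c * (Yf W t w' / (Rf W t w / 2)) ^ β) :
    ∫⁻ w' in S, ENNReal.ofReal (F w') ∂ar ℓ ≤ ENNReal.ofReal (144 * c / β) := by
  set T := {ζ : ℂ | 0 < ζ.im ∧ ζ.im ≤ Rf W t w / 2 ∧ |ζ.re - Xf W t w| ≤ 2 * ζ.im} with hT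
  set g := fun ζ : ℂ => ENNReal.ofReal (36 * c) *
    ENNReal.ofReal ((ζ.im / (Rf W t w / 2)) ^ β / ζ.im ^ 2) with hg
  calc ∫⁻ w' in S, ENNReal.ofReal (F w') ∂ar ℓ
      ≤ ∫⁻ w' in S, ENNReal.ofReal ((Yf W t w' / Up W t w') ^ 2) * T.indicator g (Zf W t w') := by
        rw [ar_int]
        refine setLIntegral_mono' hS fun w' hw' => ?_
        have h := hsub w' hw'
        obtain ⟨-, a1, a2⟩ := alive hF hℓ ht h
        have a3 : Zf W t w' ∈ T := by
          refine ⟨a1, (Y_le h).trans (by linarith [(geo h).1]), le_trans ?_ h.2.2.1⟩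
          rw [abs_sub_comm]
          exact Complex.abs_re_le_norm (Zf W t w - Zf W t w')
        have a4 : 0 < Up W t w' := hℓ.trans_le h.1
        rw [indicator_of_mem a3, hg]
        dsimp only
        rw [← ENNReal.ofReal_mul (by positivity), ← ENNReal.ofReal_mul (by positivity),
          ← ENNReal.ofReal_mul (by positivity)]
        refine ENNReal.ofReal_le_ofReal ((mul_le_mul_of_nonneg_left (hb w' hw')
          (by positivity)).trans ?_)
        change _ ≤ _ * (_ * ((Yf W t w' / _) ^ β / Yf W t w' ^ 2))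
        have a5 : 0 ≤ c * (Yf W t w' / (Rf W t w / 2)) ^ β := by positivity
        have a6 : 1 / ℓ ^ 2 ≤ 36 / Up W t w' ^ 2 := by
          rw [div_le_div_iff₀ (by positivity) (by positivity)]
          nlinarith [h.2.1]
        refine (mul_le_mul_of_nonneg_right a6 a5).trans_eq ?_
        field_simp
    _ ≤ ∫⁻ w' in dom W t,
          ENNReal.ofReal ((Yf W t w' / Up W t w') ^ 2) * T.indicator g (Zf W t w') :=
        lintegral_mono_set fun w' hw' => (alive hF hℓ ht (hsub w' hw')).1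
    _ ≤ ∫⁻ ζ in T, g ζ := by
        rw [hF.confB.cov' W t _ ht]
        exact (setLIntegral_le_lintegral _ _).trans (lintegral_indicator_le _ _)
    _ ≤ ENNReal.ofReal (36 * c) * ENNReal.ofReal (4 / β) := by
        rw [hg, lintegral_const_mul' _ _ ENNReal.ofReal_ne_top]
        exact mul_le_mul' le_rfl (hF.elem.tent β _ _ hβ (half_pos hR))
    _ = _ := by
        rw [← ENNReal.ofReal_mul (by positivity)]
        congr 1
        ring

end Tent

open Tent in
theorem tent (hF : Fnd) : TentStmt where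
  geo _ _ _ _ _ h := geo h
  meas := meas hF
  push ℓ W t φ hℓ ht := by
    rw [ar_int, ← hF.confB.cov' W t _ ht]
    refine lintegral_congr fun w => ?_
    rw [← mul_assoc, ← mul_assoc, ← ENNReal.ofReal_mul (by positivity),
      ← ENNReal.ofReal_mul (by positivity)]
    congr 2
    change _ * (_ * (Yf W t w / ‖Zf W t w‖) ^ 2) = _
    simp only [div_eq_mul_inv, mul_pow, ← inv_pow]
    have : ℓ⁻¹ * ℓ = 1 := inv_mul_cancel₀ hℓ.ne'
    linear_combination (ℓ⁻¹ * ℓ + 1) * ((Up W t w)⁻¹ * Yf W t w * ‖Zf W t w‖⁻¹) ^ 2 * this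
  bound α hα := by
    refine ⟨144 / α + 2000, by positivity, fun ℓ z0 m w W t hℓ ht hY => ?_⟩
    have hR : 0 < Rf W t w := hY.trans_le ((le_abs_self _).trans (Yf_le_Rf W t w))
    have h0 : 0 ≤ 144 / α := by positivity
    have hS := meas1 hF ℓ z0 m w W t
    have hS' : MeasurableSet (supp ℓ z0 m w W t ∩ {w' | 1 / 8 ≤ Sf W t w'}) :=
      hS.inter (measurableSet_le measurable_const (sec hF.meas.S_meas W t))
    have hs : ∀ w', sc ℓ w w' W t → 0 ≤ Sf W t w' ∧ Sf W t w' ≤ Yf W t w' / (Rf W t w / 2) ∧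
        1 / Rf W t w' ≤ 3 / 2 / Rf W t w := fun w' h => by
      obtain ⟨-, a1, a2⟩ := alive hF hℓ ht h
      obtain ⟨b1, b2, -⟩ := geo h
      refine ⟨div_nonneg a1.le a2.le, div_le_div_of_nonneg_left a1.le (half_pos hR)
        (by linarith), ?_⟩
      rw [div_le_div_iff₀ a2 hR]
      linarith
    refine ⟨(key hF hℓ ht hR one_pos (c := 12 / Rf W t w) (by positivity) hS'
      (fun w' h => h.1.2) fun w' h => ?_).trans (ENNReal.ofReal_le_ofReal ?_), ?_,
      (key hF hℓ ht hR one_pos (c := (3 / 2 / Rf W t w) ^ 2) (by positivity) hS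
      (fun w' h => h.2) fun w' h => ?_).trans (ENNReal.ofReal_le_ofReal ?_),
      (key hF hℓ ht hR hα zero_le_one hS (fun w' h => h.2) fun w' h => ?_).trans
        (ENNReal.ofReal_le_ofReal (by rw [mul_one]; linarith))⟩
    · obtain ⟨-, a2, a3⟩ := hs w' h.1.2
      rw [Real.rpow_one]
      refine a3.trans (le_trans (le_of_eq ?_) (mul_le_mul_of_nonneg_left (h.2.trans a2)
        (by positivity)))
      ring
    · rw [div_one, ← mul_div_assoc]
      exact div_le_div_of_nonneg_right (by linarith) hR.le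
    · rw [HH, ← lintegral_const_mul' _ _ ENNReal.ofReal_ne_top]
      refine (setLIntegral_mono' hS' fun w' h => ?_).trans (lintegral_mono_set inter_subset_left)
      rw [← ENNReal.ofReal_mul (by positivity)]
      refine ENNReal.ofReal_le_ofReal ?_
      obtain ⟨-, -, a2⟩ := alive hF hℓ ht h.1.2
      have a3 : 1 / 8 ≤ Sf W t w' := h.2
      have a4 := (geo h.1.2).1
      rw [← mul_div_assoc, div_le_div_iff₀ a2 (by positivity)]
      have a5 : Rf W t w' ≤ (144 / α + 2000) * Rf W t w * Sf W t w' := by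
        have := mul_le_mul (show 16 * Rf W t w ≤ (144 / α + 2000) * Rf W t w by nlinarith) a3
          (by norm_num) (by positivity)
        linarith
      nlinarith
    · obtain ⟨a1, a2, a3⟩ := hs w' h.2
      rw [Real.rpow_one, mul_comm, div_eq_mul_one_div, ← one_div_pow]
      exact mul_le_mul a2 (pow_le_pow_left₀ (one_div_nonneg.2 (Rf_nonneg _ _ _)) a3 2)
        (by positivity) (a1.trans a2)
    · rw [div_one, div_pow, ← mul_div_assoc]
      exact div_le_div_of_nonneg_right (by linarith) (by positivity)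
    · obtain ⟨a1, a2, -⟩ := hs w' h.2
      rw [one_mul]
      exact Real.rpow_le_rpow a1 a2 hα.le

end Vale.Agent.P164
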