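import Vale.Agent.P164.Stm2

/-! Repeated trials over the scales. -/

open Set MeasureTheory ProbabilityTheory Metric
open scoped ENNReal NNReal

namespace Vale.Agent.P164

theorem trial_S (hF : Fnd) (W : Pth) (t : ℝ) (z : ℂ) : 0 ≤ Sf W t z :=
  div_nonneg (hF.flow.Y_nonneg W t z) (Rf_nonneg W t z)

theorem trial_M (hF : Fnd) (κ : ℝ) (W : Pth) (t : ℝ) (z : ℂ) : 0 ≤ MM κ z W t :=
  mul_nonneg (Real.rpow_nonneg (Up_nonneg W t z) _) (Real.rpow_nonneg (trial_S hF W t z) _)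

theorem trial_div {x y a : ℝ} (hx : 0 ≤ x) (hy : 0 ≤ y) :
    (x / y) ^ (2 - a) = x ^ (2 - a) * y ^ (a - 2) := by
  rw [Real.div_rpow hx hy, div_eq_mul_inv, ← Real.rpow_neg hy, neg_sub]

theorem trial_start (hF : Fnd) {κ : ℝ} (h0 : 0 < κ) (h8 : κ < 8) {z : ℂ} {ρ η C : ℝ} (hρ : 0 < ρ)
    (hz : ρ ≤ z.im) (η0 : 0 ≤ η) (η1 : η ≤ 1) (hC : 0 < C) (V : Pth) :
    MM κ z V 0 * (1 + η * (√(ρ / Up V 0 z) * Sf V 0 z ^ (-(rr κ / 2)) + C)) ≤
      (2 + C) * z.im ^ (dd κ - 2) := by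
  obtain ⟨h1, -, h2, -⟩ := hF.flow.init V z (hρ.trans_le hz)
  have y0 := (hF.flow.alive V 0 z le_rfl).1 h1
  have s0 : 0 < Sf V 0 z := div_pos y0 (y0.trans_le ((le_abs_self _).trans (Yf_le_Rf V 0 z)))
  have s1 := Sf_le_one V 0 z
  have r0 := rr_pos h0 h8
  have a1 : Sf V 0 z ^ rr κ ≤ 1 := Real.rpow_le_one s0.le s1 r0.le
  have a2 : Sf V 0 z ^ rr κ * Sf V 0 z ^ (-(rr κ / 2)) ≤ 1 := by
    rw [← Real.rpow_add s0]
    exact Real.rpow_le_one s0.le s1 (by linarith)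
  have a3 : √(ρ / z.im) ≤ 1 := Real.sqrt_le_one.2 ((div_le_one (hρ.trans_le hz)).2 hz)
  have a4 : 0 ≤ z.im ^ (dd κ - 2) := Real.rpow_nonneg (hρ.le.trans hz) _
  have a5 : 0 ≤ Sf V 0 z ^ rr κ := by positivity
  have a6 : 0 ≤ Sf V 0 z ^ rr κ * Sf V 0 z ^ (-(rr κ / 2)) := by positivity
  have a7 : η * √(ρ / z.im) ≤ 1 := mul_le_one₀ η1 (Real.sqrt_nonneg _) a3
  have a8 : η * √(ρ / z.im) * (Sf V 0 z ^ rr κ * Sf V 0 z ^ (-(rr κ / 2))) ≤ 1 :=
    mul_le_one₀ a7 a6 a2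
  have a9 : η * Sf V 0 z ^ rr κ * C ≤ 1 * C :=
    mul_le_mul_of_nonneg_right (mul_le_one₀ η1 a5 a1) hC.le
  rw [MM, h2, mul_assoc, mul_comm (2 + C)]
  refine mul_le_mul_of_nonneg_left ?_ a4
  nlinarith

theorem trial_ob (hF : Fnd) {κ : ℝ} (h0 : 0 < κ) (h8 : κ < 8) {z : ℂ} {ρ : ℝ} (hρ : 0 < ρ)
    (hz : ρ ≤ z.im) (V : Pth) : ob κ ρ z V 0 ≤ 2 * (ρ / z.im) ^ (2 - dd κ) := by
  obtain ⟨-, -, h2, -⟩ := hF.flow.init V z (hρ.trans_le hz)
  have a0 : 0 < ρ / z.im := div_pos hρ (hρ.trans_le hz)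
  have a1 : Sf V 0 z ^ rr κ ≤ 1 :=
    Real.rpow_le_one (trial_S hF V 0 z) (Sf_le_one V 0 z) (rr_pos h0 h8).le
  have a2 : (ρ / z.im) ^ (3 - dd κ) ≤ (ρ / z.im) ^ (2 - dd κ) :=
    Real.rpow_le_rpow_of_exponent_ge a0 ((div_le_one (hρ.trans_le hz)).2 hz) (by linarith)
  have a3 : 0 ≤ (ρ / z.im) ^ (2 - dd κ) := by positivity
  rw [ob, h2]
  nlinarith

theorem trial_bad (hA : ContAStmt) (κ s0 ε T C c m ρ0 : ℝ) (K : ℕ) (z : ℂ) :
    MeasurableSet (Bad κ s0 ε T C c m ρ0 K z) := by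
  have h : ∀ r, Measurable fun W : Pth => cm κ s0 ε 0 T W (ball z r) := fun r =>
    (hA.mball κ s0 ε 0 T r).comp (f := fun W : Pth => (W, z)) measurable_prodMk_right
  simp only [Bad, ofPred_forall]
  exact MeasurableSet.iInter fun k => MeasurableSet.iInter fun _ =>
    measurableSet_lt (h _) measurable_const

theorem trial (hF : Fnd) (hA : ContAStmt) (hU : UStmt) (hO : OPStmt) (hL : LypStmt)
    (hS : StageStmt) : TrialStmt := by
  intro κ μ hc s0 T0 hM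
  obtain ⟨C, c, c', m0, C0, c0, c0', c1', m1, hS⟩ := hS κ μ hc s0 T0 hM
  obtain ⟨AU, AU1, hU⟩ := hU κ μ hc
  obtain ⟨AO, AO1, hC⟩ := hO.cond κ μ hc
  obtain ⟨CL, CL0, hL⟩ := hL κ μ hc
  refine ⟨C, c, c', AO * (2 + CL) + 4 * AO * AU, m0, C0, c0, c0', c1', by positivity, m1,
    fun m K ρ0 ε ε' b T z hm ρ00 ε0 ε0' b0 hT hz hε hε' => ?_⟩
  generalize hη : c' * Real.exp (-(C * m ^ 2)) = η
  have η0 : 0 < η := hη ▸ by positivity
  have η1 : η ≤ 1 := by
    have : Real.exp (-(C * m ^ 2)) ≤ 1 := Real.exp_le_one_iff.2 (neg_nonpos.2 (by positivity))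
    rw [← hη]
    nlinarith
  have η2 : 0 ≤ 1 - η := by linarith
  have d2 := dd_lt_two hc.lt
  have ρa : ∀ i j : ℕ, i ≤ j → ρ0 / 8 ^ j ≤ ρ0 / 8 ^ i := fun i j k =>
    div_le_div_of_nonneg_left ρ00.le (by positivity) (pow_le_pow_right₀ (by norm_num) k)
  have mB := trial_bad hA κ s0 ε T C c m ρ0 K z
  have := hc.wie.prob
  rw [hO.union, iUnion_inter, Monotone.measure_iUnion fun i j k =>
    inter_subset_inter_left _ (hO.mono z ε' b k)]
  refine iSup_le fun n => ?_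
  beta_reduce
  have δ0 : (0 : ℝ) < 1 / (n + 1) := by positivity
  generalize (1 / (n + 1) : ℝ) = δ at δ0 ⊢
  have mE := (hO.meas' z ε' δ b).inter mB
  generalize hE : Hit z ε' δ b ∩ Bad κ s0 ε T C c m ρ0 K z = E at mE ⊢
  have mF : Measurable (E.indicator (1 : Pth → ℝ≥0∞)) := measurable_one.indicator mE
  have ρK : 0 < ρ0 / 8 ^ K := by positivity
  obtain ⟨NU, u1, u2, u3⟩ := hU z (ρ0 / 8 ^ K / 2) δ (by positivity) δ0
  obtain ⟨NL, l1, l2, l3⟩ := hL z ρ0 δ η ρ00 δ0 η0.le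
  have hN0 := hF.cat.supMul μ NU
    (ENNReal.ofReal (AO * (2 * ε' / (ρ0 / 8 ^ K)) ^ (3 - dd κ))) u1
  have Z : ∀ t V, 0 ≤ t → ε' ≤ Up V t z → (Yf V t z ≤ δ ∨ b ≤ t) →
      CE μ t V (E.indicator 1) = 0 := fun t V t0 k k' => by
    have : ∀ W, E.indicator (1 : Pth → ℝ≥0∞) (cat t V W) = 0 := fun W =>
      indicator_of_notMem (fun k'' => hO.zero z ε' δ b t V W t0 k k' (hE ▸ k'').1) _
    simp only [CE, this, lintegral_zero]
  have P0 : ∀ t V, MM κ z V t ≤ PP κ η z V t := fun t V =>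
    le_mul_of_one_le_right (trial_M hF κ V t z) (le_add_of_nonneg_right
      (mul_nonneg η0.le (Real.rpow_nonneg (trial_S hF V t z) _)))
  have lev : ∀ j k : ℕ, k + j = K → ∀ t V, 0 ≤ t → ρ0 / 8 ^ k / 2 ≤ Up V t z →
      Up V t z ≤ ρ0 / 8 ^ k → CE μ t V (E.indicator 1) ≤
        ENNReal.ofReal ((1 - η) ^ j * (AO * ε' ^ (2 - dd κ)) * PP κ η z V t) +
          ENNReal.ofReal (AO * (2 * ε' / (ρ0 / 8 ^ K)) ^ (3 - dd κ)) * NU t V := fun j => by
    induction j with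
    | zero =>
      rintro k rfl t V t0 k1 k2
      have k3 : ε' ≤ Up V t z := by simp only [add_zero] at hε'; linarith
      rcases le_total (Yf V t z) δ with k4 | k4
      · rw [Z t V t0 k3 (Or.inl k4)]
        exact zero_le
      simp only [add_zero] at u2 ρK ⊢
      have U0 : 0 < Up V t z := ε0'.trans_le k3
      have a1 := u2 t V t0 k1 (by linarith) k4
      have a2 : (ε' / Up V t z) ^ (3 - dd κ) ≤ (2 * ε' / (ρ0 / 8 ^ k)) ^ (3 - dd κ) := by
        refine Real.rpow_le_rpow (by positivity) ?_ (by linarith)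
        rw [div_le_div_iff₀ U0 ρK]
        nlinarith
      have a3 : (ε' / Up V t z) ^ (2 - dd κ) * Sf V t z ^ rr κ ≤
          ε' ^ (2 - dd κ) * PP κ η z V t := by
        rw [trial_div ε0'.le U0.le, mul_assoc]
        exact mul_le_mul_of_nonneg_left (P0 t V) (by positivity)
      have a4 : 0 ≤ PP κ η z V t := (trial_M hF κ V t z).trans (P0 t V)
      rw [← hF.cat.cp μ t V E mE]
      calc CP μ t V E ≤ CP μ t V (Hit z ε' δ b) := measure_mono fun W hW => (hE ▸ hW).1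
        _ ≤ ENNReal.ofReal (AO * ob κ ε' z V t) := hC z ε' δ b t V ε0' δ0.le t0 k3
        _ ≤ ENNReal.ofReal ((1 - η) ^ 0 * (AO * ε' ^ (2 - dd κ)) * PP κ η z V t +
            AO * (2 * ε' / (ρ0 / 8 ^ k)) ^ (3 - dd κ)) := by
          refine ENNReal.ofReal_le_ofReal ?_
          rw [ob, pow_zero, one_mul, mul_assoc, ← mul_add]
          exact mul_le_mul_of_nonneg_left (add_le_add a3 a2) (by linarith)
        _ ≤ _ := ENNReal.ofReal_add_le.trans (add_le_add le_rfl (le_mul_of_one_le_right' a1))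
    | succ j ih =>
      intro k hk t V t0 k1 k2
      have e8 : ρ0 / 8 ^ (k + 1) = ρ0 / 8 ^ k / 8 := by rw [pow_succ, div_mul_eq_div_div]
      have a1 := ρa (k + 1) K (by omega)
      have a2 := ρa k K (by omega)
      have := hS m η (E.indicator 1) z (ρ0 / 8 ^ k) δ ε ((1 - η) ^ j * (AO * ε' ^ (2 - dd κ))) b _
        hm hη.symm mF hN0 (by positivity) δ0 ε0 (hε.trans (by gcongr; linarith)) (by positivity)
        (fun t V t0 k1 k2 => ih (k + 1) (by omega) t V t0 (by linarith) (by linarith))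
        (fun t V t0 k1 k2 => Z t V t0 (by linarith) k2)
        (fun W s t s1 s2 t1 k1 => indicator_of_notMem (fun k2 => ((hE ▸ k2).2 k (by omega)).not_ge
          (k1.trans ((hA.mono κ s0 ε s t 0 T W s1 (by linarith)).2 _))) _) t V t0 k1 k2
      rwa [← mul_assoc, ← pow_succ'] at this
  have a0 := ρa 0 K (Nat.zero_le K)
  rw [pow_zero, div_one] at a0
  have Q0 : 0 ≤ (1 - η) ^ K * (AO * ε' ^ (2 - dd κ)) := by positivity
  have z0 : 0 < z.im := ρ00.trans_le hz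
  have fin : ∀ V, CE μ 0 V (E.indicator 1) ≤ ENNReal.ofReal ((AO * (2 + CL) + 4 * AO * AU) *
      (ε' / z.im) ^ (2 - dd κ) * ((1 - η) ^ K + ε' / (ρ0 / 8 ^ K))) := fun V => by
    have h1 := hF.hit κ μ hc.wie _ (E.indicator 1) z ρ0 δ 0 b V (hF.cat.supAdd μ _ _
      (hF.cat.supMul μ NL (ENNReal.ofReal ((1 - η) ^ K * (AO * ε' ^ (2 - dd κ)))) l1) hN0) mF ρ00
      δ0 le_rfl b0 (fun t ht V' _ k1 k2 => by
        rcases le_total (Yf V' t z) δ with k4 | k4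
        · rw [Z t V' ht.1 (by linarith) (Or.inl k4)]
          exact zero_le
        rcases k2 with k2 | k2 | k2
        · refine (lev K 0 (zero_add K) t V' ht.1 (by simpa using k1) (by simpa using k2)).trans ?_
          rw [ENNReal.ofReal_mul Q0]
          gcongr
          exact (l3 t V' ht.1 k4 k1).2 k2
        · rw [Z t V' ht.1 (by linarith) (Or.inl k2)]
          exact zero_le
        · rw [Z t V' ht.1 (by linarith) (Or.inr k2.ge)]
          exact zero_le)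
      (by rw [(hF.flow.init V z z0).2.2.1]; linarith)
    have h2 := (l2 0 V le_rfl).trans (ENNReal.ofReal_le_ofReal
      (trial_start hF hc.pos hc.lt ρ00 hz η0.le η1 CL0 V))
    have h3 := (u3 0 V le_rfl).trans (ENNReal.ofReal_le_ofReal (mul_le_mul_of_nonneg_left
      (trial_ob hF hc.pos hc.lt (ρ := ρ0 / 8 ^ K / 2) (by positivity) (by linarith) V)
        (by linarith)))
    refine h1.trans ((add_le_add (mul_le_mul_right h2 _) (mul_le_mul_right h3 _)).trans ?_)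
    rw [← ENNReal.ofReal_mul Q0, ← ENNReal.ofReal_mul (by positivity),
      ← ENNReal.ofReal_add (by positivity) (by positivity)]
    refine ENNReal.ofReal_le_ofReal ?_
    have e1 : (2 * ε' / (ρ0 / 8 ^ K)) ^ (3 - dd κ) * (ρ0 / 8 ^ K / 2 / z.im) ^ (2 - dd κ) =
        2 * (ε' / (ρ0 / 8 ^ K)) * (ε' / z.im) ^ (2 - dd κ) := by
      rw [show 3 - dd κ = 1 + (2 - dd κ) by ring, Real.rpow_add (by positivity), Real.rpow_one,
        mul_assoc, ← Real.mul_rpow (by positivity) (by positivity), mul_div_assoc]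
      congr 2
      field_simp
    have e2 := trial_div (a := dd κ) ε0'.le z0.le
    have p1 : 0 ≤ (ε' / z.im) ^ (2 - dd κ) * (1 - η) ^ K := by positivity
    have p2 : 0 ≤ (ε' / z.im) ^ (2 - dd κ) * (ε' / (ρ0 / 8 ^ K)) := by positivity
    calc _ = AO * (2 + CL) * (ε' ^ (2 - dd κ) * z.im ^ (dd κ - 2) * (1 - η) ^ K) + 2 * AO * AU *
          ((2 * ε' / (ρ0 / 8 ^ K)) ^ (3 - dd κ) * (ρ0 / 8 ^ K / 2 / z.im) ^ (2 - dd κ)) := by ring
      _ = AO * (2 + CL) * ((ε' / z.im) ^ (2 - dd κ) * (1 - η) ^ K) +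
          4 * AO * AU * ((ε' / z.im) ^ (2 - dd κ) * (ε' / (ρ0 / 8 ^ K))) := by
        rw [e1, ← e2]
        ring
      _ ≤ _ := by
        have q1 : 0 ≤ AO * (2 + CL) := by positivity
        have q2 : 0 ≤ 4 * AO * AU := by positivity
        nlinarith [mul_nonneg q1 p2, mul_nonneg q2 p1]
  rw [hF.cat.total' κ μ hc.wie 0 E le_rfl mE]
  refine (lintegral_mono fun V => (hF.cat.cp μ 0 V E mE).trans_le (fin V)).trans ?_
  rw [lintegral_const, measure_univ, mul_one]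

end Vale.Agent.P164
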