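import Vale.Agent.P164.Stm2

/-! The supermartingale of the one-point estimate. -/

open Set MeasureTheory ProbabilityTheory Metric
open scoped ENNReal NNReal

namespace Vale.Agent.P164

theorem uNum {r q c γ e : ℝ} (hr : 0 < r) (hq : 0 < q) (hq1 : q ≤ 1) (hc : 0 < c) (hγ : γ ≤ 2)
    (he : e ≤ 8) : ∃ A : ℝ, 0 < A ∧ ∀ S : ℝ, 0 < S → S ≤ 1 →
      -(4 * A) * S ^ r * S ^ 2 + S ^ q * (-c * (1 - S ^ 2) + e * S ^ 2) + 4 * γ * S ^ 2 ≤ 0 := by
  have hs : 0 < c / (c + 16) := by positivity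
  have hsr : 0 < (c / (c + 16)) ^ r := Real.rpow_pos_of_pos hs r
  refine ⟨4 / (c / (c + 16)) ^ r, by positivity, fun S hS hS1 => ?_⟩
  have h1 : S ≤ S ^ q := by
    simpa using Real.rpow_le_rpow_of_exponent_ge hS hS1 hq1
  have h2 : S ^ q ≤ 1 := Real.rpow_le_one hS.le hS1 hq.le
  have h3 : 0 < S ^ r := Real.rpow_pos_of_pos hS r
  have h4 : S ^ 2 ≤ S := by nlinarith
  have h5 : 0 < S ^ 2 := by positivity
  have h6 : 4 * γ * S ^ 2 ≤ 8 * S ^ 2 := by nlinarith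
  have h7 : S ^ q * (e * S ^ 2) ≤ S ^ q * (8 * S ^ 2) := by gcongr
  rcases le_total S (c / (c + 16)) with h | h
  · rw [le_div_iff₀ (by positivity)] at h
    have h8 : 0 ≤ 4 * (4 / (c / (c + 16)) ^ r) * S ^ r * S ^ 2 := by positivity
    have h9 : S ^ 2 ≤ S ^ q * S := by nlinarith
    have h10 : S ^ q * (-c + (c + 8) * S ^ 2 + 8 * S) ≤ 0 :=
      mul_nonpos_of_nonneg_of_nonpos (by linarith) (by nlinarith)
    nlinarith
  · have h8 : 4 ≤ 4 / (c / (c + 16)) ^ r * S ^ r := by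
      rw [div_mul_eq_mul_div, le_div_iff₀ hsr]
      have := Real.rpow_le_rpow hs.le h hr.le
      linarith
    have h9 := mul_le_mul_of_nonneg_right h8 h5.le
    have h10 : 0 ≤ S ^ q * (c * (1 - S ^ 2)) :=
      mul_nonneg (by linarith) (mul_nonneg hc.le (by linarith))
    have h11 : S ^ q * (8 * S ^ 2) ≤ 8 * S ^ 2 := mul_le_of_le_one_left (by positivity) h2
    linarith

theorem uMon (b q : ℝ) (w : ℂ) (W : Pth) (t : ℝ) :
    Mon 0 b q w W t = Up W t w ^ b * Sf W t w ^ q := by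
  simp [Mon]

theorem uPow {ε U : ℝ} (hε : 0 < ε) (hU : 0 < U) (a : ℝ) : ε ^ a * U ^ (-a) = (ε / U) ^ a := by
  rw [Real.div_rpow hε.le hU.le, Real.rpow_neg hU.le, div_eq_mul_inv]

/-- The bracket. -/
noncomputable def uB (κ ε A q : ℝ) (w : ℂ) (W : Pth) (t : ℝ) : ℝ :=
  (2 * A + 2) * ε ^ (2 - dd κ) * Mon 0 (-(2 - dd κ)) (rr κ) w W t +
    -A * ε ^ (3 - dd κ) * Mon 0 (-(3 - dd κ)) (rr κ) w W t +
    ε ^ (3 - dd κ) * Mon 0 (-(3 - dd κ)) q w W t + ε ^ (3 - dd κ) * Mon 0 (-(3 - dd κ)) 0 w W t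

theorem uB_eq {κ ε A q : ℝ} {w : ℂ} {W : Pth} {t : ℝ} (hε : 0 < ε) (hU : 0 < Up W t w) :
    uB κ ε A q w W t = (2 * A + 2) * ((ε / Up W t w) ^ (2 - dd κ) * Sf W t w ^ rr κ) -
      A * ((ε / Up W t w) ^ (3 - dd κ) * Sf W t w ^ rr κ) +
      (ε / Up W t w) ^ (3 - dd κ) * Sf W t w ^ q + (ε / Up W t w) ^ (3 - dd κ) := by
  simp only [uB, uMon, ← uPow hε hU, Real.rpow_zero]
  ring

theorem uB_bd {κ ε A q : ℝ} {w : ℂ} {W : Pth} {t : ℝ} (hε : 0 < ε) (hA : 0 < A) (hq : 0 < q)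
    (hS : 0 ≤ Sf W t w) (hU : ε / 2 < Up W t w) :
    (ε / Up W t w) ^ (3 - dd κ) ≤ uB κ ε A q w W t ∧
      uB κ ε A q w W t ≤ (2 * A + 2) * ob κ ε w W t := by
  have hU0 : 0 < Up W t w := (half_pos hε).trans hU
  have hx : 0 < ε / Up W t w := div_pos hε hU0
  have hx2 : ε / Up W t w ≤ 2 := by rw [div_le_iff₀ hU0]; linarith
  have e : (ε / Up W t w) ^ (3 - dd κ) = (ε / Up W t w) ^ (2 - dd κ) * (ε / Up W t w) := by
    rw [← Real.rpow_add_one hx.ne']; congr 1; ring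
  have h1 : 0 ≤ (ε / Up W t w) ^ (2 - dd κ) * Sf W t w ^ rr κ := by positivity
  have h2 : 0 ≤ (ε / Up W t w) ^ (3 - dd κ) := by positivity
  have h3 : 0 ≤ Sf W t w ^ q := by positivity
  have h4 : Sf W t w ^ q ≤ 1 := Real.rpow_le_one hS (Sf_le_one _ _ _) hq.le
  have h5 : (ε / Up W t w) ^ (3 - dd κ) * Sf W t w ^ rr κ ≤
      2 * ((ε / Up W t w) ^ (2 - dd κ) * Sf W t w ^ rr κ) := by
    have := mul_le_mul_of_nonneg_right hx2 h1
    rw [e]
    linarith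
  have h6 : 0 ≤ (ε / Up W t w) ^ (3 - dd κ) * Sf W t w ^ rr κ := by positivity
  have h7 := mul_le_mul_of_nonneg_left h5 hA.le
  have h8 := mul_nonneg h2 h3
  have h9 := mul_le_mul_of_nonneg_left h4 h2
  have h10 := mul_nonneg hA.le h6
  have h11 := mul_nonneg hA.le h2
  rw [uB_eq hε hU0, ob]
  constructor <;> linarith

theorem uB_LS (hF : Fnd) {κ : ℝ} (h0 : 0 < κ) (h8 : κ < 8) :
    ∃ A q : ℝ, 0 < A ∧ 0 < q ∧ ∀ ε, 0 < ε → ∃ d g, LS κ (uB κ ε A q) d g ∧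
      ∀ w W t, 0 < Yf W t w → d w W t ≤ 0 := by
  have hr := rr_pos h0 h8
  have hkr := kappa_rr h0
  obtain ⟨q, hq⟩ : ∃ q : ℝ, q = min (rr κ / 2) 1 := ⟨_, rfl⟩
  have hq0 : 0 < q := hq ▸ lt_min (half_pos hr) one_pos
  have hq1 : q ≤ 1 := hq ▸ min_le_right _ _
  have hq2 : q ≤ rr κ / 2 := hq ▸ min_le_left _ _
  have hγ : 3 - dd κ ≤ 2 := by linarith [one_lt_dd h0]
  obtain ⟨A, hA, hN⟩ := uNum (c := κ * q * (rr κ - q) / 2) (e := 4 * (3 - dd κ) - κ * q / 2) hr hq0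
    hq1 (half_pos (mul_pos (mul_pos h0 hq0) (by linarith))) hγ (by nlinarith [mul_pos h0 hq0])
  refine ⟨A, q, hA, hq0, fun ε hε => ⟨_, _, hF.ls.add κ _ _ _ _ _ _ (hF.ls.add κ _ _ _ _ _ _
    (hF.ls.add κ _ _ _ _ _ _ (hF.ls.smul κ _ _ _ _ (hF.mon.mon κ _ _ _ h0))
      (hF.ls.smul κ _ _ _ _ (hF.mon.mon κ _ _ _ h0)))
    (hF.ls.smul κ _ _ _ _ (hF.mon.mon κ _ _ _ h0)))
    (hF.ls.smul κ _ _ _ _ (hF.mon.mon κ _ _ _ h0)), fun w W t hY => ?_⟩⟩
  have hR : 0 < Rf W t w := hY.trans_le ((le_abs_self _).trans (Yf_le_Rf W t w))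
  have hS : 0 < Sf W t w := div_pos hY hR
  have c1 : cX κ 0 (rr κ) = 0 := by simp [cX]
  have c2 : cY κ 0 (-(2 - dd κ)) (rr κ) = 0 := by unfold cY dd; linarith
  have c3 : cY κ 0 (-(3 - dd κ)) (rr κ) = 4 := by unfold cY dd; linarith
  have c4 : cX κ 0 q = -(κ * q * (rr κ - q) / 2) := by unfold cX; ring
  have c5 : cY κ 0 (-(3 - dd κ)) q = 4 * (3 - dd κ) - κ * q / 2 := by unfold cY; ring
  have c6 : cX κ 0 0 = 0 := by simp [cX]
  have c7 : cY κ 0 (-(3 - dd κ)) 0 = 4 * (3 - dd κ) := by unfold cY; ring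
  have hp : 0 ≤ ε ^ (3 - dd κ) * Up W t w ^ (-(3 - dd κ)) / Rf W t w ^ 2 := by
    have := Up_nonneg W t w
    positivity
  have := mul_nonpos_of_nonneg_of_nonpos hp (hN _ hS (Sf_le_one W t w))
  simp only [uMon, c1, c2, c3, c4, c5, c6, c7, Real.rpow_zero]
  refine le_of_eq_of_le ?_ this
  ring

theorem uS (hF : Fnd) : UStmt := by
  intro κ μ hC
  obtain ⟨A, q, hA, hq, hB⟩ := uB_LS hF hC.pos hC.lt
  refine ⟨4 * (2 * A + 2), by linarith, fun z ε δ hε hδ => ?_⟩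
  obtain ⟨d, g, hL, hd⟩ := hB ε hε
  have hS : ∀ W t, 0 ≤ Sf W t z := fun W t => div_nonneg (hF.flow.Y_nonneg W t z) (Rf_nonneg W t z)
  have hz : ∀ W t, Up W t z ≤ ε / 2 → Up W t z / (ε / 2) ≤ 1 := fun W t h =>
    (div_le_one (half_pos hε)).2 h
  have hB0 : ∀ W t, ε / 2 < Up W t z → 0 ≤ uB κ ε A q z W t := fun W t h =>
    le_trans (Real.rpow_nonneg (div_nonneg hε.le (Up_nonneg _ _ _)) _) (uB_bd hε hA hq (hS W t) h).1
  refine ⟨_, hF.lsup κ μ hC.pos hC.wie _ _ _ (hF.ls.smul κ _ _ _ 4 (hF.ls.mul κ _ _ _ _ _ _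
    (hF.mon.cutUp κ (ε / 2) hC.pos (half_pos hε)) hL)) z (δ / 2) (half_pos hδ)
    fun W t _ hY => ?_, fun t W _ h1 h2 h3 => ?_, fun t W _ => ENNReal.ofReal_le_ofReal ?_⟩
  · rcases le_or_gt (Up W t z) (ε / 2) with h | h
    · simp [cut_zero (hz W t h), cut1_zero_left (hz W t h)]
    · have h1 := mul_nonneg (cut_nonneg (Up W t z / (ε / 2))) (hB0 W t h)
      have h2 := mul_nonpos_of_nonneg_of_nonpos (cut_nonneg (Up W t z / (ε / 2))) (hd z W t hY)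
      have h3 : 0 ≤ uB κ ε A q z W t * (cut1 (Up W t z / (ε / 2)) * (Up W t z / (ε / 2)) *
          (4 * Sf W t z ^ 2 / Rf W t z ^ 2)) :=
        mul_nonneg (hB0 W t h) (mul_nonneg (mul_nonneg (cut1_nonneg _)
          (div_nonneg (Up_nonneg _ _ _) (half_pos hε).le)) (by positivity))
      constructor <;> linarith
  · have hU : 0 < Up W t z := hε.trans_le h1
    have e1 : cy (δ / 2) z W t = 1 := cut_one (by rw [le_div_iff₀ (half_pos hδ)]; linarith)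
    have e2 : cut (Up W t z / (ε / 2)) = 1 := cut_one (by rw [le_div_iff₀ (half_pos hε)]; linarith)
    have h4 : (1 / 2 : ℝ) ≤ ε / Up W t z := by rw [le_div_iff₀ hU]; linarith
    have h5 : (1 / 2 : ℝ) ^ (2 : ℝ) ≤ (ε / Up W t z) ^ (3 - dd κ) :=
      (Real.rpow_le_rpow_of_exponent_ge (by norm_num) (by norm_num)
        (by linarith [one_lt_dd hC.pos])).trans
        (Real.rpow_le_rpow (by norm_num) h4 (by linarith [dd_lt_two hC.lt]))
    rw [Real.rpow_two] at h5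
    have h6 := (uB_bd (κ := κ) hε hA hq (hS W t) (show ε / 2 < Up W t z by linarith)).1
    simp only [e1, e2]
    exact ENNReal.one_le_ofReal.2 (by linarith)
  · have hob : 0 ≤ ob κ ε z W t := by
      have := hS W t
      have := Up_nonneg W t z
      unfold ob
      positivity
    rcases le_or_gt (Up W t z) (ε / 2) with h | h
    · rw [cut_zero (hz W t h), zero_mul, mul_zero, mul_zero]
      positivity
    · have h1 := mul_le_of_le_one_left (hB0 W t h) (cut_le_one (Up W t z / (ε / 2)))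
      have h2 := mul_nonneg (cut_nonneg (Up W t z / (ε / 2))) (hB0 W t h)
      have h3 : cy (δ / 2) z W t ≤ 1 := cut_le_one _
      have h4 := mul_le_of_le_one_left h2 h3
      have h5 := (uB_bd (κ := κ) hε hA hq (hS W t) h).2
      linarith

end Vale.Agent.P164
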