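import Vale.Agent.P164.Stm2

/-! Finiteness of the Hausdorff measure. -/

open Set MeasureTheory ProbabilityTheory Metric Filter
open scoped ENNReal NNReal

namespace Vale.Agent.P164

theorem upper_fatou (μ : Measure Pth) (G : ℕ → Pth → ℝ≥0∞) (hG : ∀ n, Measurable (G n))
    {K : ℝ≥0∞} (hK : K ≠ ⊤) (h : ∀ n, ∫⁻ W, G n W ∂μ ≤ K) :
    ∀ᵐ W ∂μ, ∃ x, x ≠ ⊤ ∧ ∃ᶠ n in atTop, G n W < x := by
  have h1 : ∫⁻ W, liminf (fun n => G n W) atTop ∂μ ≤ K :=
    (lintegral_liminf_le hG).trans (liminf_le_of_frequently_le' (Frequently.of_forall h))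
  filter_upwards [ae_lt_top (Measurable.liminf hG) (ne_top_of_le_ne_top hK h1)] with W hW
  exact ⟨liminf (fun n => G n W) atTop + 1, ENNReal.add_ne_top.2 ⟨hW.ne, ENNReal.one_ne_top⟩,
    frequently_lt_of_liminf_lt (h := ENNReal.lt_add_right hW.ne one_ne_zero)⟩

theorem upper_pt (hF : Fnd) {κ s0 ε T C c m ρ0 e b K0 : ℝ} {n : ℕ} {W : Pth} {z : ℂ} (hC : 0 < C)
    (hc : 0 < c) (hK : 0 < K0) (hρ : 0 < ρ0) (he : 0 < e) (h1 : 162 * e ≤ ρ0 / 8 ^ n)
    (h2 : ∀ k : ℕ, k < n → gauge κ ((C + 1) * (ρ0 / 8 ^ k)) ≤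
      K0 * (m ^ (2 - dd κ) * (ρ0 / 8 ^ k) ^ dd κ))
    (hm : MeasurableSet (Bd κ s0 ε T C c m ρ0 n e b W)) (hz : z ∈ Tr W b) :
    ∃ r, 0 < r ∧ r ≤ (C + 1) * ρ0 ∧ ENNReal.ofReal (gauge κ r) ≤
      (ENNReal.ofReal (K0 / c) • cm κ s0 ε 0 T W + ENNReal.ofReal (gauge κ e / (Real.pi * e ^ 2)) •
        volume.restrict (Bd κ s0 ε T C c m ρ0 n e b W)) (ball z r) := by
  have ρa : ∀ i j : ℕ, i ≤ j → ρ0 / 8 ^ j ≤ ρ0 / 8 ^ i := fun i j k =>
    div_le_div_of_nonneg_left hρ.le (by positivity) (pow_le_pow_right₀ (by norm_num) k)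
  have ρb : ∀ i : ℕ, ρ0 / 8 ^ i ≤ ρ0 := fun i => by simpa using ρa 0 i (Nat.zero_le i)
  simp only [Measure.add_apply, Measure.smul_apply, smul_eq_mul]
  by_cases h : ball z e ⊆ Bd κ s0 ε T C c m ρ0 n e b W
  · refine ⟨e, he, by nlinarith [ρb n], le_add_left (le_of_eq ?_)⟩
    rw [Measure.restrict_apply' hm, inter_eq_left.2 h, Complex.volume_ball,
      ← ENNReal.ofReal_pow he.le, ← ENNReal.ofReal_coe_nnreal, NNReal.coe_real_pi,
      ← ENNReal.ofReal_mul (by positivity), ← ENNReal.ofReal_mul' (by positivity)]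
    congr 1
    have := Real.pi_pos
    field_simp
  obtain ⟨w, w1, w2⟩ := not_subset.1 h
  rw [mem_ball, dist_eq_norm] at w1
  have a1 := (abs_le.1 ((Complex.abs_im_le_norm (w - z)).trans w1.le)).1
  rw [Complex.sub_im] at a1
  simp only [Bd, mem_ofPred_eq, not_or, not_and, not_le] at w2
  have a2 : e < w.im := by
    rcases lt_abs.1 w2.1 with k | k <;> linarith [hz.1]
  obtain ⟨t, ht, t1, z', t2, t3⟩ := hz.2 w e he w1.le a2
  have a3 : W ∈ Hit w (81 * e) 0 b := by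
    refine ⟨t, ht, ?_, (hF.flow.alive W t w ht.1).1 t1⟩
    by_contra k
    exact t2 (hF.koebe.ball W t w z' ht.1 t1 (by linarith [not_lt.1 k])).1
  have a4 := (w2.2 a3).2
  simp only [Bad, mem_ofPred_eq, not_forall, not_lt] at a4
  obtain ⟨k, hk, a4⟩ := a4
  have a5 := ρa k n hk.le
  have a6 : 0 < ρ0 / 8 ^ k := by positivity
  refine ⟨(C + 1) * (ρ0 / 8 ^ k), by positivity, by gcongr; exact ρb k, le_add_right ?_⟩
  have a7 : ball w (C * (ρ0 / 8 ^ k)) ⊆ ball z ((C + 1) * (ρ0 / 8 ^ k)) :=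
    ball_subset_ball' (by rw [dist_eq_norm]; linarith)
  refine le_trans ?_ (mul_le_mul_right (a4.trans (measure_mono a7)) _)
  rw [← ENNReal.ofReal_mul (by positivity)]
  refine ENNReal.ofReal_le_ofReal ((h2 k hk).trans_eq ?_)
  field_simp

theorem upper (hF : Fnd) (hA : ContAStmt) (hB : ContBStmt) (hM : FMStmt) (hE : FinExpStmt)
    (hN : FinNumStmt) : UpperStmt := by
  intro κ μ hx b R b0 R0
  obtain ⟨s0, T0, hM⟩ := hM κ μ hx
  obtain ⟨C, c, c', m0, C0, c0, c0', c1', m1, hE⟩ := hE κ μ hx s0 T0 hM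
  obtain ⟨A, A0, hE⟩ := hE (R + 1) (by linarith)
  obtain ⟨K0, n1, K00, hN⟩ := hN κ hx.pos hx.lt C c' m0 (C + 1) C0 c0' c1' m1 (by linarith)
  obtain ⟨Ct, hT⟩ := hB.total κ μ hx (R + 1) (by linarith)
  obtain ⟨Cv, Cv0, hV⟩ := hF.cover.vitali κ hx.pos hx.lt
  have lim : ∀ δ : ℝ, 0 < δ → ∀ᶠ n : ℕ in atTop, (C + 1) * (1 / 8 ^ n) ≤ δ := fun δ hδ => by
    have h1 := (tendsto_pow_atTop_nhds_zero_of_lt_one (r := (1 / 8 : ℝ)) (by norm_num)
      (by norm_num)).const_mul (C + 1)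
    rw [mul_zero] at h1
    simpa only [one_div_pow] using h1.eventually_le_const hδ
  obtain ⟨n2, hn2⟩ := eventually_atTop.1 ((lim 1 one_pos).and (eventually_ge_atTop n1))
  have key : ∀ n : ℕ, n2 ≤ n → ∃ G : Pth → ℝ≥0∞, Measurable G ∧
      ∫⁻ W, G W ∂μ ≤ ENNReal.ofReal (K0 / c) * ENNReal.ofReal Ct +
        ENNReal.ofReal (A * K0 / Real.pi) ∧
      ∀ W, hc (gauge κ) (10 * ((C + 1) * (1 / 8 ^ n))) (Tr W b ∩ ball 0 R) ≤
        ENNReal.ofReal Cv * G W := fun n hn => by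
    obtain ⟨m, hm, a1, a2, a3⟩ := hN n (hn2 n hn).2 _ _ rfl rfl
    have e0 : (0 : ℝ) < 1 / 8 ^ (4 * n) := by positivity
    have r0 : (0 : ℝ) < 1 / 8 ^ n := by positivity
    have a0 := (hn2 n hn).1
    generalize (1 / 8 ^ (4 * n) : ℝ) = e at *
    generalize (1 / 8 ^ n : ℝ) = ρ0 at *
    have m0' : 0 < m := by linarith
    have ε0 : 0 < c * (ρ0 / 8 ^ n) / m := by positivity
    obtain ⟨b1, b2, b3⟩ := hE m n ρ0 _ e b (b + (R + 1) ^ 2) hm r0 ε0 e0 b0 le_rfl le_rfl a1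
    have b4 := hT s0 _ (b + (R + 1) ^ 2) ε0 (by positivity)
    generalize c * (ρ0 / 8 ^ n) / m = ε at *
    generalize b + (R + 1) ^ 2 = T at *
    have b5 : Measurable fun W : Pth => cm κ s0 ε 0 T W (ball 0 (R + 1)) :=
      (hA.mball κ s0 ε 0 T (R + 1)).comp (f := fun W : Pth => (W, (0 : ℂ))) measurable_prodMk_right
    refine ⟨fun W => ENNReal.ofReal (K0 / c) * cm κ s0 ε 0 T W (ball 0 (R + 1)) +
      ENNReal.ofReal (gauge κ e / (Real.pi * e ^ 2)) *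
        volume (Bd κ s0 ε T C c m ρ0 n e b W ∩ ball 0 (R + 1)),
      (b5.const_mul _).add (b2.const_mul _), ?_, fun W => ?_⟩
    · rw [lintegral_add_left (b5.const_mul _), lintegral_const_mul _ b5, lintegral_const_mul _ b2]
      refine add_le_add (mul_le_mul_right b4 _) ((mul_le_mul_right b3 _).trans ?_)
      have g0 := (hF.gauge.isGauge κ hx.pos hx.lt).2.2.2 e e0
      have := Real.pi_pos
      rw [← ENNReal.ofReal_mul (by positivity)]
      refine ENNReal.ofReal_le_ofReal ?_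
      rw [le_div_iff₀ this]
      refine le_trans (le_of_eq ?_) (mul_le_mul_of_nonneg_left a2 A0.le)
      field_simp
    · refine (hV _ _ R _ inter_subset_right fun z hz =>
        upper_pt hF C0 c0 K00 r0 e0 a1 a3 (b1 W) hz.1).trans (mul_le_mul_right ?_ _)
      refine (measure_mono (ball_subset_ball (show R + (C + 1) * ρ0 ≤ R + 1 by linarith))).trans
        (le_of_eq ?_)
      simp only [Measure.add_apply, Measure.smul_apply, smul_eq_mul]
      rw [Measure.restrict_apply' (b1 W), inter_comm]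
  choose G g1 g2 g3 using fun n => key (n + n2) (Nat.le_add_left _ _)
  filter_upwards [upper_fatou μ G g1 (by finiteness) g2] with W ⟨x, x1, x2⟩
  refine lt_of_le_of_lt (hF.cover.of_hc _ _ (ENNReal.ofReal Cv * x) fun δ hδ => ?_)
    (ENNReal.mul_lt_top ENNReal.ofReal_lt_top x1.lt_top)
  obtain ⟨n, k1, k2⟩ := (x2.and_eventually
    ((tendsto_add_atTop_nat n2).eventually (lim (δ / 10) (by positivity)))).exists
  exact ⟨_, by linarith, (g3 n W).trans (mul_le_mul_right k1.le _)⟩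

end Vale.Agent.P164
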