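import Vale.Agent.P164.Stm2

/-! The two auxiliary one-point functionals of the tail estimate for P164. -/

open Set MeasureTheory ProbabilityTheory Metric
open scoped ENNReal NNReal

namespace Vale.Agent.P164

theorem v_S_nonneg (hF : Fnd) (W : Pth) (t : ℝ) (w : ℂ) : 0 ≤ Sf W t w :=
  div_nonneg (hF.flow.Y_nonneg W t w) (Rf_nonneg W t w)

theorem v_cyd_nonneg (hF : Fnd) {δ : ℝ} (hδ : 0 < δ) (w : ℂ) (W : Pth) (t : ℝ) :
    0 ≤ cyd δ w W t := by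
  unfold cyd
  have h1 := cut1_nonneg (Yf W t w / δ)
  have h2 := hF.flow.Y_nonneg W t w
  positivity

theorem v_M_nonneg (hF : Fnd) (κ : ℝ) (w : ℂ) (W : Pth) (t : ℝ) : 0 ≤ MM κ w W t :=
  mul_nonneg (Real.rpow_nonneg (Up_nonneg W t w) _) (Real.rpow_nonneg (v_S_nonneg hF W t w) _)

theorem v_div_bound {X R : ℝ} (h : |X| ≤ R) : |X / R ^ 2| ≤ 1 / R := by
  have hR : 0 ≤ R := (abs_nonneg X).trans h
  rcases hR.eq_or_lt with h0 | h0
  · simp [← h0]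
  · rw [abs_div, abs_of_pos (pow_pos h0 2), div_le_div_iff₀ (pow_pos h0 2) h0]
    nlinarith

/-- The functional `S ^ p`. -/
theorem v_lsS (hF : Fnd) {κ : ℝ} (h : 0 < κ) :
    LS κ (fun w W t => Sf W t w ^ pp κ)
      (fun w W t => Sf W t w ^ pp κ *
        ((-(κ * pp κ * (2 - dd κ) / 2) * (1 - Sf W t w ^ 2) - κ * pp κ / 2 * Sf W t w ^ 2) /
          Rf W t w ^ 2))
      (fun w W t => Sf W t w ^ pp κ * (pp κ * Xf W t w / Rf W t w ^ 2)) := by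
  refine hF.ls.congr κ _ _ _ _ _ _ (hF.mon.mon κ 0 0 (pp κ) h) fun w W t _ _ => ?_
  have e : Mon 0 0 (pp κ) w W t = Sf W t w ^ pp κ := by simp [Mon]
  rw [e]
  refine ⟨rfl, ?_, rfl⟩
  have e1 : cX κ 0 (pp κ) = -(κ * pp κ * (2 - dd κ) / 2) := by
    unfold cX; unfold pp; ring
  have e2 : cY κ 0 0 (pp κ) = -(κ * pp κ / 2) := by unfold cY; ring
  rw [e1, e2]; ring

/-- The functional `Υ / ℓ`. -/
theorem v_lsU (hF : Fnd) {κ : ℝ} (h : 0 < κ) (ℓ : ℝ) :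
    LS κ (fun w W t => Up W t w / ℓ)
      (fun w W t => -(Up W t w / ℓ * (4 * Sf W t w ^ 2 / Rf W t w ^ 2)))
      (fun _ _ _ => 0) := by
  refine hF.ls.congr κ _ _ _ _ _ _ (hF.ls.smul κ _ _ _ (1 / ℓ) (hF.mon.mon κ 0 1 0 h))
    fun w W t _ _ => ?_
  have e : Mon 0 1 0 w W t = Up W t w := by simp [Mon]
  have e1 : cX κ 0 0 = 0 := by unfold cX; ring
  have e2 : cY κ 0 1 0 = -4 := by unfold cY; ring
  simp only [e, e1, e2]
  refine ⟨by ring, by ring, by ring⟩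

theorem v_phi (hF : Fnd) (κ : ℝ) (h : 0 < κ) (ℓ δ : ℝ) (hℓ : 0 < ℓ) (hδ : 0 < δ) :
    ∃ v d : ℂ → Pth → ℝ → ℝ,
      Sm κ v d (fun _ _ _ => 0) ∧ ∀ w W t, 0 ≤ t → 0 ≤ v w W t ∧ v w W t ≤ 1 ∧
        d w W t ≤ -(1 / 5 * src ℓ δ w W t) := by
  have hne : ∀ x : ℝ, 1 + x ^ 2 ≠ 0 := fun x => by positivity
  have h1 : ∀ x : ℝ, HasDerivAt (fun x : ℝ => 1 - (1 + x ^ 2)⁻¹) (2 * x / (1 + x ^ 2) ^ 2) x := by
    intro x
    have a : HasDerivAt (fun x : ℝ => 1 + x ^ 2) (2 * x) x := by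
      simpa using (hasDerivAt_pow 2 x).const_add 1
    have b := (a.inv (hne x)).const_sub 1
    have e : 2 * x / (1 + x ^ 2) ^ 2 = -(-(2 * x) / (1 + x ^ 2) ^ 2) := by ring
    rw [e]; exact b
  have hc : ContDiff ℝ 1 fun x : ℝ => 2 * x / (1 + x ^ 2) ^ 2 :=
    ContDiff.div (by fun_prop) (by fun_prop) fun x => pow_ne_zero 2 (hne x)
  have h2 : ∀ x : ℝ, HasDerivAt (fun x : ℝ => 2 * x / (1 + x ^ 2) ^ 2)
      (deriv (fun x : ℝ => 2 * x / (1 + x ^ 2) ^ 2) x) x :=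
    fun x => (hc.differentiable (by simp) x).hasDerivAt
  have h3 := hF.ls.comp κ _ _ _ _ _ _ h1 h2 hc.continuous_deriv_one (v_lsU hF h ℓ) (δ / 6)
    (by positivity)
  refine ⟨fun w W t => cy (δ / 6) w W t * (1 - (1 + (Up W t w / ℓ) ^ 2)⁻¹),
    fun w W t => cy (δ / 6) w W t * -(2 * (Up W t w / ℓ) / (1 + (Up W t w / ℓ) ^ 2) ^ 2 *
      (Up W t w / ℓ * (4 * Sf W t w ^ 2 / Rf W t w ^ 2))) -
      cyd (δ / 6) w W t * (1 - (1 + (Up W t w / ℓ) ^ 2)⁻¹),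
    hF.alg.congr κ _ _ _ _ _ _ _ h3 fun w W t _ => ⟨rfl, by ring, by ring⟩, fun w W t _ => ?_⟩
  have hx : 0 ≤ Up W t w / ℓ := div_nonneg (Up_nonneg W t w) hℓ.le
  have hc0 : 0 ≤ cy (δ / 6) w W t := cut_nonneg _
  have hc1 : cy (δ / 6) w W t ≤ 1 := cut_le_one _
  have hd := v_cyd_nonneg hF (show 0 < δ / 6 by positivity) w W t
  have hi0 : 0 ≤ (1 + (Up W t w / ℓ) ^ 2)⁻¹ := by positivity
  have hi1 : (1 + (Up W t w / ℓ) ^ 2)⁻¹ ≤ 1 := inv_le_one_of_one_le₀ (by nlinarith)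
  have hp : 0 ≤ 1 - (1 + (Up W t w / ℓ) ^ 2)⁻¹ := by linarith
  have hq : 0 ≤ Sf W t w ^ 2 / Rf W t w ^ 2 := by positivity
  refine ⟨mul_nonneg hc0 hp, mul_le_one₀ hc1 hp (by linarith), ?_⟩
  have hm := mul_nonneg hd hp
  dsimp only
  unfold src
  split_ifs with hs
  · have e : cy (δ / 6) w W t = 1 := by
      apply cut_one
      rw [le_div_iff₀ (by positivity)]
      linarith [hs.2.2]
    rw [e]
    have hx1 : 1 ≤ Up W t w / ℓ := by rw [le_div_iff₀ hℓ]; linarith [hs.1]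
    have hx6 : Up W t w / ℓ ≤ 6 := by rw [div_le_iff₀ hℓ]; linarith [hs.2.1]
    generalize Up W t w / ℓ = x at *
    have hy1 : 1 ≤ x ^ 2 := by nlinarith
    have hy6 : x ^ 2 ≤ 36 := by nlinarith
    have hk : 1 / 5 ≤ 8 * x ^ 2 / (1 + x ^ 2) ^ 2 := by
      rw [le_div_iff₀ (by positivity)]
      nlinarith [mul_nonneg (sub_nonneg.2 hy1) (sub_nonneg.2 hy6)]
    have e2 : 2 * x / (1 + x ^ 2) ^ 2 * (x * (4 * Sf W t w ^ 2 / Rf W t w ^ 2)) =
        8 * x ^ 2 / (1 + x ^ 2) ^ 2 * (Sf W t w ^ 2 / Rf W t w ^ 2) := by ring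
    rw [e2]
    have := mul_le_mul_of_nonneg_right hk hq
    linarith
  · have : 0 ≤ cy (δ / 6) w W t * (2 * (Up W t w / ℓ) / (1 + (Up W t w / ℓ) ^ 2) ^ 2 *
      (Up W t w / ℓ * (4 * Sf W t w ^ 2 / Rf W t w ^ 2))) := by positivity
    linarith

/-- The source produced by the cutoff in `Υ / ℓ`. -/
theorem v_src (hF : Fnd) {κ : ℝ} (h : 0 < κ) (h8 : κ < 8) {K : ℝ} (hK : ∀ x, cut1 x ≤ K)
    {ℓ δ : ℝ} (ε : ℝ) (hℓ : 0 < ℓ) (hδ : 0 < δ) (w : ℂ) (W : Pth) (t : ℝ) :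
    cy δ w W t * ((ℓ ^ (2 - dd κ) * (cut (Up W t w / ε) * MM κ w W t) + Sf W t w ^ pp κ) *
      (cut1 (Up W t w / ℓ) * (Up W t w / ℓ) * (4 * Sf W t w ^ 2 / Rf W t w ^ 2))) ≤
      16 * K * src ℓ δ w W t := by
  have hK0 : 0 ≤ K := (cut1_nonneg 0).trans (hK 0)
  have hq : 0 ≤ Sf W t w ^ 2 / Rf W t w ^ 2 := by positivity
  have hsrc : 0 ≤ src ℓ δ w W t := by
    unfold src; split_ifs
    · exact hq
    · exact le_rfl
  have hz : 0 ≤ 16 * K * src ℓ δ w W t := by positivity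
  rcases le_or_gt (Yf W t w / δ) 1 with hy | hy
  · have : cy δ w W t = 0 := cut_zero hy
    rw [this, zero_mul]; exact hz
  rcases le_or_gt (Up W t w / ℓ) 1 with h1 | h1
  · rw [cut1_zero_left h1]; simpa using hz
  rcases le_or_gt 2 (Up W t w / ℓ) with h2 | h2
  · rw [cut1_zero_right h2]; simpa using hz
  have hy' : δ < Yf W t w := by rwa [one_lt_div hδ] at hy
  have h1' : ℓ < Up W t w := by rwa [one_lt_div hℓ] at h1
  have h2' : Up W t w < 2 * ℓ := by rwa [div_lt_iff₀ hℓ] at h2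
  have e : src ℓ δ w W t = Sf W t w ^ 2 / Rf W t w ^ 2 := by
    unfold src
    rw [if_pos ⟨h1'.le, by linarith, by linarith⟩]
  rw [e]
  have hS0 := v_S_nonneg hF W t w
  have hS1 := Sf_le_one W t w
  have hp1 : Sf W t w ^ pp κ ≤ 1 := Real.rpow_le_one hS0 hS1 (pp_pos h h8).le
  have hp0 : 0 ≤ Sf W t w ^ pp κ := Real.rpow_nonneg hS0 _
  have hr1 : Sf W t w ^ rr κ ≤ 1 := Real.rpow_le_one hS0 hS1 (rr_pos h h8).le
  have hM0 := v_M_nonneg hF κ w W t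
  have hl0 : 0 ≤ ℓ ^ (2 - dd κ) := Real.rpow_nonneg hℓ.le _
  have hM1 : ℓ ^ (2 - dd κ) * MM κ w W t ≤ 1 := by
    have a : Up W t w ^ (dd κ - 2) ≤ ℓ ^ (dd κ - 2) :=
      Real.rpow_le_rpow_of_nonpos hℓ h1'.le (by linarith [dd_lt_two h8])
    have b : ℓ ^ (2 - dd κ) * ℓ ^ (dd κ - 2) = 1 := by
      rw [← Real.rpow_add hℓ]; simp
    have c : MM κ w W t ≤ ℓ ^ (dd κ - 2) := by
      unfold MM
      exact (mul_le_of_le_one_right (Real.rpow_nonneg (Up_nonneg W t w) _) hr1).trans a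
    rw [← b]
    exact mul_le_mul_of_nonneg_left c hl0
  have hc0 := cut_nonneg (Up W t w / ε)
  have hc1 := cut_le_one (Up W t w / ε)
  have hB0 : 0 ≤ ℓ ^ (2 - dd κ) * (cut (Up W t w / ε) * MM κ w W t) + Sf W t w ^ pp κ := by
    positivity
  have hB2 : ℓ ^ (2 - dd κ) * (cut (Up W t w / ε) * MM κ w W t) + Sf W t w ^ pp κ ≤ 2 := by
    have : ℓ ^ (2 - dd κ) * (cut (Up W t w / ε) * MM κ w W t) ≤ ℓ ^ (2 - dd κ) * MM κ w W t :=
      mul_le_mul_of_nonneg_left (mul_le_of_le_one_left hM0 hc1) hl0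
    linarith
  have hD0 : 0 ≤ cut1 (Up W t w / ℓ) * (Up W t w / ℓ) * (4 * Sf W t w ^ 2 / Rf W t w ^ 2) := by
    have := cut1_nonneg (Up W t w / ℓ)
    have : 0 ≤ Up W t w / ℓ := by linarith
    positivity
  have hD : cut1 (Up W t w / ℓ) * (Up W t w / ℓ) * (4 * Sf W t w ^ 2 / Rf W t w ^ 2) ≤
      8 * K * (Sf W t w ^ 2 / Rf W t w ^ 2) := by
    have a : cut1 (Up W t w / ℓ) * (Up W t w / ℓ) ≤ K * 2 :=
      mul_le_mul (hK _) h2.le (by linarith) hK0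
    have e2 : 4 * Sf W t w ^ 2 / Rf W t w ^ 2 = 4 * (Sf W t w ^ 2 / Rf W t w ^ 2) := by ring
    rw [e2]
    have := mul_le_mul_of_nonneg_right a (show 0 ≤ 4 * (Sf W t w ^ 2 / Rf W t w ^ 2) by positivity)
    linarith
  have hcy : cy δ w W t ≤ 1 := cut_le_one _
  refine (mul_le_of_le_one_left (mul_nonneg hB0 hD0) hcy).trans ?_
  have := mul_le_mul hB2 hD hD0 (by norm_num)
  linarith

theorem v_main (hF : Fnd) (κ : ℝ) (h : 0 < κ) (h8 : κ < 8) :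
    ∃ C c : ℝ, 0 < C ∧ 0 < c ∧ ∀ ℓ δ ε, 0 < ℓ → 0 < δ → 0 < ε →
      ∃ v d g, Sm κ v d g ∧ ∀ w W t, 0 ≤ t → 0 ≤ v w W t ∧ v w W t ≤ vv κ ℓ δ w W t ∧
        |g w W t| ≤ C * (vv κ ℓ δ w W t / Rf W t w) ∧
        d w W t + aa ℓ δ w W t * (ℓ ^ (2 - dd κ) * crf κ ε w W t) +
          c * (aa ℓ δ w W t * Sf W t w ^ pp κ / Rf W t w ^ 2) ≤ C * src ℓ δ w W t := by
  obtain ⟨K, hK1, hK, -⟩ := cut_bounds
  have hp := pp_pos h h8
  have hr := rr_pos h h8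
  have hd2 : 0 < 2 - dd κ := by linarith [dd_lt_two h8]
  have hd1 : 2 - dd κ < 1 := by linarith [one_lt_dd h]
  refine ⟨16 * K + rr κ + pp κ, κ * pp κ * (2 - dd κ) / 2, by positivity, by positivity,
    fun ℓ δ ε hℓ hδ hε => ?_⟩
  have hA := hF.ls.add κ _ _ _ _ _ _ (hF.ls.const κ 1)
    (hF.ls.smul κ _ _ _ (-1) (hF.mon.cutUp κ ℓ h hℓ))
  have hB := hF.ls.add κ _ _ _ _ _ _
    (hF.ls.smul κ _ _ _ (ℓ ^ (2 - dd κ)) (hF.mon.cutM κ ε h hε)) (v_lsS hF h)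
  have hP := hF.ls.mul κ _ _ _ _ _ _ hA hB δ hδ
  refine ⟨_, _, _, hP, fun w W t _ => ?_⟩
  have hs := v_src hF h h8 hK ε hℓ hδ w W t
  have hS0 := v_S_nonneg hF W t w
  have hS1 := Sf_le_one W t w
  have hp0 : 0 ≤ Sf W t w ^ pp κ := Real.rpow_nonneg hS0 _
  have hM0 := v_M_nonneg hF κ w W t
  have hl0 : 0 ≤ ℓ ^ (2 - dd κ) := Real.rpow_nonneg hℓ.le _
  have hc0 := cut_nonneg (Up W t w / ε)
  have hc1 := cut_le_one (Up W t w / ε)
  have ha0 : 0 ≤ 1 - cut (Up W t w / ℓ) := by linarith [cut_le_one (Up W t w / ℓ)]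
  have hy0 : 0 ≤ cy δ w W t := cut_nonneg _
  have hyd := v_cyd_nonneg hF hδ w W t
  have hX := v_div_bound (Xf_le_Rf W t w)
  have hR := Rf_nonneg W t w
  have hsrc : 0 ≤ src ℓ δ w W t := by
    unfold src; split_ifs
    · positivity
    · exact le_rfl
  have hcM : ℓ ^ (2 - dd κ) * (cut (Up W t w / ε) * MM κ w W t) ≤ ℓ ^ (2 - dd κ) * MM κ w W t :=
    mul_le_mul_of_nonneg_left (mul_le_of_le_one_left hM0 hc1) hl0
  have hcM0 : 0 ≤ ℓ ^ (2 - dd κ) * (cut (Up W t w / ε) * MM κ w W t) := by positivity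
  unfold vv aa
  dsimp only
  generalize Sf W t w ^ pp κ = P at *
  generalize ℓ ^ (2 - dd κ) = L at *
  generalize cy δ w W t = y at *
  have ea : 1 + -1 * cut (Up W t w / ℓ) = 1 - cut (Up W t w / ℓ) := by ring
  rw [ea]
  generalize 1 - cut (Up W t w / ℓ) = a at *
  have hya : 0 ≤ y * a := mul_nonneg hy0 ha0
  refine ⟨by positivity, ?_, ?_, ?_⟩
  · rw [← mul_assoc]
    exact mul_le_mul_of_nonneg_left (by linarith) hya
  · have e : y * (a * (L * (cut (Up W t w / ε) * MM κ w W t * (rr κ * Xf W t w / Rf W t w ^ 2)) +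
        P * (pp κ * Xf W t w / Rf W t w ^ 2)) +
        (L * (cut (Up W t w / ε) * MM κ w W t) + P) * (0 + -1 * 0)) =
        y * a * (rr κ * (L * (cut (Up W t w / ε) * MM κ w W t)) + pp κ * P) *
          (Xf W t w / Rf W t w ^ 2) := by ring
    rw [e, abs_mul, abs_of_nonneg (by positivity)]
    have b : rr κ * (L * (cut (Up W t w / ε) * MM κ w W t)) + pp κ * P ≤
        (16 * K + rr κ + pp κ) * (L * MM κ w W t + P) := by
      have b1 : rr κ * (L * (cut (Up W t w / ε) * MM κ w W t)) ≤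
          (16 * K + rr κ + pp κ) * (L * MM κ w W t) :=
        mul_le_mul (by linarith) hcM hcM0 (by positivity)
      have b2 : pp κ * P ≤ (16 * K + rr κ + pp κ) * P :=
        mul_le_mul_of_nonneg_right (by linarith) hp0
      linarith
    have c := mul_le_mul (mul_le_mul_of_nonneg_left b hya) hX (abs_nonneg _) (by positivity)
    refine c.trans (le_of_eq ?_)
    ring
  · have hq : 0 ≤ 1 / Rf W t w ^ 2 := by positivity
    have b1 : 0 ≤ cyd δ w W t * (a * (L * (cut (Up W t w / ε) * MM κ w W t) + P)) := by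
      positivity
    have b2 : 0 ≤ y * a * P * (κ * pp κ / 2 * (1 - (2 - dd κ)) * Sf W t w ^ 2) *
        (1 / Rf W t w ^ 2) := by
      have : 0 ≤ 1 - (2 - dd κ) := by linarith
      positivity
    have b3 : 0 ≤ (rr κ + pp κ) * src ℓ δ w W t := by positivity
    have e : y * (a * (L * -crf κ ε w W t + P *
          ((-(κ * pp κ * (2 - dd κ) / 2) * (1 - Sf W t w ^ 2) - κ * pp κ / 2 * Sf W t w ^ 2) /
            Rf W t w ^ 2)) +
          (L * (cut (Up W t w / ε) * MM κ w W t) + P) *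
            (0 + -1 * -(cut1 (Up W t w / ℓ) * (Up W t w / ℓ) *
              (4 * Sf W t w ^ 2 / Rf W t w ^ 2))) +
          κ * ((0 + -1 * 0) *
            (L * (cut (Up W t w / ε) * MM κ w W t * (rr κ * Xf W t w / Rf W t w ^ 2)) +
              P * (pp κ * Xf W t w / Rf W t w ^ 2)))) -
        cyd δ w W t * (a * (L * (cut (Up W t w / ε) * MM κ w W t) + P)) +
        y * a * (L * crf κ ε w W t) + κ * pp κ * (2 - dd κ) / 2 * (y * a * P / Rf W t w ^ 2) =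
        y * ((L * (cut (Up W t w / ε) * MM κ w W t) + P) *
          (cut1 (Up W t w / ℓ) * (Up W t w / ℓ) * (4 * Sf W t w ^ 2 / Rf W t w ^ 2))) -
        cyd δ w W t * (a * (L * (cut (Up W t w / ε) * MM κ w W t) + P)) -
        y * a * P * (κ * pp κ / 2 * (1 - (2 - dd κ)) * Sf W t w ^ 2) * (1 / Rf W t w ^ 2) := by
      ring
    rw [e]
    linarith

theorem vS (hF : Fnd) : VStmt := ⟨v_main hF, v_phi hF⟩

end Vale.Agent.P164
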