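import Vale.Agent.P164.Stm2

open Set MeasureTheory ProbabilityTheory Metric
open scoped ENNReal NNReal

namespace Vale.Agent.P164

theorem win_a {η : ℝ} (h0 : 0 < η) : (1 - 8 * η) * (1 + 7 / 2 * η) ≤ 1 - η / 2 := by nlinarith

theorem win_b {η Y : ℝ} (h0 : 0 < η) (h1 : η ≤ 1 / 8) :
    ((1 - η / 2) * Y) ^ 2 ≤ Y ^ 2 - 4 * (η * Y) ^ 2 := by
  have : (1 - η / 2) ^ 2 ≤ 1 - 4 * η ^ 2 := by nlinarith
  nlinarith [sq_nonneg Y]

set_option maxHeartbeats 800000 in
theorem win (hF : Fnd) : WinStmt := by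
  intro κ h0 h8 s1 hs1
  have hr := rr_pos h0 h8
  set θ : ℝ := (1 / 2 : ℝ) ^ (1 / rr κ) with hθ
  have hθ0 : 0 < θ := Real.rpow_pos_of_pos (by norm_num) _
  have hθ1 : θ < 1 := Real.rpow_lt_one (by norm_num) (by norm_num) (by positivity)
  have hθr : θ ^ rr κ = 1 / 2 := by
    rw [hθ, ← Real.rpow_mul (by norm_num), one_div_mul_cancel hr.ne', Real.rpow_one]
  set η : ℝ := (1 - θ) / 8 with hη
  have hη0 : 0 < η := by rw [hη]; linarith
  have hη1 : η ≤ 1 / 8 := by rw [hη]; linarith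
  refine ⟨η * s1, by positivity, by nlinarith, ?_⟩
  intro W w s t hs hst hS ht hW
  have hS0 : 0 < Sf W s w := hs1.trans_le hS
  have hY0 := hF.flow.Y_nonneg W s w
  have hR0 := Rf_nonneg W s w
  have hR : 0 < Rf W s w := by
    rcases hR0.eq_or_lt with h | h
    · unfold Sf at hS0; rw [← h, div_zero] at hS0; exact absurd hS0 (lt_irrefl _)
    · exact h
  have hSY : Yf W s w = Sf W s w * Rf W s w := by unfold Sf; field_simp
  have hY : 0 < Yf W s w := by rw [hSY]; positivity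
  have hYR : Yf W s w ≤ Rf W s w := (le_abs_self _).trans (Yf_le_Rf W s w)
  set Y := Yf W s w
  set R := Rf W s w
  have ha : η * s1 * R ≤ η * Y := by
    rw [hSY, mul_assoc]
    exact mul_le_mul_of_nonneg_left (mul_le_mul_of_nonneg_right hS hR.le) hη0.le
  have ha0 : 0 ≤ η * s1 * R := by positivity
  have hts : t - s ≤ (η * Y) ^ 2 := ht.trans (pow_le_pow_left₀ ha0 ha 2)
  have hsq := hF.flow.Y_sq W w s t hs hst
  have hYt0 := hF.flow.Y_nonneg W t w
  have hYt : (1 - η / 2) * Y ≤ Yf W t w := by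
    refine (abs_le_of_sq_le_sq' ?_ hYt0).2
    have h1 := win_b (Y := Y) hη0 hη1
    linarith
  have hYh : Y / 2 ≤ Yf W t w := by nlinarith
  have hYtp : 0 < Yf W t w := by linarith
  have ht0 : 0 ≤ t := hs.trans hst
  have hal : w ∈ dom W t := (hF.flow.alive W t w ht0).2 hYtp
  have hU := hF.flow.Up_ge W w s t hs hst hal
  have hUs := Up_nonneg W s w
  have hUt := Up_pos ht0 hal
  have he : 4 * (t - s) / Yf W t w ^ 2 ≤ 1 / 4 := by
    rw [div_le_iff₀ (by positivity)]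
    have h1 : (Y / 2) ^ 2 ≤ Yf W t w ^ 2 := pow_le_pow_left₀ (by positivity) hYh 2
    have h2 : (η * Y) ^ 2 ≤ (1 / 8 * Y) ^ 2 :=
      pow_le_pow_left₀ (by positivity) (mul_le_mul_of_nonneg_right hη1 hY.le) 2
    nlinarith
  have hexp : 1 / 2 ≤ Real.exp (-(4 * (t - s) / Yf W t w ^ 2)) := by
    have := Real.add_one_le_exp (-(4 * (t - s) / Yf W t w ^ 2))
    linarith
  refine ⟨hYh, by nlinarith, ?_⟩
  have hmv := hF.flow.move W w s t hs hst hal
  have hm2 : 2 * (t - s) / Yf W t w ≤ η * Y / 2 := by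
    rw [div_le_iff₀ hYtp]
    have h2 : (η * Y) ^ 2 ≤ η * Y * (1 / 8 * Y) := by
      rw [sq]
      exact mul_le_mul_of_nonneg_left (mul_le_mul_of_nonneg_right hη1 hY.le) (by positivity)
    have h3 : η * Y / 2 * (Y / 2) ≤ η * Y / 2 * Yf W t w :=
      mul_le_mul_of_nonneg_left hYh (by positivity)
    nlinarith
  have hWt : |W t - W s| ≤ 3 * (η * s1 * R) := hW t ⟨hst, le_rfl⟩
  have hRt : Rf W t w ≤ (1 + 7 / 2 * η) * R := by
    have e : Zf W t w = Zf W s w + (Zf W t w + (W t : ℂ) - (Zf W s w + (W s : ℂ))) -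
        ((W t - W s : ℝ) : ℂ) := by push_cast; ring
    have h1 : Rf W t w ≤ R + ‖Zf W t w + (W t : ℂ) - (Zf W s w + (W s : ℂ))‖ + |W t - W s| := by
      unfold Rf
      conv_lhs => rw [e]
      refine (norm_sub_le _ _).trans (add_le_add (norm_add_le _ _) ?_)
      rw [Complex.norm_real, Real.norm_eq_abs]
    have h2 : η * Y ≤ η * R := mul_le_mul_of_nonneg_left hYR hη0.le
    nlinarith
  have hRtp : 0 < Rf W t w := hYtp.trans_le ((le_abs_self _).trans (Yf_le_Rf W t w))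
  have hSt : θ * Sf W s w ≤ Sf W t w := by
    have hθη : θ = 1 - 8 * η := by rw [hη]; ring
    have : Sf W t w = Yf W t w / Rf W t w := rfl
    rw [this, le_div_iff₀ hRtp]
    have h1 : θ * Sf W s w * Rf W t w ≤ θ * Sf W s w * ((1 + 7 / 2 * η) * R) :=
      mul_le_mul_of_nonneg_left hRt (by positivity)
    have h2 : θ * Sf W s w * ((1 + 7 / 2 * η) * R) = θ * (1 + 7 / 2 * η) * Y := by
      rw [hSY]; ring
    have h3 : θ * (1 + 7 / 2 * η) ≤ 1 - η / 2 := by rw [hθη]; exact win_a hη0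
    have h4 := mul_le_mul_of_nonneg_right h3 hY.le
    linarith
  have h1 : Sf W s w ^ rr κ / 2 ≤ Sf W t w ^ rr κ := by
    have := Real.rpow_le_rpow (by positivity) hSt hr.le
    rw [Real.mul_rpow hθ0.le hS0.le, hθr] at this
    linarith
  have h2 : Up W s w ^ (dd κ - 2) ≤ Up W t w ^ (dd κ - 2) :=
    Real.rpow_le_rpow_of_nonpos hUt (hF.flow.Up_anti W w hst) (by linarith [dd_lt_two h8])
  unfold MM
  have h3 : 0 ≤ Sf W s w ^ rr κ / 2 := by positivity
  calc Up W s w ^ (dd κ - 2) * Sf W s w ^ rr κ / 2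
      = Up W s w ^ (dd κ - 2) * (Sf W s w ^ rr κ / 2) := by ring
    _ ≤ _ := mul_le_mul h2 h1 h3 (by positivity)

end Vale.Agent.P164
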